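import Mathlib

/-! P265: Alexander-Spanier cohomology of pairs of subsets of a metric space, coefficients `ZMod 3`.
A cochain is a function on lists of points; degree `j` looks at lists of length `j + 1`. -/

open Set

noncomputable section

namespace Vale.Agent.P265

abbrev F3 : Type := ZMod 3

abbrev Co (X : Type) : Type := List X → F3

section Alg

variable {X Y : Type}

/-- Freeze the first point. -/
def fr (a : X) : Co X →ₗ[F3] Co X := LinearMap.funLeft F3 F3 (List.cons a)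

/-- Pull back along any map. -/
def pb (f : X → Y) : Co Y →ₗ[F3] Co X := LinearMap.funLeft F3 F3 (List.map f)

@[simp] theorem fr_apply (a : X) (φ : Co X) (l : List X) : fr a φ l = φ (a :: l) := rfl

@[simp] theorem pb_apply (f : X → Y) (φ : Co Y) (l : List X) : pb f φ l = φ (l.map f) := rfl

def dAt : List X → Co X →ₗ[F3] F3
  | [] => 0
  | a :: l => LinearMap.proj l - dAt l ∘ₗ fr a

/-- The coboundary. -/
def dd : Co X →ₗ[F3] Co X := LinearMap.pi dAt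

@[simp] theorem dd_nil (φ : Co X) : dd φ [] = 0 := rfl

theorem dd_cons (φ : Co X) (a : X) (l : List X) : dd φ (a :: l) = φ l - dd (fr a φ) l := rfl

theorem fr_dd (φ : Co X) (a : X) : fr a (dd φ) = φ - dd (fr a φ) := rfl

theorem dd_dd (φ : Co X) : dd (dd φ) = 0 := by
  funext l
  induction l generalizing φ with
  | nil => rfl
  | cons a l ih => rw [dd_cons, fr_dd, map_sub, Pi.sub_apply, ih]; simp

theorem pb_dd (f : X → Y) (φ : Co Y) : pb f (dd φ) = dd (pb f φ) := by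
  funext l
  induction l generalizing φ with
  | nil => rfl
  | cons a l ih =>
    rw [dd_cons, pb_apply, List.map_cons, dd_cons, ← pb_apply f (dd _), ih]
    rfl

theorem pb_pb {Z : Type} (f : X → Y) (g : Y → Z) (φ : Co Z) : pb f (pb g φ) = pb (g ∘ f) φ := by
  funext l
  simp

theorem dd_local {S : Set X} {n : ℕ} {φ : Co X}
    (h : ∀ l : List X, l.length = n → (∀ x ∈ l, x ∈ S) → φ l = 0) {l : List X}
    (hl : l.length = n + 1) (hS : ∀ x ∈ l, x ∈ S) : dd φ l = 0 := by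
  induction l generalizing φ n with
  | nil => rfl
  | cons a l ih =>
    have h1 : ∀ x ∈ l, x ∈ S := fun x hx => hS x (List.mem_cons_of_mem _ hx)
    rw [dd_cons, h l (by simpa using hl) h1]
    cases n with
    | zero =>
      obtain rfl : l = [] := by simpa using hl
      simp
    | succ n =>
      rw [ih (n := n) (φ := fr a φ) (fun m hm hmS => h (a :: m) (by simp [hm]) fun x hx => ?_)
        (by simpa using hl) h1, sub_zero]
      rcases List.mem_cons.1 hx with rfl | hx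
      exacts [hS _ List.mem_cons_self, hmS x hx]

def prAt (f g : X → Y) : List X → Co Y →ₗ[F3] F3
  | [] => 0
  | a :: l => LinearMap.proj (f a :: g a :: l.map g) - prAt f g l ∘ₗ fr (f a)

/-- The prism operator between two maps. -/
def prism (f g : X → Y) : Co Y →ₗ[F3] Co X := LinearMap.pi (prAt f g)

theorem prism_cons (f g : X → Y) (φ : Co Y) (a : X) (l : List X) :
    prism f g φ (a :: l) = φ (f a :: g a :: l.map g) - prism f g (fr (f a) φ) l := rfl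

theorem prism_eq (f g : X → Y) (φ : Co Y) :
    dd (prism f g φ) + prism f g (dd φ) = pb g φ - pb f φ := by
  funext l
  induction l generalizing φ with
  | nil => simp [prism, prAt]
  | cons a l ih =>
    have e : fr a (prism f g φ) = pb g (fr (g a) (fr (f a) φ)) - prism f g (fr (f a) φ) := rfl
    have := ih (fr (f a) φ)
    rw [Pi.add_apply, dd_cons, prism_cons, e, map_sub, fr_dd, map_sub, dd_cons, dd_cons, ← pb_dd]
    simp only [Pi.add_apply, Pi.sub_apply, pb_apply, fr_apply, List.map_cons] at this ⊢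
    linear_combination this

theorem prism_local (f g : X → Y) {S : Set Y} {n : ℕ} {φ : Co Y}
    (h : ∀ l : List Y, l.length = n + 1 → (∀ x ∈ l, x ∈ S) → φ l = 0) {l : List X}
    (hl : l.length = n) (hS : ∀ x ∈ l, f x ∈ S ∧ g x ∈ S) : prism f g φ l = 0 := by
  induction l generalizing φ n with
  | nil => rfl
  | cons a l ih =>
    have h1 : ∀ x ∈ l, f x ∈ S ∧ g x ∈ S := fun x hx => hS x (List.mem_cons_of_mem _ hx)
    have ha := hS a List.mem_cons_self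
    subst hl
    rw [prism_cons, h _ (by simp), ih (n := l.length) (φ := fr (f a) φ)
      (fun m hm hmS => h (f a :: m) (by simp [hm]) fun x hx => ?_) rfl h1, sub_zero]
    · rcases List.mem_cons.1 hx with rfl | hx
      exacts [ha.1, hmS x hx]
    · simp only [List.mem_cons, List.mem_map]
      rintro x (rfl | rfl | ⟨y, hy, rfl⟩)
      exacts [ha.1, ha.2, (h1 y hy).2]

end Alg

variable {X Y Z : Type} [MetricSpace X] [MetricSpace Y] [MetricSpace Z]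

/-- All points of the list lie in `A` and are at mutual distance less than `ε`. -/
def Small (A : Set X) (ε : ℝ) (l : List X) : Prop :=
  (∀ x ∈ l, x ∈ A) ∧ ∀ x ∈ l, ∀ y ∈ l, dist x y < ε

theorem Small.mono {A B : Set X} {ε δ : ℝ} {l : List X} (h : Small A ε l) (hA : A ⊆ B)
    (hε : ε ≤ δ) : Small B δ l :=
  ⟨fun x hx => hA (h.1 x hx), fun x hx y hy => (h.2 x hx y hy).trans_le hε⟩

theorem Small.sub {A : Set X} {ε : ℝ} {l m : List X} (h : Small A ε l) (hm : ∀ x ∈ m, x ∈ l) :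
    Small A ε m :=
  ⟨fun x hx => h.1 x (hm x hx), fun x hx y hy => h.2 x (hm x hx) y (hm y hy)⟩

/-- Cochains vanishing on the small lists of length `n` in `A`. -/
def Van (A : Set X) (n : ℕ) : Submodule F3 (Co X) where
  carrier := {φ | ∃ ε > 0, ∀ l : List X, l.length = n → Small A ε l → φ l = 0}
  zero_mem' := ⟨1, one_pos, fun _ _ _ => rfl⟩
  add_mem' := by
    rintro φ ψ ⟨ε, hε, h⟩ ⟨δ, hδ, h'⟩
    refine ⟨min ε δ, lt_min hε hδ, fun l hl hs => ?_⟩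
    rw [Pi.add_apply, h l hl (hs.mono subset_rfl (min_le_left _ _)),
      h' l hl (hs.mono subset_rfl (min_le_right _ _)), add_zero]
  smul_mem' := by
    rintro c φ ⟨ε, hε, h⟩
    exact ⟨ε, hε, fun l hl hs => by rw [Pi.smul_apply, h l hl hs, smul_zero]⟩

theorem mem_Van {A : Set X} {n : ℕ} {φ : Co X} :
    φ ∈ Van A n ↔ ∃ ε > 0, ∀ l : List X, l.length = n → Small A ε l → φ l = 0 := Iff.rfl

theorem Van_anti {A B : Set X} (h : A ⊆ B) (n : ℕ) : Van B n ≤ Van A n :=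
  fun _ ⟨ε, hε, h'⟩ => ⟨ε, hε, fun l hl hs => h' l hl (hs.mono h le_rfl)⟩

theorem dd_mem_Van {A : Set X} {n : ℕ} {φ : Co X} (h : φ ∈ Van A n) : dd φ ∈ Van A (n + 1) := by
  obtain ⟨ε, hε, h⟩ := h
  exact ⟨ε, hε, fun l hl hs => dd_local (S := {x | x ∈ l})
    (fun m hm hmS => h m hm (hs.sub hmS)) hl fun _ hx => hx⟩

theorem Van_zero (A B : Set X) : Van A 0 = Van B 0 := by
  have : ∀ A B : Set X, Van A 0 ≤ Van B 0 := fun A B φ ⟨ε, hε, h⟩ => ⟨ε, hε, fun l hl _ => by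
    obtain rfl := List.length_eq_zero_iff.1 hl
    exact h [] rfl ⟨by simp, by simp⟩⟩
  exact le_antisymm (this A B) (this B A)

theorem mem_Van_empty (n : ℕ) (φ : Co X) : φ ∈ Van (∅ : Set X) (n + 1) :=
  ⟨1, one_pos, fun l hl hs => by
    cases l with
    | nil => simp at hl
    | cons a l => exact (hs.1 a List.mem_cons_self).elim⟩

theorem pb_mem_Van {f : X → Y} {A : Set X} {A' : Set Y} (hf : UniformContinuousOn f A)
    (hm : MapsTo f A A') {n : ℕ} {φ : Co Y} (h : φ ∈ Van A' n) : pb f φ ∈ Van A n := by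
  obtain ⟨ε, hε, h⟩ := h
  obtain ⟨δ, hδ, h'⟩ := Metric.uniformContinuousOn_iff.1 hf ε hε
  refine ⟨δ, hδ, fun l hl hs => h _ (by simpa using hl) ⟨?_, ?_⟩⟩
  · simp only [List.mem_map]
    rintro _ ⟨x, hx, rfl⟩
    exact hm (hs.1 x hx)
  · simp only [List.mem_map]
    rintro _ ⟨x, hx, rfl⟩ _ ⟨y, hy, rfl⟩
    exact h' x (hs.1 x hx) y (hs.1 y hy) (hs.2 x hx y hy)

/-- Cocycles of degree `j` of the pair `(A, B)`. -/
def Zc (A B : Set X) (j : ℕ) : Submodule F3 (Co X) := Van B (j + 1) ⊓ (Van A (j + 2)).comap dd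

/-- Coboundaries of degree `j` of the pair `(A, B)`. -/
def Bc (A B : Set X) (j : ℕ) : Submodule F3 (Co X) := Van A (j + 1) ⊔ (Van B j).map dd

theorem mem_Zc {A B : Set X} {j : ℕ} {φ : Co X} :
    φ ∈ Zc A B j ↔ φ ∈ Van B (j + 1) ∧ dd φ ∈ Van A (j + 2) := Iff.rfl

theorem mem_Bc {A B : Set X} {j : ℕ} {φ : Co X} :
    φ ∈ Bc A B j ↔ ∃ χ ∈ Van B j, φ - dd χ ∈ Van A (j + 1) := by
  rw [Bc, Submodule.mem_sup]
  constructor
  · rintro ⟨ν, hν, _, ⟨χ, hχ, rfl⟩, rfl⟩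
    exact ⟨χ, hχ, by simpa using hν⟩
  · rintro ⟨χ, hχ, h⟩
    exact ⟨_, h, _, ⟨χ, hχ, rfl⟩, by simp⟩

/-- The cohomology of the pair `(A, B)` in degree `j`. -/
abbrev Hc (A B : Set X) (j : ℕ) : Type := Zc A B j ⧸ (Bc A B j).submoduleOf (Zc A B j)

/-- The class of a cocycle. -/
def cl {A B : Set X} {j : ℕ} (φ : Co X) (h : φ ∈ Zc A B j) : Hc A B j :=
  Submodule.Quotient.mk ⟨φ, h⟩

theorem cl_surj {A B : Set X} {j : ℕ} (x : Hc A B j) : ∃ φ h, cl φ h = x := by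
  obtain ⟨⟨φ, h⟩, rfl⟩ := Submodule.Quotient.mk_surjective _ x
  exact ⟨φ, h, rfl⟩

theorem cl_eq {A B : Set X} {j : ℕ} {φ ψ : Co X} {h : φ ∈ Zc A B j} {h' : ψ ∈ Zc A B j} :
    cl φ h = cl ψ h' ↔ φ - ψ ∈ Bc A B j :=
  Submodule.Quotient.eq _

theorem cl_eq_zero {A B : Set X} {j : ℕ} {φ : Co X} {h : φ ∈ Zc A B j} :
    cl φ h = 0 ↔ φ ∈ Bc A B j :=
  Submodule.Quotient.mk_eq_zero _

theorem cl_add {A B : Set X} {j : ℕ} {φ ψ : Co X} (h : φ ∈ Zc A B j) (h' : ψ ∈ Zc A B j) :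
    cl φ h + cl ψ h' = cl (φ + ψ) (add_mem h h') := rfl

theorem cl_smul {A B : Set X} {j : ℕ} {φ : Co X} (c : F3) (h : φ ∈ Zc A B j) :
    c • cl φ h = cl (c • φ) (Submodule.smul_mem _ c h) := rfl

/-- The map in cohomology induced by a linear map of cochains. -/
def Hmap {A B : Set X} {A' B' : Set Y} {j j' : ℕ} (T : Co Y →ₗ[F3] Co X)
    (hZ : ∀ φ ∈ Zc A' B' j', T φ ∈ Zc A B j)
    (hB : ∀ φ ∈ Zc A' B' j', φ ∈ Bc A' B' j' → T φ ∈ Bc A B j) : Hc A' B' j' →ₗ[F3] Hc A B j :=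
  Submodule.mapQ _ _ (T.restrict hZ) fun φ h => hB φ.1 φ.2 h

theorem Hmap_cl {A B : Set X} {A' B' : Set Y} {j j' : ℕ} (T : Co Y →ₗ[F3] Co X) (hZ) (hB)
    (φ : Co Y) (h : φ ∈ Zc A' B' j') :
    (Hmap T hZ hB : Hc A' B' j' →ₗ[F3] Hc A B j) (cl φ h) = cl (T φ) (hZ φ h) := rfl

/-- Admissible maps of pairs. -/
structure Adm (f : X → Y) (A B : Set X) (A' B' : Set Y) : Prop where
  uc : UniformContinuousOn f A
  mA : MapsTo f A A'
  mB : MapsTo f B B'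
  sub : B ⊆ A

theorem Adm.of_compact {f : X → Y} {A B : Set X} {A' B' : Set Y} (hA : IsCompact A)
    (hf : ContinuousOn f A) (mA : MapsTo f A A') (mB : MapsTo f B B') (sub : B ⊆ A) :
    Adm f A B A' B' :=
  ⟨hA.uniformContinuousOn_of_continuous hf, mA, mB, sub⟩

theorem Adm.inc {A B A' B' : Set X} (hA : A ⊆ A') (hB : B ⊆ B') (sub : B ⊆ A) :
    Adm id A B A' B' :=
  ⟨uniformContinuous_id.uniformContinuousOn, hA, hB, sub⟩

theorem Adm.comp {f : X → Y} {g : Y → Z} {A B : Set X} {A' B' : Set Y} {A'' B'' : Set Z}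
    (hg : Adm g A' B' A'' B'') (hf : Adm f A B A' B') : Adm (g ∘ f) A B A'' B'' :=
  ⟨hg.uc.comp hf.uc hf.mA, hg.mA.comp hf.mA, hg.mB.comp hf.mB, hf.sub⟩

theorem Adm.pb_Zc {f : X → Y} {A B : Set X} {A' B' : Set Y} (h : Adm f A B A' B') {j : ℕ}
    {φ : Co Y} (hφ : φ ∈ Zc A' B' j) : pb f φ ∈ Zc A B j :=
  mem_Zc.2 ⟨pb_mem_Van (h.uc.mono h.sub) h.mB hφ.1, by
    rw [← pb_dd]
    exact pb_mem_Van h.uc h.mA hφ.2⟩

theorem Adm.pb_Bc {f : X → Y} {A B : Set X} {A' B' : Set Y} (h : Adm f A B A' B') {j : ℕ}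
    {φ : Co Y} (hφ : φ ∈ Bc A' B' j) : pb f φ ∈ Bc A B j := by
  obtain ⟨χ, hχ, h'⟩ := mem_Bc.1 hφ
  refine mem_Bc.2 ⟨pb f χ, pb_mem_Van (h.uc.mono h.sub) h.mB hχ, ?_⟩
  rw [← pb_dd, ← map_sub]
  exact pb_mem_Van h.uc h.mA h'

/-- The map induced in cohomology by an admissible map of pairs. -/
def Hpb {f : X → Y} {A B : Set X} {A' B' : Set Y} (h : Adm f A B A' B') (j : ℕ) :
    Hc A' B' j →ₗ[F3] Hc A B j :=
  Hmap (pb f) (fun _ hφ => h.pb_Zc hφ) fun _ _ hφ => h.pb_Bc hφ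

theorem Hpb_cl {f : X → Y} {A B : Set X} {A' B' : Set Y} (h : Adm f A B A' B') {j : ℕ}
    (φ : Co Y) (hφ : φ ∈ Zc A' B' j) : Hpb h j (cl φ hφ) = cl (pb f φ) (h.pb_Zc hφ) := rfl

theorem Hpb_comp {f : X → Y} {g : Y → Z} {A B : Set X} {A' B' : Set Y} {A'' B'' : Set Z}
    (hg : Adm g A' B' A'' B'') (hf : Adm f A B A' B') (j : ℕ) (x : Hc A'' B'' j) :
    Hpb hf j (Hpb hg j x) = Hpb (hg.comp hf) j x := by
  obtain ⟨φ, h, rfl⟩ := cl_surj x
  simp only [Hpb_cl, pb_pb]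

theorem Hpb_congr {f g : X → Y} {A B : Set X} {A' B' : Set Y} (hf : Adm f A B A' B')
    (hg : Adm g A B A' B') (e : EqOn f g A) (j : ℕ) (x : Hc A' B' j) :
    Hpb hf j x = Hpb hg j x := by
  obtain ⟨φ, h, rfl⟩ := cl_surj x
  rw [Hpb_cl, Hpb_cl, cl_eq]
  refine Submodule.mem_sup_left ⟨1, one_pos, fun l _ hs => ?_⟩
  rw [Pi.sub_apply, pb_apply, pb_apply, List.map_congr_left fun x hx => e (hs.1 x hx), sub_self]

theorem Hpb_id {f : X → X} {A B : Set X} (hf : Adm f A B A B) (e : ∀ x ∈ A, f x = x) (j : ℕ)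
    (x : Hc A B j) : Hpb hf j x = x := by
  rw [Hpb_congr hf (Adm.inc subset_rfl subset_rfl hf.sub) e]
  obtain ⟨φ, h, rfl⟩ := cl_surj x
  simp only [Hpb_cl]
  congr 1
  funext l
  simp

theorem dd_mem_Zc (A : Set X) {B C : Set X} {j : ℕ} {φ : Co X} (h : φ ∈ Zc B C j) :
    dd φ ∈ Zc A B (j + 1) :=
  mem_Zc.2 ⟨h.2, by rw [dd_dd]; exact zero_mem _⟩

/-- The connecting map of a triple. -/
def Hd (A : Set X) (B C : Set X) (j : ℕ) : Hc B C j →ₗ[F3] Hc A B (j + 1) :=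
  Hmap dd (fun _ h => dd_mem_Zc A h)
    fun φ _ h => by
      obtain ⟨χ, _, h'⟩ := mem_Bc.1 h
      exact mem_Bc.2 ⟨φ - dd χ, h', by simp [dd_dd]⟩

theorem Hd_cl (A : Set X) {B C : Set X} {j : ℕ} (φ : Co X) (h : φ ∈ Zc B C j) :
    Hd A B C j (cl φ h) = cl (dd φ) (dd_mem_Zc A h) := rfl

theorem Hd_nat {f : X → Y} {A B C : Set X} {A' B' C' : Set Y} (h1 : Adm f A B A' B')
    (h2 : Adm f B C B' C') (j : ℕ) (x : Hc B' C' j) :
    Hpb h1 (j + 1) (Hd A' B' C' j x) = Hd A B C j (Hpb h2 j x) := by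
  obtain ⟨φ, h, rfl⟩ := cl_surj x
  simp only [Hpb_cl, Hd_cl, pb_dd]

omit [MetricSpace X] in
theorem pb_id (φ : Co X) : pb id φ = φ := by
  funext l
  simp

/-- First map of the sequence of a triple. -/
def Hi {A B C : Set X} (hB : B ⊆ A) (hC : C ⊆ B) (j : ℕ) : Hc A B j →ₗ[F3] Hc A C j :=
  Hpb (Adm.inc subset_rfl hC (hC.trans hB)) j

/-- Second map of the sequence of a triple. -/
def Hr {A B C : Set X} (hB : B ⊆ A) (hC : C ⊆ B) (j : ℕ) : Hc A C j →ₗ[F3] Hc B C j :=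
  Hpb (Adm.inc hB subset_rfl hC) j

theorem exact_ir {A B C : Set X} (hB : B ⊆ A) (hC : C ⊆ B) (j : ℕ) :
    Function.Exact (Hi hB hC j) (Hr hB hC j) := by
  intro x
  obtain ⟨φ, h, rfl⟩ := cl_surj x
  constructor
  · intro h0
    rw [Hr, Hpb_cl, cl_eq_zero, pb_id] at h0
    obtain ⟨χ, hχ, h'⟩ := mem_Bc.1 h0
    refine ⟨cl (φ - dd χ) (mem_Zc.2 ⟨h', ?_⟩), ?_⟩
    · rw [map_sub, dd_dd, sub_zero]
      exact h.2
    · rw [Hi, Hpb_cl, cl_eq, pb_id]
      exact mem_Bc.2 ⟨-χ, neg_mem hχ, by simp⟩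
  · rintro ⟨y, hy⟩
    obtain ⟨ψ, h', rfl⟩ := cl_surj y
    rw [← hy, Hi, Hr, Hpb_cl, Hpb_cl, cl_eq_zero, pb_id, pb_id]
    exact Submodule.mem_sup_left h'.1

theorem exact_rd {A B C : Set X} (hB : B ⊆ A) (hC : C ⊆ B) (j : ℕ) :
    Function.Exact (Hr hB hC j) (Hd A B C j) := by
  intro x
  obtain ⟨φ, h, rfl⟩ := cl_surj x
  constructor
  · intro h0
    rw [Hd_cl, cl_eq_zero] at h0
    obtain ⟨χ, hχ, h'⟩ := mem_Bc.1 h0
    refine ⟨cl (φ - χ) (mem_Zc.2 ⟨sub_mem h.1 (Van_anti hC _ hχ), ?_⟩), ?_⟩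
    · rwa [map_sub]
    · rw [Hr, Hpb_cl, cl_eq, pb_id]
      exact Submodule.mem_sup_left (by simpa using hχ)
  · rintro ⟨y, hy⟩
    obtain ⟨ψ, h', rfl⟩ := cl_surj y
    rw [← hy, Hr, Hpb_cl, Hd_cl, cl_eq_zero, pb_id]
    exact Submodule.mem_sup_left h'.2

theorem exact_di {A B C : Set X} (hB : B ⊆ A) (hC : C ⊆ B) (j : ℕ) :
    Function.Exact (Hd A B C j) (Hi hB hC (j + 1)) := by
  intro x
  obtain ⟨φ, h, rfl⟩ := cl_surj x
  constructor
  · intro h0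
    rw [Hi, Hpb_cl, cl_eq_zero, pb_id] at h0
    obtain ⟨χ, hχ, h'⟩ := mem_Bc.1 h0
    refine ⟨cl χ (mem_Zc.2 ⟨hχ, ?_⟩), ?_⟩
    · have := sub_mem h.1 (Van_anti hB _ h')
      rwa [sub_sub_cancel] at this
    · rw [Hd_cl, cl_eq]
      exact Submodule.mem_sup_left (by simpa using neg_mem h')
  · rintro ⟨y, hy⟩
    obtain ⟨ψ, h', rfl⟩ := cl_surj y
    rw [← hy, Hi, Hd_cl, Hpb_cl, cl_eq_zero, pb_id]
    exact mem_Bc.2 ⟨ψ, h'.1, by simp⟩

theorem Hi_zero_inj {A B C : Set X} (hB : B ⊆ A) (hC : C ⊆ B) :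
    Function.Injective (Hi hB hC 0) := by
  rw [injective_iff_map_eq_zero]
  intro x h0
  obtain ⟨φ, h, rfl⟩ := cl_surj x
  rw [Hi, Hpb_cl, cl_eq_zero, pb_id] at h0
  obtain ⟨χ, hχ, h'⟩ := mem_Bc.1 h0
  exact cl_eq_zero.2 (mem_Bc.2 ⟨χ, Van_zero C B ▸ hχ, h'⟩)

theorem Hc_self (A : Set X) (j : ℕ) (x : Hc A A j) : x = 0 := by
  obtain ⟨φ, h, rfl⟩ := cl_surj x
  exact cl_eq_zero.2 (Submodule.mem_sup_left h.1)

end Vale.Agent.P265
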