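import Vale.Agent.P265.Defs

/-! P265: manifolds given by compatible local parametrizations. -/

open scoped Manifold ContDiff
open Set Topology Filter

noncomputable section

namespace Vale.Agent.P265

/-- A family of local homeomorphisms onto `M` with smooth transitions, and a compatible family of
bilinear forms. -/
structure Params (E : Type) [NormedAddCommGroup E] [NormedSpace ℝ E] (M : Type)
    [TopologicalSpace M] (ι : Type) where
  P : ι → E → M
  Ω : ι → E → E →L[ℝ] E →L[ℝ] ℝ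
  lh : ∀ i, IsLocalHomeomorph (P i)
  surj : ∀ x, ∃ iy : ι × E, P iy.1 iy.2 = x
  trans : ∀ i j y y', P i y = P j y' → ∃ T : E → E, ContDiffAt ℝ ∞ T y ∧ T y = y' ∧
    P i =ᶠ[𝓝 y] P j ∘ T ∧ ∀ a b, Ω i y a b = Ω j y' (fderiv ℝ T y a) (fderiv ℝ T y b)
  smooth : ∀ i, ContDiff ℝ ∞ (Ω i)
  alt : ∀ i y a, Ω i y a a = 0
  nondeg : ∀ i y a, (∀ b, Ω i y a b = 0) → a = 0
  closed : ∀ i y a b c,
    fderiv ℝ (Ω i) y a b c + fderiv ℝ (Ω i) y b c a + fderiv ℝ (Ω i) y c a b = 0

variable {E : Type} [NormedAddCommGroup E] [NormedSpace ℝ E] {M : Type} [TopologicalSpace M]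
  {ι : Type} (A : Params E M ι)

namespace Params

def idx (x : M) : ι := (A.surj x).choose.1

def pt (x : M) : E := (A.surj x).choose.2

theorem P_pt (x : M) : A.P (A.idx x) (A.pt x) = x := (A.surj x).choose_spec

def chart (x : M) : OpenPartialHomeomorph M E := (A.lh (A.idx x) (A.pt x)).choose.symm

theorem chart_symm (x : M) : ⇑(A.chart x).symm = A.P (A.idx x) :=
  (A.lh (A.idx x) (A.pt x)).choose_spec.2.symm

theorem pt_mem (x : M) : A.pt x ∈ (A.chart x).target := (A.lh (A.idx x) (A.pt x)).choose_spec.1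

theorem mem_chart (x : M) : x ∈ (A.chart x).source := by
  have := (A.chart x).map_target (A.pt_mem x)
  rwa [chart_symm, P_pt] at this

theorem chart_self (x : M) : A.chart x x = A.pt x := by
  have := (A.chart x).right_inv (A.pt_mem x)
  rwa [chart_symm, P_pt] at this

/-- The charted space structure. -/
@[reducible] def cs : ChartedSpace E M where
  atlas := range A.chart
  chartAt := A.chart
  mem_chart_source := A.mem_chart
  chart_mem_atlas x := ⟨x, rfl⟩

/-- The form on `M`. -/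
def form (x : M) : E →L[ℝ] E →L[ℝ] ℝ := A.Ω (A.idx x) (A.pt x)

theorem germ_unique {j : ι} {y : E} {T T' : E → E} (hT : ContinuousAt T y) (hT' : ContinuousAt T' y)
    (e : T y = T' y) (h : A.P j ∘ T =ᶠ[𝓝 y] A.P j ∘ T') : T =ᶠ[𝓝 y] T' := by
  obtain ⟨U, hU, hy, hinj⟩ := (A.lh j).isLocallyInjective (T y)
  filter_upwards [h, hT.eventually (hU.mem_nhds hy), hT'.eventually (hU.mem_nhds (e ▸ hy))]
    with z h1 h2 h3
  exact hinj h2 h3 h1

theorem trans_near {i j : ι} {y : E} {T : E → E} (hT : ContDiffAt ℝ ∞ T y)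
    (h : A.P i =ᶠ[𝓝 y] A.P j ∘ T) : ∀ᶠ z in 𝓝 y, ∀ a b,
      A.Ω i z a b = A.Ω j (T z) (fderiv ℝ T z a) (fderiv ℝ T z b) := by
  have h1 : ContDiffAt ℝ 1 T y := hT.of_le (by simp)
  filter_upwards [h.eventuallyEq_nhds, h1.eventually (by simp)] with z h2 h3
  obtain ⟨T1, h4, h5, h6, h7⟩ := A.trans i j z (T z) h2.eq_of_nhds
  rw [(A.germ_unique h3.continuousAt h4.continuousAt h5.symm (h2.symm.trans h6)).fderiv_eq]
  exact h7

theorem chart_comp {i : ι} {x : M} {y : E} (h : A.P i y ∈ (A.chart x).source) :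
    ∃ T : E → E, ContDiffAt ℝ ∞ T y ∧ A.chart x ∘ A.P i =ᶠ[𝓝 y] T ∧ ∀ a b, A.Ω i y a b =
      A.Ω (A.idx x) (A.chart x (A.P i y)) (fderiv ℝ T y a) (fderiv ℝ T y b) := by
  have h1 := (A.chart x).left_inv h
  rw [chart_symm] at h1
  obtain ⟨T, h2, h3, h4, h5⟩ := A.trans i (A.idx x) y _ h1.symm
  refine ⟨T, h2, ?_, h5⟩
  filter_upwards [h4, h2.continuousAt.eventually ((A.chart x).open_target.mem_nhds
    (h3 ▸ (A.chart x).map_source h))] with z h6 h7
  have := (A.chart x).right_inv h7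
  rw [chart_symm] at this
  rw [Function.comp_apply, h6]
  exact this

theorem isManifold : letI := A.cs; IsManifold 𝓘(ℝ, E) ∞ M := by
  letI := A.cs
  refine isManifold_of_contDiffOn _ _ _ ?_
  rintro _ _ ⟨x, rfl⟩ ⟨x', rfl⟩ y hy
  have h1 : A.P (A.idx x) y ∈ (A.chart x').source := by
    rw [← chart_symm]; exact hy.1.2
  obtain ⟨T, h2, h3, -⟩ := A.chart_comp h1
  refine (h2.congr_of_eventuallyEq ?_).contDiffWithinAt
  rw [← chart_symm] at h3
  exact h3

theorem P_smooth (i : ι) : letI := A.cs; ContMDiff 𝓘(ℝ, E) 𝓘(ℝ, E) ∞ (A.P i) := by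
  letI := A.cs
  intro y
  obtain ⟨T, h2, h3, -⟩ := A.chart_comp (A.mem_chart (A.P i y))
  rw [contMDiffAt_iff_target]
  exact ⟨(A.lh i).continuous.continuousAt,
    (contMDiffAt_iff_contDiffAt.2 h2).congr_of_eventuallyEq h3⟩

theorem formInChart_eq (x₀ : M) (y : E) :
    letI := A.cs; formInChart E A.form x₀ y = A.Ω (A.idx x₀) y := by
  letI := A.cs
  obtain ⟨T, h2, h3, h4⟩ := A.chart_comp (A.mem_chart (A.P (A.idx x₀) y))
  have h5 : chartDer E x₀ y = fderiv ℝ T y := by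
    have e1 : ⇑(chartAt E x₀).symm = A.P (A.idx x₀) := A.chart_symm x₀
    have e2 := (A.P_smooth (A.idx x₀) y).mdifferentiableAt (by simp)
    unfold chartDer
    rw [e1, e2.mfderiv, ← h3.fderiv_eq]
    simp only [modelWithCornersSelf_coe, range_id, fderivWithin_univ]
    rfl
  ext a b
  rw [h4, chart_self]
  show A.form ((A.chart x₀).symm y) (chartDer E x₀ y a) (chartDer E x₀ y b) = _
  rw [h5, chart_symm]
  rfl

theorem isSymplectic : letI := A.cs; IsSymplectic E A.form := by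
  letI := A.cs
  refine ⟨fun x u => A.alt _ _ u, fun x u => A.nondeg _ _ u, fun x₀ => ?_⟩
  rw [funext (A.formInChart_eq x₀)]
  exact ⟨(A.smooth _).contDiffOn, fun y _ => A.closed _ y⟩

theorem contMDiff_time {H : ℝ → M → ℝ}
    (h : ∀ i, ContDiff ℝ ∞ fun q : ℝ × E => H q.1 (A.P i q.2)) :
    letI := A.cs; ContMDiff (𝓘(ℝ, ℝ).prod 𝓘(ℝ, E)) 𝓘(ℝ, ℝ) ∞ (Function.uncurry H) := by
  letI := A.cs
  haveI := A.isManifold
  rintro ⟨t, x⟩
  have h1 : ContMDiffAt 𝓘(ℝ, E) 𝓘(ℝ, E) ∞ (chartAt E x) x :=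
    (contMDiffOn_chart (x := x)).contMDiffAt ((chartAt E x).open_source.mem_nhds (A.mem_chart x))
  have h2 : ContMDiffAt (𝓘(ℝ, ℝ).prod 𝓘(ℝ, E)) 𝓘(ℝ, ℝ × E) ∞
      (fun q : ℝ × M => (q.1, chartAt E x q.2)) (t, x) :=
    contMDiffAt_fst.prodMk_space (h1.comp (t, x) contMDiffAt_snd)
  refine ((h (A.idx x)).contMDiff.contMDiffAt.comp (t, x) h2).congr_of_eventuallyEq ?_
  filter_upwards [continuous_snd.continuousAt.eventually
    ((A.chart x).open_source.mem_nhds (A.mem_chart x))] with q hq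
  have := (A.chart x).left_inv hq
  rw [chart_symm] at this
  exact congrArg (H q.1) this.symm

end Params

end Vale.Agent.P265
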