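import Vale.Agent.P265.Atlas

/-! P265: reading the definitions in the parametrizations. -/

open scoped Manifold ContDiff
open Set Topology Filter

noncomputable section

namespace Vale.Agent.P265

variable {E : Type} [NormedAddCommGroup E] [NormedSpace ℝ E] {M : Type} [TopologicalSpace M]
  {ι : Type} (A : Params E M ι)

namespace Params

theorem P_chart_near (x : M) : ∀ᶠ z in 𝓝 x, A.P (A.idx x) (A.chart x z) = z := by
  filter_upwards [(A.chart x).open_source.mem_nhds (A.mem_chart x)] with z hz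
  have := (A.chart x).left_inv hz
  rwa [chart_symm] at this

theorem chart_P_near (x : M) : ∀ᶠ w in 𝓝 (A.pt x), A.chart x (A.P (A.idx x) w) = w := by
  filter_upwards [(A.chart x).open_target.mem_nhds (A.pt_mem x)] with z hz
  have := (A.chart x).right_inv hz
  rwa [chart_symm] at this

theorem chart_cont (x : M) : ContinuousAt (A.chart x) x :=
  (A.chart x).continuousAt (A.mem_chart x)

/-- A map out of `M` is differentiated through the preferred parametrization. -/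
theorem hasM_out {F : Type} [NormedAddCommGroup F] [NormedSpace ℝ F] {g : M → F} {x : M}
    {D : E →L[ℝ] F} (h : HasFDerivAt (g ∘ A.P (A.idx x)) D (A.pt x)) :
    letI := A.cs; HasMFDerivAt 𝓘(ℝ, E) 𝓘(ℝ, F) g x D := by
  let := A.cs
  refine ⟨?_, ?_⟩
  · have h1 : ContinuousAt ((g ∘ A.P (A.idx x)) ∘ A.chart x) x :=
      ContinuousAt.comp (by rw [chart_self]; exact h.continuousAt) (A.chart_cont x)
    refine h1.congr ?_
    filter_upwards [A.P_chart_near x] with z hz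
    simp only [Function.comp_apply, hz]
  · have e1 : writtenInExtChartAt 𝓘(ℝ, E) 𝓘(ℝ, F) x g = g ∘ A.P (A.idx x) := by
      rw [← A.chart_symm x]; rfl
    have e2 : extChartAt 𝓘(ℝ, E) x x = A.pt x := A.chart_self x
    rw [e1, e2]
    exact h.hasFDerivWithinAt

/-- The derivative of a parametrization, and of a local inverse. -/
theorem P_data (i : ι) (y : E) : letI := A.cs; ∃ (D D' : E →L[ℝ] E) (S : M → E),
    HasMFDerivAt 𝓘(ℝ, E) 𝓘(ℝ, E) (A.P i) y D ∧
    (∀ a b, A.form (A.P i y) (D a) (D b) = A.Ω i y a b) ∧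
    HasMFDerivAt 𝓘(ℝ, E) 𝓘(ℝ, E) S (A.P i y) D' ∧ S (A.P i y) = y ∧
    (∀ᶠ z in 𝓝 (A.P i y), A.P i (S z) = z) ∧ (∀ v, D (D' v) = v) ∧ ∀ v, D v = 0 → v = 0 := by
  let := A.cs
  set x := A.P i y with hx
  obtain ⟨T, h2, h3, h4⟩ := A.chart_comp (A.mem_chart x)
  obtain ⟨T', k1, k2, k3, -⟩ := A.trans (A.idx x) i (A.pt x) y (A.P_pt x)
  have dT : HasFDerivAt T (fderiv ℝ T y) y := (h2.differentiableAt (by simp)).hasFDerivAt
  have dT' : HasFDerivAt T' (fderiv ℝ T' (A.pt x)) (A.pt x) :=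
    (k1.differentiableAt (by simp)).hasFDerivAt
  have hform : ∀ a b, A.form x (fderiv ℝ T y a) (fderiv ℝ T y b) = A.Ω i y a b := by
    intro a b
    rw [h4, ← hx, chart_self]
    rfl
  refine ⟨fderiv ℝ T y, fderiv ℝ T' (A.pt x), T' ∘ A.chart x, ?_, hform, ?_, ?_, ?_, ?_, ?_⟩
  · refine ⟨(A.lh i).continuous.continuousAt, ?_⟩
    exact (dT.congr_of_eventuallyEq h3).hasFDerivWithinAt
  · apply A.hasM_out
    refine dT'.congr_of_eventuallyEq ?_
    filter_upwards [A.chart_P_near x] with w hw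
    simp only [Function.comp_apply, hw]
  · rw [Function.comp_apply, chart_self, k2]
  · have := (A.chart_cont x).tendsto
    rw [chart_self] at this
    filter_upwards [this.eventually k3, A.P_chart_near x] with z h5 h6
    rw [h6] at h5
    exact h5.symm
  · have e1 : HasFDerivAt (T ∘ T') ((fderiv ℝ T y).comp (fderiv ℝ T' (A.pt x))) (A.pt x) :=
      HasFDerivAt.comp _ (by rw [k2]; exact dT) dT'
    have e2 : HasFDerivAt (T ∘ T') (ContinuousLinearMap.id ℝ E) (A.pt x) := by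
      refine (hasFDerivAt_id (A.pt x)).congr_of_eventuallyEq ?_
      have := k1.continuousAt.tendsto
      rw [k2] at this
      filter_upwards [this.eventually h3, k3, A.chart_P_near x] with w h5 h6 h7
      rw [h6] at h7
      exact h5.symm.trans h7
    intro v
    exact congrArg (fun L : E →L[ℝ] E => L v) (e1.unique e2)
  · intro v hv
    apply A.nondeg i y v
    intro b
    rw [← hform, hv]
    simp

theorem ham_eq {g : M → ℝ} (hg : ∀ i, ContDiff ℝ ∞ (g ∘ A.P i)) {c : ℝ → M} {t : ℝ} {i : ι}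
    {γ : ℝ → E} {γ' : E} (hc : c =ᶠ[𝓝 t] A.P i ∘ γ) (hγ : HasDerivAt γ γ' t)
    (h : ∀ b, A.Ω i (γ t) γ' b = fderiv ℝ (g ∘ A.P i) (γ t) b) :
    letI := A.cs; MDifferentiableAt 𝓘(ℝ, ℝ) 𝓘(ℝ, E) c t ∧
      ∀ v, A.form (c t) (vel E c t) v = fder E g (c t) v := by
  let := A.cs
  obtain ⟨D, D', S, h1, h2, -, -, -, h6, -⟩ := A.P_data i (γ t)
  have e1 := (h1.comp t hγ.hasFDerivAt.hasMFDerivAt).congr_of_eventuallyEq hc
  have ect : c t = A.P i (γ t) := hc.eq_of_nhds
  refine ⟨e1.mdifferentiableAt, fun v => ?_⟩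
  have e2 : vel E c t = D γ' := by
    unfold vel
    rw [e1.mfderiv]
    show D ((1 : ℝ) • γ') = D γ'
    rw [one_smul]
  have e3 := A.hasM_out (g := g) (x := A.P i (γ t))
    ((hg _).differentiable (by simp) _).hasFDerivAt
  have e4 := (e3.comp (γ t) h1).mfderiv
  rw [mfderiv_eq_fderiv] at e4
  rw [e2, ect, ← h6 v, h2, h]
  unfold fder
  rw [e3.mfderiv]
  exact congrArg (fun L : E →L[ℝ] ℝ => L (D' v)) e4

theorem nondegAt {f : M → M} {i : ι} {y : E} {T : E → E} {L : E →L[ℝ] E}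
    (hT : f ∘ A.P i =ᶠ[𝓝 y] A.P i ∘ T) (h0 : T y = y) (hL : HasFDerivAt T L y)
    (hn : ∀ v, L v = v → v = 0) : letI := A.cs; NondegAt E f (A.P i y) := by
  let := A.cs
  obtain ⟨D, D', S, h1, -, h3, h4, h5, h6, h7⟩ := A.P_data i y
  have e1 : HasMFDerivAt 𝓘(ℝ, E) 𝓘(ℝ, E) (T ∘ S) (A.P i y) (L.comp D') :=
    HasMFDerivAt.comp _ (by rw [h4]; exact hL.hasMFDerivAt) h3
  have e2 : HasMFDerivAt 𝓘(ℝ, E) 𝓘(ℝ, E) (A.P i ∘ (T ∘ S)) (A.P i y) (D.comp (L.comp D')) :=
    HasMFDerivAt.comp _ (by rw [Function.comp_apply, h4, h0]; exact h1) e1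
  have e3 : HasMFDerivAt 𝓘(ℝ, E) 𝓘(ℝ, E) f (A.P i y) (D.comp (L.comp D')) := by
    refine e2.congr_of_eventuallyEq ?_
    have := h3.continuousAt.tendsto
    rw [h4] at this
    filter_upwards [this.eventually hT, h5] with z k1 k2
    rw [Function.comp_apply, k2] at k1
    exact k1
  refine ⟨e3.mdifferentiableAt, fun v hv => ?_⟩
  unfold tder at hv
  rw [e3.mfderiv] at hv
  have k1 : D (L (D' v) - D' v) = 0 := by
    rw [map_sub, h6]
    exact sub_eq_zero.2 hv
  have k2 := hn _ (sub_eq_zero.1 (h7 _ k1))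
  rw [← h6 v, k2, map_zero]

theorem morse_chart {k : ℕ} {F : M × EuclideanSpace ℝ (Fin k) → ℝ} :
    letI := A.cs; IsMorse E F → Continuous F ∧
      (∀ i, ContDiff ℝ ∞ fun q : E × EuclideanSpace ℝ (Fin k) => F (A.P i q.1, q.2)) ∧
      ∀ x z, ((x, z) ∈ critSet E F ↔ fderiv ℝ
        (fun q : E × EuclideanSpace ℝ (Fin k) => F (A.P (A.idx x) q.1, q.2)) (A.pt x, z) = 0) ∧
        ((x, z) ∈ critSet E F → ∀ u, (∀ v, fderiv ℝ (fderiv ℝ
          fun q : E × EuclideanSpace ℝ (Fin k) => F (A.P (A.idx x) q.1, q.2)) (A.pt x, z) u v = 0) →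
          u = 0) := by
  let := A.cs
  rintro ⟨h1, h2⟩
  refine ⟨h1.continuous, fun i => ?_, fun x z => ⟨?_, fun hc u hu => ?_⟩⟩
  · rw [← contMDiff_iff_contDiff]
    exact h1.comp (((A.P_smooth i).comp contDiff_fst.contMDiff).prodMk contDiff_snd.contMDiff)
  · have e0 := (h1 (x, z)).mdifferentiableAt (by simp)
    have e1 : writtenInExtChartAt (𝓘(ℝ, E).prod 𝓘(ℝ, EuclideanSpace ℝ (Fin k))) 𝓘(ℝ, ℝ) (x, z) F =
        fun q : E × EuclideanSpace ℝ (Fin k) => F (A.P (A.idx x) q.1, q.2) := by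
      rw [← A.chart_symm x]; rfl
    have e2 : extChartAt (𝓘(ℝ, E).prod 𝓘(ℝ, EuclideanSpace ℝ (Fin k))) (x, z) (x, z) =
        (A.pt x, z) := by
      rw [← A.chart_self x]; rfl
    have e3 : range (𝓘(ℝ, E).prod 𝓘(ℝ, EuclideanSpace ℝ (Fin k))) = univ :=
      ModelWithCorners.range_eq_univ _
    show mfderiv _ _ F (x, z) = 0 ↔ _
    rw [e0.mfderiv, e1, e2, e3, fderivWithin_univ]
    rfl
  · apply h2 (x, z) hc u
    have e1 : funInChart E F x =
        fun q : E × EuclideanSpace ℝ (Fin k) => F (A.P (A.idx x) q.1, q.2) := by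
      rw [← A.chart_symm x]; rfl
    have e2 : chartAt E x x = A.pt x := A.chart_self x
    intro v
    show fderiv ℝ (fderiv ℝ (funInChart E F x)) (chartAt E x x, z) u v = 0
    rw [e1, e2]
    exact hu v

end Params

end Vale.Agent.P265
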