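import Vale.Agent.P265.Cube

/-! P265: the box lemma. -/

open Set Metric

noncomputable section

namespace Vale.Agent.P265

namespace BoxAux

variable {X : Type} [MetricSpace X] {τ : X → X} {s : F3} {a b : ℕ}

theorem self_of_htpy {A B : Set X} (hA : IsCompact A) (h : ℝ → X → X)
    (hc : ContinuousOn (Function.uncurry h) (Icc 0 1 ×ˢ A))
    (mA : ∀ t ∈ Icc (0 : ℝ) 1, MapsTo (h t) A A) (mB : ∀ t ∈ Icc (0 : ℝ) 1, MapsTo (h t) B B)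
    (h0 : ∀ x ∈ A, h 0 x = x) {f : X → X} (hf : Adm f A B A B) (h1 : ∀ x ∈ A, f x = h 1 x)
    (j : ℕ) (x : Hc A B j) : Hpb hf j x = x := by
  have ad : ∀ t ∈ Icc (0 : ℝ) 1, Adm (h t) A B A B := fun t ht =>
    Adm.of_compact hA (hc.comp (f := fun x : X => (t, x)) (by fun_prop) fun x hx => ⟨ht, hx⟩)
      (mA t ht) (mB t ht) hf.sub
  have a0 := ad 0 ⟨le_rfl, zero_le_one⟩
  have a1 := ad 1 ⟨zero_le_one, le_rfl⟩
  rw [Hpb_congr hf a1 h1, ← Hpb_homotopy hA h hc mA mB a0 a1, Hpb_id a0 h0]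

theorem hyp_fix {r l : ℝ} {q : VV a b} (h : max l (‖q.2‖ / r) = 1) : hyp r l q = q := by
  rw [hyp, h, inv_one, one_smul, one_smul]

theorem hyp_one {r : ℝ} (hr : 0 < r) {q : VV a b} (h : q.2 ∈ closedBall (0 : Fin b → ℝ) r) :
    hyp r 1 q = q :=
  hyp_fix (max_eq_left ((div_le_one hr).2 (mem_closedBall_zero_iff.1 h)))

theorem hyp_exit {r l : ℝ} (hr : 0 < r) (hl : l ≤ 1) {q : VV a b}
    (h : q.2 ∈ sphere (0 : Fin b → ℝ) r) : hyp r l q = q :=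
  hyp_fix (by rw [mem_sphere_zero_iff_norm.1 h, div_self hr.ne', max_eq_right hl])

theorem hyp_box {r₁ r₂ l : ℝ} (h₂ : 0 < r₂) (hl : l ∈ Ioc (0 : ℝ) 1) :
    MapsTo (hyp r₂ l : VV a b → VV a b) (closedBall 0 r₁ ×ˢ closedBall 0 r₂)
      (closedBall 0 r₁ ×ˢ closedBall 0 r₂) := by
  intro q hq
  have q1 := mem_closedBall_zero_iff.1 hq.1
  have q2 := mem_closedBall_zero_iff.1 hq.2
  have m0 : 0 < max l (‖q.2‖ / r₂) := lt_max_of_lt_left hl.1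
  have m1 : max l (‖q.2‖ / r₂) ≤ 1 := max_le hl.2 ((div_le_one h₂).2 q2)
  refine ⟨mem_closedBall_zero_iff.2 ?_, mem_closedBall_zero_iff.2 ?_⟩
  · change ‖max l (‖q.2‖ / r₂) • q.1‖ ≤ r₁
    rw [norm_smul, Real.norm_of_nonneg m0.le]
    exact (mul_le_of_le_one_left (norm_nonneg _) m1).trans q1
  · change ‖(max l (‖q.2‖ / r₂))⁻¹ • q.2‖ ≤ r₂
    rw [norm_smul, Real.norm_of_nonneg (inv_pos.2 m0).le, inv_mul_le_iff₀ m0, ← div_le_iff₀ h₂]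
    exact le_max_right _ _

theorem hyp_cont {Z : Type} [TopologicalSpace Z] (r : ℝ) {l : Z → ℝ} {q : Z → VV a b} {S : Set Z}
    (hl : ContinuousOn l S) (hq : ContinuousOn q S) (h0 : ∀ z ∈ S, 0 < l z) :
    ContinuousOn (fun z => hyp r (l z) (q z)) S := by
  have hm : ContinuousOn (fun z => max (l z) (‖(q z).2‖ / r)) S :=
    hl.sup (hq.snd.norm.div_const r)
  exact (hm.smul hq.fst).prodMk
    ((hm.inv₀ fun z hz => (lt_max_of_lt_left (h0 z hz)).ne').smul hq.snd)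

theorem path_mem {l₀ t : ℝ} (hl : l₀ ∈ Ioc (0 : ℝ) 1) (ht : t ∈ Icc (0 : ℝ) 1) :
    1 - t * (1 - l₀) ∈ Ioc (0 : ℝ) 1 := by
  have h1 : t * (1 - l₀) ≤ 1 - l₀ := mul_le_of_le_one_left (by linarith [hl.2]) ht.2
  have h2 : 0 ≤ t * (1 - l₀) := mul_nonneg ht.1 (by linarith [hl.2])
  exact ⟨by linarith [hl.1], by linarith⟩

theorem twice {r l₀ : ℝ} (hr : 0 < r) (hl : l₀ ∈ Ioc (0 : ℝ) 1) {P N : Set (X × VV a b)}
    (cP : IsCompact P) (hP : ∀ p ∈ P, p.2.2 ∈ closedBall (0 : Fin b → ℝ) r)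
    (mP : ∀ l ∈ Ioc (0 : ℝ) 1, MapsTo (Prod.map id (hyp r l)) P P)
    (mN : ∀ l ∈ Ioc (0 : ℝ) 1, MapsTo (Prod.map id (hyp r l)) N N)
    (hf : Adm (Prod.map id (hyp r l₀) ∘ Prod.map id (hyp r l₀)) P N P N) (j : ℕ)
    (x : Hc P N j) : Hpb hf j x = x := by
  refine self_of_htpy cP (fun t => Prod.map id (hyp r (1 - t * (1 - l₀))) ∘
    Prod.map id (hyp r (1 - t * (1 - l₀)))) ?_
    (fun t ht => (mP _ (path_mem hl ht)).comp (mP _ (path_mem hl ht)))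
    (fun t ht => (mN _ (path_mem hl ht)).comp (mN _ (path_mem hl ht))) (fun p hp => ?_) hf
    (fun p _ => ?_) j x
  · have c : ContinuousOn (fun z : ℝ × X × VV a b => 1 - z.1 * (1 - l₀)) (Icc 0 1 ×ˢ P) := by
      fun_prop
    have p : ∀ z ∈ (Icc (0 : ℝ) 1 ×ˢ P), 0 < 1 - z.1 * (1 - l₀) := fun z hz => (path_mem hl hz.1).1
    exact (continuous_fst.comp continuous_snd).continuousOn.prodMk
      (hyp_cont r c (hyp_cont r c (continuous_snd.comp continuous_snd).continuousOn p) p)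
  · have e : hyp r 1 p.2 = p.2 := hyp_one hr (hP p hp)
    refine Prod.ext rfl ?_
    change hyp r (1 - 0 * (1 - l₀)) (hyp r (1 - 0 * (1 - l₀)) p.2) = p.2
    rw [zero_mul, sub_zero, e, e]
  · rw [one_mul, sub_sub_cancel]

theorem flat (hτ : Sym τ s) {A : Set X} (h : IPair τ A ∅) {r₁ r₂ : ℝ} (h₁ : 0 ≤ r₁) :
    Shifted s (Prod.map τ (id : VV a b → VV a b)) (A ×ˢ closedBall 0 r₁ ×ˢ closedBall 0 r₂)
      (A ×ˢ closedBall 0 r₁ ×ˢ sphere 0 r₂) 0 (Prod.map τ id)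
      (A ×ˢ closedBall (0 : Fin b → ℝ) r₂) (A ×ˢ sphere (0 : Fin b → ℝ) r₂) := by
  have p1 := CubeAux.ipair_prod h
    ((isCompact_closedBall (0 : Fin a → ℝ) r₁).prod (isCompact_closedBall (0 : Fin b → ℝ) r₂))
    ((isCompact_closedBall (0 : Fin a → ℝ) r₁).prod (isCompact_sphere (0 : Fin b → ℝ) r₂))
    (prod_mono subset_rfl sphere_subset_closedBall)
  have p2 := CubeAux.ipair_prod h (isCompact_closedBall (0 : Fin b → ℝ) r₂) (isCompact_sphere 0 r₂)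
    sphere_subset_closedBall
  have hf : Adm (fun p : X × VV a b => (p.1, p.2.2)) _ _ (A ×ˢ closedBall (0 : Fin b → ℝ) r₂)
      (A ×ˢ sphere (0 : Fin b → ℝ) r₂) := Adm.of_compact p1.cA (by fun_prop)
    (fun p hp => ⟨hp.1, hp.2.2⟩) (fun p hp => ⟨hp.1, hp.2.2⟩) p1.sub
  have hg : Adm (fun q : X × (Fin b → ℝ) => (q.1, (((0 : Fin a → ℝ), q.2) : VV a b))) _ _
      (A ×ˢ closedBall 0 r₁ ×ˢ closedBall 0 r₂) (A ×ˢ closedBall 0 r₁ ×ˢ sphere 0 r₂) :=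
    Adm.of_compact p2.cA (by fun_prop) (fun q hq => ⟨hq.1, mem_closedBall_self h₁, hq.2⟩)
      (fun q hq => ⟨hq.1, mem_closedBall_self h₁, hq.2⟩) p2.sub
  have sc : ∀ t ∈ Icc (0 : ℝ) 1, ∀ u ∈ closedBall (0 : Fin a → ℝ) r₁,
      (1 - t) • u ∈ closedBall (0 : Fin a → ℝ) r₁ := fun t ht u hu => by
    rw [mem_closedBall_zero_iff] at hu ⊢
    rw [norm_smul, Real.norm_of_nonneg (by linarith [ht.2])]
    exact (mul_le_of_le_one_left (norm_nonneg _) (by linarith [ht.1])).trans hu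
  refine CubeAux.shift_of_inv hf hg (p1.adm (CubeAux.sym_prod hτ)) (p2.adm (CubeAux.sym_prod hτ))
    (fun _ _ => rfl) ?_ (Hpb_id (hf.comp hg) fun _ _ => rfl)
  refine self_of_htpy p1.cA (fun (t : ℝ) (p : X × VV a b) => (p.1, ((1 - t) • p.2.1, p.2.2))) ?_
    (fun t ht p hp => mk_mem_prod hp.1 (mk_mem_prod (sc t ht _ hp.2.1) hp.2.2))
    (fun t ht p hp => mk_mem_prod hp.1 (mk_mem_prod (sc t ht _ hp.2.1) hp.2.2)) (fun p _ => ?_) (hg.comp hf)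
    fun p _ => ?_
  · unfold Function.uncurry
    fun_prop
  · rw [sub_zero, one_smul]
  · rw [sub_self, zero_smul]
    rfl

end BoxAux

variable {X : Type} [MetricSpace X] {τ : X → X} {s : F3}

theorem box_shift (hτ : Sym τ s) {A : Set X} (h : IPair τ A ∅) {a b : ℕ} {r₁ r₂ : ℝ}
    (h₁ : 0 ≤ r₁) (h₂ : 0 < r₂) {P N : Set (X × VV a b)} (hPN : IPair (Prod.map τ id) P N)
    (hP : P ⊆ A ×ˢ closedBall 0 r₁ ×ˢ closedBall 0 r₂)
    (hN : A ×ˢ closedBall 0 r₁ ×ˢ sphere 0 r₂ ⊆ N)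
    (mP : ∀ l ∈ Ioc (0 : ℝ) 1, MapsTo (Prod.map id (hyp r₂ l)) P P)
    (mN : ∀ l ∈ Ioc (0 : ℝ) 1, MapsTo (Prod.map id (hyp r₂ l)) N N) {l₀ : ℝ}
    (hl : l₀ ∈ Ioc (0 : ℝ) 1)
    (eP : MapsTo (Prod.map id (hyp r₂ l₀)) (A ×ˢ closedBall 0 r₁ ×ˢ closedBall 0 r₂) P)
    (eN : MapsTo (Prod.map id (hyp r₂ l₀)) N (A ×ˢ closedBall 0 r₁ ×ˢ sphere 0 r₂)) :
    Shifted s (Prod.map τ id) P N b τ A ∅ := by
  have p1 := CubeAux.ipair_prod h
    ((isCompact_closedBall (0 : Fin a → ℝ) r₁).prod (isCompact_closedBall (0 : Fin b → ℝ) r₂))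
    ((isCompact_closedBall (0 : Fin a → ℝ) r₁).prod (isCompact_sphere (0 : Fin b → ℝ) r₂))
    (prod_mono subset_rfl sphere_subset_closedBall)
  have ct : Continuous (Prod.map (id : X → X) (hyp r₂ l₀ : VV a b → VV a b)) :=
    continuous_id.prodMap (continuousOn_univ.1
      (BoxAux.hyp_cont r₂ continuousOn_const continuousOn_id fun _ _ => hl.1))
  have mB : ∀ l ∈ Ioc (0 : ℝ) 1, MapsTo (Prod.map (id : X → X) (hyp r₂ l : VV a b → VV a b))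
      (A ×ˢ closedBall 0 r₁ ×ˢ closedBall 0 r₂) (A ×ˢ closedBall 0 r₁ ×ˢ closedBall 0 r₂) :=
    fun l hl p hp => ⟨hp.1, BoxAux.hyp_box h₂ hl hp.2⟩
  have mE : ∀ l ∈ Ioc (0 : ℝ) 1, MapsTo (Prod.map (id : X → X) (hyp r₂ l : VV a b → VV a b))
      (A ×ˢ closedBall 0 r₁ ×ˢ sphere 0 r₂) (A ×ˢ closedBall 0 r₁ ×ˢ sphere 0 r₂) :=
    fun l hl p hp => ⟨hp.1, by
      change hyp r₂ l p.2 ∈ _
      rw [BoxAux.hyp_exit h₂ hl.2 hp.2.2]
      exact hp.2⟩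
  have hf : Adm (Prod.map id (hyp r₂ l₀)) P N (A ×ˢ closedBall 0 r₁ ×ˢ closedBall 0 r₂)
      (A ×ˢ closedBall 0 r₁ ×ˢ sphere 0 r₂) :=
    Adm.of_compact hPN.cA ct.continuousOn ((mP _ hl).mono_right hP) eN hPN.sub
  have hg : Adm (Prod.map id (hyp r₂ l₀)) (A ×ˢ closedBall 0 r₁ ×ˢ closedBall 0 r₂)
      (A ×ˢ closedBall 0 r₁ ×ˢ sphere 0 r₂) P N :=
    Adm.of_compact p1.cA ct.continuousOn eP ((mE _ hl).mono_right hN) p1.sub
  have s1 := CubeAux.shift_of_inv hf hg (hPN.adm (CubeAux.sym_prod hτ))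
    (p1.adm (CubeAux.sym_prod hτ)) (s := s) (fun _ _ => rfl)
    (BoxAux.twice h₂ hl hPN.cA (fun p hp => (hP hp).2.2) mP mN (hg.comp hf))
    (BoxAux.twice h₂ hl p1.cA (fun p hp => hp.2.2) mB mE (hf.comp hg))
  exact s1.trans ((BoxAux.flat hτ h h₁).trans (susp_cube hτ h b h₂))

end Vale.Agent.P265
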