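import Vale.Agent.P265.Cup

/-! P265: cohomology of a product with a circle. -/

open Set

noncomputable section

namespace Vale.Agent.P265

variable {Y : Type} [MetricSpace Y] [CompactSpace Y]

theorem Hp_comp {X Z : Type} [MetricSpace X] [CompactSpace X] [MetricSpace Z] {f : X → Y}
    {g : Y → Z} (hf : Continuous f) (hg : Continuous g) (j : ℕ) (u : Habs Z j) :
    Hp hf j (Hp hg j u) = Hp (hg.comp hf) j u :=
  Hpb_comp (adm_univ hg) (adm_univ hf) j u

namespace CircAux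

theorem Hp_id {f : Y → Y} (hf : Continuous f) (e : ∀ y, f y = y) (j : ℕ) (u : Habs Y j) :
    Hp hf j u = u :=
  Hpb_id (adm_univ hf) (fun y _ => e y) j u

theorem HL_zero {ξ : Y → TT} (hξ : Continuous ξ) (e : ∀ y, ξ y = 0) (j : ℕ) (u : Habs Y j) :
    HL hξ j u = 0 := by
  have := HL_add hξ hξ hξ (fun y => by rw [e y, add_zero]) j u
  exact left_eq_add.1 this

omit [CompactSpace Y] in
theorem cont_sl : Continuous fun y : Y => ((0 : TT), y) := by fun_prop

theorem cont_coe : Continuous fun t : ℝ => (t : TT) := AddCircle.continuous_mk' _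

/-- Product of a function of the first point with a cochain. -/
def ml {X : Type} (α : X → F3) (ψ : Co X) : Co X
  | [] => 0
  | x :: l => α x * ψ (x :: l)

theorem dd_ml {X : Type} (α : X → F3) (ψ : Co X) (a b : X) (l : List X) :
    dd (ml α ψ) (a :: b :: l) = (α b - α a) * ψ (b :: l) + α a * dd ψ (a :: b :: l) := by
  have e : fr a (ml α ψ) = α a • fr a ψ := rfl
  rw [dd_cons, e, map_smul, dd_cons ψ a]
  simp only [ml, Pi.smul_apply, smul_eq_mul]
  ring

/-- The number of turns. -/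
def turns (t : ℝ) : ℤ := toIcoDiv (p := 2 * Real.pi) Fact.out 0 t

theorem rep0_coe (t : ℝ) : rep0 (t : TT) = t - turns t * (2 * Real.pi) := by
  rw [← zsmul_eq_mul]
  rfl

theorem wind_coe {s t : ℝ} (h : dist s t < 1) :
    round ((rep0 (t : TT) - rep0 (s : TT)) / (2 * Real.pi)) = turns s - turns t := by
  have hp := Real.pi_gt_three
  have e : (rep0 (t : TT) - rep0 (s : TT)) / (2 * Real.pi) =
      (t - s) / (2 * Real.pi) + ((turns s - turns t : ℤ) : ℝ) := by
    rw [rep0_coe, rep0_coe]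
    push_cast
    field_simp
    ring
  rw [Real.dist_eq, abs_lt] at h
  rw [e, round_add_intCast, round_eq_zero_iff.2, zero_add]
  constructor
  · rw [le_div_iff₀ (by positivity)]
    linarith
  · rw [div_lt_iff₀ (by positivity)]
    linarith

theorem HL_inj (j : ℕ) (v : Habs Y j)
    (h : HL (continuous_fst (X := TT) (Y := Y)) j
      (Hp (continuous_snd (X := TT) (Y := Y)) j v) = 0) : v = 0 := by
  obtain ⟨φ, hφ, rfl⟩ := cl_surj v
  have h1 : lc (wind (Prod.fst : TT × Y → TT)) (pb Prod.snd φ) ∈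
      Bc (univ : Set (TT × Y)) ∅ (j + 1) := cl_eq_zero.1 h
  obtain ⟨χ, -, hχ⟩ := mem_Bc.1 h1
  let q : ℝ × Y → TT × Y := fun p => ((p.1 : TT), p.2)
  have hq : Continuous q := (cont_coe.comp continuous_fst).prodMk continuous_snd
  let A : Set (ℝ × Y) := Icc 0 (2 * Real.pi) ×ˢ univ
  have cA : IsCompact A := isCompact_Icc.prod isCompact_univ
  have h2 := pb_mem_Van (cA.uniformContinuousOn_of_continuous hq.continuousOn)
    (mapsTo_univ q A) hχ
  have h3 : dd (pb (Prod.snd : ℝ × Y → Y) φ) ∈ Van A (j + 2) := by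
    rw [← pb_dd]
    exact pb_mem_Van (cA.uniformContinuousOn_of_continuous continuous_snd.continuousOn)
      (mapsTo_univ Prod.snd A) (mem_Zc.1 hφ).2
  let α : ℝ × Y → F3 := fun p => -((turns p.1 : ℤ) : F3)
  let c : Co (ℝ × Y) := ml α (pb Prod.snd φ) - pb q χ
  have hc : c ∈ Zc A ∅ j := by
    refine mem_Zc.2 ⟨mem_Van_empty _ _, ?_⟩
    obtain ⟨ε, hε, h2⟩ := h2
    obtain ⟨δ, hδ, h3⟩ := h3
    refine ⟨min 1 (min ε δ), lt_min one_pos (lt_min hε hδ), fun l hl hs => ?_⟩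
    have e2 := h2 l hl (hs.mono subset_rfl ((min_le_right _ _).trans (min_le_left _ _)))
    have e3 := h3 l hl (hs.mono subset_rfl ((min_le_right _ _).trans (min_le_right _ _)))
    obtain ⟨a, b, l, rfl⟩ : ∃ a b m, l = a :: b :: m := by
      rcases l with _ | ⟨a, _ | ⟨b, m⟩⟩
      · simp at hl
      · simp at hl
      · exact ⟨a, b, m, rfl⟩
    have hab : dist a.1 b.1 < 1 :=
      ((le_max_left _ _).trans_lt (hs.2 a (by simp) b (by simp))).trans_le (min_le_left _ _)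
    rw [map_sub, pb_dd, Pi.sub_apply] at e2
    have e4 : pb q (lc (wind (Prod.fst : TT × Y → TT)) (pb Prod.snd φ)) (a :: b :: l) =
        (α b - α a) * pb (Prod.snd : ℝ × Y → Y) φ (b :: l) := by
      have e5 : wind (Prod.fst : TT × Y → TT) (q a) (q b) = α b - α a := by
        simp only [wind, q, α, wind_coe hab]
        push_cast
        ring
      rw [← e5]
      simp only [pb_apply, List.map_cons, lc, LinearMap.pi_apply, lcAt, LinearMap.smul_apply,
        LinearMap.proj_apply, smul_eq_mul, List.map_map]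
      rfl
    rw [map_sub, Pi.sub_apply, dd_ml, e3, mul_zero, add_zero, ← e4, e2]
  have hπ : (0 : ℝ) ≤ 2 * Real.pi := by positivity
  let H : ℝ → Y → ℝ × Y := fun t y => (t * (2 * Real.pi), y)
  have mH : ∀ t ∈ Icc (0 : ℝ) 1, MapsTo (H t) univ A := fun t ht y _ =>
    ⟨⟨mul_nonneg ht.1 hπ, mul_le_of_le_one_left hπ ht.2⟩, mem_univ _⟩
  have aH : ∀ t ∈ Icc (0 : ℝ) 1, Adm (H t) univ ∅ A ∅ := fun t ht =>
    Adm.of_compact isCompact_univ (by fun_prop) (mH t ht) (mapsTo_empty _ _) (empty_subset _)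
  have h4 := Hpb_homotopy isCompact_univ H (by
    refine Continuous.continuousOn ?_
    exact (continuous_fst.mul continuous_const).prodMk continuous_snd) mH
    (fun t _ => mapsTo_empty _ _) (aH 0 (by simp)) (aH 1 (by simp)) j (cl c hc)
  rw [Hpb_cl, Hpb_cl, cl_eq] at h4
  rw [cl_eq_zero]
  have h5 : φ - (pb (H 0) c - pb (H 1) c) ∈ Van (univ : Set Y) (j + 1) := by
    refine ⟨1, one_pos, fun l hl _ => ?_⟩
    obtain ⟨a, l, rfl⟩ : ∃ a m, l = a :: m := by
      rcases l with _ | ⟨a, m⟩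
      · simp at hl
      · exact ⟨a, m, rfl⟩
    have e0 : turns (0 * (2 * Real.pi)) = 0 := by
      rw [zero_mul]
      exact toIcoDiv_apply_left _ _
    have e1 : turns (1 * (2 * Real.pi)) = 1 := by
      rw [one_mul, ← zero_add (2 * Real.pi)]
      exact toIcoDiv_apply_right _ _
    have e2 : q ∘ H 0 = q ∘ H 1 := by
      funext y
      simp only [q, H, Function.comp_apply, zero_mul, one_mul, AddCircle.coe_period,
        AddCircle.coe_zero]
    have e3 : ∀ t, pb (H t) (ml α (pb Prod.snd φ)) (a :: l) = α (H t a) * φ (a :: l) := by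
      intro t
      simp only [pb_apply, List.map_cons, ml, List.map_map]
      rw [show (Prod.snd ∘ H t) = id from rfl, List.map_id]
    simp only [c, map_sub, Pi.sub_apply, pb_pb, e2, e3]
    simp only [α, H, e0, e1]
    push_cast
    ring
  have := add_mem (Submodule.mem_sup_left h5 : _ ∈ Bc (univ : Set Y) ∅ j) h4
  rwa [sub_add_cancel] at this

/-- A half circle. -/
def arc (a : ℝ) : Set TT := (fun t : ℝ => (t : TT)) '' Icc a (a + Real.pi)

theorem arc_compact (a : ℝ) : IsCompact (arc a) := isCompact_Icc.image cont_coe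

theorem arc_inv (a : ℝ) : ∃ g : TT → ℝ, ContinuousOn g (arc a) ∧
    ∀ t ∈ Icc a (a + Real.pi), g (t : TT) = t := by
  have hp := Real.pi_pos
  have hm : ∀ t ∈ Icc a (a + Real.pi),
      t ∈ Ico (a - Real.pi / 2) (a - Real.pi / 2 + 2 * Real.pi) := fun t ht =>
    ⟨by linarith [ht.1], by linarith [ht.2]⟩
  refine ⟨fun x => AddCircle.equivIco (2 * Real.pi) (a - Real.pi / 2) x, ?_, fun t ht => ?_⟩
  · rintro _ ⟨t, ht, rfl⟩
    refine (continuous_subtype_val.continuousAt.comp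
      (AddCircle.continuousAt_equivIco _ _ fun h => ?_)).continuousWithinAt
    rw [AddCircle.coe_eq_coe_iff_of_mem_Ico (hm t ht) ⟨le_rfl, by linarith⟩] at h
    linarith [ht.1]
  · simp only [AddCircle.equivIco_coe_eq (hm t ht)]

theorem finE_iff {X : Type} [MetricSpace X] {A B : Set X} :
    FinE id 1 A B ↔ ∀ j, FiniteDimensional F3 (Hc A B j) := by
  refine forall_congr' fun j => ?_
  rw [HE_id]
  exact ⟨fun _ => Submodule.topEquiv.finiteDimensional, fun _ => inferInstance⟩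

theorem fin_arc (h : ∀ j, FiniteDimensional F3 (Habs Y j)) (a : ℝ) (j : ℕ) :
    FiniteDimensional F3 (Hc (arc a ×ˢ (univ : Set Y)) ∅ j) := by
  obtain ⟨g, hg, hg'⟩ := arc_inv a
  have hp := Real.pi_pos
  have cA : IsCompact (arc a ×ˢ (univ : Set Y)) := (arc_compact a).prod isCompact_univ
  let H : ℝ → TT × Y → TT × Y := fun t p => (((g p.1 + t * (a - g p.1) : ℝ) : TT), p.2)
  have hc : ContinuousOn (Function.uncurry H) (Icc 0 1 ×ˢ (arc a ×ˢ (univ : Set Y))) := by
    have h1 : ContinuousOn (fun z : ℝ × TT × Y => g z.2.1)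
        (Icc 0 1 ×ˢ (arc a ×ˢ (univ : Set Y))) :=
      hg.comp (by fun_prop) fun z hz => hz.2.1
    exact (cont_coe.comp_continuousOn (h1.add (continuousOn_fst.mul
      (continuousOn_const.sub h1)))).prodMk (by fun_prop)
  have mH : ∀ t ∈ Icc (0 : ℝ) 1, MapsTo (H t) (arc a ×ˢ univ) (arc a ×ˢ univ) := by
    rintro t ht ⟨_, y⟩ ⟨⟨s, hs, rfl⟩, -⟩
    refine ⟨⟨_, ?_, rfl⟩, mem_univ _⟩
    simp only [hg' s hs]
    constructor <;> nlinarith [ht.1, ht.2, hs.1, hs.2]
  have aH : ∀ t ∈ Icc (0 : ℝ) 1, Adm (H t) (arc a ×ˢ univ) ∅ (arc a ×ˢ univ) ∅ := fun t ht =>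
    Adm.of_compact cA (hc.comp (f := fun p => (t, p)) (by fun_prop) fun p hp => ⟨ht, hp⟩)
      (mH t ht) (mapsTo_empty _ _) (empty_subset _)
  have a1 : Adm (Prod.snd : TT × Y → Y) (arc a ×ˢ univ) ∅ univ ∅ :=
    Adm.of_compact cA (by fun_prop) (mapsTo_univ _ _) (mapsTo_empty _ _) (empty_subset _)
  have a2 : Adm (fun y : Y => ((a : TT), y)) univ ∅ (arc a ×ˢ univ) ∅ :=
    Adm.of_compact isCompact_univ (by fun_prop)
      (fun y _ => ⟨⟨a, ⟨le_rfl, by linarith⟩, rfl⟩, mem_univ _⟩) (mapsTo_empty _ _)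
      (empty_subset _)
  have := h j
  refine Module.Finite.of_surjective (Hpb a1 j) fun x => ⟨Hpb a2 j x, ?_⟩
  rw [Hpb_comp, Hpb_congr (a2.comp a1) (aH 1 (by simp)) (fun p _ => by simp [H]),
    ← Hpb_homotopy cA H hc mH (fun t _ => mapsTo_empty _ _) (aH 0 (by simp)) (aH 1 (by simp))]
  refine Hpb_id _ ?_ j x
  rintro ⟨_, y⟩ ⟨⟨s, hs, rfl⟩, -⟩
  simp [H, hg' s hs]

theorem fin_rel (h : ∀ j, FiniteDimensional F3 (Habs Y j)) (a : ℝ) (j : ℕ) :
    FiniteDimensional F3 (Hc (arc a ×ˢ (univ : Set Y))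
      (((fun t : ℝ => (t : TT)) '' {a, a + Real.pi}) ×ˢ univ) j) := by
  obtain ⟨g, hg, hg'⟩ := arc_inv a
  have hp := Real.pi_pos
  have cA : IsCompact (arc a ×ˢ (univ : Set Y)) := (arc_compact a).prod isCompact_univ
  have hsub : ({a, a + Real.pi} : Set ℝ) ⊆ Icc a (a + Real.pi) := by
    rintro t (rfl | rfl)
    exacts [⟨le_rfl, by linarith⟩, ⟨by linarith, le_rfl⟩]
  have hs := susp (sym_id (X := Y)) (A := univ) (B := ∅)
    ⟨isCompact_univ, isCompact_empty, empty_subset _, mapsTo_id _, mapsTo_id _⟩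
    (a := a) (b := a + Real.pi) (by linarith)
  have hf := (hs.fin (finE_iff.2 h)).1
  rw [Prod.map_id, finE_iff, empty_prod, union_empty] at hf
  have a1 : Adm (fun p : TT × Y => (p.2, g p.1)) (arc a ×ˢ univ)
      (((fun t : ℝ => (t : TT)) '' {a, a + Real.pi}) ×ˢ univ) (univ ×ˢ Icc a (a + Real.pi))
      (univ ×ˢ {a, a + Real.pi}) := by
    refine Adm.of_compact cA (continuousOn_snd.prodMk (hg.comp continuousOn_fst fun z hz => hz.1))
      ?_ ?_ (prod_mono (image_mono hsub) subset_rfl)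
    · rintro ⟨_, y⟩ ⟨⟨s, hs, rfl⟩, -⟩
      exact ⟨mem_univ _, by simpa only [hg' s hs] using hs⟩
    · rintro ⟨_, y⟩ ⟨⟨s, hs, rfl⟩, -⟩
      exact ⟨mem_univ _, by simpa only [hg' s (hsub hs)] using hs⟩
  have a2 : Adm (fun p : Y × ℝ => ((p.2 : TT), p.1)) (univ ×ˢ Icc a (a + Real.pi))
      (univ ×ˢ {a, a + Real.pi}) (arc a ×ˢ univ)
      (((fun t : ℝ => (t : TT)) '' {a, a + Real.pi}) ×ˢ univ) :=
    Adm.of_compact (isCompact_univ.prod isCompact_Icc)
      ((cont_coe.comp continuous_snd).prodMk continuous_fst).continuousOn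
      (fun p hp => ⟨⟨_, hp.2, rfl⟩, mem_univ _⟩) (fun p hp => ⟨⟨_, hp.2, rfl⟩, mem_univ _⟩)
      (prod_mono subset_rfl hsub)
  have := hf j
  refine Module.Finite.of_surjective (Hpb a1 j) fun x => ⟨Hpb a2 j x, ?_⟩
  rw [Hpb_comp]
  refine Hpb_id _ ?_ j x
  rintro ⟨_, y⟩ ⟨⟨s, hs, rfl⟩, -⟩
  simp [hg' s hs]

end CircAux

open CircAux

theorem circ_inj0 (j : ℕ) : Function.Injective (Hp (continuous_snd (X := TT) (Y := Y)) j) := by
  refine Function.LeftInverse.injective (g := Hp cont_sl j) fun u => ?_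
  rw [Hp_comp]
  exact Hp_id _ (fun _ => rfl) j u

theorem circ_inj (j : ℕ) (u : Habs Y (j + 1)) (v : Habs Y j)
    (h : Hp (continuous_snd (X := TT) (Y := Y)) (j + 1) u +
      HL (continuous_fst (X := TT) (Y := Y)) j (Hp (continuous_snd (X := TT) (Y := Y)) j v) = 0) :
    u = 0 ∧ v = 0 := by
  have hu : u = 0 := by
    have := congrArg (Hp (cont_sl (Y := Y)) (j + 1)) h
    rwa [map_add, map_zero, Hp_comp, Hp_id _ (fun _ => rfl), HL_nat, HL_zero _ (fun _ => rfl),
      add_zero] at this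
  rw [hu, map_zero, zero_add] at h
  exact ⟨hu, HL_inj j v h⟩

theorem circ_fin (h : ∀ j, FiniteDimensional F3 (Habs Y j)) (j : ℕ) :
    FiniteDimensional F3 (Habs (TT × Y) j) := by
  have hp := Real.pi_pos
  have cA : ∀ a, IsCompact (arc a ×ˢ (univ : Set Y)) := fun a =>
    (arc_compact a).prod isCompact_univ
  have hper : ((Real.pi + Real.pi : ℝ) : TT) = (0 : ℝ) := by
    rw [← two_mul, AddCircle.coe_period, AddCircle.coe_zero]
  have ad : Adm (id : TT × Y → TT × Y) (arc Real.pi ×ˢ univ)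
      (((fun t : ℝ => (t : TT)) '' {Real.pi, Real.pi + Real.pi}) ×ˢ univ) univ
      (arc 0 ×ˢ univ) := by
    refine Adm.inc (subset_univ _) (prod_mono ?_ subset_rfl) (prod_mono (image_mono ?_) subset_rfl)
    · rintro _ ⟨t, rfl | rfl, rfl⟩
      · exact ⟨Real.pi, ⟨hp.le, by linarith⟩, rfl⟩
      · exact ⟨0, ⟨le_rfl, by linarith⟩, hper.symm⟩
    · rintro t (rfl | rfl)
      exacts [⟨le_rfl, by linarith⟩, ⟨by linarith, le_rfl⟩]
  have ex : ∀ j, Function.Bijective (Hpb ad j) := by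
    refine excision (cA 0) (cA Real.pi) ?_ (subset_univ _) ?_ ad
    · rintro ⟨x, y⟩ -
      obtain ⟨t, ht, rfl⟩ := AddCircle.eq_coe_Ico x
      rcases le_total t Real.pi with h1 | h1
      · exact Or.inl ⟨⟨t, ⟨ht.1, by linarith⟩, rfl⟩, mem_univ _⟩
      · exact Or.inr ⟨⟨t, ⟨h1, by linarith [ht.2]⟩, rfl⟩, mem_univ _⟩
    · rintro ⟨_, y⟩ ⟨⟨⟨s, hs, rfl⟩, -⟩, ⟨t, ht, e⟩, -⟩
      refine ⟨⟨t, ?_, e⟩, mem_univ _⟩
      rcases ht.2.eq_or_lt with h1 | h1
      · exact Or.inr h1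
      · have := (AddCircle.coe_eq_coe_iff_of_mem_Ico (p := 2 * Real.pi) (a := 0)
          ⟨by linarith [ht.1], by linarith⟩ ⟨hs.1, by linarith [hs.2]⟩).1 e
        exact Or.inl (by linarith [ht.1, hs.2])
  have f1 : FinE id 1 (univ : Set (TT × Y)) (arc 0 ×ˢ univ) := finE_iff.2 fun j => by
    have := fin_rel h Real.pi j
    exact Module.Finite.of_injective (Hpb ad j) (ex j).1
  have f2 : FinE id 1 (arc 0 ×ˢ (univ : Set Y)) ∅ := finE_iff.2 (fin_arc h 0)
  exact finE_iff.1 (SE_subadd sym_id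
    ⟨isCompact_univ, cA 0, subset_univ _, mapsTo_id _, mapsTo_id _⟩
    ⟨cA 0, isCompact_empty, empty_subset _, mapsTo_id _, mapsTo_id _⟩ f1 f2).1 j

end Vale.Agent.P265
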