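import Vale.Agent.P265.AS

/-! P265: homotopy invariance, strong excision, disjoint unions, the point. -/

open Set

noncomputable section

namespace Vale.Agent.P265

variable {X Y : Type} [MetricSpace X] [MetricSpace Y]

namespace CoreAux

theorem prism_Van {C : Set X} {C' : Set Y} {f g : X → Y} {ε δ : ℝ} {n : ℕ} {φ : Co Y}
    (hφ : ∀ l : List Y, l.length = n + 1 → Small C' ε l → φ l = 0) (hδ : 0 < δ)
    (mf : MapsTo f C C') (mg : MapsTo g C C')
    (cl : ∀ x ∈ C, ∀ y ∈ C, dist x y < δ →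
      dist (f x) (f y) < ε ∧ dist (f x) (g y) < ε ∧ dist (g x) (f y) < ε ∧ dist (g x) (g y) < ε) :
    prism f g φ ∈ Van C n := by
  refine ⟨δ, hδ, fun l hl hs => prism_local f g (S := {z | ∃ x ∈ l, z = f x ∨ z = g x})
    (fun m hm hmS => hφ m hm ⟨fun z hz => ?_, fun z hz w hw => ?_⟩) hl
    fun x hx => ⟨⟨x, hx, .inl rfl⟩, ⟨x, hx, .inr rfl⟩⟩⟩
  · obtain ⟨x, hx, rfl | rfl⟩ := hmS z hz
    exacts [mf (hs.1 x hx), mg (hs.1 x hx)]
  · obtain ⟨x, hx, h1⟩ := hmS z hz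
    obtain ⟨y, hy, h2⟩ := hmS w hw
    have := cl x (hs.1 x hx) y (hs.1 y hy) (hs.2 x hx y hy)
    rcases h1 with rfl | rfl <;> rcases h2 with rfl | rfl
    exacts [this.1, this.2.1, this.2.2.1, this.2.2.2]

theorem cont_slice {A : Set X} {h : ℝ → X → Y}
    (hc : ContinuousOn (Function.uncurry h) (Icc 0 1 ×ˢ A)) {t : ℝ} (ht : t ∈ Icc (0 : ℝ) 1) :
    ContinuousOn (h t) A :=
  hc.comp (f := fun x => (t, x)) (by fun_prop) fun _ hx => ⟨ht, hx⟩

theorem mem_Van_point {p : X} {n : ℕ} {φ : Co X} :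
    φ ∈ Van {p} n ↔ φ (List.replicate n p) = 0 := by
  constructor
  · rintro ⟨ε, hε, h⟩
    refine h _ (by simp) ⟨fun x hx => List.eq_of_mem_replicate hx, fun x hx y hy => ?_⟩
    rw [List.eq_of_mem_replicate hx, List.eq_of_mem_replicate hy, dist_self]
    exact hε
  · intro h
    refine ⟨1, one_pos, fun l hl hs => ?_⟩
    rw [List.eq_replicate_iff.2 ⟨hl, hs.1⟩, h]

omit [MetricSpace X] in
theorem dd_rep (p : X) (n : ℕ) (φ : Co X) :
    dd φ (List.replicate (n + 1) p) = if Even n then φ (List.replicate n p) else 0 := by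
  induction n generalizing φ with
  | zero => simp [dd_cons]
  | succ n ih =>
    rw [List.replicate_succ, dd_cons, ih, fr_apply, ← List.replicate_succ]
    by_cases hn : Even n <;> simp [Nat.even_add_one, hn]

end CoreAux

open CoreAux

theorem Hpb_homotopy {A B : Set X} {A' B' : Set Y} (hA : IsCompact A) (h : ℝ → X → Y)
    (hc : ContinuousOn (Function.uncurry h) (Icc 0 1 ×ˢ A))
    (mA : ∀ t ∈ Icc (0 : ℝ) 1, MapsTo (h t) A A') (mB : ∀ t ∈ Icc (0 : ℝ) 1, MapsTo (h t) B B')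
    (h0 : Adm (h 0) A B A' B') (h1 : Adm (h 1) A B A' B') (j : ℕ) (x : Hc A' B' j) :
    Hpb h0 j x = Hpb h1 j x := by
  obtain ⟨φ, hφ, rfl⟩ := cl_surj x
  obtain ⟨⟨ε₁, hε₁, p₁⟩, ⟨ε₂, hε₂, p₂⟩⟩ := mem_Zc.1 hφ
  obtain ⟨δ, hδ, hu⟩ := Metric.uniformContinuousOn_iff.1
    ((isCompact_Icc.prod hA).uniformContinuousOn_of_continuous hc) _ (lt_min hε₁ hε₂)
  have close : ∀ s ∈ Icc (0 : ℝ) 1, ∀ t ∈ Icc (0 : ℝ) 1, dist s t < δ → ∀ x ∈ A, ∀ y ∈ A,
      dist x y < δ → dist (h s x) (h t y) < min ε₁ ε₂ := fun s hs t ht hst x hx y hy hxy =>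
    hu (s, x) ⟨hs, hx⟩ (t, y) ⟨ht, hy⟩ (by rw [Prod.dist_eq]; exact max_lt hst hxy)
  have step : ∀ s ∈ Icc (0 : ℝ) 1, ∀ t ∈ Icc (0 : ℝ) 1, dist s t < δ →
      pb (h t) φ - pb (h s) φ ∈ Bc A B j := fun s hs t ht hst => by
    have c4 : ∀ x ∈ A, ∀ y ∈ A, dist x y < δ → dist (h s x) (h s y) < min ε₁ ε₂ ∧
        dist (h s x) (h t y) < min ε₁ ε₂ ∧ dist (h t x) (h s y) < min ε₁ ε₂ ∧
        dist (h t x) (h t y) < min ε₁ ε₂ := fun x hx y hy hxy =>
      ⟨close s hs s hs (by rwa [dist_self]) x hx y hy hxy, close s hs t ht hst x hx y hy hxy,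
        close t ht s hs (by rwa [dist_comm]) x hx y hy hxy,
        close t ht t ht (by rwa [dist_self]) x hx y hy hxy⟩
    refine mem_Bc.2 ⟨prism (h s) (h t) φ, prism_Van
      (fun l hl hs => p₁ l hl (hs.mono subset_rfl (min_le_left _ ε₂))) hδ (mB s hs) (mB t ht)
      fun x hx y hy => c4 x (h0.sub hx) y (h0.sub hy), ?_⟩
    rw [← prism_eq, add_sub_cancel_left]
    exact prism_Van (fun l hl hs => p₂ l hl (hs.mono subset_rfl (min_le_right ε₁ _))) hδ (mA s hs)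
      (mA t ht) c4
  have chain : ∀ n : ℕ, ∀ t ∈ Icc (0 : ℝ) 1, t ≤ n * (δ / 2) →
      pb (h t) φ - pb (h 0) φ ∈ Bc A B j := by
    intro n
    induction n with
    | zero =>
      intro t ht htn
      obtain rfl : t = 0 := le_antisymm (by simpa using htn) ht.1
      rw [sub_self]
      exact zero_mem _
    | succ n ih =>
      intro t ht htn
      by_cases hle : t ≤ n * (δ / 2)
      · exact ih t ht hle
      push Not at hle
      have hs : (n : ℝ) * (δ / 2) ∈ Icc (0 : ℝ) 1 := ⟨by positivity, hle.le.trans ht.2⟩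
      have := add_mem (step _ hs t ht (by
        rw [Real.dist_eq, abs_sub_comm, abs_of_pos (sub_pos.2 hle)]
        push_cast at htn
        linarith)) (ih _ hs le_rfl)
      rwa [sub_add_sub_cancel] at this
  obtain ⟨n, hn⟩ := exists_nat_ge (1 / (δ / 2))
  rw [Hpb_cl, Hpb_cl, eq_comm, cl_eq]
  exact chain n 1 ⟨zero_le_one, le_rfl⟩ ((div_le_iff₀ (half_pos hδ)).1 hn)

theorem Hc_vanish {A B : Set X} (hA : IsCompact A) (hB : B ⊆ A) (h : ℝ → X → X)
    (hc : ContinuousOn (Function.uncurry h) (Icc 0 1 ×ˢ A))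
    (mA : ∀ t ∈ Icc (0 : ℝ) 1, MapsTo (h t) A A) (mB : ∀ t ∈ Icc (0 : ℝ) 1, MapsTo (h t) B B)
    (h0 : ∀ x ∈ A, h 0 x = x) (h1 : MapsTo (h 1) A B) (j : ℕ) (x : Hc A B j) : x = 0 := by
  have ad : ∀ t ∈ Icc (0 : ℝ) 1, Adm (h t) A B A B := fun t ht =>
    Adm.of_compact hA (cont_slice hc ht) (mA t ht) (mB t ht) hB
  have a0 := ad 0 ⟨le_rfl, zero_le_one⟩
  have a1 := ad 1 ⟨zero_le_one, le_rfl⟩
  rw [← Hpb_id a0 h0 j x, Hpb_homotopy hA h hc mA mB a0 a1]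
  obtain ⟨φ, hφ, rfl⟩ := cl_surj x
  rw [Hpb_cl, cl_eq_zero]
  exact Submodule.mem_sup_left (pb_mem_Van a1.uc h1 hφ.1)

theorem Hpb_bij {f : X → Y} {g : Y → X} {A B : Set X} {A' B' : Set Y} (hf : Adm f A B A' B')
    (hg : Adm g A' B' A B) (j : ℕ) (h1 : ∀ x, Hpb (hg.comp hf) j x = x)
    (h2 : ∀ x, Hpb (hf.comp hg) j x = x) : Function.Bijective (Hpb hf j) :=
  Function.bijective_iff_has_inverse.2 ⟨Hpb hg j, fun x => (Hpb_comp hf hg j x).trans (h2 x),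
    fun x => (Hpb_comp hg hf j x).trans (h1 x)⟩

theorem Hc_point (p : X) (j : ℕ) : FiniteDimensional F3 (Hc {p} ∅ j) ∧
    Module.finrank F3 (Hc {p} ∅ j) = if j = 0 then 1 else 0 := by
  cases j with
  | zero =>
    have hZ : ∀ φ : Co X, φ ∈ Zc {p} ∅ 0 := fun φ =>
      mem_Zc.2 ⟨mem_Van_empty _ _, mem_Van_point.2 (by rw [dd_rep]; simp)⟩
    have h1 : Module.finrank F3 (Hc {p} ∅ 0) = 1 := by
      refine finrank_eq_one_iff'.2 ⟨cl (fun _ => 1) (hZ _), fun h0 => ?_, fun w => ?_⟩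
      · obtain ⟨χ, hχ, h'⟩ := mem_Bc.1 (cl_eq_zero.1 h0)
        rw [Van_zero ∅ {p}, mem_Van_point] at hχ
        rw [mem_Van_point, Pi.sub_apply, dd_rep, hχ] at h'
        simp at h'
      · obtain ⟨φ, hφ, rfl⟩ := cl_surj w
        refine ⟨φ [p], ?_⟩
        rw [cl_smul, cl_eq]
        exact Submodule.mem_sup_left (mem_Van_point.2 (by simp))
    exact ⟨Module.finite_of_finrank_eq_succ h1, by simpa using h1⟩
  | succ j =>
    have h0 : ∀ x : Hc {p} ∅ (j + 1), x = 0 := fun x => by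
      obtain ⟨φ, hφ, rfl⟩ := cl_surj x
      rw [cl_eq_zero]
      by_cases hj : Even (j + 1)
      · refine mem_Bc.2 ⟨fun _ => φ (List.replicate (j + 1 + 1) p), mem_Van_empty _ _,
          mem_Van_point.2 ?_⟩
        rw [Pi.sub_apply, dd_rep, if_pos hj, sub_self]
      · have := mem_Van_point.1 (mem_Zc.1 hφ).2
        rw [dd_rep, if_pos (Nat.even_add_one.2 hj)] at this
        exact Submodule.mem_sup_left (mem_Van_point.2 this)
    have : Subsingleton (Hc {p} ∅ (j + 1)) := ⟨fun x y => by rw [h0 x, h0 y]⟩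
    exact ⟨inferInstance, by simpa using Module.finrank_zero_of_subsingleton⟩

end Vale.Agent.P265
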