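import Vale.Agent.P265.AS

/-! P265: strong excision and disjoint unions. -/

open Set

noncomputable section

namespace Vale.Agent.P265

variable {X Y : Type} [MetricSpace X] [MetricSpace Y]

namespace CoreBAux

open Classical in
/-- Patch two cochains. -/
def patch (S : Set X) (φ ψ : Co X) : Co X := fun l => if ∀ x ∈ l, x ∈ S then φ l else ψ l

omit [MetricSpace X] in
theorem patch_pos {S : Set X} {φ ψ : Co X} {l : List X} (h : ∀ x ∈ l, x ∈ S) :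
    patch S φ ψ l = φ l := if_pos h

omit [MetricSpace X] in
theorem patch_neg {S : Set X} {φ ψ : Co X} {l : List X} (h : ¬ ∀ x ∈ l, x ∈ S) :
    patch S φ ψ l = ψ l := if_neg h

omit [MetricSpace X] in
theorem dd_congr {n : ℕ} {φ ψ : Co X} {l : List X} (hl : l.length = n + 1)
    (h : ∀ m : List X, m.length = n → (∀ x ∈ m, x ∈ l) → φ m = ψ m) : dd φ l = dd ψ l := by
  have := dd_local (S := {x | x ∈ l}) (φ := φ - ψ)
    (fun m hm hS => by rw [Pi.sub_apply, h m hm hS, sub_self]) hl fun _ hx => hx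
  rwa [map_sub, Pi.sub_apply, sub_eq_zero] at this

theorem exists_sep {A B : Set X} (hA : IsCompact A) (hB : IsCompact B) (h : Disjoint A B) :
    ∃ δ > 0, ∀ a ∈ A, ∀ b ∈ B, δ ≤ dist a b := by
  obtain ⟨δ, hδ, hd⟩ := h.exists_thickenings hA hB.isClosed
  refine ⟨δ, hδ, fun a ha b hb => not_lt.1 fun hlt => ?_⟩
  exact Set.disjoint_left.1 hd (Metric.self_subset_thickening hδ A ha)
    (Metric.mem_thickening_iff.2 ⟨b, hb, hlt⟩)

theorem exists_rho {U A B : Set X} (hA : IsCompact A) (hB : IsCompact B) (hU : U ⊆ A ∪ B)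
    {ε : ℝ} (hε : 0 < ε) : ∃ (ρ : X → X) (δ : ℝ), 0 < δ ∧ (∀ x ∈ B, ρ x = x) ∧
      (∀ x ∈ A, ρ x ∈ A) ∧
      (∀ l : List X, Small U δ l → (∀ x ∈ l, x ∈ A) ∨ ∀ x ∈ l, ρ x ∈ B) ∧
      ∀ (S T : Set X) (l m : List X), Small S δ l → (∀ y ∈ m, y ∈ T) →
        (∀ y ∈ m, ∃ x ∈ l, y = x ∨ y = ρ x) → Small T ε m := by
  classical
  have h3 : 0 < ε / 3 := by positivity
  obtain ⟨δ, hδ, hd⟩ := exists_sep (hA.diff (Metric.isOpen_thickening (δ := ε / 3) (E := A ∩ B)))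
    hB (Set.disjoint_left.2 fun x hx hxB =>
      hx.2 (Metric.self_subset_thickening h3 _ ⟨hx.1, hxB⟩))
  let ρ : X → X := fun x => if x ∈ B then x else
    if h : ∃ c ∈ A ∩ B, dist x c < ε / 3 then h.choose else x
  have hρ : ∀ x, dist (ρ x) x < ε / 3 := fun x => by
    simp only [ρ]
    split_ifs with h1 h2
    · simpa using h3
    · rw [dist_comm]; exact h2.choose_spec.2
    · simpa using h3
  refine ⟨ρ, min δ (ε / 3), lt_min hδ h3, fun x hx => if_pos hx, fun x hx => ?_, fun l hl => ?_,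
    fun S T l m hl hT hm => ⟨hT, fun y hy z hz => ?_⟩⟩
  · simp only [ρ]
    split_ifs with h1 h2
    exacts [hx, h2.choose_spec.1.1, hx]
  · by_cases hall : ∀ x ∈ l, x ∈ A
    · exact Or.inl hall
    · push Not at hall
      obtain ⟨b, hb, hbA⟩ := hall
      have hbB : b ∈ B := (hU (hl.1 b hb)).resolve_left hbA
      refine Or.inr fun x hx => ?_
      simp only [ρ]
      split_ifs with h1 h2
      · exact h1
      · exact h2.choose_spec.1.2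
      · refine absurd ((hl.2 x hx b hb).trans_le (min_le_left _ _)) (not_lt.2 ?_)
        exact hd x ⟨(hU (hl.1 x hx)).resolve_right h1, fun h => h2
          (Metric.mem_thickening_iff.1 h)⟩ b hbB
  · obtain ⟨x, hx, e1⟩ := hm y hy
    obtain ⟨x', hx', e2⟩ := hm z hz
    have d0 := (hl.2 x hx x' hx').trans_le (min_le_right _ _)
    have d1 : dist y x < ε / 3 := by
      rcases e1 with rfl | rfl
      exacts [by simpa using h3, hρ x]
    have d2 : dist z x' < ε / 3 := by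
      rcases e2 with rfl | rfl
      exacts [by simpa using h3, hρ x']
    have := dist_triangle4 y x x' z
    rw [dist_comm x' z] at this
    linarith

end CoreBAux

open CoreBAux

theorem excision {U A B D : Set X} (hA : IsCompact A) (hB : IsCompact B) (hU : U ⊆ A ∪ B)
    (hAU : A ⊆ U) (hD : A ∩ B ⊆ D) (h : Adm id B D U A) (j : ℕ) :
    Function.Bijective (Hpb h j) := by
  have hBU : B ⊆ U := h.mA
  have cutv : ∀ {ρ : X → X} {δ ε : ℝ} {n : ℕ} {φ : Co X}, (∀ x ∈ A, ρ x ∈ A) →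
      (∀ (S T : Set X) (l m : List X), Small S δ l → (∀ y ∈ m, y ∈ T) →
        (∀ y ∈ m, ∃ x ∈ l, y = x ∨ y = ρ x) → Small T ε m) →
      (∀ l : List X, l.length = n → Small D ε l → φ l = 0) →
      ∀ l : List X, l.length = n → Small A δ l → pb ρ (patch B φ 0) l = 0 := by
    intro ρ δ ε n φ h2 h4 hφ l hl hs
    rw [pb_apply]
    by_cases hall : ∀ x ∈ l.map ρ, x ∈ B
    · rw [patch_pos hall]
      refine hφ _ (by simpa using hl) (h4 A D l _ hs (fun y hy => hD ⟨?_, hall y hy⟩) fun y hy => ?_)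
      · obtain ⟨x, hx, rfl⟩ := List.mem_map.1 hy
        exact h2 x (hs.1 x hx)
      · obtain ⟨x, hx, rfl⟩ := List.mem_map.1 hy
        exact ⟨x, hx, Or.inr rfl⟩
    · rw [patch_neg hall]; rfl
  have cutd : ∀ {ρ : X → X} {n : ℕ} {φ : Co X} {l : List X}, l.length = n + 1 →
      (∀ x ∈ l, ρ x ∈ B) → dd (pb ρ (patch B φ 0)) l = dd φ (l.map ρ) := by
    intro ρ n φ l hl hb
    rw [← pb_dd, pb_apply]
    refine dd_congr (n := n) (by simpa using hl) fun m _ hm => patch_pos fun y hy => ?_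
    obtain ⟨x, hx, rfl⟩ := List.mem_map.1 (hm y hy)
    exact hb x hx
  have maps : ∀ {ρ : X → X} {l : List X}, ∀ y ∈ l.map ρ, ∃ x ∈ l, y = x ∨ y = ρ x := by
    intro ρ l y hy
    obtain ⟨x, hx, rfl⟩ := List.mem_map.1 hy
    exact ⟨x, hx, Or.inr rfl⟩
  have mapt : ∀ {ρ : X → X} {l : List X} {T : Set X}, (∀ x ∈ l, ρ x ∈ T) →
      ∀ y ∈ l.map ρ, y ∈ T := by
    intro ρ l T hT y hy
    obtain ⟨x, hx, rfl⟩ := List.mem_map.1 hy
    exact hT x hx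
  constructor
  · rw [injective_iff_map_eq_zero]
    intro x h0
    obtain ⟨ψ, hψ, rfl⟩ := cl_surj x
    rw [Hpb_cl, cl_eq_zero, pb_id] at h0
    obtain ⟨χ, ⟨ε₁, p₁, v₁⟩, ⟨ε₂, p₂, v₂⟩⟩ := mem_Bc.1 h0
    obtain ⟨⟨ε₃, p₃, v₃⟩, ⟨ε₄, p₄, v₄⟩⟩ := mem_Zc.1 hψ
    obtain ⟨ρ, δ, hδ, h1, h2, h3, h4⟩ := exists_rho hA hB hU
      (lt_min (lt_min p₁ p₂) (lt_min p₃ p₄))
    have m₁ : min (min ε₁ ε₂) (min ε₃ ε₄) ≤ ε₁ := (min_le_left _ _).trans (min_le_left _ _)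
    have m₂ : min (min ε₁ ε₂) (min ε₃ ε₄) ≤ ε₂ := (min_le_left _ _).trans (min_le_right _ _)
    have m₃ : min (min ε₁ ε₂) (min ε₃ ε₄) ≤ ε₃ := (min_le_right _ _).trans (min_le_left _ _)
    have m₄ : min (min ε₁ ε₂) (min ε₃ ε₄) ≤ ε₄ := (min_le_right _ _).trans (min_le_right _ _)
    have hρU : ∀ x ∈ U, ρ x ∈ U := fun x hx => by
      rcases hU hx with hx' | hx'
      · exact hAU (h2 x hx')
      · rw [h1 x hx']; exact hx
    have pr : ∀ {S : Set X} {n : ℕ} {θ : Co X} {ε : ℝ}, min (min ε₁ ε₂) (min ε₃ ε₄) ≤ ε →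
        (∀ x ∈ S, ρ x ∈ S) → (∀ l : List X, l.length = n + 1 → Small S ε l → θ l = 0) →
        prism id ρ θ ∈ Van S n := by
      intro S n θ ε hle hS hθ
      refine ⟨δ, hδ, fun l hl hs => prism_local id ρ (S := {y | ∃ x ∈ l, y = x ∨ y = ρ x})
        (fun m hm hmS => hθ m hm ((h4 S S l m hs (fun y hy => ?_) hmS).mono subset_rfl hle)) hl
        fun x hx => ⟨⟨x, hx, Or.inl rfl⟩, ⟨x, hx, Or.inr rfl⟩⟩⟩
      obtain ⟨x, hx, rfl | rfl⟩ := hmS y hy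
      exacts [hs.1 _ hx, hS x (hs.1 x hx)]
    have c1 := cutv (φ := χ) h2 h4 fun l hl hs => v₁ l hl (hs.mono subset_rfl m₁)
    have k1 : pb ρ ψ - dd (pb ρ (patch B χ 0)) ∈ Van U (j + 1) := by
      refine ⟨δ, hδ, fun l hl hs => ?_⟩
      rw [Pi.sub_apply]
      rcases h3 l hs with hall | hall
      · rw [pb_apply, v₃ _ (by simpa using hl) ((h4 U A l _ hs
          (mapt fun x hx => h2 x (hall x hx)) maps).mono subset_rfl m₃), zero_sub, neg_eq_zero]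
        exact dd_local (S := {x | x ∈ l}) (fun m hm hmS =>
          c1 m hm (Small.sub ⟨hall, hs.2⟩ hmS)) hl fun _ hx => hx
      · rw [cutd hl hall, pb_apply]
        exact v₂ _ (by simpa using hl) ((h4 U B l _ hs (mapt hall) maps).mono subset_rfl m₂)
    refine cl_eq_zero.2 (mem_Bc.2 ⟨pb ρ (patch B χ 0) - prism id ρ ψ,
      sub_mem ⟨δ, hδ, c1⟩ (pr m₃ h2 v₃), ?_⟩)
    have e := prism_eq id ρ ψ
    rw [pb_id] at e
    have e' : ψ - dd (pb ρ (patch B χ 0) - prism id ρ ψ) =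
        pb ρ ψ - dd (pb ρ (patch B χ 0)) - prism id ρ (dd ψ) := by
      rw [map_sub, eq_sub_of_add_eq e]
      abel
    rw [e']
    exact sub_mem k1 (pr m₄ hρU v₄)
  · intro x
    obtain ⟨φ, hφ, rfl⟩ := cl_surj x
    obtain ⟨⟨ε₁, p₁, v₁⟩, ⟨ε₂, p₂, v₂⟩⟩ := mem_Zc.1 hφ
    obtain ⟨ρ, δ, hδ, h1, h2, h3, h4⟩ := exists_rho hA hB hU (lt_min p₁ p₂)
    have c1 := cutv (φ := φ) h2 h4 fun l hl hs => v₁ l hl (hs.mono subset_rfl (min_le_left _ _))
    refine ⟨cl (pb ρ (patch B φ 0)) (mem_Zc.2 ⟨⟨δ, hδ, c1⟩, δ, hδ, fun l hl hs => ?_⟩), ?_⟩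
    · rcases h3 l hs with hall | hall
      · exact dd_local (S := {x | x ∈ l}) (fun m hm hmS =>
          c1 m hm (Small.sub ⟨hall, hs.2⟩ hmS)) hl fun _ hx => hx
      · rw [cutd hl hall]
        exact v₂ _ (by simpa using hl)
          ((h4 U B l _ hs (mapt hall) maps).mono subset_rfl (min_le_right _ _))
    · rw [Hpb_cl, cl_eq, pb_id]
      refine Submodule.mem_sup_left ⟨1, one_pos, fun l _ hs => ?_⟩
      rw [Pi.sub_apply, pb_apply, List.map_congr_left (g := id) fun x hx => h1 x (hs.1 x hx),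
        List.map_id, patch_pos hs.1, sub_self]

theorem disjoint_bij {A B A₁ B₁ A₂ B₂ : Set X} (c₁ : IsCompact A₁) (c₂ : IsCompact A₂)
    (hd : Disjoint A₁ A₂) (hA : A ⊆ A₁ ∪ A₂) (hB : B ⊆ B₁ ∪ B₂) (h₁ : Adm id A₁ B₁ A B)
    (h₂ : Adm id A₂ B₂ A B) (j : ℕ) : Function.Bijective ((Hpb h₁ j).prod (Hpb h₂ j)) := by
  obtain ⟨δ, hδ, hs⟩ := exists_sep c₁ c₂ hd
  have hB' : B ⊆ A₁ ∪ A₂ := hB.trans (union_subset_union h₁.sub h₂.sub)
  have two : ∀ {S : Set X} {ε : ℝ} {l : List X}, S ⊆ A₁ ∪ A₂ → Small S ε l → ε ≤ δ →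
      (¬ ∀ x ∈ l, x ∈ A₁) → ∀ x ∈ l, x ∉ A₁ := by
    intro S ε l hS hl hε hn x hx hx1
    push Not at hn
    obtain ⟨b, hb, hb1⟩ := hn
    exact absurd ((hl.2 x hx b hb).trans_le hε)
      (not_lt.2 (hs x hx1 b ((hS (hl.1 b hb)).resolve_left hb1)))
  have pv : ∀ {n : ℕ} {φ₁ φ₂ : Co X}, φ₁ ∈ Van B₁ n → φ₂ ∈ Van B₂ n →
      patch A₁ φ₁ φ₂ ∈ Van B n := by
    rintro n φ₁ φ₂ ⟨ε₁, p₁, v₁⟩ ⟨ε₂, p₂, v₂⟩
    refine ⟨min δ (min ε₁ ε₂), lt_min hδ (lt_min p₁ p₂), fun l hl hsm => ?_⟩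
    by_cases hall : ∀ x ∈ l, x ∈ A₁
    · rw [patch_pos hall]
      refine v₁ l hl (Small.mono ⟨fun x hx => (hB (hsm.1 x hx)).resolve_right fun h2 =>
        Set.disjoint_left.1 hd (hall x hx) (h₂.sub h2), hsm.2⟩ subset_rfl
        ((min_le_right _ _).trans (min_le_left _ _)))
    · rw [patch_neg hall]
      refine v₂ l hl (Small.mono ⟨fun x hx => (hB (hsm.1 x hx)).resolve_left fun h1 =>
        two hB' hsm (min_le_left _ _) hall x hx (h₁.sub h1), hsm.2⟩ subset_rfl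
        ((min_le_right _ _).trans (min_le_right _ _)))
  have pd : ∀ {n : ℕ} {φ₁ φ₂ θ : Co X}, φ₁ ∈ Van B₁ n → φ₂ ∈ Van B₂ n →
      θ - dd φ₁ ∈ Van A₁ (n + 1) → θ - dd φ₂ ∈ Van A₂ (n + 1) →
      θ - dd (patch A₁ φ₁ φ₂) ∈ Van A (n + 1) := by
    rintro n φ₁ φ₂ θ ⟨η₁, q₁, w₁⟩ ⟨η₂, q₂, w₂⟩ ⟨ε₁, p₁, v₁⟩ ⟨ε₂, p₂, v₂⟩
    refine ⟨min δ (min ε₁ ε₂), lt_min hδ (lt_min p₁ p₂), fun l hl hsm => ?_⟩
    rw [Pi.sub_apply]
    by_cases hall : ∀ x ∈ l, x ∈ A₁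
    · rw [dd_congr (ψ := φ₁) hl fun m _ hm => patch_pos fun x hx => hall x (hm x hx)]
      exact v₁ l hl (Small.mono ⟨hall, hsm.2⟩ subset_rfl
        ((min_le_right _ _).trans (min_le_left _ _)))
    · have hn := two hA hsm (min_le_left _ _) hall
      rw [dd_congr (ψ := φ₂) hl fun m hm hml => ?_]
      · exact v₂ l hl (Small.mono ⟨fun x hx => (hA (hsm.1 x hx)).resolve_left (hn x hx), hsm.2⟩
          subset_rfl ((min_le_right _ _).trans (min_le_right _ _)))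
      · cases m with
        | nil =>
          rw [patch_pos (by simp), w₁ [] hm ⟨by simp, by simp⟩, w₂ [] hm ⟨by simp, by simp⟩]
        | cons a m =>
          exact patch_neg fun h => hn a (hml a List.mem_cons_self) (h a List.mem_cons_self)
  constructor
  · rw [injective_iff_map_eq_zero]
    intro x h0
    obtain ⟨ψ, hψ, rfl⟩ := cl_surj x
    have e1 : Hpb h₁ j (cl ψ hψ) = 0 := congrArg Prod.fst h0
    have e2 : Hpb h₂ j (cl ψ hψ) = 0 := congrArg Prod.snd h0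
    rw [Hpb_cl, cl_eq_zero, pb_id] at e1 e2
    obtain ⟨χ₁, a₁, b₁⟩ := mem_Bc.1 e1
    obtain ⟨χ₂, a₂, b₂⟩ := mem_Bc.1 e2
    exact cl_eq_zero.2 (mem_Bc.2 ⟨_, pv a₁ a₂, pd a₁ a₂ b₁ b₂⟩)
  · rintro ⟨x₁, x₂⟩
    obtain ⟨φ₁, z₁, rfl⟩ := cl_surj x₁
    obtain ⟨φ₂, z₂, rfl⟩ := cl_surj x₂
    have k := pd (θ := 0) z₁.1 z₂.1 (by simpa using neg_mem (mem_Zc.1 z₁).2)
      (by simpa using neg_mem (mem_Zc.1 z₂).2)
    refine ⟨cl (patch A₁ φ₁ φ₂) (mem_Zc.2 ⟨pv z₁.1 z₂.1, by simpa using neg_mem k⟩),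
      Prod.ext ?_ ?_⟩
    · change Hpb h₁ j _ = cl φ₁ z₁
      rw [Hpb_cl, cl_eq, pb_id]
      refine Submodule.mem_sup_left ⟨1, one_pos, fun l _ hsm => ?_⟩
      rw [Pi.sub_apply, patch_pos hsm.1, sub_self]
    · change Hpb h₂ j _ = cl φ₂ z₂
      rw [Hpb_cl, cl_eq, pb_id]
      refine Submodule.mem_sup_left ⟨1, one_pos, fun l hl hsm => ?_⟩
      cases l with
      | nil => simp at hl
      | cons a l =>
        rw [Pi.sub_apply, patch_neg fun h => Set.disjoint_left.1 hd (h a List.mem_cons_self)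
          (hsm.1 a List.mem_cons_self), sub_self]

end Vale.Agent.P265
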