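import Vale.Agent.P265.Susp

/-! P265: iterated suspension. -/

open Set Metric

noncomputable section

namespace Vale.Agent.P265

namespace CubeAux

variable {X Y : Type} [MetricSpace X] [MetricSpace Y] {τ : X → X} {s : F3}

theorem sym_prod (hτ : Sym τ s) : Sym (Prod.map τ (id : Y → Y)) s :=
  ⟨hτ.cont.prodMap continuous_id, fun x => Prod.ext (hτ.inv x.1) rfl, hτ.sq⟩

theorem ipair_prod {A : Set X} (h : IPair τ A ∅) {C D : Set Y} (hC : IsCompact C)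
    (hD : IsCompact D) (hs : D ⊆ C) : IPair (Prod.map τ (id : Y → Y)) (A ×ˢ C) (A ×ˢ D) :=
  ⟨h.cA.prod hC, h.cA.prod hD, prod_mono subset_rfl hs, fun _ hx => ⟨h.mA hx.1, hx.2⟩,
    fun _ hx => ⟨h.mA hx.1, hx.2⟩⟩

theorem shift_of_inv {τ' : Y → Y} {f : X → Y} {g : Y → X} {A B : Set X} {A' B' : Set Y}
    (hf : Adm f A B A' B') (hg : Adm g A' B' A B) (h : Adm τ A B A B) (h' : Adm τ' A' B' A' B')
    (e : ∀ x ∈ A, f (τ x) = τ' (f x)) (h1 : ∀ j x, Hpb (hg.comp hf) j x = x)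
    (h2 : ∀ j x, Hpb (hf.comp hg) j x = x) : Shifted s τ A B 0 τ' A' B' :=
  (Shifted.of_bij hf h h' e fun j => Hpb_bij hf hg j (h1 j) (h2 j)).1

theorem norm_split {n : ℕ} (y : Fin (n + 1) → ℝ) : ‖y‖ = max ‖y 0‖ ‖Fin.tail y‖ := by
  refine le_antisymm ?_ (max_le (norm_le_pi_norm y 0) ?_)
  · refine (pi_norm_le_iff_of_nonneg (le_max_of_le_left (norm_nonneg _))).2 fun i => ?_
    refine Fin.cases (le_max_left _ _) (fun i => le_max_of_le_right ?_) i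
    exact norm_le_pi_norm (Fin.tail y) i
  · exact (pi_norm_le_iff_of_nonneg (norm_nonneg _)).2 fun i => norm_le_pi_norm y i.succ

theorem ball_split {n : ℕ} {r : ℝ} (y : Fin (n + 1) → ℝ) :
    y ∈ closedBall (0 : Fin (n + 1) → ℝ) r ↔
      Fin.tail y ∈ closedBall (0 : Fin n → ℝ) r ∧ y 0 ∈ Icc (-r) r := by
  rw [mem_closedBall_zero_iff, mem_closedBall_zero_iff, norm_split, max_le_iff, Real.norm_eq_abs,
    abs_le, mem_Icc, and_comm]

theorem sphere_split {n : ℕ} {r : ℝ} (hr : 0 < r) (y : Fin (n + 1) → ℝ) :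
    y ∈ sphere (0 : Fin (n + 1) → ℝ) r ↔
      (Fin.tail y ∈ closedBall (0 : Fin n → ℝ) r ∧ y 0 ∈ ({-r, r} : Set ℝ)) ∨
        (Fin.tail y ∈ sphere (0 : Fin n → ℝ) r ∧ y 0 ∈ Icc (-r) r) := by
  rw [mem_sphere_zero_iff_norm, mem_closedBall_zero_iff, mem_sphere_zero_iff_norm, norm_split,
    max_eq_iff, Real.norm_eq_abs, mem_Icc, ← abs_le, mem_insert_iff, mem_singleton_iff,
    or_comm (a := y 0 = -r), ← abs_eq hr.le]
  constructor
  · rintro (⟨h1, h2⟩ | ⟨h1, h2⟩)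
    · exact Or.inl ⟨h1 ▸ h2, h1⟩
    · exact Or.inr ⟨h1, h1 ▸ h2⟩
  · rintro (⟨h1, h2⟩ | ⟨h1, h2⟩)
    · exact Or.inl ⟨h2, h2 ▸ h1⟩
    · exact Or.inr ⟨h1, h1 ▸ h2⟩

/-- Splitting off the first coordinate. -/
def spl (X : Type) (n : ℕ) (p : X × (Fin (n + 1) → ℝ)) : (X × (Fin n → ℝ)) × ℝ :=
  ((p.1, Fin.tail p.2), p.2 0)

/-- Putting the first coordinate back. -/
def glu (X : Type) (n : ℕ) (q : (X × (Fin n → ℝ)) × ℝ) : X × (Fin (n + 1) → ℝ) :=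
  (q.1.1, Fin.cons q.2 q.1.2)

omit [MetricSpace X] in
theorem glu_spl (n : ℕ) (p : X × (Fin (n + 1) → ℝ)) : glu X n (spl X n p) = p :=
  Prod.ext rfl (Fin.cons_self_tail p.2)

omit [MetricSpace X] in
theorem spl_glu (n : ℕ) (q : (X × (Fin n → ℝ)) × ℝ) : spl X n (glu X n q) = q := rfl

theorem spl_cont (n : ℕ) : Continuous (spl X n) := by
  unfold spl Fin.tail
  fun_prop

theorem glu_cont (n : ℕ) : Continuous (glu X n) := by
  refine (continuous_fst.comp continuous_fst).prodMk (continuous_pi fun i => ?_)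
  refine Fin.cases ?_ (fun i => ?_) i
  · simpa using continuous_snd
  · simp only [Fin.cons_succ]
    fun_prop

theorem step (hτ : Sym τ s) {A : Set X} (h : IPair τ A ∅) (n : ℕ) {r : ℝ} (hr : 0 < r) :
    Shifted s (Prod.map τ id) (A ×ˢ closedBall (0 : Fin (n + 1) → ℝ) r)
      (A ×ˢ sphere (0 : Fin (n + 1) → ℝ) r) 0 (Prod.map (Prod.map τ id) id)
      ((A ×ˢ closedBall (0 : Fin n → ℝ) r) ×ˢ Icc (-r) r)
      ((A ×ˢ closedBall (0 : Fin n → ℝ) r) ×ˢ {-r, r} ∪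
        (A ×ˢ sphere (0 : Fin n → ℝ) r) ×ˢ Icc (-r) r) := by
  have p1 := ipair_prod h (isCompact_closedBall (0 : Fin (n + 1) → ℝ) r) (isCompact_sphere 0 r)
    sphere_subset_closedBall
  have c2 : IsCompact ((A ×ˢ closedBall (0 : Fin n → ℝ) r) ×ˢ Icc (-r) r) :=
    (h.cA.prod (isCompact_closedBall _ _)).prod isCompact_Icc
  have s2 : ((A ×ˢ closedBall (0 : Fin n → ℝ) r) ×ˢ {-r, r} ∪
      (A ×ˢ sphere (0 : Fin n → ℝ) r) ×ˢ Icc (-r) r) ⊆
      (A ×ˢ closedBall (0 : Fin n → ℝ) r) ×ˢ Icc (-r) r := by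
    refine union_subset (prod_mono subset_rfl ?_)
      (prod_mono (prod_mono subset_rfl sphere_subset_closedBall) subset_rfl)
    rintro t (rfl | rfl)
    · exact ⟨le_rfl, by linarith⟩
    · exact ⟨by linarith, le_rfl⟩
  have hf : Adm (spl X n) _ _ _ _ := Adm.of_compact p1.cA (spl_cont n).continuousOn
    (A' := (A ×ˢ closedBall (0 : Fin n → ℝ) r) ×ˢ Icc (-r) r)
    (B' := (A ×ˢ closedBall (0 : Fin n → ℝ) r) ×ˢ {-r, r} ∪
        (A ×ˢ sphere (0 : Fin n → ℝ) r) ×ˢ Icc (-r) r)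
    (fun p hp => ⟨⟨hp.1, ((ball_split _).1 hp.2).1⟩, ((ball_split _).1 hp.2).2⟩)
    (fun p hp => ((sphere_split hr _).1 hp.2).imp (fun H => ⟨⟨hp.1, H.1⟩, H.2⟩)
      fun H => ⟨⟨hp.1, H.1⟩, H.2⟩) p1.sub
  have hg : Adm (glu X n) _ _ _ _ := Adm.of_compact c2 (glu_cont n).continuousOn
    (A' := A ×ˢ closedBall (0 : Fin (n + 1) → ℝ) r) (B' := A ×ˢ sphere (0 : Fin (n + 1) → ℝ) r)
    (fun q hq => ⟨hq.1.1, (ball_split _).2 ⟨hq.1.2, hq.2⟩⟩)
    (fun q hq => ⟨hq.elim (fun H => H.1.1) fun H => H.1.1, (sphere_split hr _).2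
      (hq.imp (fun H => ⟨H.1.2, H.2⟩) fun H => ⟨H.1.2, H.2⟩)⟩) s2
  have h' : Adm (Prod.map (Prod.map τ id) id) _ _ _ _ := Adm.of_compact c2
    (sym_prod (sym_prod hτ)).cont.continuousOn
    (A' := (A ×ˢ closedBall (0 : Fin n → ℝ) r) ×ˢ Icc (-r) r)
    (B' := (A ×ˢ closedBall (0 : Fin n → ℝ) r) ×ˢ {-r, r} ∪
        (A ×ˢ sphere (0 : Fin n → ℝ) r) ×ˢ Icc (-r) r)
    (fun q hq => ⟨⟨h.mA hq.1.1, hq.1.2⟩, hq.2⟩)
    (fun q hq => hq.imp (fun H => ⟨⟨h.mA H.1.1, H.1.2⟩, H.2⟩) fun H => ⟨⟨h.mA H.1.1, H.1.2⟩, H.2⟩)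
    s2
  exact shift_of_inv hf hg (p1.adm (sym_prod hτ)) h' (fun _ _ => rfl)
    (Hpb_id (hg.comp hf) fun p _ => glu_spl n p) (Hpb_id (hf.comp hg) fun q _ => spl_glu n q)

theorem base (hτ : Sym τ s) {A : Set X} (h : IPair τ A ∅) {r : ℝ} (hr : 0 < r) :
    Shifted s (Prod.map τ id) (A ×ˢ closedBall (0 : Fin 0 → ℝ) r)
      (A ×ˢ sphere (0 : Fin 0 → ℝ) r) 0 τ A ∅ := by
  have p1 := ipair_prod h (isCompact_closedBall (0 : Fin 0 → ℝ) r) (isCompact_sphere 0 r)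
    sphere_subset_closedBall
  have hf : Adm Prod.fst _ _ A ∅ := Adm.of_compact p1.cA continuous_fst.continuousOn
    (fun p hp => hp.1) (fun p hp => by
      have e := mem_sphere_zero_iff_norm.1 hp.2
      rw [Subsingleton.elim p.2 0, norm_zero] at e
      exact (hr.ne e).elim) p1.sub
  have hg : Adm (fun x : X => (x, (0 : Fin 0 → ℝ))) A ∅ _ _ := Adm.of_compact h.cA
    (by fun_prop) (A' := A ×ˢ closedBall (0 : Fin 0 → ℝ) r) (B' := A ×ˢ sphere (0 : Fin 0 → ℝ) r)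
    (fun x hx => ⟨hx, mem_closedBall_self hr.le⟩) (mapsTo_empty _ _) (empty_subset _)
  exact shift_of_inv hf hg (p1.adm (sym_prod hτ)) (h.adm hτ) (fun _ _ => rfl)
    (Hpb_id (hg.comp hf) fun p _ => Prod.ext rfl (Subsingleton.elim _ _))
    (Hpb_id (hf.comp hg) fun _ _ => rfl)

end CubeAux

variable {X : Type} [MetricSpace X] {τ : X → X} {s : F3}

theorem susp_cube (hτ : Sym τ s) {A : Set X} (h : IPair τ A ∅) (n : ℕ) {r : ℝ} (hr : 0 < r) :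
    Shifted s (Prod.map τ id) (A ×ˢ closedBall (0 : Fin n → ℝ) r)
      (A ×ˢ sphere (0 : Fin n → ℝ) r) n τ A ∅ := by
  induction n with
  | zero => exact CubeAux.base hτ h hr
  | succ n ih =>
    have p1 := CubeAux.ipair_prod h (isCompact_closedBall (0 : Fin n → ℝ) r)
      (isCompact_sphere 0 r) sphere_subset_closedBall
    exact (CubeAux.step hτ h n hr).trans
      ((susp (CubeAux.sym_prod hτ) p1 (a := -r) (b := r) (by linarith)).trans ih)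

end Vale.Agent.P265
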