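import Vale.Agent.P265.Susp

/-! P265: cup product with the class of a circle valued map. -/

open Set

noncomputable section

namespace Vale.Agent.P265

instance factTwoPi : Fact (0 < 2 * Real.pi) := ⟨by positivity⟩

/-- The circle of length `2π`. -/
abbrev TT : Type := AddCircle (2 * Real.pi)

variable {X Y : Type} [MetricSpace X] [MetricSpace Y]

/-- The representative in `[0, 2π)`. -/
def rep0 (t : TT) : ℝ := AddCircle.equivIco (2 * Real.pi) 0 t

/-- The winding cocycle of a circle valued map. -/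
def wind (ξ : X → TT) (x y : X) : F3 :=
  ((round ((rep0 (ξ y) - rep0 (ξ x)) / (2 * Real.pi)) : ℤ) : F3)

def lcAt (a : X → X → F3) : List X → Co X →ₗ[F3] F3
  | x :: y :: l => a x y • LinearMap.proj (y :: l)
  | _ => 0

/-- Left cup product with a function of two points. -/
def lc (a : X → X → F3) : Co X →ₗ[F3] Co X := LinearMap.pi (lcAt a)

namespace CupAux

section Alg
variable {X : Type}

def mlAt (m : X → F3) : List X → Co X →ₗ[F3] F3
  | y :: l => m y • LinearMap.proj (y :: l)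
  | [] => 0

/-- Product with a function of the first point. -/
def ml (m : X → F3) : Co X →ₗ[F3] Co X := LinearMap.pi (mlAt m)

theorem ml_cons (m : X → F3) (φ : Co X) (y : X) (l : List X) :
    ml m φ (y :: l) = m y * φ (y :: l) := rfl

theorem dd_ml (m : X → F3) (φ : Co X) (y : X) (l : List X) :
    dd (ml m φ) (y :: l) = ml m φ l - m y * (φ l - dd φ (y :: l)) := by
  have e : fr y (ml m φ) = m y • fr y φ := rfl
  rw [dd_cons, e, map_smul, dd_cons, sub_sub_cancel]
  rfl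

end Alg

omit [MetricSpace X] in
theorem lc_cons (a : X → X → F3) (φ : Co X) (x y : X) (l : List X) :
    lc a φ (x :: y :: l) = a x y * φ (y :: l) := rfl

omit [MetricSpace X] in
theorem fr_lc (a : X → X → F3) (φ : Co X) (x : X) : fr x (lc a φ) = ml (a x) φ := by
  funext l
  cases l <;> rfl

omit [MetricSpace X] in
theorem dd_lc (a : X → X → F3) (φ : Co X) (x y z : X) (l : List X) :
    dd (lc a φ) (x :: y :: z :: l) + lc a (dd φ) (x :: y :: z :: l) =
      (a y z - a x z + a x y) * φ (z :: l) := by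
  rw [dd_cons, fr_lc, dd_ml, lc_cons, lc_cons, ml_cons]
  ring

omit [MetricSpace X] in
theorem dd_lc2 (a : X → X → F3) (φ : Co X) (x y : X) :
    dd (lc a φ) [x, y] + lc a (dd φ) [x, y] = a x y * φ [] := by
  have e1 : lc a φ [y] = 0 := rfl
  have e2 : ml (a x) φ [] = 0 := rfl
  rw [dd_cons, fr_lc, dd_ml, lc_cons, dd_cons φ, dd_nil, e1, e2]
  ring

theorem lc_Van (a : X → X → F3) {A : Set X} {n : ℕ} {φ : Co X} (h : φ ∈ Van A n) :
    lc a φ ∈ Van A (n + 1) := by
  obtain ⟨ε, hε, h⟩ := h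
  refine ⟨ε, hε, fun l hl hs => ?_⟩
  match l, hl, hs with
  | [_], _, _ => rfl
  | x :: y :: l, hl, hs =>
    rw [lc_cons, h (y :: l) (by simpa using hl) (hs.sub fun z hz => List.mem_cons_of_mem _ hz),
      mul_zero]

theorem ml_Van (m : X → F3) {A : Set X} {n : ℕ} {φ : Co X} (h : φ ∈ Van A n) :
    ml m φ ∈ Van A n := by
  obtain ⟨ε, hε, h⟩ := h
  refine ⟨ε, hε, fun l hl hs => ?_⟩
  cases l with
  | nil => rfl
  | cons y l => rw [ml_cons, h _ hl hs, mul_zero]

theorem van2 {φ : Co X} {n : ℕ} {ε : ℝ} (hε : 0 < ε)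
    (h : ∀ x y l, dist x y < ε → φ (x :: y :: l) = 0) : φ ∈ Van univ (n + 2) := by
  refine ⟨ε, hε, fun l hl hs => ?_⟩
  match l, hl, hs with
  | x :: y :: l, _, hs => exact h x y l (hs.2 x (by simp) y (by simp))

theorem van3 {φ : Co X} {n : ℕ} {ε : ℝ} (hε : 0 < ε)
    (h : ∀ x y z l, dist x y < ε → dist y z < ε → φ (x :: y :: z :: l) = 0) :
    φ ∈ Van univ (n + 3) := by
  refine ⟨ε, hε, fun l hl hs => ?_⟩
  match l, hl, hs with
  | x :: y :: z :: l, _, hs =>
    exact h x y z l (hs.2 x (by simp) y (by simp)) (hs.2 y (by simp) z (by simp))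

theorem round_add {s t : ℝ} (hs : |s - round s| < 1 / 4) (ht : |t - round t| < 1 / 4) :
    round (s + t) = round s + round t := by
  have e : s + t = (s - round s + (t - round t)) + ((round s + round t : ℤ) : ℝ) := by
    push_cast; ring
  rw [abs_lt] at hs ht
  rw [e, round_add_intCast, round_eq_zero_iff.2 ⟨by linarith, by linarith⟩, zero_add]

theorem coe_rep0 (t : TT) : ((rep0 t : ℝ) : TT) = t := AddCircle.coe_equivIco

/-- The normalised difference of the representatives. -/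
def df (ξ : X → TT) (x y : X) : ℝ := (rep0 (ξ y) - rep0 (ξ x)) / (2 * Real.pi)

theorem close [CompactSpace X] {ξ : X → TT} (hξ : Continuous ξ) :
    ∃ ε > 0, ∀ x y, dist x y < ε → |df ξ x y - round (df ξ x y)| < 1 / 4 := by
  have hp : 0 < 2 * Real.pi := by positivity
  obtain ⟨ε, hε, h⟩ := Metric.uniformContinuous_iff.1
    (CompactSpace.uniformContinuous_of_continuous hξ) (2 * Real.pi * (1 / 4)) (by positivity)
  refine ⟨ε, hε, fun x y hxy => ?_⟩
  have h1 := h hxy
  rw [dist_comm, dist_eq_norm, ← coe_rep0 (ξ x), ← coe_rep0 (ξ y), ← AddCircle.coe_sub,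
    AddCircle.norm_eq' _ hp, inv_mul_eq_div] at h1
  exact lt_of_mul_lt_mul_left h1 hp.le

theorem coc [CompactSpace X] {ξ : X → TT} (hξ : Continuous ξ) :
    ∃ ε > 0, ∀ x y z, dist x y < ε → dist y z < ε → wind ξ x z = wind ξ x y + wind ξ y z := by
  obtain ⟨ε, hε, h⟩ := close hξ
  refine ⟨ε, hε, fun x y z h1 h2 => ?_⟩
  have e : df ξ x z = df ξ x y + df ξ y z := by unfold df; ring
  change ((round (df ξ x z) : ℤ) : F3) = (round (df ξ x y) : ℤ) + (round (df ξ y z) : ℤ)
  rw [e, round_add (h x y h1) (h y z h2), Int.cast_add]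

theorem dd_wind [CompactSpace X] {ξ : X → TT} (hξ : Continuous ξ) (φ : Co X) (n : ℕ) :
    dd (lc (wind ξ) φ) + lc (wind ξ) (dd φ) ∈ Van univ (n + 3) := by
  obtain ⟨ε, hε, h⟩ := coc hξ
  refine van3 hε fun x y z l h1 h2 => ?_
  rw [Pi.add_apply, dd_lc, h x y z h1 h2]
  ring

end CupAux
open CupAux

theorem lc_Zc [CompactSpace X] {ξ : X → TT} (hξ : Continuous ξ) (j : ℕ) :
    ∀ φ ∈ Zc (univ : Set X) ∅ j, lc (wind ξ) φ ∈ Zc (univ : Set X) ∅ (j + 1) := by
  intro φ h
  refine mem_Zc.2 ⟨mem_Van_empty _ _, ?_⟩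
  have := sub_mem (dd_wind hξ φ j) (lc_Van (wind ξ) (mem_Zc.1 h).2)
  rwa [add_sub_cancel_right] at this

theorem lc_Bc [CompactSpace X] {ξ : X → TT} (hξ : Continuous ξ) (j : ℕ) :
    ∀ φ ∈ Zc (univ : Set X) ∅ j, φ ∈ Bc (univ : Set X) ∅ j →
      lc (wind ξ) φ ∈ Bc (univ : Set X) ∅ (j + 1) := by
  intro φ _ h
  obtain ⟨χ, hχ, h'⟩ := mem_Bc.1 h
  refine mem_Bc.2 ⟨-lc (wind ξ) χ, mem_Van_empty _ _, ?_⟩
  have h1 : dd (lc (wind ξ) χ) + lc (wind ξ) (dd χ) ∈ Van univ (j + 1 + 1) := by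
    cases j with
    | succ j => exact dd_wind hξ χ j
    | zero =>
      obtain ⟨ε, hε, h0⟩ := hχ
      refine ⟨1, one_pos, fun l hl _ => ?_⟩
      match l, hl with
      | [x, y], _ => rw [Pi.add_apply, dd_lc2, h0 [] rfl ⟨by simp, by simp⟩, mul_zero]
  have := add_mem (lc_Van (wind ξ) h') h1
  rw [map_sub] at this
  rw [map_neg, sub_neg_eq_add]
  rwa [sub_add_add_cancel] at this

/-- Cup product with the class of `ξ`. -/
def HL [CompactSpace X] {ξ : X → TT} (hξ : Continuous ξ) (j : ℕ) : Habs X j →ₗ[F3] Habs X (j + 1) :=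
  Hmap (lc (wind ξ)) (lc_Zc hξ j) (lc_Bc hξ j)

theorem HL_add [CompactSpace X] {ξ η ζ : X → TT} (hξ : Continuous ξ) (hη : Continuous η)
    (hζ : Continuous ζ) (e : ∀ x, ζ x = ξ x + η x) (j : ℕ) (u : Habs X j) :
    HL hζ j u = HL hξ j u + HL hη j u := by
  obtain ⟨φ, h, rfl⟩ := cl_surj u
  have hm : ∀ x, ∃ n : ℤ, n • (2 * Real.pi) = rep0 (ζ x) - (rep0 (ξ x) + rep0 (η x)) := fun x =>
    (AddCircle.coe_eq_zero_iff _).1 (by
      rw [AddCircle.coe_sub, AddCircle.coe_add, coe_rep0, coe_rep0, coe_rep0, e, sub_self])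
  choose m hm using hm
  obtain ⟨ε, hε, h1⟩ := close hξ
  obtain ⟨δ, hδ, h2⟩ := close hη
  simp only [HL, Hmap_cl]
  rw [cl_add, cl_eq]
  refine mem_Bc.2 ⟨ml (fun x => (m x : F3)) φ, mem_Van_empty _ _, ?_⟩
  have h3 : lc (wind ζ) φ - (lc (wind ξ) φ + lc (wind η) φ) - dd (ml (fun x => (m x : F3)) φ) +
      ml (fun x => (m x : F3)) (dd φ) ∈ Van univ (j + 2) := by
    refine van2 (lt_min hε hδ) fun x y l hxy => ?_
    have e1 : df ζ x y = df ξ x y + df η x y + ((m y - m x : ℤ) : ℝ) := by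
      have a1 := hm x
      have a2 := hm y
      rw [zsmul_eq_mul] at a1 a2
      unfold df
      push_cast
      field_simp
      linear_combination a1 - a2
    have e2 : wind ζ x y = wind ξ x y + wind η x y + (m y - m x) := by
      change ((round (df ζ x y) : ℤ) : F3) = (round (df ξ x y) : ℤ) + (round (df η x y) : ℤ) + _
      rw [e1, round_add_intCast, round_add (h1 x y (hxy.trans_le (min_le_left _ _)))
        (h2 x y (hxy.trans_le (min_le_right _ _)))]
      push_cast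
      rfl
    simp only [Pi.add_apply, Pi.sub_apply, lc_cons, dd_ml, ml_cons, e2]
    ring
  have := sub_mem h3 (ml_Van (fun x => (m x : F3)) (mem_Zc.1 h).2)
  rwa [add_sub_cancel_right] at this

theorem HL_anti [CompactSpace X] {ξ η : X → TT} (hξ : Continuous ξ) (hη : Continuous η) (j : ℕ)
    (u : Habs X j) : HL hξ (j + 1) (HL hη j u) = -HL hη (j + 1) (HL hξ j u) := by
  obtain ⟨φ, h, rfl⟩ := cl_surj u
  obtain ⟨ε, hε, h1⟩ := coc hξ
  obtain ⟨δ, hδ, h2⟩ := coc hη
  simp only [HL, Hmap_cl]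
  rw [eq_neg_iff_add_eq_zero, cl_add, cl_eq_zero]
  refine mem_Bc.2 ⟨-lc (fun x y => wind ξ x y * wind η x y) φ, mem_Van_empty _ _, ?_⟩
  have h3 : lc (wind ξ) (lc (wind η) φ) + lc (wind η) (lc (wind ξ) φ) +
      (dd (lc (fun x y => wind ξ x y * wind η x y) φ) +
        lc (fun x y => wind ξ x y * wind η x y) (dd φ)) ∈ Van univ (j + 3) := by
    refine van3 (lt_min hε hδ) fun x y z l hxy hyz => ?_
    rw [Pi.add_apply, Pi.add_apply (dd _), dd_lc,
      h1 x y z (hxy.trans_le (min_le_left _ _)) (hyz.trans_le (min_le_left _ _)),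
      h2 x y z (hxy.trans_le (min_le_right _ _)) (hyz.trans_le (min_le_right _ _))]
    simp only [Pi.add_apply, lc_cons]
    ring
  have := sub_mem h3 (lc_Van (fun x y => wind ξ x y * wind η x y) (mem_Zc.1 h).2)
  rw [map_neg, sub_neg_eq_add]
  rwa [← add_assoc, add_sub_cancel_right] at this

theorem HL_nat [CompactSpace X] [CompactSpace Y] {f : X → Y} (hf : Continuous f) {ξ : Y → TT}
    (hξ : Continuous ξ) (j : ℕ) (u : Habs Y j) :
    Hp hf (j + 1) (HL hξ j u) = HL (hξ.comp hf) j (Hp hf j u) := by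
  obtain ⟨φ, h, rfl⟩ := cl_surj u
  simp only [HL, Hp, Hmap_cl, Hpb_cl]
  congr 1
  funext l
  match l with
  | [] => rfl
  | [_] => rfl
  | _ :: _ :: _ => rfl

end Vale.Agent.P265
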