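import Vale.Agent.P265.Circ

/-! P265: the monodromy and its eigenvectors in cohomology. -/

open Set

noncomputable section

namespace Vale.Agent.P265

/-- The fibre: a three-torus times `W`. -/
abbrev X3 (W : Type) : Type := TT × TT × TT × W

/-- The monodromy `(x₀, x₁, x₂, w) ↦ (x₁, x₀, -x₂ - 3 x₀, w)`. -/
def mono (W : Type) [TopologicalSpace W] : X3 W ≃ₜ X3 W where
  toFun x := (x.2.1, x.1, -x.2.2.1 - 3 • x.1, x.2.2.2)
  invFun x := (x.2.1, x.1, -x.2.2.1 - 3 • x.2.1, x.2.2.2)
  left_inv x := by simp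
  right_inv x := by simp
  continuous_toFun := by fun_prop
  continuous_invFun := by fun_prop

variable {W : Type} [MetricSpace W] [CompactSpace W]

namespace EigenAux

section Gen

variable {Y : Type} [MetricSpace Y] [CompactSpace Y]

/-- Pull back from the second factor. -/
def pr (j : ℕ) : Habs Y j →ₗ[F3] Habs (TT × Y) j := Hp (continuous_snd (X := TT) (Y := Y)) j

/-- Cup product with the class of the first factor. -/
def lf (j : ℕ) : Habs (TT × Y) j →ₗ[F3] Habs (TT × Y) (j + 1) :=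
  HL (continuous_fst (X := TT) (Y := Y)) j

theorem pr_zero {j : ℕ} {u : Habs Y j} (h : pr j u = 0) : u = 0 :=
  (injective_iff_map_eq_zero _).1 (circ_inj0 j) u h

theorem pr_lf {j : ℕ} {u : Habs Y (j + 1)} {v : Habs Y j} (h : pr (j + 1) u + lf j (pr j v) = 0) :
    u = 0 ∧ v = 0 :=
  circ_inj j u v h

theorem lf_zero {j : ℕ} {v : Habs Y j} (h : lf j (pr j v) = 0) : v = 0 :=
  (pr_lf (u := 0) (by rw [map_zero, zero_add, h])).2

end Gen

theorem bound {U V H : Type} [AddCommGroup U] [Module F3 U] [AddCommGroup V] [Module F3 V]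
    [AddCommGroup H] [Module F3 H] [FiniteDimensional F3 U] [FiniteDimensional F3 V]
    [FiniteDimensional F3 H] (C : H →ₗ[F3] H) (s : F3) (f : U →ₗ[F3] H) (g : V →ₗ[F3] H)
    (hf : ∀ u, C (f u) = s • f u) (hg : ∀ v, C (g v) = s • g v)
    (hi : ∀ u v, f u + g v = 0 → u = 0 ∧ v = 0) :
    Module.finrank F3 U + Module.finrank F3 V ≤
      Module.finrank F3 (Module.End.eigenspace C s) := by
  rw [← Module.finrank_prod]
  refine LinearMap.finrank_le_finrank_of_injective
    (f := (f.coprod g).codRestrict (Module.End.eigenspace C s) fun x => ?_) ?_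
  · rw [Module.End.mem_eigenspace_iff, LinearMap.coprod_apply, map_add, hf, hg, smul_add]
  · rw [injective_iff_map_eq_zero]
    intro x hx
    have := hi x.1 x.2 (congrArg Subtype.val hx)
    exact Prod.ext this.1 this.2

variable (W)

omit [CompactSpace W] in
theorem c0 : Continuous fun x : X3 W => x.1 := continuous_fst

omit [CompactSpace W] in
theorem c1 : Continuous fun x : X3 W => x.2.1 := by fun_prop

omit [CompactSpace W] in
theorem c2 : Continuous fun x : X3 W => x.2.2.1 := by fun_prop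

variable {W}

/-- Pull back from `W`. -/
def P (j : ℕ) : Habs W j →ₗ[F3] Habs (X3 W) j := pr j ∘ₗ pr j ∘ₗ pr j

/-- Cup product with the first class. -/
def L0 (j : ℕ) : Habs (X3 W) j →ₗ[F3] Habs (X3 W) (j + 1) := HL (c0 W) j

/-- Cup product with the second class. -/
def L1 (j : ℕ) : Habs (X3 W) j →ₗ[F3] Habs (X3 W) (j + 1) := HL (c1 W) j

/-- Cup product with the third class. -/
def L2 (j : ℕ) : Habs (X3 W) j →ₗ[F3] Habs (X3 W) (j + 1) := HL (c2 W) j

/-- The action of the monodromy. -/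
def C (j : ℕ) : Habs (X3 W) j →ₗ[F3] Habs (X3 W) j := Hp (mono W).continuous j

theorem P_apply (j : ℕ) (w : Habs W j) : P j w = pr j (pr j (pr j w)) := rfl

theorem L0_eq (j : ℕ) (u : Habs (X3 W) j) : L0 j u = lf j u := rfl

theorem L1_pr (j : ℕ) (u : Habs (TT × TT × W) j) : L1 j (pr j u) = pr (j + 1) (lf j u) :=
  (HL_nat continuous_snd continuous_fst j u).symm

theorem L2_pr (j : ℕ) (u : Habs (TT × W) j) :
    L2 j (pr j (pr j u)) = pr (j + 1) (pr (j + 1) (lf j u)) := by
  unfold pr lf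
  rw [HL_nat, HL_nat]
  rfl

theorem C_P (j : ℕ) (w : Habs W j) : C j (P j w) = P j w := by
  rw [P_apply]
  unfold C pr
  rw [Hp_comp, Hp_comp, Hp_comp, Hp_comp, Hp_comp]
  rfl

theorem C_L0 (j : ℕ) (u : Habs (X3 W) j) : C (j + 1) (L0 j u) = L1 j (C j u) :=
  HL_nat (mono W).continuous (c0 W) j u

theorem C_L1 (j : ℕ) (u : Habs (X3 W) j) : C (j + 1) (L1 j u) = L0 j (C j u) :=
  HL_nat (mono W).continuous (c1 W) j u

theorem C_L2 (j : ℕ) (u : Habs (X3 W) j) : C (j + 1) (L2 j u) = -L2 j (C j u) := by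
  have hz : Continuous fun x : X3 W => -x.2.2.1 - 3 • x.1 := by fun_prop
  have e : C (j + 1) (L2 j u) = HL hz j (C j u) := HL_nat (mono W).continuous (c2 W) j u
  rw [e]
  generalize C j u = v
  have k2 : Continuous fun x : X3 W => x.1 + x.1 := by fun_prop
  have k3 : Continuous fun x : X3 W => x.1 + x.1 + x.1 := by fun_prop
  have k4 : Continuous fun x : X3 W => -x.2.2.1 := by fun_prop
  have k5 : Continuous fun _ : X3 W => (0 : TT) := continuous_const
  have e2 := HL_add (c0 W) (c0 W) k2 (fun _ => rfl) j v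
  have e3 := HL_add k2 (c0 W) k3 (fun _ => rfl) j v
  have e4 := HL_add hz k3 k4 (fun x => by abel) j v
  have e5 := HL_add k4 (c2 W) k5 (fun x => by abel) j v
  rw [CircAux.HL_zero k5 fun _ => rfl] at e5
  have e6 : HL k3 j v = 0 := by
    have h3 : (1 + 1 + 1 : F3) = 0 := rfl
    rw [e3, e2]
    have := congrArg (· • HL (c0 W) j v) h3
    simpa only [add_smul, one_smul, zero_smul] using this
  rw [e6, add_zero] at e4
  rw [← e4]
  exact eq_neg_of_add_eq_zero_left e5.symm

theorem anti (j : ℕ) (u : Habs (X3 W) j) : L1 (j + 1) (L0 j u) = -L0 (j + 1) (L1 j u) :=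
  HL_anti (c1 W) (c0 W) j u

variable (h : ∀ j, FiniteDimensional F3 (Habs W j))
include h

theorem fin3 (j : ℕ) : FiniteDimensional F3 (Habs (X3 W) j) :=
  circ_fin (circ_fin (circ_fin h)) j

theorem b1 (j : ℕ) : Module.finrank F3 (Habs W j) + Module.finrank F3 (Habs W j) ≤
    Module.finrank F3 (Module.End.eigenspace (C (W := W) (j + 1)) (-1)) := by
  have := h j
  have := fin3 h (j + 1)
  refine bound _ _ ((L0 j - L1 j) ∘ₗ P j) (L2 j ∘ₗ P j) (fun w => ?_) (fun w => ?_)
    fun w w' e => ?_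
  · simp only [LinearMap.comp_apply, LinearMap.sub_apply, map_sub, C_L0, C_L1, C_P, neg_smul,
      one_smul, neg_sub]
  · simp only [LinearMap.comp_apply, C_L2, C_P, neg_smul, one_smul]
  · simp only [LinearMap.comp_apply, LinearMap.sub_apply, P_apply, L0_eq, L1_pr, L2_pr] at e
    have e1 := pr_lf (u := pr (j + 1) (lf j (pr j w')) - lf j (pr j (pr j w)))
      (v := pr j (pr j w)) (by rw [← e, map_sub]; abel)
    have e2 : w = 0 := pr_zero (pr_zero e1.2)
    have e3 := e1.1
    rw [e1.2, map_zero, sub_zero] at e3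
    exact ⟨e2, lf_zero (pr_zero e3)⟩

theorem b2 (j : ℕ) : Module.finrank F3 (Habs W (j + 2)) + Module.finrank F3 (Habs W j) ≤
    Module.finrank F3 (Module.End.eigenspace (C (W := W) (j + 2)) 1) := by
  have := h j
  have := h (j + 2)
  have := fin3 h (j + 2)
  refine bound _ _ (P (j + 2)) ((L0 (j + 1) - L1 (j + 1)) ∘ₗ L2 j ∘ₗ P j) (fun w => ?_)
    (fun w => ?_) fun w w' e => ?_
  · rw [C_P, one_smul]
  · simp only [LinearMap.comp_apply, LinearMap.sub_apply, map_sub, C_L0, C_L1, C_L2, C_P,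
      one_smul, map_neg]
    abel
  · simp only [LinearMap.comp_apply, LinearMap.sub_apply, P_apply, L0_eq, L1_pr, L2_pr] at e
    have e1 := pr_lf (u := pr (j + 2) (pr (j + 2) w) - lf (j + 1) (pr (j + 1) (lf j (pr j w'))))
      (v := pr (j + 1) (lf j (pr j w'))) (by rw [← e, map_sub]; abel)
    have e3 := e1.1
    rw [e1.2, map_zero, sub_zero] at e3
    exact ⟨pr_zero (pr_zero e3), lf_zero (pr_zero e1.2)⟩

theorem b3 (j : ℕ) : Module.finrank F3 (Habs W j) + Module.finrank F3 (Habs W j) ≤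
    Module.finrank F3 (Module.End.eigenspace (C (W := W) (j + 2)) (-1)) := by
  have := h j
  have := fin3 h (j + 2)
  refine bound _ _ (L0 (j + 1) ∘ₗ L1 j ∘ₗ P j) ((L0 (j + 1) + L1 (j + 1)) ∘ₗ L2 j ∘ₗ P j)
    (fun w => ?_) (fun w => ?_) fun w w' e => ?_
  · simp only [LinearMap.comp_apply, C_L0, C_L1, C_P, neg_smul, one_smul, anti]
  · simp only [LinearMap.comp_apply, LinearMap.add_apply, map_add, C_L0, C_L1, C_L2, C_P,
      neg_smul, one_smul, map_neg]
    abel
  · simp only [LinearMap.comp_apply, LinearMap.add_apply, P_apply, L0_eq, L1_pr, L2_pr] at e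
    have e1 := pr_lf (u := lf (j + 1) (pr (j + 1) (lf j (pr j w'))))
      (v := pr (j + 1) (lf j (pr j w')) + lf j (pr j (pr j w)))
      (by rw [← e, map_add, map_add]; abel)
    have e2 := pr_lf e1.2
    exact ⟨pr_zero e2.2, lf_zero e2.1⟩

theorem b4 (j : ℕ) : Module.finrank F3 (Habs W (j + 2)) + Module.finrank F3 (Habs W j) ≤
    Module.finrank F3 (Module.End.eigenspace (C (W := W) (j + 3)) 1) := by
  have := h j
  have := h (j + 2)
  have := fin3 h (j + 3)
  refine bound _ _ ((L0 (j + 2) + L1 (j + 2)) ∘ₗ P (j + 2))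
    (L0 (j + 2) ∘ₗ L1 (j + 1) ∘ₗ L2 j ∘ₗ P j) (fun w => ?_) (fun w => ?_) fun w w' e => ?_
  · simp only [LinearMap.comp_apply, LinearMap.add_apply, map_add, C_L0, C_L1, C_P, one_smul]
    abel
  · simp only [LinearMap.comp_apply, C_L0, C_L1, C_L2, C_P, one_smul, map_neg, anti, neg_neg]
  · simp only [LinearMap.comp_apply, LinearMap.add_apply, P_apply, L0_eq, L1_pr, L2_pr] at e
    have e1 := pr_lf (u := lf (j + 2) (pr (j + 2) (pr (j + 2) w)))
      (v := pr (j + 2) (pr (j + 2) w) + lf (j + 1) (pr (j + 1) (lf j (pr j w'))))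
      (by rw [← e, map_add, map_add]; abel)
    have e2 := pr_lf e1.2
    exact ⟨pr_zero e2.1, lf_zero e2.2⟩

end EigenAux

theorem eigen_bounds (h : ∀ j, FiniteDimensional F3 (Habs W j))
    (h0 : 1 ≤ Module.finrank F3 (Habs W 0)) (h2 : 6 ≤ Module.finrank F3 (Habs W 2))
    (h4 : 1 ≤ Module.finrank F3 (Habs W 4)) :
    (∀ j, FiniteDimensional F3 (Habs (X3 W) j)) ∧
      2 ≤ Module.finrank F3 (Module.End.eigenspace (Hp (mono W).continuous 1) (-1)) ∧
      7 ≤ Module.finrank F3 (Module.End.eigenspace (Hp (mono W).continuous 2) 1) ∧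
      12 ≤ Module.finrank F3 (Module.End.eigenspace (Hp (mono W).continuous 3) (-1)) ∧
      12 ≤ Module.finrank F3 (Module.End.eigenspace (Hp (mono W).continuous 4) (-1)) ∧
      7 ≤ Module.finrank F3 (Module.End.eigenspace (Hp (mono W).continuous 5) 1) ∧
      2 ≤ Module.finrank F3 (Module.End.eigenspace (Hp (mono W).continuous 6) (-1)) := by
  have a1 := EigenAux.b1 h 0
  have a2 := EigenAux.b2 h 0
  have a3 := EigenAux.b1 h 2
  have a4 := EigenAux.b3 h 2
  have a5 := EigenAux.b4 h 2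
  have a6 := EigenAux.b3 h 4
  exact ⟨EigenAux.fin3 h, le_trans (add_le_add h0 h0) a1, le_trans (add_le_add h2 h0) a2,
    le_trans (add_le_add h2 h2) a3, le_trans (add_le_add h2 h2) a4,
    le_trans (add_le_add h4 h2) a5, le_trans (add_le_add h4 h4) a6⟩

end Vale.Agent.P265
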