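import Vale.Agent.P265.EqDefs

/-! P265: linear algebra of the eigenspaces. -/

open Set

noncomputable section

namespace Vale.Agent.P265

variable {X Y : Type} [MetricSpace X] [MetricSpace Y] {τ : X → X} {τ' : Y → Y} {s : F3}

theorem HE_map {A B : Set X} {A' B' : Set Y} (h : Adm τ A B A B) (h' : Adm τ' A' B' A' B')
    {j j' : ℕ} (T : Hc A' B' j' →ₗ[F3] Hc A B j) (hT : ∀ x, T (Hpb h' j' x) = Hpb h j (T x))
    {x : Hc A' B' j'} (hx : x ∈ HE τ' s A' B' j') : T x ∈ HE τ s A B j := by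
  rw [mem_HE h, ← hT, (mem_HE h').1 hx, map_smul]

theorem HE_equiv {A B : Set X} {A' B' : Set Y} (h : Adm τ A B A B) (h' : Adm τ' A' B' A' B')
    {j j' : ℕ} (T : Hc A' B' j' →ₗ[F3] Hc A B j) (hT : ∀ x, T (Hpb h' j' x) = Hpb h j (T x))
    (hb : Function.Bijective T) : Nonempty (HE τ' s A' B' j' ≃ₗ[F3] HE τ s A B j) := by
  refine ⟨LinearEquiv.ofBijective (T.restrict fun x hx => HE_map h h' T hT hx) ⟨?_, ?_⟩⟩
  · intro x y e
    exact Subtype.ext (hb.1 (congrArg Subtype.val e))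
  · rintro ⟨y, hy⟩
    obtain ⟨x, rfl⟩ := hb.2 y
    refine ⟨⟨x, (mem_HE h').2 (hb.1 ?_)⟩, rfl⟩
    rw [hT, (mem_HE h).1 hy, map_smul]

theorem Hpb_equivariant {f : X → Y} {A B : Set X} {A' B' : Set Y} (hf : Adm f A B A' B')
    (h : Adm τ A B A B) (h' : Adm τ' A' B' A' B') (e : ∀ x ∈ A, f (τ x) = τ' (f x)) (j : ℕ)
    (x : Hc A' B' j) : Hpb hf j (Hpb h' j x) = Hpb h j (Hpb hf j x) := by
  rw [Hpb_comp, Hpb_comp]
  exact Hpb_congr _ _ (fun y hy => (e y hy).symm) j x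

namespace EqAlgAux

open Module

section Lin

variable {V1 V2 V3 : Type} [AddCommGroup V1] [Module F3 V1] [AddCommGroup V2] [Module F3 V2]
  [AddCommGroup V3] [Module F3 V3]

theorem exact_restrict {f : V1 →ₗ[F3] V2} {g : V2 →ₗ[F3] V3} (hfg : Function.Exact f g)
    {t1 : V1 →ₗ[F3] V1} {t2 : V2 →ₗ[F3] V2} (hs : s * s = 1) (h1 : ∀ x, t1 (t1 x) = x)
    (hf : ∀ x, f (t1 x) = t2 (f x)) {E1 : Submodule F3 V1} {E2 : Submodule F3 V2}
    {E3 : Submodule F3 V3} (e1 : ∀ x, x ∈ E1 ↔ t1 x = s • x) (e2 : ∀ x, x ∈ E2 ↔ t2 x = s • x)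
    (m1 : ∀ x ∈ E1, f x ∈ E2) (m2 : ∀ x ∈ E2, g x ∈ E3) :
    Function.Exact (f.restrict m1) (g.restrict m2) := by
  rintro ⟨y, hy⟩
  constructor
  · intro h0
    obtain ⟨x, rfl⟩ := (hfg y).1 (congrArg Subtype.val h0)
    refine ⟨⟨(2 : F3) • (x + s • t1 x), (e1 _).2 ?_⟩, Subtype.ext ?_⟩
    · rw [map_smul, map_add, map_smul, h1, smul_comm s, smul_add s, smul_smul s s, hs, one_smul,
        add_comm]
    · show f ((2 : F3) • (x + s • t1 x)) = f x
      rw [map_smul, map_add, map_smul, hf, (e2 _).1 hy, smul_smul s s, hs, one_smul, ← two_smul F3,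
        smul_smul, show (2 * 2 : F3) = 1 by decide, one_smul]
  · rintro ⟨x, hx⟩
    exact Subtype.ext ((hfg y).2 ⟨x, congrArg Subtype.val hx⟩)

theorem fin_of_exact {f : V1 →ₗ[F3] V2} {g : V2 →ₗ[F3] V3} (hfg : Function.Exact f g)
    [FiniteDimensional F3 V1] [FiniteDimensional F3 V3] : FiniteDimensional F3 V2 := by
  refine ⟨Submodule.fg_of_fg_map_of_fg_inf_ker g (IsNoetherian.noetherian _) ?_⟩
  rw [top_inf_eq, hfg.linearMap_ker_eq, ← Submodule.map_top]
  exact Module.Finite.fg_top.map f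

theorem rank_exact {f : V1 →ₗ[F3] V2} {g : V2 →ₗ[F3] V3} (hfg : Function.Exact f g)
    [FiniteDimensional F3 V2] :
    finrank F3 V2 = finrank F3 (LinearMap.range f) + finrank F3 (LinearMap.range g) := by
  rw [← hfg.linearMap_ker_eq, add_comm, LinearMap.finrank_range_add_finrank_ker]

end Lin

theorem alt_les {a b c I R D : ℕ → ℕ} (a0 : a 0 = I 0) (a1 : ∀ j, a (j + 1) = D j + I (j + 1))
    (hc : ∀ j, c j = I j + R j) (hb : ∀ j, b j = R j + D j) (k : ℕ) :
    alt a k + alt b k - alt c k = D k := by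
  induction k with
  | zero =>
    simp only [alt, a0, hb, hc]
    push_cast
    ring
  | succ k ih =>
    simp only [alt, a1, hb (k + 1), hc (k + 1)]
    push_cast
    linarith

theorem alt_shift {a b : ℕ → ℕ} (a0 : a 0 = 0) (a1 : ∀ j, a (j + 1) = b j) (k : ℕ) :
    alt a k + alt b k = b k := by
  induction k with
  | zero => simp [alt, a0]
  | succ k ih =>
    simp only [alt, a1]
    linarith

theorem invol (hτ : Sym τ s) {A B : Set X} (h : Adm τ A B A B) (j : ℕ) (x : Hc A B j) :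
    Hpb h j (Hpb h j x) = x := by
  rw [Hpb_comp]
  exact Hpb_id _ (fun y _ => hτ.inv y) j x

theorem key (hτ : Sym τ s) {A B C : Set X} (h1 : IPair τ A B) (h2 : IPair τ B C)
    (f1 : FinE τ s A B) (f2 : FinE τ s B C) :
    FinE τ s A C ∧ ∀ k, ∃ δ : HE τ s B C k →ₗ[F3] HE τ s A B (k + 1),
      (∀ x, (δ x : Hc A B (k + 1)) = Hd A B C k x) ∧
        SE τ s A B k + SE τ s B C k - SE τ s A C k = finrank F3 (LinearMap.range δ) := by
  have h3 : IPair τ A C := ⟨h1.cA, h2.cB, h2.sub.trans h1.sub, h1.mA, h2.mB⟩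
  have p1 := h1.adm hτ
  have p2 := h2.adm hτ
  have p3 := h3.adm hτ
  have ci : ∀ j x, Hi h1.sub h2.sub j (Hpb p1 j x) = Hpb p3 j (Hi h1.sub h2.sub j x) :=
    fun j x => Hpb_equivariant (Adm.inc subset_rfl h2.sub (h2.sub.trans h1.sub)) p3 p1
      (fun _ _ => rfl) j x
  have cr : ∀ j x, Hr h1.sub h2.sub j (Hpb p3 j x) = Hpb p2 j (Hr h1.sub h2.sub j x) :=
    fun j x => Hpb_equivariant (Adm.inc h1.sub subset_rfl h2.sub) p2 p3 (fun _ _ => rfl) j x
  have cd : ∀ j x, Hd A B C j (Hpb p2 j x) = Hpb p1 (j + 1) (Hd A B C j x) :=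
    fun j x => (Hd_nat p1 p2 j x).symm
  have mi : ∀ j, ∀ x ∈ HE τ s A B j, Hi h1.sub h2.sub j x ∈ HE τ s A C j :=
    fun j x hx => HE_map p3 p1 _ (ci j) hx
  have mr : ∀ j, ∀ x ∈ HE τ s A C j, Hr h1.sub h2.sub j x ∈ HE τ s B C j :=
    fun j x hx => HE_map p2 p3 _ (cr j) hx
  have md : ∀ j, ∀ x ∈ HE τ s B C j, Hd A B C j x ∈ HE τ s A B (j + 1) :=
    fun j x hx => HE_map p1 p2 _ (cd j) hx
  have e1 := fun j => exact_restrict (exact_ir h1.sub h2.sub j) hτ.sq (invol hτ p1 j) (ci j)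
    (fun _ => mem_HE p1) (fun _ => mem_HE p3) (mi j) (mr j)
  have e2 := fun j => exact_restrict (exact_rd h1.sub h2.sub j) hτ.sq (invol hτ p3 j) (cr j)
    (fun _ => mem_HE p3) (fun _ => mem_HE p2) (mr j) (md j)
  have e3 := fun j => exact_restrict (exact_di h1.sub h2.sub j) hτ.sq (invol hτ p2 j) (cd j)
    (fun _ => mem_HE p2) (fun _ => mem_HE p1) (md j) (mi (j + 1))
  have f3 : FinE τ s A C := fun j =>
    have := f1 j
    have := f2 j
    fin_of_exact (e1 j)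
  refine ⟨f3, fun k => ⟨(Hd A B C k).restrict (md k), fun _ => rfl, ?_⟩⟩
  refine alt_les (I := fun j => finrank F3 (LinearMap.range ((Hi h1.sub h2.sub j).restrict (mi j))))
    (R := fun j => finrank F3 (LinearMap.range ((Hr h1.sub h2.sub j).restrict (mr j))))
    (D := fun j => finrank F3 (LinearMap.range ((Hd A B C j).restrict (md j)))) ?_
    (fun j => ?_) (fun j => ?_) (fun j => ?_) k
  · exact (LinearMap.finrank_range_of_inj fun x y e =>
      Subtype.ext (Hi_zero_inj h1.sub h2.sub (congrArg Subtype.val e))).symm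
  · have := f1 (j + 1)
    exact rank_exact (e3 j)
  · have := f3 j
    exact rank_exact (e1 j)
  · have := f2 j
    exact rank_exact (e2 j)

end EqAlgAux

theorem SE_subadd (hτ : Sym τ s) {A B C : Set X} (h1 : IPair τ A B) (h2 : IPair τ B C)
    (f1 : FinE τ s A B) (f2 : FinE τ s B C) :
    FinE τ s A C ∧ ∀ k, SE τ s A C k ≤ SE τ s A B k + SE τ s B C k := by
  obtain ⟨f3, h⟩ := EqAlgAux.key hτ h1 h2 f1 f2
  refine ⟨f3, fun k => ?_⟩
  obtain ⟨δ, -, h⟩ := h k
  have := Int.natCast_nonneg (Module.finrank F3 (LinearMap.range δ))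
  linarith

theorem SE_wang (hτ : Sym τ s) {A B C : Set X} (h1 : IPair τ A B) (h2 : IPair τ B C)
    (f2 : FinE τ s B C) (hs : Shifted s τ A B 1 τ B C) :
    FinE τ s A C ∧ ∀ (k : ℕ) (V : Submodule F3 (Hc B C k)), V ≤ HE τ s B C k →
      (∀ x ∈ V, Hd A B C k x = 0) → (Module.finrank F3 V : ℤ) ≤ SE τ s A C k := by
  have f1 : FinE τ s A B := by
    intro j
    cases j with
    | zero =>
      rw [hs.1 0 one_pos]
      infer_instance
    | succ j =>
      have := f2 j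
      exact (hs.2 j).some.symm.finiteDimensional
  obtain ⟨f3, h⟩ := EqAlgAux.key hτ h1 h2 f1 f2
  refine ⟨f3, fun k V hV h0 => ?_⟩
  obtain ⟨δ, hδ, h⟩ := h k
  have h4 : SE τ s A B k + SE τ s B C k = Module.finrank F3 (HE τ s B C k) :=
    EqAlgAux.alt_shift (a := fun j => Module.finrank F3 (HE τ s A B j))
      (b := fun j => Module.finrank F3 (HE τ s B C j))
      (by rw [hs.1 0 one_pos, finrank_bot]) (fun j => (hs.2 j).some.finrank_eq) k
  have := f2 k
  have h5 := LinearMap.finrank_range_add_finrank_ker δ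
  have h6 : Module.finrank F3 V ≤ Module.finrank F3 (LinearMap.ker δ) := by
    rw [← (Submodule.comapSubtypeEquivOfLe hV).finrank_eq]
    exact Submodule.finrank_mono fun x hx => Subtype.ext ((hδ x).trans (h0 x hx))
  omega

end Vale.Agent.P265
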