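import Vale.Agent.P265.EqAlg

/-! P265: induced classes, shifts, counting. -/

open Set

noncomputable section

namespace Vale.Agent.P265

variable {X Y : Type} [MetricSpace X] [MetricSpace Y] {τ : X → X} {τ' : Y → Y} {s : F3}

namespace EqAlgBAux

theorem alt_low {b : ℕ → ℕ} {n : ℕ} (h : ∀ j < n, b j = 0) : ∀ k < n, alt b k = 0 := by
  intro k
  induction k with
  | zero => intro hk; simp [alt, h 0 hk]
  | succ k ih => intro hk; simp [alt, h _ hk, ih (by omega)]

theorem alt_shift {b b' : ℕ → ℕ} {n : ℕ} (h : ∀ j < n, b j = 0) (h' : ∀ j, b (j + n) = b' j)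
    (k : ℕ) : alt b (k + n) = alt b' k := by
  induction k with
  | zero =>
    have e := h' 0
    rw [zero_add] at e ⊢
    cases n with
    | zero => simp [alt, e]
    | succ n => simp [alt, e, alt_low h n (by omega)]
  | succ k ih =>
    have e := h' (k + 1)
    rw [Nat.add_right_comm] at e ⊢
    simp [alt, e, ih]

/-- The alternating sum just below `b`. -/
def prev (β : ℕ → ℕ) : ℕ → ℤ
  | 0 => 0
  | b + 1 => alt β b

theorem tele (β : ℕ → ℕ) (b n : ℕ) : prev β b + 2 * ∑ k ∈ Finset.range n, alt β (k + b) +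
    alt β (n + b) = ∑ k ∈ Finset.range (n + 1), (β (k + b) : ℤ) := by
  induction n with
  | zero => cases b <;> simp [prev, alt]
  | succ n ih =>
    rw [Finset.sum_range_succ, Finset.sum_range_succ _ (n + 1), ← ih, Nat.add_right_comm n 1 b]
    simp only [alt]
    ring

theorem one_cell (i b n : ℕ) : prev (fun j => if j = i then 1 else 0) b +
    2 * ∑ k ∈ Finset.range n, cell i (k + b) + cell i (n + b) ≤ 1 := by
  unfold cell
  rw [tele]
  refine le_trans (Finset.sum_le_sum (g := fun k => if k = i - b then (1 : ℤ) else 0)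
    fun k _ => ?_) ?_
  · split_ifs with h1 h2 <;> omega
  · rw [Finset.sum_ite_eq']
    split_ifs <;> simp

end EqAlgBAux

theorem induced_bij (hτ : Sym τ s) {A B A' B' : Set X} (h1 : IPair τ A B) (cA' : IsCompact A')
    (h : Adm id A' B' A B) (hA : A ⊆ A' ∪ τ '' A') (hB : B ⊆ B' ∪ τ '' B')
    (hf : (τ = id ∧ s = 1) ∨ Disjoint A' (τ '' A')) (j : ℕ) :
    Function.Bijective ((Hpb h j).domRestrict (HE τ s A B j)) := by
  rcases hf with ⟨rfl, rfl⟩ | hd
  · simp only [image_id, union_self] at hA hB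
    obtain rfl : A' = A := subset_antisymm h.mA hA
    obtain rfl : B' = B := subset_antisymm h.mB hB
    have e : ∀ x, Hpb h j x = x := Hpb_id h (fun _ _ => rfl) j
    refine ⟨fun x y hxy => Subtype.ext ?_, fun y => ⟨⟨y, by rw [HE_id]; trivial⟩, e y⟩⟩
    rw [← e x.1, ← e y.1]
    exact hxy
  have H := h1.adm hτ
  have c2 : IsCompact (τ '' A') := cA'.image hτ.cont
  have h₂ : Adm id (τ '' A') (τ '' B') A B :=
    Adm.inc (by rintro _ ⟨x, hx, rfl⟩; exact h1.mA (h.mA hx))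
      (by rintro _ ⟨x, hx, rfl⟩; exact h1.mB (h.mB hx)) (image_mono h.sub)
  have t : Adm τ A' B' (τ '' A') (τ '' B') :=
    Adm.of_compact cA' hτ.cont.continuousOn (mapsTo_image _ _) (mapsTo_image _ _) h.sub
  have t' : Adm τ (τ '' A') (τ '' B') A' B' :=
    Adm.of_compact c2 hτ.cont.continuousOn (by rintro _ ⟨x, hx, rfl⟩; rwa [hτ.inv])
      (by rintro _ ⟨x, hx, rfl⟩; rwa [hτ.inv]) (image_mono h.sub)
  have ea : ∀ x, Hpb h j (Hpb H j x) = Hpb t j (Hpb h₂ j x) := fun x => by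
    rw [Hpb_comp, Hpb_comp]
  have eb : ∀ x, Hpb h₂ j (Hpb H j x) = Hpb t' j (Hpb h j x) := fun x => by
    rw [Hpb_comp, Hpb_comp]
  have ec : ∀ y, Hpb t j (Hpb t' j y) = y := fun y => by
    rw [Hpb_comp]
    exact Hpb_id _ (fun x _ => hτ.inv x) j y
  obtain ⟨bi, bs⟩ := disjoint_bij cA' c2 hd hA hB h h₂ j
  constructor
  · rw [injective_iff_map_eq_zero]
    rintro ⟨x, hx⟩ h0
    have a0 : Hpb h j x = 0 := h0
    have a1 := eb x
    rw [(mem_HE H).1 hx, a0, map_zero, map_smul] at a1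
    have a2 : Hpb h₂ j x = 0 := by
      rw [← one_smul F3 (Hpb h₂ j x), ← hτ.sq, mul_smul, a1, smul_zero]
    exact Subtype.ext ((injective_iff_map_eq_zero _).1 bi x (Prod.ext a0 a2))
  · intro y
    obtain ⟨x, hx⟩ := bs (y, s • Hpb t' j y)
    have a1 : Hpb h j x = y := congrArg Prod.fst hx
    have a2 : Hpb h₂ j x = s • Hpb t' j y := congrArg Prod.snd hx
    refine ⟨⟨x, (mem_HE H).2 (bi (Prod.ext ?_ ?_))⟩, a1⟩
    · change Hpb h j _ = Hpb h j _
      rw [ea, a2, map_smul, ec, map_smul, a1]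
    · change Hpb h₂ j _ = Hpb h₂ j _
      rw [eb, a1, map_smul, a2, smul_smul, hτ.sq, one_smul]

theorem Shifted.fin {A B : Set X} {A' B' : Set Y} {n : ℕ} (h : Shifted s τ A B n τ' A' B')
    (f : FinE τ' s A' B') : FinE τ s A B ∧ (∀ k < n, SE τ s A B k = 0) ∧
      ∀ k, SE τ s A B (k + n) = SE τ' s A' B' k := by
  have h0 : ∀ j < n, Module.finrank F3 (HE τ s A B j) = 0 := fun j hj => by
    rw [h.1 j hj, finrank_bot]
  refine ⟨fun j => ?_, EqAlgBAux.alt_low h0,
    EqAlgBAux.alt_shift h0 fun j => (h.2 j).some.finrank_eq⟩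
  rcases lt_or_ge j n with hj | hj
  · rw [h.1 j hj]
    infer_instance
  · obtain ⟨i, rfl⟩ := Nat.exists_eq_add_of_le' hj
    have := f i
    exact (h.2 i).some.symm.finiteDimensional

theorem Shifted.trans {Z : Type} [MetricSpace Z] {τ'' : Z → Z} {A B : Set X} {A' B' : Set Y}
    {A'' B'' : Set Z} {m n : ℕ} (h : Shifted s τ A B m τ' A' B')
    (h' : Shifted s τ' A' B' n τ'' A'' B'') : Shifted s τ A B (n + m) τ'' A'' B'' := by
  refine ⟨fun j hj => ?_, fun j => ?_⟩
  · rcases lt_or_ge j m with h1 | h1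
    · exact h.1 j h1
    · obtain ⟨i, rfl⟩ := Nat.exists_eq_add_of_le' h1
      have : Subsingleton (HE τ' s A' B' i) := by
        rw [h'.1 i (by omega)]
        infer_instance
      exact Submodule.subsingleton_iff_eq_bot.1 (h.2 i).some.toEquiv.subsingleton
  · have k : ∀ a b : ℕ, a = b → Nonempty (HE τ s A B a ≃ₗ[F3] HE τ s A B b) := by
      rintro a b rfl
      exact ⟨LinearEquiv.refl _ _⟩
    exact ⟨(k _ _ (add_assoc j n m).symm).some.trans ((h.2 (j + n)).some.trans (h'.2 j).some)⟩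

theorem Shifted.of_bij {f : X → Y} {A B : Set X} {A' B' : Set Y} (hf : Adm f A B A' B')
    (h : Adm τ A B A B) (h' : Adm τ' A' B' A' B') (e : ∀ x ∈ A, f (τ x) = τ' (f x))
    (hb : ∀ j, Function.Bijective (Hpb hf j)) :
    Shifted s τ A B 0 τ' A' B' ∧ Shifted s τ' A' B' 0 τ A B := by
  have k := fun j => HE_equiv (s := s) h h' (Hpb hf j) (Hpb_equivariant hf h h' e j) (hb j)
  exact ⟨⟨fun j hj => absurd hj (Nat.not_lt_zero j), fun j => ⟨(k j).some.symm⟩⟩,
    fun j hj => absurd hj (Nat.not_lt_zero j), k⟩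

theorem SE_of_vanish {A B : Set X} (h : ∀ j (x : Hc A B j), x = 0) :
    FinE τ s A B ∧ ∀ k, SE τ s A B k = 0 := by
  have h0 : ∀ j, HE τ s A B j = ⊥ := fun j => (Submodule.eq_bot_iff _).2 fun x _ => h j x
  refine ⟨fun j => ?_, fun k => EqAlgBAux.alt_low (n := k + 1) (fun j _ => ?_) k k.lt_succ_self⟩
  · rw [h0]
    infer_instance
  · rw [h0, finrank_bot]

theorem cell_count {ι : Type} (R : Finset ι) (ind : ι → ℕ) (b : ℕ) (m : ℕ → ℤ)
    (h0 : ∀ k < b, 0 ≤ ∑ p ∈ R, cell (ind p) k) (h1 : ∀ k, m k ≤ ∑ p ∈ R, cell (ind p) (k + b))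
    (h2 : ∀ k, 0 ≤ m k) (n : ℕ) : 2 * ∑ k ∈ Finset.range n, m k ≤ R.card := by
  have a1 := Finset.sum_le_sum fun p (_ : p ∈ R) => EqAlgBAux.one_cell (ind p) b n
  rw [Finset.sum_add_distrib, Finset.sum_add_distrib, ← Finset.mul_sum, Finset.sum_comm,
    Finset.sum_const, nsmul_one] at a1
  have a2 : 0 ≤ ∑ p ∈ R, EqAlgBAux.prev (fun j => if j = ind p then 1 else 0) b := by
    cases b with
    | zero => simp [EqAlgBAux.prev]
    | succ b => exact h0 b b.lt_succ_self
  have a3 := Finset.sum_le_sum fun k (_ : k ∈ Finset.range n) => h1 k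
  linarith [h1 n, h2 n]

end Vale.Agent.P265
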