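import Vale.Agent.P265.Core
import Vale.Agent.P265.CoreB

/-! P265: eigenspaces of an involution in cohomology, alternating sums, pushes and handles. -/

open Set Topology

noncomputable section

namespace Vale.Agent.P265

variable {X Y : Type} [MetricSpace X] [MetricSpace Y]

/-- A continuous involution and a sign. -/
structure Sym (τ : X → X) (s : F3) : Prop where
  cont : Continuous τ
  inv : ∀ x, τ (τ x) = x
  sq : s * s = 1

/-- An invariant compact pair. -/
structure IPair (τ : X → X) (A B : Set X) : Prop where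
  cA : IsCompact A
  cB : IsCompact B
  sub : B ⊆ A
  mA : MapsTo τ A A
  mB : MapsTo τ B B

theorem IPair.adm {τ : X → X} {s : F3} {A B : Set X} (h : IPair τ A B) (hτ : Sym τ s) :
    Adm τ A B A B :=
  Adm.of_compact h.cA hτ.cont.continuousOn h.mA h.mB h.sub

theorem sym_id : Sym (id : X → X) 1 := ⟨continuous_id, fun _ => rfl, mul_one _⟩

/-- The `s`-eigenspace of `τ` in cohomology. -/
def HE (τ : X → X) (s : F3) (A B : Set X) (j : ℕ) : Submodule F3 (Hc A B j) :=
  ⨅ h : Adm τ A B A B, LinearMap.ker (Hpb h j - s • LinearMap.id)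

theorem mem_HE {τ : X → X} {s : F3} {A B : Set X} (h : Adm τ A B A B) {j : ℕ} {x : Hc A B j} :
    x ∈ HE τ s A B j ↔ Hpb h j x = s • x := by
  simp only [HE, Submodule.mem_iInf, LinearMap.mem_ker, LinearMap.sub_apply, LinearMap.smul_apply,
    LinearMap.id_apply, sub_eq_zero]
  exact ⟨fun H => H h, fun H _ => H⟩

theorem HE_id (A B : Set X) (j : ℕ) : HE id 1 A B j = ⊤ := by
  refine eq_top_iff.2 fun x _ => ?_
  simp only [HE, Submodule.mem_iInf, LinearMap.mem_ker, LinearMap.sub_apply,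
    LinearMap.id_apply, sub_eq_zero, one_smul]
  exact fun h => Hpb_id h (fun _ _ => rfl) j x

/-- All eigenspaces are finite dimensional. -/
def FinE (τ : X → X) (s : F3) (A B : Set X) : Prop := ∀ j, FiniteDimensional F3 (HE τ s A B j)

/-- Alternating sums `b k - b (k - 1) + ⋯ ± b 0`. -/
def alt (b : ℕ → ℕ) : ℕ → ℤ
  | 0 => b 0
  | k + 1 => b (k + 1) - alt b k

/-- Alternating sums of the dimensions of the eigenspaces. -/
def SE (τ : X → X) (s : F3) (A B : Set X) (k : ℕ) : ℤ :=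
  alt (fun j => Module.finrank F3 (HE τ s A B j)) k

/-- Alternating sums for one cell of dimension `n`. -/
def cell (n k : ℕ) : ℤ := alt (fun j => if j = n then 1 else 0) k

/-- The eigenspaces of `(A, B)` are those of `(A', B')` shifted by `n`. -/
def Shifted (s : F3) (τ : X → X) (A B : Set X) (n : ℕ) (τ' : Y → Y) (A' B' : Set Y) : Prop :=
  (∀ j < n, HE τ s A B j = ⊥) ∧ ∀ j, Nonempty (HE τ s A B (j + n) ≃ₗ[F3] HE τ' s A' B' j)

/-- Sublevel sets. -/
def Low (K : Set X) (f : X → ℝ) (c : ℝ) : Set X := {x | x ∈ K ∧ f x ≤ c}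

/-- A deformation of `K` supported in `U` that lowers `f`, strictly at `x`. -/
structure Push (K : Set X) (f : X → ℝ) (x : X) (U : Set X) (h : ℝ → X → X) : Prop where
  cont : ContinuousOn (Function.uncurry h) (Icc 0 1 ×ˢ K)
  zero : ∀ y ∈ K, h 0 y = y
  maps : ∀ t ∈ Icc (0 : ℝ) 1, MapsTo (h t) K K
  le : ∀ t ∈ Icc (0 : ℝ) 1, ∀ y ∈ K, f (h t y) ≤ f y
  strict : ∀ y ∈ K, h 1 y ≠ y → f (h 1 y) < f y
  out : ∀ t ∈ Icc (0 : ℝ) 1, ∀ y ∈ K, y ∉ U → h t y = y
  inn : ∀ t ∈ Icc (0 : ℝ) 1, ∀ y ∈ K, y ∈ U → h t y ∈ U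
  low : f (h 1 x) < f x

/-- A handle of index `n` at `p` inside `U`. -/
def Handle (K : Set X) (f : X → ℝ) (p : X) (n : ℕ) (U : Set X) : Prop :=
  ∃ B : Set X, IsCompact B ∧ B ⊆ K ∩ U ∧ p ∈ interior B ∧
    (∀ x ∈ B, x ∉ interior B → f x = f p → ∀ V ∈ 𝓝 x,
      ∃ h, Push K f x V h ∧ ∀ t ∈ Icc (0 : ℝ) 1, MapsTo (h t) B B) ∧
    ∃ δ > 0, ∀ a b, f p - δ < a → a < f p → f p < b → b < f p + δ → ∀ j,
      FiniteDimensional F3 (Hc (Low B f b) (Low B f a) j) ∧
        Module.finrank F3 (Hc (Low B f b) (Low B f a) j) = if j = n then 1 else 0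

/-- The model space of the normal forms. -/
abbrev VV (a b : ℕ) : Type := (Fin a → ℝ) × (Fin b → ℝ)

/-- The standard bilinear form of signature `(a, b)`. -/
def bil {a b : ℕ} (u v : VV a b) : ℝ := ∑ i, u.1 i * v.1 i - ∑ i, u.2 i * v.2 i

/-- The hyperbolic contraction of a box, stopped at the exit face `‖v‖ = r`. -/
def hyp {a b : ℕ} (r l : ℝ) (q : VV a b) : VV a b :=
  (max l (‖q.2‖ / r) • q.1, (max l (‖q.2‖ / r))⁻¹ • q.2)

/-- Absolute cohomology of a space. -/
abbrev Habs (X : Type) [MetricSpace X] (j : ℕ) : Type := Hc (univ : Set X) ∅ j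

theorem adm_univ [CompactSpace X] {f : X → Y} (hf : Continuous f) : Adm f univ ∅ univ ∅ :=
  Adm.of_compact isCompact_univ hf.continuousOn (mapsTo_univ _ _) (mapsTo_empty _ _)
    (empty_subset _)

/-- Pull back in absolute cohomology. -/
def Hp [CompactSpace X] {f : X → Y} (hf : Continuous f) (j : ℕ) : Habs Y j →ₗ[F3] Habs X j :=
  Hpb (adm_univ hf) j

end Vale.Agent.P265
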