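import Vale.Agent.P265.LocPush
import Vale.Agent.P265.Box

/-! P265: handles at nondegenerate critical points. -/

open Set Topology Filter

noncomputable section

namespace Vale.Agent.P265

namespace LocHandleAux

open Metric

variable {a b : ℕ}

theorem sq_le_sum {n : ℕ} (u : Fin n → ℝ) : ‖u‖ ^ 2 ≤ ∑ i, u i * u i := by
  have h0 : 0 ≤ ∑ i, u i * u i := Finset.sum_nonneg fun i _ => mul_self_nonneg _
  have : ‖u‖ ≤ √(∑ i, u i * u i) := by
    refine (pi_norm_le_iff_of_nonneg (Real.sqrt_nonneg _)).2 fun i => Real.abs_le_sqrt ?_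
    rw [sq]
    exact Finset.single_le_sum (f := fun i => u i * u i) (fun i _ => mul_self_nonneg _)
      (Finset.mem_univ i)
  calc ‖u‖ ^ 2 ≤ √(∑ i, u i * u i) ^ 2 := by gcongr
    _ = _ := Real.sq_sqrt h0

theorem sum_le_sq {n : ℕ} (u : Fin n → ℝ) : ∑ i, u i * u i ≤ n * ‖u‖ ^ 2 := by
  calc ∑ i, u i * u i ≤ ∑ _i : Fin n, ‖u‖ ^ 2 := Finset.sum_le_sum fun i _ => by
        have : |u i| ≤ ‖u‖ := norm_le_pi_norm u i
        rw [← sq]
        exact sq_le_sq' (abs_le.1 this).1 (abs_le.1 this).2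
    _ = _ := by simp

theorem norm_sq_le (y : VV a b) : ‖y‖ ^ 2 ≤ ∑ i, y.1 i * y.1 i + ∑ i, y.2 i * y.2 i := by
  have h1 := sq_le_sum y.1
  have h2 := sq_le_sum y.2
  have h3 := sq_nonneg ‖y.1‖
  have h4 := sq_nonneg ‖y.2‖
  rw [Prod.norm_def]
  rcases le_total ‖y.1‖ ‖y.2‖ with h | h
  · rw [max_eq_right h]; linarith
  · rw [max_eq_left h]; linarith

theorem bil_comm (u v : VV a b) : bil u v = bil v u := by
  simp only [bil, mul_comm]

/-- The estimates on a small ball. -/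
structure Est (g : VV a b → ℝ) (ε ρ : ℝ) : Prop where
  sm : ∀ y ∈ closedBall (0 : VV a b) ρ, ContDiffAt ℝ 1 g y
  d1 : ∀ y ∈ closedBall (0 : VV a b) ρ, ∀ v, |fderiv ℝ g y v - bil y v| ≤ ε * ‖y‖ * ‖v‖
  d0 : ∀ y ∈ closedBall (0 : VV a b) ρ, |g y - g 0 - bil y y / 2| ≤ ε * ‖y‖ ^ 2

theorem est {g : VV a b → ℝ} (hg : ContDiffAt ℝ 2 g 0) (hd : fderiv ℝ g 0 = 0)
    (hh : ∀ u v, fderiv ℝ (fderiv ℝ g) 0 u v = bil u v) {ε : ℝ} (hε : 0 < ε) {W : Set (VV a b)}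
    (hW : W ∈ 𝓝 0) : ∃ r > 0, closedBall 0 (2 * r) ⊆ W ∧ Est g ε (2 * r) := by
  set L := fderiv ℝ (fderiv ℝ g) 0 with hL
  have h1 : HasFDerivAt (fderiv ℝ g) L 0 :=
    ((hg.fderiv_right (m := 1) (by norm_num)).differentiableAt (by norm_num)).hasFDerivAt
  have h2 := h1.isLittleO.bound hε
  have h3 := hg.eventually (by simp)
  obtain ⟨ρ, hρ, hs⟩ := nhds_basis_closedBall.mem_iff.1 (inter_mem hW (h2.and h3))
  have hb : ∀ y ∈ closedBall (0 : VV a b) ρ, ‖fderiv ℝ g y - L y‖ ≤ ε * ‖y‖ := fun y hy => by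
    simpa [hd] using (hs hy).2.1
  refine ⟨ρ / 2, by positivity, ?_⟩
  rw [show 2 * (ρ / 2) = ρ by ring]
  refine ⟨fun y hy => (hs hy).1, fun y hy => (hs hy).2.2.of_le (by norm_num), fun y hy v => ?_,
    fun y hy => ?_⟩
  · rw [← hh]
    exact ((fderiv ℝ g y - L y).le_opNorm v).trans
      (mul_le_mul_of_nonneg_right (hb y hy) (norm_nonneg _))
  · have hsub : closedBall (0 : VV a b) ‖y‖ ⊆ closedBall 0 ρ :=
      closedBall_subset_closedBall (by simpa using hy)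
    have key := (convex_closedBall (0 : VV a b) ‖y‖).norm_image_sub_le_of_norm_hasFDerivWithin_le
      (f := fun z => g z - L z z / 2) (f' := fun z => fderiv ℝ g z - L z) (C := ε * ‖y‖)
      (x := 0) (y := y) (fun z hz => ?_) (fun z hz => (hb z (hsub hz)).trans ?_)
      (by simp) (by simp)
    · rw [← hh]
      simp only [map_zero, zero_div, sub_zero, Real.norm_eq_abs] at key
      rw [show g y - g 0 - L y y / 2 = g y - L y y / 2 - g 0 by ring]
      nlinarith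
    · refine HasFDerivAt.hasFDerivWithinAt (HasFDerivAt.sub
        ((hs (hsub hz)).2.2.differentiableAt (by norm_num)).hasFDerivAt ?_)
      have := (L.hasFDerivAt (x := z)).clm_apply (hasFDerivAt_id z)
      have := this.mul_const (1 / 2 : ℝ)
      have e1 : (fun w => L w w / 2) = fun w => L w (id w) * (1 / 2) := by
        funext w; simp [div_eq_mul_inv]
      rw [e1]
      refine this.congr_fderiv (ContinuousLinearMap.ext fun v => ?_)
      simp [hh, bil_comm z]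
      ring
    · gcongr; simpa using hz

/-- The box. -/
def bx (a b : ℕ) (r₁ r : ℝ) : Set (VV a b) := closedBall 0 r₁ ×ˢ closedBall 0 r

theorem mem_bx {r₁ r : ℝ} {y : VV a b} : y ∈ bx a b r₁ r ↔ ‖y.1‖ ≤ r₁ ∧ ‖y.2‖ ≤ r := by
  simp [bx]

theorem bx_norm {r₁ r : ℝ} (h : r₁ ≤ r) {y : VV a b} (hy : y ∈ bx a b r₁ r) : ‖y‖ ≤ r := by
  rw [mem_bx] at hy
  rw [Prod.norm_def]
  exact max_le (hy.1.trans h) hy.2

theorem bx_sub {r₁ r : ℝ} (h : r₁ ≤ r) (hr : 0 < r) :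
    bx a b r₁ r ⊆ closedBall 0 (2 * r) := fun y hy => by
  have := bx_norm h hy
  simp only [mem_closedBall, dist_zero_right]
  linarith

theorem path_mem {r₁ r : ℝ} {y : VV a b} (hy : y ∈ bx a b r₁ r) {μ : ℝ} (h0 : 0 < μ)
    (h1 : μ ≤ 1) (h2 : ‖y.2‖ ≤ μ * r) : (μ • y.1, μ⁻¹ • y.2) ∈ bx a b r₁ r := by
  rw [mem_bx] at hy ⊢
  simp only [norm_smul, Real.norm_eq_abs, abs_of_pos h0, abs_of_pos (inv_pos.2 h0)]
  refine ⟨(mul_le_of_le_one_left (norm_nonneg _) h1).trans hy.1, ?_⟩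
  rwa [inv_mul_le_iff₀ h0]

theorem hyp_aux {r₁ r l : ℝ} (hr : 0 < r) (hl : l ∈ Ioc (0 : ℝ) 1) {y : VV a b}
    (hy : y ∈ bx a b r₁ r) : 0 < max l (‖y.2‖ / r) ∧ max l (‖y.2‖ / r) ≤ 1 ∧
      ‖y.2‖ ≤ max l (‖y.2‖ / r) * r :=
  ⟨lt_max_of_lt_left hl.1, max_le hl.2 ((div_le_one hr).2 (mem_bx.1 hy).2),
    (div_le_iff₀ hr).1 (le_max_right _ _)⟩

theorem hyp_mem {r₁ r l : ℝ} (hr : 0 < r) (hl : l ∈ Ioc (0 : ℝ) 1) {y : VV a b}
    (hy : y ∈ bx a b r₁ r) : hyp r l y ∈ bx a b r₁ r := by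
  obtain ⟨h0, h1, h2⟩ := hyp_aux hr hl hy
  exact path_mem hy h0 h1 h2

theorem hyp_exit {r l : ℝ} (hr : 0 < r) (hl : 0 < l) {y : VV a b} (h : l ≤ ‖y.2‖ / r) :
    ‖(hyp r l y).2‖ = r := by
  have h0 : 0 < ‖y.2‖ := by
    have := (le_div_iff₀ hr).1 h
    nlinarith
  simp only [hyp, max_eq_right h, norm_smul, Real.norm_eq_abs]
  rw [abs_of_pos (by positivity)]
  field_simp

theorem hyp_le {g : VV a b → ℝ} {ε r₁ r l : ℝ} (H : Est g ε (2 * r)) (hε : ε ≤ 1) (h : r₁ ≤ r)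
    (hr : 0 < r) (hl : l ∈ Ioc (0 : ℝ) 1) {y : VV a b} (hy : y ∈ bx a b r₁ r) :
    g (hyp r l y) ≤ g y := by
  obtain ⟨h0, h1, h2⟩ := hyp_aux hr hl hy
  set m := max l (‖y.2‖ / r) with hm
  have hd : ∀ μ ∈ Icc m 1, HasDerivAt (fun μ : ℝ => g (μ • y.1, μ⁻¹ • y.2))
      (fderiv ℝ g (μ • y.1, μ⁻¹ • y.2) (μ⁻¹ • (μ • y.1, -(μ⁻¹ • y.2)))) μ := by
    intro μ hμ
    have hμ0 : 0 < μ := h0.trans_le hμ.1
    have hz := bx_sub h hr (path_mem hy hμ0 hμ.2 (h2.trans (by gcongr; exact hμ.1)))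
    have e1 : HasDerivAt (fun μ : ℝ => (μ • y.1, μ⁻¹ • y.2))
        (μ⁻¹ • (μ • y.1, -(μ⁻¹ • y.2))) μ := by
      have := ((hasDerivAt_id μ).smul_const y.1).prodMk ((hasDerivAt_inv hμ0.ne').smul_const y.2)
      refine this.congr_deriv ?_
      simp [smul_smul, hμ0.ne', sq]
    exact ((H.sm _ hz).differentiableAt (by norm_num)).hasFDerivAt.comp_hasDerivAt μ e1
  have mono : MonotoneOn (fun μ : ℝ => g (μ • y.1, μ⁻¹ • y.2)) (Icc m 1) := by
    refine monotoneOn_of_deriv_nonneg (convex_Icc _ _)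
      (fun μ hμ => (hd μ hμ).continuousAt.continuousWithinAt)
      (fun μ hμ => (hd μ (interior_subset hμ)).differentiableAt.differentiableWithinAt)
      fun μ hμ => ?_
    have hμ := interior_subset hμ
    have hμ0 : 0 < μ := h0.trans_le hμ.1
    rw [(hd μ hμ).deriv, map_smul, smul_eq_mul]
    refine mul_nonneg (by positivity) ?_
    have hz := bx_sub h hr (path_mem hy hμ0 hμ.2 (h2.trans (by gcongr; exact hμ.1)))
    set z : VV a b := (μ • y.1, μ⁻¹ • y.2) with hzd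
    have k := (abs_le.1 (H.d1 z hz (z.1, -z.2))).1
    have e1 : bil z (z.1, -z.2) = ∑ i, z.1 i * z.1 i + ∑ i, z.2 i * z.2 i := by simp [bil]
    have e2 : ‖((z.1, -z.2) : VV a b)‖ = ‖z‖ := by simp [Prod.norm_def]
    have e3 := norm_sq_le z
    have e4 : ε * ‖z‖ ^ 2 ≤ 1 * ‖z‖ ^ 2 := by gcongr
    rw [e1, e2] at k
    have : 0 ≤ fderiv ℝ g z (z.1, -z.2) := by nlinarith
    exact this
  have := mono ⟨le_rfl, h1⟩ ⟨h1, le_rfl⟩ h1
  simpa [hyp, hm] using this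

theorem exit_le {g : VV a b → ℝ} {ε r₁ r : ℝ} (H : Est g ε (2 * r)) (hε : ε ≤ 1 / 8)
    (h : r₁ ≤ r) (hr : 0 < r) (ha : a * r₁ ^ 2 ≤ r ^ 2 / 4) {y : VV a b} (hy : y ∈ bx a b r₁ r)
    (h2 : ‖y.2‖ = r) : g y ≤ g 0 - r ^ 2 / 4 := by
  have k := (abs_le.1 (H.d0 y (bx_sub h hr hy))).2
  have k1 := sum_le_sq y.1
  have k2 := sq_le_sum y.2
  have k3 : (a : ℝ) * ‖y.1‖ ^ 2 ≤ a * r₁ ^ 2 := by gcongr; exact (mem_bx.1 hy).1
  have k4 : ‖y‖ ^ 2 ≤ r ^ 2 := by gcongr; exact bx_norm h hy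
  have k5 : ε * ‖y‖ ^ 2 ≤ 1 / 8 * ‖y‖ ^ 2 := by gcongr
  rw [h2] at k2
  unfold bil at k
  linarith

theorem two_sided {g : VV a b → ℝ} {ε ρ : ℝ} (H : Est g ε ρ) (hε : ε ≤ 1 / 8) {y : VV a b}
    (hy : y ∈ closedBall (0 : VV a b) ρ) :
    g y ≤ g 0 + a * ‖y.1‖ ^ 2 ∧ g 0 - b * ‖y.2‖ ^ 2 ≤ g y := by
  obtain ⟨k, k'⟩ := abs_le.1 (H.d0 y hy)
  have k1 := sum_le_sq y.1
  have k2 := sum_le_sq y.2
  have k3 := sq_le_sum y.1
  have k4 := sq_le_sum y.2
  have k5 : ε * ‖y‖ ^ 2 ≤ 1 / 8 * ‖y‖ ^ 2 := by gcongr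
  have k6 := norm_sq_le y
  have k7 := sq_nonneg ‖y.1‖
  have k8 := sq_nonneg ‖y.2‖
  unfold bil at k k'
  constructor <;> linarith

theorem sub_compact {g : VV a b → ℝ} {ε r₁ r : ℝ} (H : Est g ε (2 * r)) (h : r₁ ≤ r)
    (hr : 0 < r) (c : ℝ) : IsCompact (Low (bx a b r₁ r) g c) := by
  have hc : IsCompact (bx a b r₁ r) := (isCompact_closedBall _ _).prod (isCompact_closedBall _ _)
  have hg : ContinuousOn g (bx a b r₁ r) := fun y hy =>
    (H.sm y (bx_sub h hr hy)).continuousAt.continuousWithinAt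
  exact hc.of_isClosed_subset (hg.preimage_isClosed_of_isClosed hc.isClosed isClosed_Iic)
    fun _ hy => hy.1

theorem model {g : VV a b → ℝ} {ε r₁ r α β : ℝ} (H : Est g ε (2 * r)) (hε : ε ≤ 1 / 8)
    (h0 : 0 ≤ r₁) (h : r₁ ≤ r) (hr : 0 < r) (ha : a * r₁ ^ 2 ≤ r ^ 2 / 4)
    (h1 : g 0 - r ^ 2 / 4 < α) (h2 : α < g 0) (h3 : g 0 < β) (j : ℕ) :
    FiniteDimensional F3 (Hc ((univ : Set Unit) ×ˢ Low (bx a b r₁ r) g β)
        (univ ×ˢ Low (bx a b r₁ r) g α) j) ∧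
      Module.finrank F3 (Hc ((univ : Set Unit) ×ˢ Low (bx a b r₁ r) g β)
        (univ ×ˢ Low (bx a b r₁ r) g α) j) = if j = b then 1 else 0 := by
  set l₀ := min 1 (min (4 * (β - g 0) / r ^ 2) ((g 0 - α) / ((b + 1) * r ^ 2))) with hl₀
  have p1 : 0 < β - g 0 := by linarith
  have p2 : 0 < g 0 - α := by linarith
  have hl : l₀ ∈ Ioc (0 : ℝ) 1 := ⟨by positivity, min_le_left _ _⟩
  have l1 : l₀ * r ^ 2 ≤ 4 * (β - g 0) :=
    (le_div_iff₀ (by positivity)).1 ((min_le_right _ _).trans (min_le_left _ _))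
  have l2 : l₀ * ((b + 1) * r ^ 2) ≤ g 0 - α :=
    (le_div_iff₀ (by positivity)).1 ((min_le_right _ _).trans (min_le_right _ _))
  have l3 : l₀ ^ 2 ≤ l₀ := by nlinarith [hl.1, hl.2]
  have mp : ∀ c : ℝ, ∀ l ∈ Ioc (0 : ℝ) 1, MapsTo (Prod.map id (hyp r l))
      ((univ : Set Unit) ×ˢ Low (bx a b r₁ r) g c) (univ ×ˢ Low (bx a b r₁ r) g c) :=
    fun c l hl y hy => ⟨mem_univ _, hyp_mem hr hl hy.2.1,
      (hyp_le H (by linarith) h hr hl hy.2.1).trans hy.2.2⟩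
  have sh := box_shift (X := Unit) sym_id (A := univ)
    ⟨isCompact_univ, isCompact_empty, empty_subset _, mapsTo_id _, mapsTo_id _⟩ h0 hr
    (P := univ ×ˢ Low (bx a b r₁ r) g β) (N := univ ×ˢ Low (bx a b r₁ r) g α)
    ⟨isCompact_univ.prod (sub_compact H h hr β), isCompact_univ.prod (sub_compact H h hr α),
      fun y hy => ⟨hy.1, hy.2.1, hy.2.2.trans (by linarith)⟩, fun y hy => hy, fun y hy => hy⟩
    (fun y hy => ⟨hy.1, hy.2.1⟩)
    (fun y hy => by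
      have hb : y.2 ∈ bx a b r₁ r := ⟨hy.2.1, sphere_subset_closedBall hy.2.2⟩
      exact ⟨hy.1, hb, (exit_le H hε h hr ha hb (by simpa using hy.2.2)).trans h1.le⟩)
    (mp β) (mp α) hl
    (fun y hy => by
      have hb : y.2 ∈ bx a b r₁ r := hy.2
      have hz := hyp_mem hr hl hb
      refine ⟨mem_univ _, hz, ?_⟩
      change g (hyp r l₀ y.2) ≤ β
      rcases le_total l₀ (‖y.2.2‖ / r) with hc | hc
      · have := exit_le H hε h hr ha hz (hyp_exit hr hl.1 hc)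
        nlinarith [sq_nonneg r]
      · have k := (two_sided H hε (bx_sub h hr hz)).1
        have e : ‖(hyp r l₀ y.2).1‖ = l₀ * ‖y.2.1‖ := by
          simp only [hyp, max_eq_left hc, norm_smul, Real.norm_eq_abs, abs_of_pos hl.1]
        have k1 : (a : ℝ) * ‖y.2.1‖ ^ 2 ≤ a * r₁ ^ 2 := by gcongr; exact (mem_bx.1 hb).1
        have k2 : l₀ ^ 2 * (a * ‖y.2.1‖ ^ 2) ≤ l₀ * (r ^ 2 / 4) :=
          mul_le_mul l3 (k1.trans ha) (by positivity) hl.1.le
        rw [e, mul_pow] at k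
        linarith)
    (fun y hy => by
      have hb : y.2 ∈ bx a b r₁ r := hy.2.1
      refine ⟨mem_univ _, (hyp_mem hr hl hb).1, ?_⟩
      rw [mem_sphere_zero_iff_norm]
      refine hyp_exit hr hl.1 ?_
      by_contra hc
      rw [not_le, div_lt_iff₀ hr] at hc
      have k := (two_sided H hε (bx_sub h hr hb)).2
      have k1 : (b : ℝ) * ‖y.2.2‖ ^ 2 ≤ b * (l₀ * r) ^ 2 := by gcongr
      have k2 : (b : ℝ) * (l₀ ^ 2 * r ^ 2) ≤ b * (l₀ * r ^ 2) := by gcongr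
      have k3 : 0 < l₀ * r ^ 2 := by have := hl.1; positivity
      have k4 : g y.2 ≤ α := hy.2.2
      rw [mul_pow] at k1
      linarith)
  rw [Prod.map_id] at sh
  obtain ⟨s1, s2⟩ := sh
  rcases lt_or_ge j b with hj | hj
  · have := s1 j hj
    rw [HE_id] at this
    have hs : Subsingleton (Hc ((univ : Set Unit) ×ˢ Low (bx a b r₁ r) g β)
        (univ ×ˢ Low (bx a b r₁ r) g α) j) :=
      (Submodule.subsingleton_iff F3).1 (subsingleton_of_bot_eq_top this.symm)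
    rw [if_neg hj.ne]
    exact ⟨inferInstance, Module.finrank_zero_of_subsingleton⟩
  · obtain ⟨i, rfl⟩ := Nat.exists_eq_add_of_le' hj
    obtain ⟨φ⟩ := s2 i
    rw [HE_id, HE_id] at φ
    have ψ := (Submodule.topEquiv.symm.trans φ).trans Submodule.topEquiv
    have e : (univ : Set Unit) = {()} := by ext x; simp
    have pt := Hc_point () i
    rw [← e] at pt
    have := pt.1
    refine ⟨ψ.symm.finiteDimensional, ?_⟩
    rw [ψ.finrank_eq, pt.2]
    simp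

end LocHandleAux

variable {X : Type} [MetricSpace X] {E : Type} [NormedAddCommGroup E] [NormedSpace ℝ E]

open LocHandleAux Metric in
theorem handle_of_std {a b : ℕ} (e : OpenPartialHomeomorph X (VV a b)) {K : Set X} {f : X → ℝ}
    {p : X} (hp : p ∈ e.source) (h0 : e p = 0) (hK : K ∈ 𝓝 p)
    (hg : ContDiffAt ℝ 2 (f ∘ e.symm) 0) (hd : fderiv ℝ (f ∘ e.symm) 0 = 0)
    (hh : ∀ u v, fderiv ℝ (fderiv ℝ (f ∘ e.symm)) 0 u v = bil u v) {U : Set X} (hU : U ∈ 𝓝 p) :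
    Handle K f p b U := by
  set g := f ∘ e.symm with hgd
  have ht : (0 : VV a b) ∈ e.target := h0 ▸ e.map_source hp
  have hp0 : e.symm 0 = p := by rw [← h0, e.left_inv hp]
  have hg0 : g 0 = f p := by rw [hgd, Function.comp_apply, hp0]
  set θ : ℝ := 1 / (2 * (a + 1)) with hθ
  have hθ0 : 0 < θ := by positivity
  have hθ1 : θ * (2 * (a + 1)) = 1 := by rw [hθ]; field_simp
  have ha0 : (0 : ℝ) ≤ a := Nat.cast_nonneg a
  have hθa : 0 ≤ θ * a := by positivity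
  have hθ2 : θ ≤ 1 / 2 := by nlinarith
  have hθ3 : θ * a ≤ 1 / 2 := by nlinarith
  obtain ⟨r, hr, hW, H⟩ := est hg hd hh (ε := θ / 4) (by positivity)
    (W := e.target ∩ e.symm ⁻¹' (K ∩ U))
    (inter_mem (e.open_target.mem_nhds ht)
      ((e.continuousAt_symm ht).preimage_mem_nhds (hp0 ▸ inter_mem hK hU)))
  have hε : θ / 4 ≤ 1 / 8 := by linarith
  have h1 : θ * r ≤ r := by nlinarith
  have h10 : 0 < θ * r := by positivity
  have ha : a * (θ * r) ^ 2 ≤ r ^ 2 / 4 := by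
    have : θ * a * θ ≤ 1 / 2 * (1 / 2) := by gcongr
    nlinarith [sq_nonneg r]
  have hbt : bx a b (θ * r) r ⊆ e.target := fun y hy => (hW (bx_sub h1 hr hy)).1
  have hlow : ∀ c, Low (e.symm '' bx a b (θ * r) r) f c = e.symm '' Low (bx a b (θ * r) r) g c := by
    intro c
    ext x
    constructor
    · rintro ⟨⟨y, hy, rfl⟩, hc⟩
      exact ⟨y, ⟨hy, hc⟩, rfl⟩
    · rintro ⟨y, ⟨hy, hc⟩, rfl⟩
      exact ⟨⟨y, hy, rfl⟩, hc⟩
  have hint : ∀ y : VV a b, ‖y.1‖ < θ * r → ‖y.2‖ < r →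
      e.symm y ∈ interior (e.symm '' bx a b (θ * r) r) := by
    intro y a1 a2
    have hs : ball (0 : Fin a → ℝ) (θ * r) ×ˢ ball (0 : Fin b → ℝ) r ⊆ bx a b (θ * r) r :=
      prod_mono ball_subset_closedBall ball_subset_closedBall
    refine interior_maximal (image_mono hs)
      (e.symm.isOpen_image_of_subset_source (isOpen_ball.prod isOpen_ball) (hs.trans hbt)) ?_
    exact ⟨y, ⟨by simpa using a1, by simpa using a2⟩, rfl⟩
  have hBK : e.symm '' bx a b (θ * r) r ⊆ K ∩ U := by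
    rintro _ ⟨y, hy, rfl⟩
    exact (hW (bx_sub h1 hr hy)).2
  refine ⟨e.symm '' bx a b (θ * r) r, ?_, hBK, ?_, ?_, r ^ 2 / 4, by positivity, ?_⟩
  · exact ((isCompact_closedBall _ _).prod (isCompact_closedBall _ _)).image_of_continuousOn
      (e.continuousOn_symm.mono hbt)
  · rw [← hp0]
    exact hint 0 (by simpa using h10) (by simpa using hr)
  · rintro _ ⟨y, hy, rfl⟩ hn hf V hV
    have hy' := mem_bx.1 hy
    have a2 : ‖y.2‖ < r := by
      refine lt_of_le_of_ne hy'.2 fun h2 => ?_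
      have := exit_le H hε h1 hr ha hy h2
      have e1 : g y = f p := hf
      nlinarith [sq_pos_of_pos hr]
    have a1 : ‖y.1‖ = θ * r := le_antisymm hy'.1 (not_lt.1 fun h2 => hn (hint y h2 a2))
    have hey : e (e.symm y) = y := e.right_inv (hbt hy)
    refine push_of_chart e (fun x hx => (hBK hx).1) (e.map_target (hbt hy))
      (by rw [hey]; exact H.sm y (bx_sub h1 hr hy)) (w := fun z => (-z.1, 0)) (by fun_prop)
      ?_ (c₀ := 1 / 2) (by norm_num) ?_ hV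
    · rw [hey]
      have k := (abs_le.1 (H.d1 y (bx_sub h1 hr hy) (-y.1, 0))).2
      have e1 : bil y (-y.1, 0) = -∑ i, y.1 i * y.1 i := by simp [bil]
      have e2 : ‖((-y.1, 0) : VV a b)‖ = θ * r := by simp [Prod.norm_def, a1, h10.le]
      have e3 := sq_le_sum y.1
      have e4 : θ / 4 * ‖y‖ * (θ * r) ≤ θ / 4 * r * (θ * r) := by gcongr; exact bx_norm h1 hy
      rw [e1, e2] at k
      rw [a1] at e3
      have := sq_pos_of_pos h10
      nlinarith
    · have hs := e.map_target (hbt hy)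
      have hb : ball (0 : VV a b) (2 * r) ∈ 𝓝 (e (e.symm y)) := by
        rw [hey]
        refine isOpen_ball.mem_nhds ?_
        have := bx_norm h1 hy
        simp only [mem_ball, dist_zero_right]
        linarith
      filter_upwards [(e.continuousAt hs).preimage_mem_nhds hb] with x hx c hc
      have e1 : ∀ z : VV a b, z + c • ((-z.1, 0) : VV a b) = ((1 - c) • z.1, z.2) := fun z => by
        ext i <;> simp
        ring
      have e2 : ∀ u : Fin a → ℝ, ‖(1 - c) • u‖ ≤ ‖u‖ := fun u => by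
        rw [norm_smul, Real.norm_eq_abs, abs_of_nonneg (by linarith [hc.2])]
        exact mul_le_of_le_one_left (norm_nonneg _) (by linarith [hc.1])
      rw [e1]
      constructor
      · intro _
        refine (hW ?_).2.1
        have hx' : ‖e x‖ < 2 * r := by simpa using hx
        simp only [mem_closedBall, dist_zero_right, Prod.norm_def]
        exact max_le ((e2 _).trans ((norm_fst_le _).trans hx'.le)) ((norm_snd_le _).trans hx'.le)
      · rintro ⟨z, hz, rfl⟩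
        rw [e.right_inv (hbt hz)]
        exact ⟨((1 - c) • z.1, z.2), mem_bx.2 ⟨(e2 _).trans (mem_bx.1 hz).1, (mem_bx.1 hz).2⟩, rfl⟩
  · intro α β b1 b2 b3 _ j
    rw [← hg0] at b1 b2 b3
    obtain ⟨m1, m2⟩ := model H hε h10.le h1 hr ha b1 b2 b3 j
    have hc := sub_compact H h1 hr β
    have hsub : Low (bx a b (θ * r) r) g α ⊆ Low (bx a b (θ * r) r) g β :=
      fun y hy => ⟨hy.1, hy.2.trans (by linarith)⟩
    have hF : Adm (fun x => ((), e x)) (e.symm '' Low (bx a b (θ * r) r) g β)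
        (e.symm '' Low (bx a b (θ * r) r) g α) ((univ : Set Unit) ×ˢ Low (bx a b (θ * r) r) g β)
        (univ ×ˢ Low (bx a b (θ * r) r) g α) := by
      refine Adm.of_compact
        (hc.image_of_continuousOn (e.continuousOn_symm.mono fun y hy => hbt hy.1))
        (continuousOn_const.prodMk (e.continuousOn.mono ?_)) ?_ ?_ (image_mono hsub)
      · rintro _ ⟨y, hy, rfl⟩
        exact e.map_target (hbt hy.1)
      · rintro _ ⟨y, hy, rfl⟩
        exact ⟨mem_univ _, by simpa [e.right_inv (hbt hy.1)] using hy⟩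
      · rintro _ ⟨y, hy, rfl⟩
        exact ⟨mem_univ _, by simpa [e.right_inv (hbt hy.1)] using hy⟩
    have hG : Adm (fun y : Unit × VV a b => e.symm y.2)
        ((univ : Set Unit) ×ˢ Low (bx a b (θ * r) r) g β) (univ ×ˢ Low (bx a b (θ * r) r) g α)
        (e.symm '' Low (bx a b (θ * r) r) g β) (e.symm '' Low (bx a b (θ * r) r) g α) :=
      Adm.of_compact (isCompact_univ.prod hc)
        (e.continuousOn_symm.comp continuousOn_snd fun y hy => hbt hy.2.1)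
        (fun y hy => ⟨y.2, hy.2, rfl⟩) (fun y hy => ⟨y.2, hy.2, rfl⟩) (prod_mono subset_rfl hsub)
    have hb := Hpb_bij hF hG j
      (Hpb_id _ (by
        rintro _ ⟨y, hy, rfl⟩
        simp [e.right_inv (hbt hy.1)]) j)
      (Hpb_id _ (fun y hy => by
        simp only [Function.comp_apply, e.right_inv (hbt hy.2.1)]) j)
    have ψ := LinearEquiv.ofBijective _ hb
    rw [hlow, hlow]
    exact ⟨ψ.finiteDimensional, by rw [← ψ.finrank_eq, m2]⟩

end Vale.Agent.P265
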