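import Vale.Agent.P265.LocHandle

/-! P265: handles at nondegenerate critical points, in any chart. -/

open Set Topology Filter

noncomputable section

namespace Vale.Agent.P265

variable {X : Type} [MetricSpace X] {E : Type} [NormedAddCommGroup E] [NormedSpace ℝ E]

theorem handle_of_normal {a b : ℕ} (e : OpenPartialHomeomorph X E) (L : E ≃L[ℝ] VV a b)
    {K : Set X} {f : X → ℝ} {p : X} (hp : p ∈ e.source) (hK : K ∈ 𝓝 p)
    (hg : ContDiffAt ℝ 2 (f ∘ e.symm) (e p)) (hd : fderiv ℝ (f ∘ e.symm) (e p) = 0)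
    (hh : ∀ u v, fderiv ℝ (fderiv ℝ (f ∘ e.symm)) (e p) u v = bil (L u) (L v)) {U : Set X}
    (hU : U ∈ 𝓝 p) : Handle K f p b U := by
  let T : E ≃ₜ VV a b := (Homeomorph.subRight (e p)).trans L.toHomeomorph
  set g := f ∘ e.symm with hgd
  have e1 : f ∘ (e.transHomeomorph T).symm = (fun z => g (z + e p)) ∘ L.symm := rfl
  have e0 : L.symm 0 + e p = e p := by rw [map_zero, zero_add]
  have hA : HasFDerivAt (fun q : VV a b => L.symm q + e p) (L.symm : VV a b →L[ℝ] E) 0 :=
    L.symm.hasFDerivAt.add_const _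
  have e2 : fderiv ℝ ((fun z => g (z + e p)) ∘ L.symm)
      = fun q => (fderiv ℝ g (L.symm q + e p)).comp (L.symm : VV a b →L[ℝ] E) := by
    funext q
    rw [L.symm.comp_right_fderiv, fderiv_comp_add_right]
  refine handle_of_std (e.transHomeomorph T) hp ?_ hK ?_ ?_ (fun u v => ?_) hU
  · change L (e p - e p) = 0
    rw [sub_self, map_zero]
  · rw [e1]
    have h1 : ContDiffAt ℝ 2 (fun q : VV a b => L.symm q + e p) 0 :=
      (L.symm.contDiff.add contDiff_const).contDiffAt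
    exact ContDiffAt.comp (f := fun q : VV a b => L.symm q + e p) 0 (by rwa [e0]) h1
  · rw [e1, e2]
    simp only [e0, hd, ContinuousLinearMap.zero_comp]
  · rw [e1, e2]
    have h1 : HasFDerivAt (fderiv ℝ g) (fderiv ℝ (fderiv ℝ g) (e p)) (L.symm 0 + e p) := by
      rw [e0]
      exact ((hg.fderiv_right (m := 1) (by norm_num)).differentiableAt (by simp)).hasFDerivAt
    have h2 := (h1.comp 0 hA).clm_comp (hasFDerivAt_const (L.symm : VV a b →L[ℝ] E) 0)
    have h3 := h2.fderiv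
    simp only [Function.comp] at h3
    rw [h3]
    simp [hh]

theorem handle_of_nondeg [FiniteDimensional ℝ E] (e : OpenPartialHomeomorph X E) {K : Set X}
    {f : X → ℝ} {p : X} (hp : p ∈ e.source) (hK : K ∈ 𝓝 p)
    (hg : ContDiffAt ℝ 2 (f ∘ e.symm) (e p)) (hd : fderiv ℝ (f ∘ e.symm) (e p) = 0)
    (hh : ∀ u, (∀ v, fderiv ℝ (fderiv ℝ (f ∘ e.symm)) (e p) u v = 0) → u = 0) :
    ∃ n, ∀ U ∈ 𝓝 p, Handle K f p n U := by
  obtain ⟨a, b, L, hL⟩ := sylvester (fderiv ℝ (fderiv ℝ (f ∘ e.symm)) (e p)).toLinearMap₁₂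
    (fun u v => (hg.isSymmSndFDerivAt (by simp)).eq u v) hh
  exact ⟨b, fun U hU => handle_of_normal e L hp hK hg hd hL hU⟩

/-- A diagonal form on `ℂ × ℂ` is in normal form with index `2 * #{negative weights}`. -/
theorem normal_diag {α β : ℝ} (hα : α ≠ 0) (hβ : β ≠ 0) :
    ∃ (a : ℕ) (L : (ℂ × ℂ) ≃L[ℝ] VV a ((if α < 0 then 2 else 0) + if β < 0 then 2 else 0)),
      ∀ u v : ℂ × ℂ, α * (u.1.re * v.1.re + u.1.im * v.1.im) +
        β * (u.2.re * v.2.re + u.2.im * v.2.im) = bil (L u) (L v) := by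
  have hd : ∀ i, (![α, α, β, β] : Fin 4 → ℝ) i ≠ 0 := fun i => by
    fin_cases i <;> simpa
  have hb : Fintype.card {i // (![α, α, β, β] : Fin 4 → ℝ) i < 0}
      = (if α < 0 then 2 else 0) + if β < 0 then 2 else 0 := by
    rw [Fintype.card_subtype, Finset.card_filter, Fin.sum_univ_four]
    change (((if α < 0 then 1 else 0) + if α < 0 then 1 else 0) + if β < 0 then 1 else 0)
      + (if β < 0 then 1 else 0) = _
    split_ifs <;> rfl
  obtain ⟨a, L, hL⟩ := LocPushAux.diag_normal _ hd _ hb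
  let J : (ℂ × ℂ) ≃ₗ[ℝ] (Fin 4 → ℝ) :=
    { toFun := fun u => ![u.1.re, u.1.im, u.2.re, u.2.im]
      invFun := fun c => (⟨c 0, c 1⟩, ⟨c 2, c 3⟩)
      map_add' := fun u v => funext fun i => by fin_cases i <;> simp
      map_smul' := fun c u => funext fun i => by fin_cases i <;> simp
      left_inv := fun u => rfl
      right_inv := fun c => funext fun i => by fin_cases i <;> rfl }
  refine ⟨a, (J.trans L).toContinuousLinearEquiv, fun u v => ?_⟩
  refine Eq.trans ?_ (hL (J u) (J v))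
  rw [Fin.sum_univ_four]
  change _ = α * (u.1.re * v.1.re) + α * (u.1.im * v.1.im) + β * (u.2.re * v.2.re)
    + β * (u.2.im * v.2.im)
  ring

end Vale.Agent.P265
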