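import Vale.Agent.P265.EqDefs

/-! P265: pushes from charts; Sylvester normal form. -/

open Set Topology Filter

noncomputable section

namespace Vale.Agent.P265

variable {X : Type} [MetricSpace X] {E : Type} [NormedAddCommGroup E] [NormedSpace ℝ E]

namespace LocPushAux

/-- The choice of the radius. -/
theorem exists_rad {g : E → ℝ} {z₀ : E} (hg : ContDiffAt ℝ 1 g z₀) {w : E → E} (hw : Continuous w)
    (hd : fderiv ℝ g z₀ (w z₀) < 0) {P : E → Prop} (hP : ∀ᶠ z in 𝓝 z₀, P z) :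
    ∃ r > 0, (∀ z ∈ Metric.closedBall z₀ r, P z ∧ DifferentiableAt ℝ g z ∧ ‖w z‖ ≤ ‖w z₀‖ + 1) ∧
      ∀ z ∈ Metric.closedBall z₀ r, ∀ y ∈ Metric.closedBall z₀ r, fderiv ℝ g z (w y) < 0 := by
  have h1 : ContinuousAt (fun p : E × E => fderiv ℝ g p.1 (w p.2)) (z₀, z₀) := by
    have h2 : ContinuousAt (fun p : E × E => fderiv ℝ g p.1) (z₀, z₀) :=
      ContinuousAt.comp (f := Prod.fst) (hg.continuousAt_fderiv (by simp)) continuousAt_fst
    exact h2.clm_apply (hw.comp continuous_snd).continuousAt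
  have h3 : ∀ᶠ p : E × E in 𝓝 z₀ ×ˢ 𝓝 z₀, fderiv ℝ g p.1 (w p.2) < 0 := by
    rw [← nhds_prod_eq]
    exact h1.eventually (gt_mem_nhds hd)
  obtain ⟨s, hs, hs'⟩ := (eventually_prod_self_iff (r := fun z y => fderiv ℝ g z (w y) < 0)).1 h3
  have h4 : ∀ᶠ z in 𝓝 z₀, DifferentiableAt ℝ g z :=
    (hg.eventually (by simp)).mono fun z hz => hz.differentiableAt (by simp)
  have h5 : ∀ᶠ z in 𝓝 z₀, ‖w z‖ ≤ ‖w z₀‖ + 1 :=
    hw.norm.continuousAt.eventually (ge_mem_nhds (by linarith))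
  obtain ⟨r, hr, h6⟩ := Metric.nhds_basis_closedBall.eventually_iff.1
    ((hP.and (h4.and h5)).and hs)
  exact ⟨r, hr, fun z hz => (h6 hz).1, fun z hz y hy => hs' z (h6 hz).2 y (h6 hy).2⟩

theorem dec {g : E → ℝ} {S : Set E} {z v : E} {c : ℝ} (hc : 0 < c)
    (hS : ∀ s ∈ Icc 0 c, z + s • v ∈ S) (hdf : ∀ y ∈ S, DifferentiableAt ℝ g y)
    (hneg : ∀ y ∈ S, fderiv ℝ g y v < 0) : g (z + c • v) < g z := by
  have hd : ∀ s ∈ Icc 0 c, HasDerivAt (fun s : ℝ => g (z + s • v)) (fderiv ℝ g (z + s • v) v) s := by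
    intro s hs
    have h1 : HasDerivAt (fun s : ℝ => z + s • v) v s := by
      simpa using ((hasDerivAt_id s).smul_const v).const_add z
    exact (hdf _ (hS s hs)).hasFDerivAt.comp_hasDerivAt s h1
  have h := strictAntiOn_of_deriv_neg (convex_Icc 0 c) (f := fun s : ℝ => g (z + s • v))
    (fun s hs => (hd s hs).continuousAt.continuousWithinAt) fun s hs => by
      rw [(hd s (interior_subset hs)).deriv]
      exact hneg _ (hS s (interior_subset hs))
  simpa using h (left_mem_Icc.2 hc.le) (right_mem_Icc.2 hc.le) hc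

theorem diag_normal {ι : Type} [Fintype ι] (d : ι → ℝ) (hd : ∀ i, d i ≠ 0) (b : ℕ)
    (hb : Fintype.card {i // d i < 0} = b) :
    ∃ (a : ℕ) (L : (ι → ℝ) ≃ₗ[ℝ] VV a b), ∀ u v, ∑ i, d i * (u i * v i) = bil (L u) (L v) := by
  classical
  let a := Fintype.card {i // ¬ d i < 0}
  let σ : Fin a ⊕ Fin b ≃ ι := (Equiv.sumCongr (Fintype.equivFin {i // ¬ d i < 0}).symm
    (Fintype.equivFinOfCardEq hb).symm).trans
      ((Equiv.sumComm _ _).trans (Equiv.sumCompl fun i => d i < 0))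
  have hpos : ∀ j, 0 < d (σ (Sum.inl j)) := fun j =>
    lt_of_le_of_ne (not_lt.1 ((Fintype.equivFin {i // ¬ d i < 0}).symm j).2) (hd _).symm
  have hneg : ∀ j, d (σ (Sum.inr j)) < 0 := fun j => ((Fintype.equivFinOfCardEq hb).symm j).2
  have hs : ∀ i, √|d i| ≠ 0 := fun i => (Real.sqrt_pos.2 (abs_pos.2 (hd i))).ne'
  have hq : ∀ i (s t : ℝ), √|d i| * s * (√|d i| * t) = |d i| * (s * t) := fun i s t => by
    rw [mul_mul_mul_comm, Real.mul_self_sqrt (abs_nonneg _)]
  let L : (ι → ℝ) ≃ₗ[ℝ] VV a b :=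
    { toFun := fun u => (fun j => √|d (σ (Sum.inl j))| * u (σ (Sum.inl j)),
        fun j => √|d (σ (Sum.inr j))| * u (σ (Sum.inr j)))
      invFun := fun q i => (√|d i|)⁻¹ * Sum.elim q.1 q.2 (σ.symm i)
      map_add' := fun u v => Prod.ext (funext fun j => mul_add _ _ _)
        (funext fun j => mul_add _ _ _)
      map_smul' := fun c u => Prod.ext (funext fun j => mul_left_comm _ _ _)
        (funext fun j => mul_left_comm _ _ _)
      left_inv := fun u => funext fun i => by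
        obtain ⟨k, rfl⟩ := σ.surjective i
        simp only [σ.symm_apply_apply]
        rcases k with j | j
        · exact inv_mul_cancel_left₀ (hs _) _
        · exact inv_mul_cancel_left₀ (hs _) _
      right_inv := fun q => Prod.ext
        (funext fun j => by
          simp only [σ.symm_apply_apply]
          exact mul_inv_cancel_left₀ (hs _) _)
        (funext fun j => by
          simp only [σ.symm_apply_apply]
          exact mul_inv_cancel_left₀ (hs _) _) }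
  refine ⟨a, L, fun u v => ?_⟩
  rw [← σ.sum_comp, Fintype.sum_sum_type, bil, sub_eq_add_neg, ← Finset.sum_neg_distrib]
  congr 1
  · refine Finset.sum_congr rfl fun j _ => ?_
    refine Eq.trans ?_ (hq _ _ _).symm
    rw [abs_of_pos (hpos j)]
  · refine Finset.sum_congr rfl fun j _ => ?_
    refine Eq.trans ?_ (congrArg Neg.neg (hq _ _ _).symm)
    rw [abs_of_neg (hneg j)]
    ring

end LocPushAux

open LocPushAux Metric in
theorem push_of_chart [FiniteDimensional ℝ E] (e : OpenPartialHomeomorph X E) {K B : Set X}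
    (hB : B ⊆ K) {f : X → ℝ} {x : X} (hx : x ∈ e.source) (hg : ContDiffAt ℝ 1 (f ∘ e.symm) (e x))
    {w : E → E} (hw : Continuous w) (hd : fderiv ℝ (f ∘ e.symm) (e x) (w (e x)) < 0) {c₀ : ℝ}
    (hc : 0 < c₀) (hK : ∀ᶠ y in 𝓝 x, ∀ c ∈ Icc 0 c₀,
      (y ∈ K → e.symm (e y + c • w (e y)) ∈ K) ∧ (y ∈ B → e.symm (e y + c • w (e y)) ∈ B))
    {U : Set X} (hU : U ∈ 𝓝 x) :
    ∃ h, Push K f x U h ∧ ∀ t ∈ Icc (0 : ℝ) 1, MapsTo (h t) B B := by
  classical
  have : ProperSpace E := FiniteDimensional.proper_real E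
  have ht : Tendsto e.symm (𝓝 (e x)) (𝓝 x) := e.tendsto_symm hx
  have hT : ∀ᶠ z in 𝓝 (e x), z ∈ e.target := e.open_target.mem_nhds (e.map_source hx)
  have hU' : ∀ᶠ y in 𝓝 x, y ∈ U := hU
  obtain ⟨r, hr, h1, h2⟩ := exists_rad hg hw hd
    (hT.and ((ht.eventually hU').and (ht.eventually hK)))
  set M := ‖w (e x)‖ + 1 with hM
  have M0 : 0 < M := by positivity
  set η := min (c₀ / r) (1 / M) with hη
  have η0 : 0 < η := lt_min (by positivity) (by positivity)
  have η1 : η * r ≤ c₀ := by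
    rw [← le_div_iff₀ hr]
    exact min_le_left _ _
  have η2 : η * M ≤ 1 := by
    rw [← le_div_iff₀ M0]
    exact min_le_right _ _
  let ψ : E → ℝ := fun z => η * max 0 (r - dist z (e x))
  have ψc : Continuous ψ := by fun_prop
  have ψ0 : ∀ z, 0 ≤ ψ z := fun z => mul_nonneg η0.le (le_max_left _ _)
  have ψ1 : ∀ z, ψ z ≤ c₀ := fun z => by
    refine le_trans (mul_le_mul_of_nonneg_left (max_le hr.le ?_) η0.le) η1
    linarith [dist_nonneg (x := z) (y := e x)]
  have ψ2 : ∀ z, z ∉ closedBall (e x) r → ψ z = 0 := fun z hz => by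
    rw [mem_closedBall, not_le] at hz
    simp only [ψ]
    rw [max_eq_left (by linarith), mul_zero]
  have ψ3 : ∀ z ∈ closedBall (e x) r, ∀ s ∈ Icc 0 (ψ z), z + s • w z ∈ closedBall (e x) r := by
    intro z hz s hs
    have a1 := (h1 z hz).2.2
    rw [mem_closedBall] at hz
    have a2 : ψ z = η * (r - dist z (e x)) := by
      simp only [ψ]
      rw [max_eq_right (by linarith)]
    have a3 : dist (z + s • w z) z ≤ r - dist z (e x) := by
      rw [dist_eq_norm, add_sub_cancel_left, norm_smul, Real.norm_of_nonneg hs.1]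
      calc s * ‖w z‖ ≤ ψ z * M := mul_le_mul hs.2 a1 (norm_nonneg _) (ψ0 z)
        _ = (η * M) * (r - dist z (e x)) := by rw [a2]; ring
        _ ≤ 1 * (r - dist z (e x)) := mul_le_mul_of_nonneg_right η2 (by linarith)
        _ = _ := one_mul _
    rw [mem_closedBall]
    linarith [dist_triangle (z + s • w z) z (e x)]
  have ψ4 : ∀ z, ∀ t ∈ Icc (0 : ℝ) 1, t * ψ z ∈ Icc 0 (ψ z) := fun z t ht =>
    ⟨mul_nonneg ht.1 (ψ0 z), mul_le_of_le_one_left (ψ0 z) ht.2⟩
  have hsub : closedBall (e x) r ⊆ e.target := fun z hz => (h1 z hz).1.1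
  let C : Set X := e.symm '' closedBall (e x) r
  have hC : IsCompact C :=
    (isCompact_closedBall _ _).image_of_continuousOn (e.continuousOn_symm.mono hsub)
  have mC : ∀ y, y ∈ C ↔ y ∈ e.source ∧ e y ∈ closedBall (e x) r := fun y => by
    constructor
    · rintro ⟨z, hz, rfl⟩
      exact ⟨e.map_target (hsub hz), by rwa [e.right_inv (hsub hz)]⟩
    · exact fun h => ⟨e y, h.2, e.left_inv h.1⟩
  have CU : C ⊆ U := by
    rintro _ ⟨z, hz, rfl⟩
    exact (h1 z hz).1.2.1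
  let F : ℝ → X → X := fun t y => e.symm (e y + (t * ψ (e y)) • w (e y))
  let h : ℝ → X → X := fun t y => if y ∈ C then F t y else y
  have hin : ∀ t, ∀ y ∈ C, h t y = F t y := fun t y hy => if_pos hy
  have hout : ∀ t y, y ∉ C → h t y = y := fun t y hy => if_neg hy
  have hsrc : ∀ t, ∀ y ∈ e.source, h t y = F t y := fun t y hy => by
    by_cases hy' : y ∈ C
    · exact hin t y hy'
    · rw [hout t y hy']
      simp only [F]
      rw [ψ2 _ fun h => hy' ((mC y).2 ⟨hy, h⟩), mul_zero, zero_smul, add_zero, e.left_inv hy]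
  have hmap : ∀ t ∈ Icc (0 : ℝ) 1, ∀ y, (y ∈ K → h t y ∈ K) ∧ (y ∈ B → h t y ∈ B) := by
    intro t ht y
    by_cases hy : y ∈ C
    · rw [hin t y hy]
      obtain ⟨a1, a2⟩ := (mC y).1 hy
      have a3 := (h1 _ a2).1.2.2 (t * ψ (e y)) ⟨(ψ4 _ t ht).1, (ψ4 _ t ht).2.trans (ψ1 _)⟩
      rw [e.left_inv a1] at a3
      exact a3
    · rw [hout t y hy]
      exact ⟨id, id⟩
  have hlt : ∀ t ∈ Icc (0 : ℝ) 1, ∀ y ∈ C, t * ψ (e y) ≠ 0 → f (h t y) < f y := by
    intro t ht y hy hne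
    obtain ⟨a1, a2⟩ := (mC y).1 hy
    have a3 := dec (g := f ∘ e.symm) (S := closedBall (e x) r) (z := e y) (v := w (e y))
      (lt_of_le_of_ne (ψ4 _ t ht).1 hne.symm)
      (fun s hs => ψ3 _ a2 s ⟨hs.1, hs.2.trans (ψ4 _ t ht).2⟩) (fun z hz => (h1 z hz).2.1)
      fun z hz => h2 z hz _ a2
    rw [hin t y hy]
    simpa only [Function.comp, e.left_inv a1] using a3
  have heq : ∀ t y, t * ψ (e y) = 0 → h t y = y := fun t y h0 => by
    by_cases hy : y ∈ C
    · rw [hin t y hy]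
      simp only [F]
      rw [h0, zero_smul, add_zero, e.left_inv ((mC y).1 hy).1]
    · exact hout t y hy
  have xC : x ∈ C := (mC x).2 ⟨hx, mem_closedBall_self hr.le⟩
  refine ⟨h, ⟨?_, fun y _ => heq 0 y (zero_mul _), fun t ht y hy => (hmap t ht y).1 hy, ?_, ?_,
    fun t _ y _ hy => hout t y fun h => hy (CU h), ?_, ?_⟩, fun t ht y hy => (hmap t ht y).2 hy⟩
  · rintro ⟨t, y⟩ ⟨ht, -⟩
    refine ContinuousAt.continuousWithinAt ?_
    by_cases hy : y ∈ C
    · obtain ⟨a1, a2⟩ := (mC y).1 hy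
      have b1 : ContinuousAt (fun p : ℝ × X => e p.2) (t, y) :=
        ContinuousAt.comp (f := Prod.snd) (e.continuousAt a1) continuousAt_snd
      have b2 : ContinuousAt (fun p : ℝ × X => e p.2 + (p.1 * ψ (e p.2)) • w (e p.2)) (t, y) :=
        b1.add ((continuousAt_fst.mul (ψc.continuousAt.comp b1)).smul (hw.continuousAt.comp b1))
      have b3 : ContinuousAt (fun p : ℝ × X => F p.1 p.2) (t, y) :=
        ContinuousAt.comp (f := fun p : ℝ × X => e p.2 + (p.1 * ψ (e p.2)) • w (e p.2))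
          (e.continuousAt_symm (hsub (ψ3 _ a2 _ (ψ4 _ t ht)))) b2
      refine b3.congr ?_
      have b4 : ∀ᶠ p : ℝ × X in 𝓝 (t, y), p.2 ∈ e.source :=
        continuousAt_snd.eventually (e.open_source.mem_nhds a1)
      exact b4.mono fun p hp => (hsrc p.1 p.2 hp).symm
    · refine (continuousAt_snd (p := (t, y))).congr ?_
      have b4 : ∀ᶠ p : ℝ × X in 𝓝 (t, y), p.2 ∈ Cᶜ :=
        continuousAt_snd.eventually (hC.isClosed.isOpen_compl.mem_nhds hy)
      exact b4.mono fun p hp => (hout p.1 p.2 hp).symm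
  · intro t ht y _
    by_cases hy : y ∈ C
    · by_cases h0 : t * ψ (e y) = 0
      · rw [heq t y h0]
      · exact (hlt t ht y hy h0).le
    · rw [hout t y hy]
  · intro y _ hne
    by_cases hy : y ∈ C
    · exact hlt 1 (right_mem_Icc.2 zero_le_one) y hy fun h0 => hne (heq 1 y h0)
    · exact absurd (hout 1 y hy) hne
  · intro t ht y _ hy'
    by_cases hy : y ∈ C
    · rw [hin t y hy]
      exact CU ⟨_, ψ3 _ ((mC y).1 hy).2 _ (ψ4 _ t ht), rfl⟩
    · rwa [hout t y hy]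
  · refine hlt 1 (right_mem_Icc.2 zero_le_one) x xC ?_
    simp only [ψ]
    rw [dist_self, sub_zero, max_eq_right hr.le]
    positivity

theorem push_of_regular [FiniteDimensional ℝ E] (e : OpenPartialHomeomorph X E) {K : Set X}
    {f : X → ℝ} {x : X} (hx : x ∈ e.source) (hK : K ∈ 𝓝 x)
    (hg : ContDiffAt ℝ 1 (f ∘ e.symm) (e x)) (hd : fderiv ℝ (f ∘ e.symm) (e x) ≠ 0)
    {U : Set X} (hU : U ∈ 𝓝 x) : ∃ h, Push K f x U h := by
  obtain ⟨v, hv⟩ : ∃ v, fderiv ℝ (f ∘ e.symm) (e x) v < 0 := by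
    obtain ⟨v, hv⟩ : ∃ v, fderiv ℝ (f ∘ e.symm) (e x) v ≠ 0 := by
      by_contra h
      exact hd (ContinuousLinearMap.ext fun v => not_not.1 fun h' => h ⟨v, h'⟩)
    rcases lt_or_gt_of_ne hv with h | h
    · exact ⟨v, h⟩
    · exact ⟨-v, by rw [map_neg]; linarith⟩
  have b1 : ContinuousAt (fun p : X × ℝ => e p.1) (x, 0) :=
    ContinuousAt.comp (f := Prod.fst) (e.continuousAt hx) continuousAt_fst
  have b2 : Tendsto (fun p : X × ℝ => e p.1 + p.2 • v) (𝓝 (x, 0)) (𝓝 (e x)) := by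
    have : ContinuousAt (fun p : X × ℝ => e p.1 + p.2 • v) (x, 0) :=
      b1.add (continuousAt_snd.smul continuousAt_const)
    simpa using this.tendsto
  have b3 : ∀ᶠ p : X × ℝ in 𝓝 x ×ˢ 𝓝 0, e.symm (e p.1 + p.2 • v) ∈ K := by
    rw [← nhds_prod_eq]
    exact ((e.tendsto_symm hx).comp b2).eventually hK
  obtain ⟨P, hP, Q, hQ, b4⟩ := eventually_prod_iff.1 b3
  obtain ⟨c, hc, b5⟩ := Metric.nhds_basis_closedBall.eventually_iff.1 hQ
  obtain ⟨h, hh, -⟩ := push_of_chart e (empty_subset K) hx hg (w := fun _ => v) continuous_const hv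
    hc (hP.mono fun y hy s hs => ⟨fun _ => b4 hy (b5 (by
      rw [Metric.mem_closedBall, dist_zero_right, Real.norm_of_nonneg hs.1]
      exact hs.2)), fun h => h.elim⟩) hU
  exact ⟨h, hh⟩

theorem sylvester [FiniteDimensional ℝ E] (B : E →ₗ[ℝ] E →ₗ[ℝ] ℝ) (hs : ∀ u v, B u v = B v u)
    (hn : ∀ u, (∀ v, B u v = 0) → u = 0) :
    ∃ (a b : ℕ) (L : E ≃L[ℝ] VV a b), ∀ u v, B u v = bil (L u) (L v) := by
  classical
  obtain ⟨v, hv⟩ := LinearMap.BilinForm.exists_orthogonal_basis (B := B) ⟨hs⟩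
  have hd := hv.not_isOrtho_basis_self_of_separatingLeft hn
  obtain ⟨a, L, hL⟩ := LocPushAux.diag_normal (fun i => B (v i) (v i)) hd _ rfl
  refine ⟨a, _, (v.equivFun.trans L).toContinuousLinearEquiv, fun x y => ?_⟩
  refine Eq.trans ?_ (hL (v.equivFun x) (v.equivFun y))
  conv_lhs => rw [← v.sum_equivFun x, ← v.sum_equivFun y]
  simp only [map_sum, map_smul, LinearMap.sum_apply, LinearMap.smul_apply, smul_eq_mul]
  refine Finset.sum_congr rfl fun i _ => ?_
  rw [Finset.sum_eq_single i (fun j _ hj => by rw [hv hj, mul_zero]) (by simp)]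
  ring

end Vale.Agent.P265
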