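import Vale.Agent.P265.MorseC
import Vale.Agent.P265.LocNondeg

/-! P265: Morse inequalities for functions quadratic at infinity. -/

open Set Topology

noncomputable section

namespace Vale.Agent.P265

variable {X : Type} [MetricSpace X] [CompactSpace X] {E : Type} [NormedAddCommGroup E]
  [NormedSpace ℝ E] [FiniteDimensional ℝ E]

namespace LowAbsAux

open Metric

theorem sq_nonneg' {n : ℕ} (v : Fin n → ℝ) : 0 ≤ ∑ i, v i * v i :=
  Finset.sum_nonneg fun _ _ => mul_self_nonneg _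

theorem sq_le {n : ℕ} {v : Fin n → ℝ} {c : ℝ} (h : ‖v‖ ≤ c) : ∑ i, v i * v i ≤ n * c ^ 2 := by
  have := Finset.sum_le_card_nsmul Finset.univ (fun i => v i * v i) (c ^ 2) fun i _ => by
    rw [← sq, ← sq_abs]
    exact pow_le_pow_left₀ (abs_nonneg _) ((norm_le_pi_norm v i).trans h) 2
  simpa using this

theorem le_sq {n : ℕ} (v : Fin n → ℝ) : ‖v‖ ^ 2 ≤ ∑ i, v i * v i := by
  refine (Real.le_sqrt (norm_nonneg _) (sq_nonneg' v)).1
    ((pi_norm_le_iff_of_nonneg (Real.sqrt_nonneg _)).2 fun i => Real.abs_le_sqrt ?_)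
  rw [sq]
  exact Finset.single_le_sum (f := fun i => v i * v i) (fun _ _ => mul_self_nonneg _)
    (Finset.mem_univ i)

omit [FiniteDimensional ℝ E] in
theorem fderiv_bil {a b : ℕ} (q w : E × VV a b) :
    fderiv ℝ (fun q : E × VV a b => bil q.2 q.2) q w = 2 * bil q.2 w.2 := by
  have h1 := fun i => ((ContinuousLinearMap.proj (R := ℝ) (φ := fun _ : Fin a => ℝ) i).comp
    ((ContinuousLinearMap.fst ℝ _ _).comp (ContinuousLinearMap.snd ℝ E (VV a b)))).hasFDerivAt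
      (x := q)
  have h2 := fun i => ((ContinuousLinearMap.proj (R := ℝ) (φ := fun _ : Fin b => ℝ) i).comp
    ((ContinuousLinearMap.snd ℝ _ _).comp (ContinuousLinearMap.snd ℝ E (VV a b)))).hasFDerivAt
      (x := q)
  have h3 : HasFDerivAt (fun q : E × VV a b => bil q.2 q.2) _ q :=
    (HasFDerivAt.fun_sum fun i _ => (h1 i).fun_mul (h1 i)).fun_sub
      (HasFDerivAt.fun_sum fun i _ => (h2 i).fun_mul (h2 i))
  rw [h3.fderiv]
  simp [bil, Finset.sum_add_distrib]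
  ring

omit [MetricSpace X] [CompactSpace X] [FiniteDimensional ℝ E] in
theorem fderiv_out {a b : ℕ} {f : X × VV a b → ℝ} {r : ℝ}
    (hr : ∀ x y, r ≤ ‖y‖ → f (x, y) = bil y y) (g : E → X) (q w : E × VV a b) (hq : r < ‖q.2‖) :
    fderiv ℝ (fun q : E × VV a b => f (g q.1, q.2)) q w = 2 * bil q.2 w.2 := by
  rw [← fderiv_bil, Filter.EventuallyEq.fderiv_eq]
  filter_upwards [(continuous_snd.norm.tendsto q).eventually_const_lt hq] with z hz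
  exact hr _ _ hz.le

theorem hyp_box {a b : ℕ} {r₁ r₂ l : ℝ} (h₂ : 0 < r₂) (hl : l ∈ Ioc (0 : ℝ) 1) {q : VV a b}
    (h1 : ‖q.1‖ ≤ r₁) (h2 : ‖q.2‖ ≤ r₂) :
    ‖(hyp r₂ l q).1‖ ≤ r₁ ∧ ‖(hyp r₂ l q).2‖ ≤ r₂ ∧ ‖q.2‖ ≤ ‖(hyp r₂ l q).2‖ ∧
      bil (hyp r₂ l q) (hyp r₂ l q) ≤ bil q q ∧ (l * r₂ ≤ ‖q.2‖ → ‖(hyp r₂ l q).2‖ = r₂) := by
  have m0 : 0 < max l (‖q.2‖ / r₂) := hl.1.trans_le (le_max_left _ _)
  have m1 : max l (‖q.2‖ / r₂) ≤ 1 := max_le hl.2 ((div_le_one h₂).2 h2)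
  have m2 : ‖q.2‖ ≤ max l (‖q.2‖ / r₂) * r₂ := (div_le_iff₀ h₂).1 (le_max_right _ _)
  have m3 : l * r₂ ≤ ‖q.2‖ → ‖q.2‖ = max l (‖q.2‖ / r₂) * r₂ := fun h => by
    rw [max_eq_right ((le_div_iff₀ h₂).2 h), div_mul_cancel₀ _ h₂.ne']
  unfold hyp bil
  generalize max l (‖q.2‖ / r₂) = m at m0 m1 m2 m3
  have m4 : 1 ≤ m⁻¹ := (one_le_inv₀ m0).2 m1
  simp only [norm_smul, Real.norm_of_nonneg m0.le, Real.norm_of_nonneg (inv_pos.2 m0).le]
  refine ⟨(mul_le_of_le_one_left (norm_nonneg _) m1).trans h1, (inv_mul_le_iff₀ m0).2 m2,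
    le_mul_of_one_le_left (norm_nonneg _) m4, sub_le_sub (Finset.sum_le_sum fun i _ => ?_)
      (Finset.sum_le_sum fun i _ => ?_), fun h => (inv_mul_eq_iff_eq_mul₀ m0.ne').2 (m3 h)⟩
  · rw [Pi.smul_apply, smul_eq_mul, mul_mul_mul_comm]
    exact mul_le_of_le_one_left (mul_self_nonneg _) (mul_le_one₀ m1 m0.le m1)
  · rw [Pi.smul_apply, smul_eq_mul, mul_mul_mul_comm]
    exact le_mul_of_one_le_left (mul_self_nonneg _) (one_le_mul_of_one_le_of_one_le m4 m4)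

theorem shift {τ : X → X} {s : F3} (hτ : Sym τ s) {a b : ℕ} {f : X × VV a b → ℝ}
    (hf : Continuous f) (hfτ : ∀ x y, f (τ x, y) = f (x, y)) {r r₁ r₂ β : ℝ} (h0 : 0 < r)
    (hr : ∀ x y, r ≤ ‖y‖ → f (x, y) = bil y y) (h1 : 0 ≤ r₁) (h2 : r ≤ r₂)
    (hβ : ∀ x y, ‖y‖ ≤ r → -β < f (x, y)) (hb : b * r ^ 2 < β)
    (he : ∀ x (y : VV a b), ‖y.1‖ ≤ r₁ → ‖y.2‖ = r₂ → f (x, y) < -β) :
    Shifted s (Prod.map τ id) (univ ×ˢ closedBall 0 r₁ ×ˢ closedBall 0 r₂)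
      (Low (univ ×ˢ closedBall 0 r₁ ×ˢ closedBall 0 r₂) f (-β)) b τ univ ∅ := by
  have h3 : 0 < r₂ := h0.trans_le h2
  have cK : IsCompact ((univ : Set X) ×ˢ closedBall (0 : Fin a → ℝ) r₁ ×ˢ
      closedBall (0 : Fin b → ℝ) r₂) :=
    isCompact_univ.prod ((isCompact_closedBall _ _).prod (isCompact_closedBall _ _))
  have h4 : ∀ x (y : VV a b), f (x, y) ≤ -β → r ≤ ‖y.2‖ := fun x y h => by
    have k1 := hr x y (not_le.1 fun c => (hβ x y c).not_ge h).le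
    by_contra c
    have k2 := sq_le (not_le.1 c).le
    have k3 := sq_nonneg' y.1
    unfold bil at k1
    linarith
  have mP : ∀ l ∈ Ioc (0 : ℝ) 1, MapsTo (Prod.map id (hyp r₂ l))
      ((univ : Set X) ×ˢ closedBall (0 : Fin a → ℝ) r₁ ×ˢ closedBall (0 : Fin b → ℝ) r₂)
      (univ ×ˢ closedBall 0 r₁ ×ˢ closedBall 0 r₂) := fun l hl p hp => by
    obtain ⟨k1, k2, -⟩ := hyp_box h3 hl (mem_closedBall_zero_iff.1 hp.2.1)
      (mem_closedBall_zero_iff.1 hp.2.2)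
    exact ⟨trivial, mem_closedBall_zero_iff.2 k1, mem_closedBall_zero_iff.2 k2⟩
  have hl : r / r₂ ∈ Ioc (0 : ℝ) 1 := ⟨div_pos h0 h3, (div_le_one h3).2 h2⟩
  refine box_shift hτ ⟨isCompact_univ, isCompact_empty, empty_subset _, mapsTo_univ _ _,
    mapsTo_empty _ _⟩ h1 h3 ⟨cK, cK.inter_right (isClosed_le hf continuous_const),
    fun _ hp => hp.1, fun _ hp => ⟨trivial, hp.2⟩, fun p hp => ⟨⟨trivial, hp.1.2⟩,
      (hfτ p.1 p.2).trans_le hp.2⟩⟩ Subset.rfl (fun p hp => ⟨⟨trivial, hp.2.1,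
      sphere_subset_closedBall hp.2.2⟩, (he p.1 p.2 (mem_closedBall_zero_iff.1 hp.2.1)
        (mem_sphere_zero_iff_norm.1 hp.2.2)).le⟩) mP (fun l hl p hp => ⟨mP l hl hp.1, ?_⟩) hl
    (mP _ hl) fun p hp => ⟨trivial, (mP _ hl hp.1).2.1, ?_⟩
  · obtain ⟨-, -, k1, k2, -⟩ := hyp_box h3 hl (mem_closedBall_zero_iff.1 hp.1.2.1)
      (mem_closedBall_zero_iff.1 hp.1.2.2)
    have k3 := h4 p.1 p.2 hp.2
    exact (hr p.1 _ ((k3.trans k1).trans (norm_snd_le _))).trans_le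
      (k2.trans ((hr p.1 p.2 (k3.trans (norm_snd_le _))).symm.trans_le hp.2))
  · obtain ⟨-, -, -, -, k1⟩ := hyp_box h3 hl (mem_closedBall_zero_iff.1 hp.1.2.1)
      (mem_closedBall_zero_iff.1 hp.1.2.2)
    exact mem_sphere_zero_iff_norm.2 (k1 ((div_mul_cancel₀ r h3.ne').trans_le (h4 p.1 p.2 hp.2)))

theorem consts {a b : ℕ} {f : X × VV a b → ℝ} (hf : Continuous f) {r : ℝ} (h0 : 0 < r)
    (hr : ∀ x y, r ≤ ‖y‖ → f (x, y) = bil y y) : ∃ β r₂ : ℝ, r < r₂ ∧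
      (∀ x y, ‖y‖ ≤ r → -β < f (x, y)) ∧ b * r ^ 2 < β ∧
      ∀ x (y : VV a b), ‖y.1‖ ≤ r + 1 → ‖y.2‖ = r₂ → f (x, y) < -β := by
  obtain ⟨c, hc⟩ := ((isCompact_univ (X := X)).prod
    (isCompact_closedBall (0 : VV a b) r)).bddBelow_image hf.continuousOn
  obtain ⟨β, b1, b2⟩ : ∃ β : ℝ, -β < c ∧ b * r ^ 2 < β :=
    ⟨max (-c) (b * r ^ 2) + 1, by linarith [le_max_left (-c) (b * r ^ 2)],
      by linarith [le_max_right (-c) (b * r ^ 2)]⟩
  have b3 : 0 ≤ b * r ^ 2 := by positivity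
  have b4 : 0 ≤ a * (r + 1) ^ 2 := by positivity
  refine ⟨β, r + 1 + β + a * (r + 1) ^ 2, by linarith, fun x y h =>
    b1.trans_le (hc ⟨(x, y), ⟨trivial, mem_closedBall_zero_iff.2 h⟩, rfl⟩), b2, fun x y k1 k2 => ?_⟩
  rw [hr x y (le_trans (by linarith) (norm_snd_le y)), bil]
  have k3 := sq_le k1
  have k4 := le_sq y.2
  nlinarith

end LowAbsAux

open LowAbsAux Metric in
theorem lower_abs {τ : X → X} (hτ : Sym τ 1) {a b : ℕ} {f : X × VV a b → ℝ} (hf : Continuous f)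
    (hfτ : ∀ x y, f (τ x, y) = f (x, y)) {r : ℝ} (hr : ∀ x y, r ≤ ‖y‖ → f (x, y) = bil y y)
    (R : Finset (X × VV a b)) (hfree : ∀ p ∈ R, ∀ q ∈ R, (τ p.1, p.2) ≠ q)
    (hch : ∀ x : X, ∃ e : OpenPartialHomeomorph X E, x ∈ e.source ∧ ∀ y : VV a b,
      ContDiffAt ℝ 2 (fun q : E × VV a b => f (e.symm q.1, q.2)) (e x, y) ∧
      ((x, y) ∈ R → fderiv ℝ (fun q : E × VV a b => f (e.symm q.1, q.2)) (e x, y) = 0) ∧
      (fderiv ℝ (fun q : E × VV a b => f (e.symm q.1, q.2)) (e x, y) = 0 →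
        ((x, y) ∈ R ∨ (τ x, y) ∈ R) ∧ ∀ u, (∀ v, fderiv ℝ
          (fderiv ℝ fun q : E × VV a b => f (e.symm q.1, q.2)) (e x, y) u v = 0) → u = 0)) :
    ∃ ind : X × VV a b → ℕ, ∀ s : F3, s * s = 1 → FinE τ s univ ∅ →
      (∀ k < b, 0 ≤ ∑ p ∈ R, cell (ind p) k) ∧
        ∀ k, SE τ s univ ∅ k ≤ ∑ p ∈ R, cell (ind p) (k + b) := by
  obtain ⟨ρ, h0, hρ⟩ : ∃ ρ : ℝ, 0 < ρ ∧ ∀ x y, ρ ≤ ‖y‖ → f (x, y) = bil y y :=
    ⟨max r 1, lt_max_of_lt_right one_pos, fun x y h => hr x y ((le_max_left _ _).trans h)⟩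
  obtain ⟨β, r₂, h2, hβ, hb, he⟩ := consts hf h0 hρ
  set K := (univ : Set X) ×ˢ closedBall (0 : Fin a → ℝ) (ρ + 1) ×ˢ closedBall (0 : Fin b → ℝ) r₂
    with hK
  have hn : ∀ p : X × VV a b, ‖p.2.1‖ < ρ + 1 → ‖p.2.2‖ < r₂ → K ∈ 𝓝 p := fun p k1 k2 =>
    prod_mem_nhds Filter.univ_mem (prod_mem_nhds
      (closedBall_mem_nhds_of_mem (mem_ball_zero_iff.2 k1))
      (closedBall_mem_nhds_of_mem (mem_ball_zero_iff.2 k2)))
  have hR : ∀ p : X × VV a b, ∃ n, p ∈ R → -β < f p ∧ ∀ U ∈ 𝓝 p, Handle K f p n U := fun p => by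
    by_cases hp : p ∈ R
    swap
    · exact ⟨0, fun c => absurd c hp⟩
    obtain ⟨e, e1, e2⟩ := hch p.1
    obtain ⟨e3, e4, e5⟩ := e2 p.2
    have k1 : ‖p.2‖ ≤ ρ := by
      by_contra c
      have k2 := fderiv_out hρ e.symm (e p.1, p.2) (0, (p.2.1, -p.2.2)) (not_le.1 c)
      rw [e4 hp] at k2
      simp only [bil, Pi.neg_apply, mul_neg, Finset.sum_neg_distrib,
        zero_apply] at k2
      have k3 := le_sq p.2.1
      have k4 := le_sq p.2.2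
      have k5 : ‖p.2.1‖ ^ 2 ≤ 0 := by linarith [sq_nonneg ‖p.2.2‖]
      have k6 : ‖p.2.2‖ ^ 2 ≤ 0 := by linarith [sq_nonneg ‖p.2.1‖]
      exact c (max_le ((pow_eq_zero_iff two_ne_zero).1 (k5.antisymm (sq_nonneg _)) ▸ h0.le)
        ((pow_eq_zero_iff two_ne_zero).1 (k6.antisymm (sq_nonneg _)) ▸ h0.le))
    obtain ⟨n, hh⟩ := handle_of_nondeg (e.prod (OpenPartialHomeomorph.refl (VV a b))) (f := f)
      (p := p) ⟨e1, trivial⟩ (hn p (by linarith [norm_fst_le p.2]) (by linarith [norm_snd_le p.2]))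
      e3 (e4 hp) (e5 (e4 hp)).2
    exact ⟨n, fun _ => ⟨hβ p.1 p.2 k1, hh⟩⟩
  choose ind hind using hR
  refine ⟨ind, fun s hs hfin => ?_⟩
  have hτ' : Sym τ s := ⟨hτ.cont, hτ.inv, hs⟩
  obtain ⟨-, m1⟩ := morse_ineq (τ := Prod.map τ id) (s := s) (K := K)
    ⟨hτ.cont.prodMap continuous_id, fun p => Prod.ext (hτ.inv p.1) rfl, hs⟩
    (isCompact_univ.prod ((isCompact_closedBall _ _).prod (isCompact_closedBall _ _)))
    (fun _ hp => ⟨trivial, hp.2⟩) hf (fun p => hfτ p.1 p.2) R ind (-β) hind (Or.inr hfree)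
    fun p hp k1 k2 k3 U hU => by
      obtain ⟨e, e1, e2⟩ := hch p.1
      obtain ⟨e3, -, e5⟩ := e2 p.2
      have k4 := mem_closedBall_zero_iff.1 hp.2.1
      rcases k4.lt_or_eq with k5 | k5
      · exact push_of_regular (e.prod (OpenPartialHomeomorph.refl (VV a b))) ⟨e1, trivial⟩
          (hn p k5 ((mem_closedBall_zero_iff.1 hp.2.2).lt_of_ne fun c =>
            (he p.1 p.2 k4 c).not_ge k1)) (e3.of_le one_le_two)
          (fun c => (e5 c).1.elim k2 k3) hU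
      have k6 : ∀ y ∈ K, ∀ c ∈ Icc (0 : ℝ) 1, ∀ x : X,
          (x, y.2 + c • ((-y.2.1, 0) : VV a b)) ∈ K := fun y hy c hc x => by
        refine ⟨trivial, mem_closedBall_zero_iff.2 ?_, by simpa using hy.2.2⟩
        rw [show (y.2 + c • ((-y.2.1, 0) : VV a b)).1 = (1 - c) • y.2.1 by
          rw [sub_smul, one_smul, sub_eq_add_neg, ← smul_neg]; rfl, norm_smul, Real.norm_of_nonneg (sub_nonneg.2 hc.2)]
        exact (mul_le_of_le_one_left (norm_nonneg _) (by linarith [hc.1])).trans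
          (mem_closedBall_zero_iff.1 hy.2.1)
      obtain ⟨h, hh, -⟩ := push_of_chart (e.prod (OpenPartialHomeomorph.refl (VV a b)))
        (B := K) Subset.rfl (f := f) (x := p) ⟨e1, trivial⟩ (e3.of_le one_le_two)
        (w := fun q => (0, (-q.2.1, 0))) (by fun_prop) (by
          refine (fderiv_out hρ e.symm (e p.1, p.2) (0, (-p.2.1, 0))
            (by linarith [norm_fst_le p.2])).trans_lt ?_
          have k7 := le_sq p.2.1
          simp only [bil, Pi.neg_apply, mul_neg, Finset.sum_neg_distrib, Pi.zero_apply, mul_zero,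
            Finset.sum_const_zero]
          nlinarith) one_pos
        (Filter.Eventually.of_forall fun y c hc => ⟨fun hy => k6 y hy c hc _,
          fun hy => k6 y hy c hc _⟩) hU
      exact ⟨h, hh⟩
  obtain ⟨-, m2, m3⟩ := (shift hτ' hf hfτ h0 hρ (by linarith) h2.le hβ hb he).fin hfin
  exact ⟨fun k hk => (m2 k hk).symm.trans_le (m1 k), fun k => (m3 k).symm.trans_le (m1 _)⟩

end Vale.Agent.P265
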