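import Vale.Agent.P265.MTop

/-! P265: the symplectic form of the manifold. -/

open Set Topology Filter
open scoped ContDiff

noncomputable section

namespace Vale.Agent.P265

namespace MFormAux

theorem omZ_apply (x y : R4) : omZ x y = x 0 * y 1 - x 1 * y 0 + (x 0 * y 2 - x 2 * y 0) +
    2 * (x 1 * y 3 - x 3 * y 1) - 2 * (x 2 * y 3 - x 3 * y 2) + 3 * (x 1 * y 2 - x 2 * y 1) := rfl

/-- Affine symplectic maps that preserve the orbits. -/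
def Gd (γ : R4 → R4) : Prop := (∀ c, Rel c (γ c)) ∧
  ∃ (L : R4 →L[ℝ] R4) (b : R4), (∀ c, γ c = L c + b) ∧ ∀ x y, omZ (L x) (L y) = omZ x y

theorem Gd.comp {γ δ : R4 → R4} (h : Gd γ) (h' : Gd δ) : Gd (γ ∘ δ) := by
  obtain ⟨h1, L, b, h2, h3⟩ := h
  obtain ⟨h4, L', b', h5, h6⟩ := h'
  exact ⟨fun c β f hf => (h4 c β f hf).trans (h1 _ β f hf), L.comp L', L b' + b,
    fun c => by simp [h2, h5, add_assoc], fun x y => (h3 _ _).trans (h6 x y)⟩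

theorem orbit {γ δ : R4 → R4} (h : Gd γ) (h' : Gd δ) (a : R4) (hi : δ (γ a) = a) :
    {a' | ∃ σ, Gd σ ∧ σ (γ a) = a'} = {a' | ∃ σ, Gd σ ∧ σ a = a'} :=
  Set.ext fun _ => ⟨fun ⟨_, h1, h2⟩ => ⟨_, h1.comp h, h2⟩,
    fun ⟨σ, h1, h2⟩ => ⟨_, h1.comp h', (congrArg σ hi).trans h2⟩⟩

theorem gd_lin {γ : R4 → R4} (h : ∀ c, Rel c (γ c)) (s t : ℝ) (hst : s + t = 3)
    (b : R4) (h1 : ∀ c, γ c = ![c 0, c 2, c 1, -c 3 - s * c 1 - t * c 2] + b) : Gd γ := by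
  refine ⟨h, .pi ![.proj 0, .proj 2, .proj 1, -.proj 3 - s • .proj 1 - t • .proj 2], b,
    fun c => ?_, fun x y => ?_⟩
  · rw [h1]
    congr 1
    ext i
    fin_cases i <;> simp
  · simp [omZ_apply, eq_sub_of_add_eq hst]
    ring

theorem exists_gd {a a' : R4} (h : Rel a a') : ∃ σ, Gd σ ∧ σ a = a' := by
  have h1 : Gd sh := gd_lin (fun c β f hf => (hf.1 c).symm) 3 0 (by simp) ![-1, 0, 0, 0] fun c => by
    ext i
    fin_cases i <;> simp [sh, sub_eq_add_neg]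
  have h2 : Gd fun c => ![c 0 + 1, c 2, c 1, -c 3 - 3 * c 2] :=
    gd_lin (fun c β f hf => (congrArg f (by ext i; fin_cases i <;> simp [sh])).trans (hf.1 _)) 0 3
      (by simp) ![1, 0, 0, 0] fun c => by
      ext i
      fin_cases i <;> simp
  have h3 : ∀ b, (∀ c, Rel c (c + b)) → Gd fun c => c + b := fun b hb =>
    ⟨hb, .id ℝ _, b, fun _ => rfl, fun _ _ => rfl⟩
  have h4 := h (Set R4) (fun a => {a' | ∃ σ, Gd σ ∧ σ a = a'})
    ⟨fun a => orbit h1 h2 a (by ext i; fin_cases i <;> simp [sh]), fun i a =>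
      orbit (h3 _ fun c β f hf => (hf.2 i c).symm) (h3 (-Pi.single i.succ (2 * Real.pi))
        fun c β f hf => (congrArg f (by simp)).trans (hf.2 i _)) a (by simp)⟩
  exact (Set.ext_iff.1 h4 a').2 ⟨_, h3 0 fun c β f _ => by rw [add_zero], add_zero _⟩

theorem gen0 {E F A B : Type} [NormedAddCommGroup E] [NormedSpace ℝ E] [NormedAddCommGroup F]
    [NormedSpace ℝ F] [NormedAddCommGroup A] [NormedSpace ℝ A] [NormedAddCommGroup B]
    [NormedSpace ℝ B] {w : F → A} (hw : ContDiff ℝ ∞ w) (C : B) (Φ : A →L[ℝ] B) :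
    ContDiff ℝ ∞ (fun y : E × F => C + Φ (w y.2)) ∧
      ∀ y a, fderiv ℝ (fun y : E × F => C + Φ (w y.2)) y a = Φ (fderiv ℝ w y.2 a.2) :=
  ⟨contDiff_const.add (Φ.contDiff.comp (hw.comp contDiff_snd)), fun y a =>
    congrArg (fun T : E × F →L[ℝ] B => T a) ((Φ.hasFDerivAt.comp y
      ((hw.differentiable (by simp) y.2).hasFDerivAt.comp y hasFDerivAt_snd)).const_add C).fderiv⟩

open ContinuousLinearMap in
theorem gen {E F : Type} [NormedAddCommGroup E] [NormedSpace ℝ E] [NormedAddCommGroup F]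
    [NormedSpace ℝ F] {w : F → F →L[ℝ] F →L[ℝ] ℝ} (hw : ContDiff ℝ ∞ w)
    (C : E × F →L[ℝ] E × F →L[ℝ] ℝ) {Ω : E × F → E × F →L[ℝ] E × F →L[ℝ] ℝ}
    (h : ∀ y a b, Ω y a b = C a b + w y.2 a.2 b.2) :
    ContDiff ℝ ∞ Ω ∧ ∀ y a b c, fderiv ℝ Ω y a b c = fderiv ℝ w y.2 a.2 b.2 c.2 := by
  obtain ⟨Φ, hΦ⟩ : ∃ Φ : (F →L[ℝ] F →L[ℝ] ℝ) →L[ℝ] E × F →L[ℝ] E × F →L[ℝ] ℝ,
      ∀ f a b, Φ f a b = f a.2 b.2 :=
    ⟨((compL ℝ (E × F) F (E × F →L[ℝ] ℝ)).flip (snd ℝ _ _)).comp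
      (compL ℝ F (F →L[ℝ] ℝ) (E × F →L[ℝ] ℝ) ((compL ℝ (E × F) F ℝ).flip (snd ℝ _ _))),
      fun _ _ _ => rfl⟩
  obtain rfl : Ω = fun y => C + Φ (w y.2) := funext fun y =>
    ContinuousLinearMap.ext fun a => ContinuousLinearMap.ext fun b => by simp [h, hΦ]
  have h1 := gen0 (E := E) (A := F →L[ℝ] F →L[ℝ] ℝ) (B := E × F →L[ℝ] E × F →L[ℝ] ℝ) hw C Φ
  exact ⟨h1.1, fun y a b c => by rw [h1.2, hΦ]⟩

theorem omM_spec :
    ContDiff ℝ ∞ omM ∧ ∀ y a b c, fderiv ℝ omM y a b c = fderiv ℝ omW y.2 a.2 b.2 c.2 :=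
  gen (E := R4) (F := ℂ × ℂ) (Ω := omM) omW_smooth
    (omZ.bilinearComp (.fst ℝ R4 (ℂ × ℂ)) (.fst ℝ R4 (ℂ × ℂ))) omM_apply

end MFormAux

theorem PM_trans (g g' : Fin 8) (y y' : Mod) (h : PM 1 g y = PM 1 g' y') :
    ∃ T : Mod → Mod, ContDiffAt ℝ ∞ T y ∧ T y = y' ∧ PM 1 g =ᶠ[𝓝 y] PM 1 g' ∘ T ∧
      ∀ a b, omM y a b = omM y' (fderiv ℝ T y a) (fderiv ℝ T y b) := by
  obtain ⟨h1, h2⟩ := PiM_eq h
  obtain ⟨σ, ⟨h3, L, b, h4, h5⟩, h6⟩ := MFormAux.exists_gd h2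
  obtain ⟨h7, h8, h9⟩ := pw_trans h1
  obtain rfl : σ = fun c => L c + b := funext h4
  have h10 : HasFDerivAt (Prod.map (fun c => L c + b) (cinv g' ∘ par g))
      (L.prodMap (fderiv ℝ (cinv g' ∘ par g) y.2)) y :=
    (L.hasFDerivAt.add_const b).prodMap y (h7.differentiableAt (by simp)).hasFDerivAt
  refine ⟨Prod.map (fun c => L c + b) (cinv g' ∘ par g), ContDiffAt.prodMap' (by fun_prop) h7,
    Prod.ext h6 h8, ?_, fun u v => ?_⟩
  · filter_upwards [continuousAt_snd.eventually h9] with z hz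
    exact (h3 z.1 _ _ (PiM_ginv _)).trans (congrArg (PiM 1 _) hz)
  · rw [h10.fderiv, omM_apply, omM_apply, omW_trans h1, ← h5]
    rfl

theorem omM_smooth : ContDiff ℝ ∞ omM := MFormAux.omM_spec.1

theorem omM_alt (y a : Mod) : omM y a a = 0 := by
  rw [omM_apply, omW_alt, MFormAux.omZ_apply]
  ring

theorem omM_nondeg (y a : Mod) (h : ∀ b, omM y a b = 0) : a = 0 := by
  have h1 : ∀ i, omZ a.1 (Pi.single i 1) = 0 := fun i => by
    simpa [omM_apply] using h (Pi.single i 1, 0)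
  have h2 := h1 0
  have h3 := h1 1
  have h4 := h1 2
  have h5 := h1 3
  simp [MFormAux.omZ_apply] at h2 h3 h4 h5
  refine Prod.ext ?_ (omW_nondeg y.2 _ fun b => by simpa [omM_apply] using h (0, b))
  ext i
  fin_cases i <;> simp <;> linarith

theorem omM_closed (y a b c : Mod) :
    fderiv ℝ omM y a b c + fderiv ℝ omM y b c a + fderiv ℝ omM y c a b = 0 := by
  simp only [MFormAux.omM_spec.2, omW_closed]

/-- The parametrizations of the manifold. -/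
def AM : Params Mod (MM 1) (Fin 8) where
  P := PM 1
  Ω _ := omM
  lh := PM_lh 1
  surj x := by
    obtain ⟨g, y, -, h⟩ := PM_cover x
    exact ⟨(g, y), h⟩
  trans := PM_trans
  smooth _ := omM_smooth
  alt _ := omM_alt
  nondeg _ := omM_nondeg
  closed _ := omM_closed

end Vale.Agent.P265
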