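import Vale.Agent.P265.MorseB

/-! P265: the strong Morse inequalities, global form. -/

open Set Topology

noncomputable section

namespace Vale.Agent.P265

variable {X : Type} [MetricSpace X] {τ : X → X} {s : F3}

theorem morse_ineq (hτ : Sym τ s) {K : Set X} (hK : IsCompact K) (mK : MapsTo τ K K)
    {f : X → ℝ} (hf : Continuous f) (hfτ : ∀ x, f (τ x) = f x) (R : Finset X) (ind : X → ℕ)
    (a₀ : ℝ) (hR : ∀ p ∈ R, a₀ < f p ∧ ∀ U ∈ 𝓝 p, Handle K f p (ind p) U)
    (hfree : (τ = id ∧ s = 1) ∨ ∀ p ∈ R, ∀ q ∈ R, τ p ≠ q)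
    (hP : ∀ x ∈ K, a₀ ≤ f x → x ∉ R → τ x ∉ R → ∀ U ∈ 𝓝 x, ∃ h, Push K f x U h) :
    FinE τ s K (Low K f a₀) ∧ ∀ k, SE τ s K (Low K f a₀) k ≤ ∑ p ∈ R, cell (ind p) k := by
  classical
  have hI : ∀ a b, a ≤ b → IPair τ (Low K f b) (Low K f a) := fun a b hab =>
    ⟨MorseAAux.isCompact_Low hK hf b, MorseAAux.isCompact_Low hK hf a,
      fun y hy => ⟨hy.1, hy.2.trans hab⟩, fun y hy => ⟨mK hy.1, (hfτ y).trans_le hy.2⟩,
      fun y hy => ⟨mK hy.1, (hfτ y).trans_le hy.2⟩⟩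
  have loc : ∀ c, a₀ ≤ c → ∃ δ > 0, ∀ a b, c - δ < a → a ≤ c → (∀ p ∈ R, f p ≠ a) → c < b →
      b < c + δ → FinE τ s (Low K f b) (Low K f a) ∧ ∀ k, SE τ s (Low K f b) (Low K f a) k ≤
        ∑ p ∈ R.filter (fun p => f p = c), cell (ind p) k := by
    intro c hc
    by_cases hcr : ∃ p ∈ R, f p = c
    · obtain ⟨δ, hδ, h⟩ := morse_level hτ hK mK hf hfτ (R.filter fun p => f p = c) ind c
        (fun p hp => ⟨(Finset.mem_filter.1 hp).2, (hR p (Finset.mem_filter.1 hp).1).2⟩)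
        (hfree.imp id fun h p hp q hq =>
          h p (Finset.mem_filter.1 hp).1 q (Finset.mem_filter.1 hq).1)
        (fun x hx h1 h2 h3 => hP x hx (hc.trans_eq h1.symm)
          (fun h => h2 (Finset.mem_filter.2 ⟨h, h1⟩))
          (fun h => h3 (Finset.mem_filter.2 ⟨h, (hfτ x).trans h1⟩)))
      refine ⟨δ, hδ, fun a b h1 h2 h3 h4 h5 => h a b h1 (lt_of_le_of_ne h2 ?_) h4 h5⟩
      obtain ⟨p, hp, e⟩ := hcr
      exact fun e' => h3 p hp (e.trans e'.symm)
    · obtain ⟨δ, hδ, h⟩ := vanish_of_push (D := ∅) (O := ∅) hK isOpen_empty subset_rfl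
        (empty_subset _) hf c fun x hx h1 _ => by
          obtain ⟨g, hg⟩ := hP x hx (hc.trans_eq h1.symm) (fun h => hcr ⟨x, h, h1⟩)
            (fun h => hcr ⟨τ x, h, (hfτ x).trans h1⟩) univ Filter.univ_mem
          exact ⟨g, hg, fun t _ => mapsTo_empty _ _⟩
      refine ⟨δ, hδ, fun a b h1 h2 _ h4 h5 => ?_⟩
      have h6 := h a b h1 (h2.trans h4.le) h5
      have e : Low K f a ∪ Low ∅ f b = Low K f a :=
        union_eq_left.2 fun y hy => absurd hy.1 (notMem_empty y)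
      rw [e] at h6
      obtain ⟨h7, h8⟩ := SE_of_vanish (τ := τ) (s := s) h6
      refine ⟨h7, fun k => ?_⟩
      rw [h8, Finset.filter_false_of_mem fun p hp e => hcr ⟨p, hp, e⟩, Finset.sum_empty]
  set T : Set ℝ := {b | a₀ ≤ b ∧ (∀ p ∈ R, f p ≠ b) ∧ FinE τ s (Low K f b) (Low K f a₀) ∧
    ∀ k, SE τ s (Low K f b) (Low K f a₀) k ≤ ∑ p ∈ R.filter (fun p => f p ≤ b), cell (ind p) k}
    with hT
  have h0 : a₀ ∈ T := by
    obtain ⟨h7, h8⟩ := SE_of_vanish (τ := τ) (s := s) (Hc_self (Low K f a₀))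
    refine ⟨le_rfl, fun p hp => (hR p hp).1.ne', h7, fun k => ?_⟩
    rw [h8, Finset.filter_false_of_mem fun p hp => (hR p hp).1.not_ge, Finset.sum_empty]
  have hub : ¬ BddAbove T := by
    intro hb
    set c := sSup T with hc
    obtain ⟨δ, hδ, h⟩ := loc c (le_csSup hb h0)
    have e1 : ∀ᶠ η in 𝓝 (0 : ℝ), ∀ p ∈ R, f p ≠ c → η < |f p - c| := by
      refine (Filter.eventually_all_finset R).2 fun p _ => ?_
      by_cases e : f p = c
      · exact Filter.Eventually.of_forall fun _ h => absurd e h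
      · exact (gt_mem_nhds (abs_pos.2 (sub_ne_zero.2 e)) : ∀ᶠ η in 𝓝 (0 : ℝ), η < |f p - c|).mono
          fun _ h _ => h
    obtain ⟨η, ⟨e2, e3⟩, e4⟩ := (((e1.and (gt_mem_nhds hδ)).filter_mono
      (nhdsWithin_le_nhds (s := Ioi 0))).and self_mem_nhdsWithin).exists
    have e5 : 0 < η := e4
    obtain ⟨a, ha, h1⟩ := exists_lt_of_lt_csSup ⟨a₀, h0⟩ (show c - η < sSup T by linarith)
    have h2 : a ≤ c := le_csSup hb ha
    obtain ⟨a1, a2, a3, a4⟩ := ha
    obtain ⟨b1, b2⟩ := h a (c + η) (by linarith) h2 a2 (by linarith) (by linarith)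
    obtain ⟨d1, d2⟩ := SE_subadd hτ (hI a (c + η) (by linarith)) (hI a₀ a a1) b1 a3
    have : c + η ∈ T := by
      refine ⟨by linarith, fun p hp e => ?_, d1, fun k => ?_⟩
      · have := e2 p hp (by linarith)
        rw [e, add_sub_cancel_left, abs_of_pos e5] at this
        exact lt_irrefl _ this
      · refine (d2 k).trans ((add_le_add (b2 k) (a4 k)).trans (le_of_eq ?_))
        rw [Finset.sum_filter, Finset.sum_filter, Finset.sum_filter, ← Finset.sum_add_distrib]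
        refine Finset.sum_congr rfl fun p hp => ?_
        by_cases e : f p = c
        · have : ¬ f p ≤ a := fun h' => a2 p hp (le_antisymm h' (e ▸ h2))
          rw [if_pos e, if_neg this, if_pos (by linarith), add_zero]
        · rw [if_neg e, zero_add]
          refine if_congr ⟨fun _ => by linarith, fun _ => ?_⟩ rfl rfl
          rcases lt_abs.1 (e2 p hp e) with h' | h' <;> linarith
    have := le_csSup hb this
    linarith
  obtain ⟨M, hM⟩ := (hK.union R.finite_toSet.isCompact).bddAbove_image hf.continuousOn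
  obtain ⟨b, ⟨-, -, b3, b4⟩, hb⟩ := not_bddAbove_iff.1 hub M
  have e1 : Low K f b = K :=
    Subset.antisymm (fun y hy => hy.1) fun y hy =>
      ⟨hy, (hM (mem_image_of_mem f (Or.inl hy))).trans hb.le⟩
  have e2 : R.filter (fun p => f p ≤ b) = R :=
    Finset.filter_true_of_mem fun p hp => (hM (mem_image_of_mem f (Or.inr hp))).trans hb.le
  rw [e1] at b3 b4
  rw [e2] at b4
  exact ⟨b3, b4⟩

end Vale.Agent.P265
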