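import Vale.Agent.P265.WTop

/-! P265: the symplectic form of the surface. -/

open Set Complex Topology
open scoped ContDiff

noncomputable section

namespace Vale.Agent.P265

namespace WFormAux

theorem area_apply (u v : ℂ) : areaC u v = u.re * v.im - u.im * v.re := by
  simp [areaC]

theorem mon_smooth (m : Fin 4) : ContDiff ℝ ∞ fun y => mon y m := by
  fin_cases m <;> simp only [mon] <;> simp <;> fun_prop

theorem mon_der (z : ℂ × ℂ) (m : Fin 4) : HasFDerivAt (fun y => mon y m) (dmon z m) z :=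
  ((mon_smooth m).differentiable (by simp) z).hasFDerivAt

theorem dmon_smooth (m : Fin 4) : ContDiff ℝ ∞ fun z => dmon z m :=
  (mon_smooth m).fderiv_right (m := ∞) (by simp)

theorem dmon0 (z a : ℂ × ℂ) : dmon z 0 a = z.1 * a.2 + a.1 * z.2 := by
  have h : HasFDerivAt (fun y : ℂ × ℂ => y.1 * y.2) _ z :=
    (hasFDerivAt_fst (𝕜 := ℝ)).mul (hasFDerivAt_snd (𝕜 := ℝ))
  have e : dmon z 0 = _ := h.fderiv
  rw [e]
  simp [mul_comm]

theorem dmon1 (z a : ℂ × ℂ) : dmon z 1 a = a.2 := by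
  have h : HasFDerivAt (fun y : ℂ × ℂ => y.2) _ z := hasFDerivAt_snd (𝕜 := ℝ)
  have e : dmon z 1 = _ := h.fderiv
  rw [e]
  simp

theorem dmon2 (z a : ℂ × ℂ) : dmon z 2 a = 2 * z.1 * z.2 * a.2 + a.1 * z.2 ^ 2 := by
  have h : HasFDerivAt (fun y : ℂ × ℂ => y.1 * y.2 ^ 2) _ z :=
    (hasFDerivAt_fst (𝕜 := ℝ)).mul ((hasFDerivAt_snd (𝕜 := ℝ)).pow 2)
  have e : dmon z 2 = _ := h.fderiv
  rw [e]
  simp
  ring

theorem dmon3 (z a : ℂ × ℂ) : dmon z 3 a = a.1 := by
  have h : HasFDerivAt (fun y : ℂ × ℂ => y.1) _ z := hasFDerivAt_fst (𝕜 := ℝ)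
  have e : dmon z 3 = _ := h.fderiv
  rw [e]
  simp

/-- The density of the area form of the sphere. -/
def rho (w : ℂ) : ℝ := 4 / (normSq w + 1) ^ 2

theorem den_pos (w : ℂ) : 0 < normSq w + 1 := by
  have := normSq_nonneg w
  linarith

theorem rho_pos (w : ℂ) : 0 < rho w := div_pos (by norm_num) (pow_pos (den_pos w) 2)

theorem normSq_smooth : ContDiff ℝ ∞ fun w : ℂ => normSq w := by
  simp only [normSq_apply]
  exact (reCLM.contDiff.mul reCLM.contDiff).add (imCLM.contDiff.mul imCLM.contDiff)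

theorem rho_smooth : ContDiff ℝ ∞ rho :=
  contDiff_const.div ((normSq_smooth.add contDiff_const).pow 2) fun w => (pow_pos (den_pos w) 2).ne'

theorem omW_apply (z a b : ℂ × ℂ) :
    omW z a b = ∑ m, rho (mon z m) * areaC (dmon z m a) (dmon z m b) := by
  simp [omW, rho]

theorem term_smooth (a b : ℂ × ℂ) (m : Fin 4) :
    ContDiff ℝ ∞ fun z => rho (mon z m) * areaC (dmon z m a) (dmon z m b) :=
  (rho_smooth.comp (mon_smooth m)).mul
    ((areaC.contDiff.comp ((dmon_smooth m).clm_apply contDiff_const)).clm_apply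
      ((dmon_smooth m).clm_apply contDiff_const))

theorem lin_eq (l : ℂ →L[ℝ] ℝ) (u : ℂ) : l u = u.re * l 1 + u.im * l I := by
  have : u = u.re • (1 : ℂ) + u.im • I := by simp
  conv_lhs => rw [this]
  rw [map_add, map_smul, map_smul, smul_eq_mul, smul_eq_mul]

theorem term_der (z a b c : ℂ × ℂ) (m : Fin 4) :
    fderiv ℝ (fun z => rho (mon z m) * areaC (dmon z m b) (dmon z m c)) z a =
      fderiv ℝ rho (mon z m) (dmon z m a) * areaC (dmon z m b) (dmon z m c) + rho (mon z m) *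
        (areaC (dmon z m b) (fderiv ℝ (fderiv ℝ fun y => mon y m) z a c) +
          areaC (fderiv ℝ (fderiv ℝ fun y => mon y m) z a b) (dmon z m c)) := by
  have h1 : HasFDerivAt (fun z => dmon z m) (fderiv ℝ (fderiv ℝ fun y => mon y m) z) z :=
    ((dmon_smooth m).differentiable (by simp) z).hasFDerivAt
  have h2 := (rho_smooth.differentiable (by simp) (mon z m)).hasFDerivAt.comp z (mon_der z m)
  have h3 := areaC.hasFDerivAt_of_bilinear (h1.clm_apply (hasFDerivAt_const b z))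
    (h1.clm_apply (hasFDerivAt_const c z))
  have h4 : HasFDerivAt (fun z => rho (mon z m) * areaC (dmon z m b) (dmon z m c)) _ z :=
    h2.mul h3
  rw [h4.fderiv]
  simp
  ring

theorem normSq_der (w : ℂ) :
    HasFDerivAt (fun w : ℂ => normSq w) ((2 * w.re) • reCLM + (2 * w.im) • imCLM) w := by
  simp only [normSq_apply]
  refine (((reCLM.hasFDerivAt (x := w)).mul reCLM.hasFDerivAt).add
    ((imCLM.hasFDerivAt (x := w)).mul imCLM.hasFDerivAt)).congr_fderiv ?_
  ext u <;> simp <;> ring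

theorem hgt_der (w : ℂ) :
    HasFDerivAt hgt (rho w • (w.re • reCLM + w.im • imCLM)) w := by
  have h0 := den_pos w
  have h1 : HasDerivAt (fun t : ℝ => (t - 1) / (t + 1)) (2 / (normSq w + 1) ^ 2) (normSq w) := by
    refine (((hasDerivAt_id' (normSq w)).sub_const 1).div
      ((hasDerivAt_id' (normSq w)).add_const 1) h0.ne').congr_deriv ?_
    ring
  refine (h1.comp_hasFDerivAt w (normSq_der w)).congr_fderiv ?_
  ext u <;> simp [rho] <;> ring

end WFormAux

open WFormAux

theorem omW_smooth : ContDiff ℝ ∞ omW := by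
  refine contDiff_clm_apply_iff.2 fun a => contDiff_clm_apply_iff.2 fun b => ?_
  simp only [omW_apply]
  exact ContDiff.sum fun m _ => term_smooth a b m

theorem omW_alt (z a : ℂ × ℂ) : omW z a a = 0 := by
  rw [omW_apply]
  refine Finset.sum_eq_zero fun m _ => ?_
  rw [area_apply]
  ring

theorem omW_nondeg (z a : ℂ × ℂ) (h : ∀ b, omW z a b = 0) : a = 0 := by
  have h1 := h (I * a.1, I * a.2)
  have e : ∀ m, dmon z m (I * a.1, I * a.2) = I * dmon z m a := fun m => by
    match m with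
    | 0 => rw [dmon0, dmon0]; ring
    | 1 => rw [dmon1, dmon1]
    | 2 => rw [dmon2, dmon2]; ring
    | 3 => rw [dmon3, dmon3]
  have e2 : ∀ u : ℂ, areaC u (I * u) = normSq u := fun u => by
    rw [area_apply, normSq_apply]
    simp
  rw [omW_apply] at h1
  simp only [e, e2] at h1
  have h2 := (Finset.sum_eq_zero_iff_of_nonneg fun m _ =>
    mul_nonneg (rho_pos _).le (normSq_nonneg _)).1 h1
  have h3 : ∀ m, dmon z m a = 0 := fun m =>
    normSq_eq_zero.1 ((mul_eq_zero.1 (h2 m (Finset.mem_univ m))).resolve_left (rho_pos _).ne')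
  exact Prod.ext ((dmon3 z a).symm.trans (h3 3)) ((dmon1 z a).symm.trans (h3 1))

theorem WFormAux.omW_der (z a b c : ℂ × ℂ) : fderiv ℝ omW z a b c =
    ∑ m, fderiv ℝ (fun z => rho (mon z m) * areaC (dmon z m b) (dmon z m c)) z a := by
  have h1 := (omW_smooth.differentiable (by simp) z).hasFDerivAt
  have h2 := ((h1.clm_apply (hasFDerivAt_const b z)).clm_apply (hasFDerivAt_const c z)).fderiv
  simp only [omW_apply] at h2
  rw [fderiv_fun_sum fun m _ => (term_smooth b c m).differentiable (by simp) z] at h2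
  have h3 := congrArg (fun L => L a) h2
  simp only [_root_.sum_apply] at h3
  rw [h3]
  simp

theorem omW_closed (z a b c : ℂ × ℂ) :
    fderiv ℝ omW z a b c + fderiv ℝ omW z b c a + fderiv ℝ omW z c a b = 0 := by
  simp only [omW_der, ← Finset.sum_add_distrib]
  refine Finset.sum_eq_zero fun m _ => ?_
  have hs := ((mon_smooth m).contDiffAt (x := z)).isSymmSndFDerivAt
    (by simp; exact WithTop.coe_le_coe.2 le_top)
  rw [term_der, term_der, term_der, hs b a, hs c a, hs c b,
    lin_eq (fderiv ℝ rho _) (dmon z m a), lin_eq (fderiv ℝ rho _) (dmon z m b),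
    lin_eq (fderiv ℝ rho _) (dmon z m c)]
  simp only [area_apply]
  ring

theorem omW_neg (z a b : ℂ × ℂ) : omW (z.1, -z.2) (a.1, -a.2) (b.1, -b.2) = omW z a b := by
  have e0 : ∀ a : ℂ × ℂ, dmon (z.1, -z.2) 0 (a.1, -a.2) = -dmon z 0 a := fun a => by
    rw [dmon0, dmon0]; ring
  have e1 : ∀ a : ℂ × ℂ, dmon (z.1, -z.2) 1 (a.1, -a.2) = -dmon z 1 a := fun a => by
    rw [dmon1, dmon1]
  have e2 : ∀ a : ℂ × ℂ, dmon (z.1, -z.2) 2 (a.1, -a.2) = dmon z 2 a := fun a => by
    rw [dmon2, dmon2]; ring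
  have e3 : ∀ a : ℂ × ℂ, dmon (z.1, -z.2) 3 (a.1, -a.2) = dmon z 3 a := fun a => by
    rw [dmon3, dmon3]
  rw [omW_apply, omW_apply, Fin.sum_univ_four, Fin.sum_univ_four, e0, e0, e1, e1, e2, e2, e3, e3]
  simp [mon, rho]

theorem hw_smooth (α β : ℝ) : ContDiff ℝ ∞ (hw α β) :=
  (((contDiff_const.mul (hgt_smooth.comp (mon_smooth 0))).add
    (contDiff_const.mul (hgt_smooth.comp (mon_smooth 1)))).add
    (contDiff_const.mul (hgt_smooth.comp (mon_smooth 2)))).add
    (contDiff_const.mul (hgt_smooth.comp (mon_smooth 3)))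

theorem omW_ham (α β : ℝ) (z b : ℂ × ℂ) :
    omW z (I * α * z.1, I * β * z.2) b = -fderiv ℝ (hw α β) z b := by
  have d := fun m => (hgt_der (mon z m)).comp z (mon_der z m)
  have h : HasFDerivAt (hw α β) _ z :=
    ((((d 0).const_mul (α + β)).add ((d 1).const_mul β)).add ((d 2).const_mul (α + 2 * β))).add
      ((d 3).const_mul α)
  have e : ∀ (c : ℝ) (w u : ℂ), areaC (I * c * w) u = -(c * (w.re * u.re + w.im * u.im)) :=
    fun c w u => by
      rw [area_apply]
      simp
      ring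
  have e0 : dmon z 0 (I * α * z.1, I * β * z.2) = I * (α + β : ℝ) * mon z 0 := by
    rw [dmon0]; simp [mon]; ring
  have e1 : dmon z 1 (I * α * z.1, I * β * z.2) = I * β * mon z 1 := by
    rw [dmon1]; simp [mon]
  have e2 : dmon z 2 (I * α * z.1, I * β * z.2) = I * (α + 2 * β : ℝ) * mon z 2 := by
    rw [dmon2]; simp [mon]; ring
  have e3 : dmon z 3 (I * α * z.1, I * β * z.2) = I * α * mon z 3 := by
    rw [dmon3]; simp [mon]
  rw [h.fderiv, omW_apply, Fin.sum_univ_four, e0, e1, e2, e3, e, e, e, e]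
  simp
  ring

end Vale.Agent.P265
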