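import Vale.Agent.P265.WCpt
import Vale.Agent.P265.WForm
import Vale.Agent.P265.MorseC
import Vale.Agent.P265.LocNondeg

/-! P265: Betti numbers of the surface. -/

open Set Complex Topology

noncomputable section

namespace Vale.Agent.P265

theorem hw_regular {α β : ℝ} (hα : α ≠ 0) (hβ : β ≠ 0) {z : ℂ × ℂ} (hz : z ≠ 0) :
    fderiv ℝ (hw α β) z ≠ 0 := by
  intro h
  have h1 := omW_nondeg z (I * α * z.1, I * β * z.2) fun b => by rw [omW_ham, h]; simp
  rw [Prod.mk_eq_zero] at h1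
  refine hz (Prod.ext ?_ ?_)
  · simpa [hα] using h1.1
  · simpa [hβ] using h1.2

namespace WMorseAux

theorem dmon0 : dmon 0 0 = 0 ∧ dmon 0 1 = ContinuousLinearMap.snd ℝ ℂ ℂ ∧ dmon 0 2 = 0 ∧
    dmon 0 3 = ContinuousLinearMap.fst ℝ ℂ ℂ := by
  have f1 : HasFDerivAt (fun y : ℂ × ℂ => y.1) (ContinuousLinearMap.fst ℝ ℂ ℂ) 0 := hasFDerivAt_fst
  have f2 : HasFDerivAt (fun y : ℂ × ℂ => y.2) (ContinuousLinearMap.snd ℝ ℂ ℂ) 0 := hasFDerivAt_snd
  refine ⟨?_, f2.fderiv, ?_, f1.fderiv⟩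
  · exact (f1.fun_mul f2).fderiv.trans (ContinuousLinearMap.ext fun b => by simp)
  · exact (f1.fun_mul (f2.pow 2)).fderiv.trans (ContinuousLinearMap.ext fun b => by simp)

theorem omW0 (a b : ℂ × ℂ) : omW 0 a b = 4 * (a.1.re * b.1.im - a.1.im * b.1.re) +
    4 * (a.2.re * b.2.im - a.2.im * b.2.re) := by
  obtain ⟨h0, h1, h2, h3⟩ := dmon0
  simp [omW, Fin.sum_univ_four, h0, h1, h2, h3, mon, areaC]
  ring

/-- the chart of the surface -/
def ch (g : Fin 8) : OpenPartialHomeomorph WW (ℂ × ℂ) :=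
  ((pw_emb g).toOpenPartialHomeomorph (pw g)).symm

theorem ch_src (g : Fin 8) (z : ℂ × ℂ) : pw g z ∈ (ch g).source := by
  simp [ch]

theorem ch_pw (g : Fin 8) (z : ℂ × ℂ) : ch g (pw g z) = z :=
  (pw_emb g).toOpenPartialHomeomorph_left_inv

theorem ch_f (a b : ℝ) (g : Fin 8) : (fun w : WW => hamb a b w.1) ∘ (ch g).symm =
    hw (alw a b g) (bew a b g) := funext fun z => hamb_par a b g z

theorem inj : Function.Injective fun g => pw g 0 := by
  intro g g' h
  have h1 := congrArg (fun w : WW => hamb 10 1 w.1) h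
  simp only [pw, hamb_par] at h1
  fin_cases g <;> fin_cases g' <;> first | rfl | (simp [hw, hgt, alw, bew] at h1; norm_num at h1)

theorem ne0 (g : Fin 8) : alw 2 1 g ≠ 0 ∧ bew 2 1 g ≠ 0 := by
  fin_cases g <;> simp [alw, bew] <;> norm_num

/-- the indices of the critical points -/
def tbl : Fin 8 → ℕ := ![0, 2, 4, 2, 2, 2, 2, 2]

theorem tbl_eq (g : Fin 8) :
    ((if 4 * alw 2 1 g < 0 then 2 else 0) + if 4 * bew 2 1 g < 0 then 2 else 0) = tbl g := by
  fin_cases g <;> simp [alw, bew, tbl] <;> norm_num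

end WMorseAux

open WMorseAux

theorem hw_crit (α β : ℝ) : fderiv ℝ (hw α β) 0 = 0 ∧ ∀ u v : ℂ × ℂ,
    fderiv ℝ (fderiv ℝ (hw α β)) 0 u v = 4 * α * (u.1.re * v.1.re + u.1.im * v.1.im) +
      4 * β * (u.2.re * v.2.re + u.2.im * v.2.im) := by
  have e : fderiv ℝ (hw α β) = fun z => -(omW z (I * α * z.1, I * β * z.2)) := by
    funext z
    refine ContinuousLinearMap.ext fun b => ?_
    rw [neg_apply, omW_ham, neg_neg]
  refine ⟨by rw [e]; simp [Prod.mk_zero_zero], fun u v => ?_⟩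
  have f1 : HasFDerivAt (fun y : ℂ × ℂ => y.1) (ContinuousLinearMap.fst ℝ ℂ ℂ) 0 := hasFDerivAt_fst
  have f2 : HasFDerivAt (fun y : ℂ × ℂ => y.2) (ContinuousLinearMap.snd ℝ ℂ ℂ) 0 := hasFDerivAt_snd
  have h1 := ((omW_smooth.differentiable (by simp) 0).hasFDerivAt.clm_apply
    ((f1.const_mul (I * α)).prodMk (f2.const_mul (I * β)))).fun_neg
  rw [e, h1.fderiv]
  simp [Prod.mk_zero_zero, omW0]
  ring

theorem W_betti : (∀ j, FiniteDimensional F3 (Habs WW j)) ∧ 1 ≤ Module.finrank F3 (Habs WW 0) ∧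
    6 ≤ Module.finrank F3 (Habs WW 2) ∧ 1 ≤ Module.finrank F3 (Habs WW 4) := by
  classical
  have hf : Continuous fun w : WW => hamb 2 1 w.1 :=
    (by unfold hamb; fun_prop : Continuous (hamb 2 1)).comp continuous_subtype_val
  obtain ⟨m, hm⟩ := (isCompact_range hf).bddBelow
  have hm' : ∀ w : WW, m - 1 < hamb 2 1 w.1 := fun w => by linarith [hm ⟨w, rfl⟩]
  have hs : ∀ g z, ContDiffAt ℝ 2 ((fun w : WW => hamb 2 1 w.1) ∘ (ch g).symm) z := fun g z => by
    rw [ch_f]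
    exact ((hw_smooth _ _).of_le (by norm_cast)).contDiffAt
  obtain ⟨h1, h2⟩ := morse_ineq (sym_id (X := WW)) isCompact_univ (mapsTo_univ _ _) hf
    (fun _ => rfl) (Finset.univ.image fun g => pw g 0) (Function.extend (fun g => pw g 0) tbl 0)
    (m - 1) (fun p hp => by
      obtain ⟨g, -, rfl⟩ := Finset.mem_image.1 hp
      refine ⟨hm' _, fun U hU => ?_⟩
      obtain ⟨a, L, hL⟩ := normal_diag (mul_ne_zero four_ne_zero (ne0 g).1)
        (mul_ne_zero four_ne_zero (ne0 g).2)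
      rw [inj.extend_apply, ← tbl_eq]
      refine handle_of_normal (ch g) L (ch_src g 0) Filter.univ_mem (hs g _) ?_ (fun u v => ?_) hU
      · rw [ch_f, ch_pw]; exact (hw_crit _ _).1
      · rw [ch_f, ch_pw, (hw_crit _ _).2, hL]) (Or.inl ⟨rfl, rfl⟩) (fun x _ _ hx _ U hU => by
      obtain ⟨g, z, -, rfl⟩ := pw_cover x
      refine push_of_regular (ch g) (ch_src g z) Filter.univ_mem ((hs g _).of_le one_le_two) ?_ hU
      rw [ch_f, ch_pw]
      refine hw_regular (ne0 g).1 (ne0 g).2 fun h0 => hx ?_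
      exact Finset.mem_image.2 ⟨g, Finset.mem_univ _, by rw [h0]⟩)
  have e : Low univ (fun w : WW => hamb 2 1 w.1) (m - 1) = ∅ :=
    eq_empty_of_forall_notMem fun w hw => (hm' w).not_ge hw.2
  rw [e] at h1 h2
  have e2 : ∀ j, Module.finrank F3 (HE id 1 (univ : Set WW) ∅ j) = Module.finrank F3 (Habs WW j) :=
    fun j => by rw [HE_id, finrank_top]
  simp only [SE, e2, Finset.sum_image inj.injOn, inj.extend_apply, Fin.sum_univ_eight] at h2
  refine ⟨fun j => ?_, ?_⟩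
  · have := h1 j
    rw [HE_id] at this
    exact Module.Finite.equiv Submodule.topEquiv
  · have k0 := h2 0
    have k1 := h2 1
    have k2 := h2 2
    have k3 := h2 3
    have k5 := h2 5
    simp [tbl, cell, alt] at k0 k1 k2 k3 k5
    omega

end Vale.Agent.P265
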