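import Vale.Agent.P265.MT

/-! P265: the Wang sequence of the double cover of a mapping torus. -/

open Set

noncomputable section

namespace Vale.Agent.P265

variable {X : Type} [MetricSpace X] [CompactSpace X]

namespace WangAux

omit [CompactSpace X] in
theorem bij_of_injOn {Y : Type} [MetricSpace Y] {f : X → Y} {A B : Set X} {A' B' : Set Y}
    (hA : IsCompact A) (hf : ContinuousOn f A) (hi : InjOn f A) (h : Adm f A B A' B')
    (h1 : A' ⊆ f '' A) (h2 : B' ⊆ f '' B) (h3 : B' ⊆ A') (j : ℕ) :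
    Function.Bijective (Hpb h j) := by
  rcases A.eq_empty_or_nonempty with rfl | ⟨x₀, -⟩
  · obtain rfl : B = ∅ := subset_empty_iff.1 h.sub
    obtain rfl : A' = ∅ := by simpa using h1
    obtain rfl : B' = ∅ := by simpa using h2
    exact ⟨fun x y _ => (Hc_self _ _ x).trans (Hc_self _ _ y).symm,
      fun y => ⟨0, (Hc_self _ _ _).trans (Hc_self _ _ y).symm⟩⟩
  have : Nonempty X := ⟨x₀⟩
  have hl : ∀ x ∈ A, Function.invFunOn f A (f x) = x := fun x hx => hi.leftInvOn_invFunOn hx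
  have hc : ContinuousOn (Function.invFunOn f A) (f '' A) := by
    refine continuousOn_iff_isClosed.2 fun t ht => ⟨f '' (A ∩ t),
      ((hA.inter_right ht).image_of_continuousOn (hf.mono inter_subset_left)).isClosed, ?_⟩
    ext y
    constructor
    · rintro ⟨h4, x, hx, rfl⟩
      rw [mem_preimage, hl x hx] at h4
      exact ⟨⟨x, ⟨hx, h4⟩, rfl⟩, x, hx, rfl⟩
    · rintro ⟨⟨x, hx, rfl⟩, h4⟩
      exact ⟨by rw [mem_preimage, hl x hx.1]; exact hx.2, h4⟩
  have hg : Adm (Function.invFunOn f A) A' B' A B := by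
    refine ⟨((hA.image_of_continuousOn hf).uniformContinuousOn_of_continuous hc).mono h1,
      fun y hy => ?_, fun y hy => ?_, h3⟩
    · obtain ⟨x, hx, rfl⟩ := h1 hy
      rwa [hl x hx]
    · obtain ⟨x, hx, rfl⟩ := h2 hy
      rwa [hl x (h.sub hx)]
  refine Hpb_bij h hg j (Hpb_id _ hl j) (Hpb_id _ (fun y hy => ?_) j)
  obtain ⟨x, hx, rfl⟩ := h1 hy
  exact congrArg f (hl x hx)

theorem adm_slice {S : Set ℝ} {t : ℝ} (ht : t ∈ S) :
    Adm (fun x : X => (x, t)) univ ∅ (univ ×ˢ S) ∅ :=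
  Adm.of_compact isCompact_univ (by fun_prop) (fun _ _ => ⟨mem_univ _, ht⟩) (mapsTo_empty _ _)
    (empty_subset _)

omit [CompactSpace X] in
theorem adm_fst (S : Set ℝ) : Adm (Prod.fst : X × ℝ → X) (univ ×ˢ S) ∅ univ ∅ :=
  ⟨uniformContinuous_fst.uniformContinuousOn, mapsTo_univ _ _, mapsTo_empty _ _, empty_subset _⟩

theorem slice_bij {S : Set ℝ} (hS : IsCompact S) (hS' : Convex ℝ S) {t : ℝ} (ht : t ∈ S) (j : ℕ) :
    Function.Bijective (Hpb (adm_slice (X := X) ht) j) := by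
  refine Hpb_bij _ (adm_fst S) j (Hpb_id _ (fun _ _ => rfl) j) fun x => ?_
  have hP : IsCompact ((univ : Set X) ×ˢ S) := isCompact_univ.prod hS
  have hm : ∀ r ∈ Icc (0 : ℝ) 1, MapsTo (fun p : X × ℝ => (p.1, (1 - r) * t + r * p.2))
      (univ ×ˢ S) (univ ×ˢ S) := fun r hr p hp =>
    ⟨mem_univ _, hS' ht hp.2 (sub_nonneg.2 hr.2) hr.1 (sub_add_cancel _ _)⟩
  have ha : ∀ r ∈ Icc (0 : ℝ) 1, Adm (fun p : X × ℝ => (p.1, (1 - r) * t + r * p.2))
      (univ ×ˢ S) ∅ (univ ×ˢ S) ∅ := fun r hr =>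
    Adm.of_compact hP (by fun_prop) (hm r hr) (mapsTo_empty _ _) (empty_subset _)
  refine (Hpb_congr _ (ha 0 ⟨le_rfl, zero_le_one⟩) (fun p _ => by simp) j x).trans
    ((Hpb_homotopy hP (fun r p => (p.1, (1 - r) * t + r * p.2)) ?_ hm
      (fun _ _ => mapsTo_empty _ _) _ (ha 1 ⟨zero_le_one, le_rfl⟩) j x).trans
      (Hpb_id _ (fun p _ => by simp) j x))
  refine Continuous.continuousOn ?_
  unfold Function.uncurry
  fun_prop

theorem ends_inj {a b : ℝ} (hab : a ≠ b) {j : ℕ} {y z : Hc ((univ : Set X) ×ˢ ({a, b} : Set ℝ)) ∅ j}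
    (h : ∀ t (ht : t ∈ ({a, b} : Set ℝ)), Hpb (adm_slice ht) j y = Hpb (adm_slice ht) j z) :
    y = z := by
  have hi : ∀ t ∈ ({a, b} : Set ℝ), Adm id ((univ : Set X) ×ˢ ({t} : Set ℝ)) ∅
      (univ ×ˢ ({a, b} : Set ℝ)) ∅ := fun t ht =>
    Adm.inc (prod_mono subset_rfl (singleton_subset_iff.2 ht)) subset_rfl (empty_subset _)
  have h1 : ∀ t (ht : t ∈ ({a, b} : Set ℝ)), Hpb (hi t ht) j y = Hpb (hi t ht) j z := fun t ht => by
    refine (slice_bij isCompact_singleton (convex_singleton t) (mem_singleton t) j).1 ?_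
    rw [Hpb_comp, Hpb_comp]
    exact h t ht
  refine (disjoint_bij (isCompact_univ.prod isCompact_singleton)
    (isCompact_univ.prod isCompact_singleton) ?_ ?_ (empty_subset _) (hi a (by simp))
    (hi b (by simp)) j).1 (Prod.ext (h1 a (by simp)) (h1 b (by simp)))
  · exact disjoint_left.2 fun p h1 h2 => hab (h1.2.symm.trans h2.2)
  · rintro p ⟨-, h | h⟩
    · exact Or.inl ⟨mem_univ _, h⟩
    · exact Or.inr ⟨mem_univ _, h⟩

theorem susp' {a b : ℝ} (hab : a < b) :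
    (∀ x : Hc ((univ : Set X) ×ˢ Icc a b) (univ ×ˢ {a, b}) 0, x = 0) ∧ ∀ j,
      Nonempty (Hc ((univ : Set X) ×ˢ Icc a b) (univ ×ˢ {a, b}) (j + 1) ≃ₗ[F3] Habs X j) := by
  have h := susp (sym_id (X := X)) (A := univ) (B := ∅) ⟨isCompact_univ, isCompact_empty,
    empty_subset _, mapsTo_id _, mapsTo_id _⟩ hab
  rw [Prod.map_id, empty_prod, union_empty] at h
  refine ⟨fun x => ?_, fun j => ?_⟩
  · have := h.1 0 one_pos
    rw [HE_id] at this
    exact (Submodule.mem_bot F3).1 (this ▸ Submodule.mem_top)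
  · obtain ⟨e⟩ := h.2 j
    rw [HE_id, HE_id] at e
    exact ⟨Submodule.topEquiv.symm.trans (e.trans Submodule.topEquiv)⟩

variable (c : X ≃ₜ X)

/-- The parametrisation of the double cover. -/
def kk (p : X × ℝ) : MT c 2 := mtq c 2 (p.2, p.1)

/-- A window. -/
def W (S : Set ℝ) : Set (MT c 2) := kk c '' (univ ×ˢ S)

/-- A window and its translate. -/
def U (S : Set ℝ) : Set (MT c 2) := W c S ∪ mtTau c '' W c S

omit [CompactSpace X] in
theorem kk_cont : Continuous (kk c) := mtq_cont.comp continuous_swap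

variable {c}

omit [CompactSpace X] in
theorem mem_W {S : Set ℝ} {t : ℝ} {x : X} : mtq c 2 (t, x) ∈ W c S ↔ ∃ k : ℤ, t - 2 * k ∈ S := by
  constructor
  · rintro ⟨p, hp, h⟩
    obtain ⟨k, h1, -⟩ := mtq_eq.1 h.symm
    refine ⟨k, ?_⟩
    have : t - 2 * k = p.2 := by simpa using h1.symm
    rw [this]
    exact hp.2
  · rintro ⟨k, hk⟩
    exact ⟨((c ^ ((2 : ℕ) * k : ℤ)) x, t - 2 * k), ⟨mem_univ _, hk⟩,
      (mtq_eq.2 ⟨k, by simp, rfl⟩).symm⟩

theorem tau_inv (z : MT c 2) : mtTau c (mtTau c z) = z := (mtTau_sym (mul_one 1)).inv z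

theorem mem_tW {S : Set ℝ} {t : ℝ} {x : X} :
    mtq c 2 (t, x) ∈ mtTau c '' W c S ↔ ∃ k : ℤ, t - 1 - 2 * k ∈ S := by
  rw [← mem_W (c := c) (x := c x)]
  constructor
  · rintro ⟨z, hz, h⟩
    rw [← tau_inv z, h] at hz
    exact hz
  · exact fun h => ⟨_, h, tau_inv (mtq c 2 (t, x))⟩

theorem mem_U {S : Set ℝ} {t : ℝ} {x : X} : mtq c 2 (t, x) ∈ U c S ↔ ∃ k : ℤ, t - k ∈ S := by
  rw [U, mem_union, mem_W, mem_tW]
  constructor
  · rintro (⟨k, h⟩ | ⟨k, h⟩)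
    · exact ⟨2 * k, by simpa using h⟩
    · exact ⟨1 + 2 * k, by simpa [sub_sub] using h⟩
  · rintro ⟨k, h⟩
    obtain ⟨l, rfl | rfl⟩ := Int.even_or_odd' k
    · exact Or.inl ⟨l, by simpa using h⟩
    · exact Or.inr ⟨l, by simpa [sub_sub, add_comm] using h⟩

theorem W_cpt {S : Set ℝ} (hS : IsCompact S) : IsCompact (W c S) :=
  (isCompact_univ.prod hS).image (kk_cont c)

theorem U_cpt {S : Set ℝ} (hS : IsCompact S) : IsCompact (U c S) :=
  (W_cpt hS).union ((W_cpt hS).image (mtTau_sym (mul_one 1)).cont)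

theorem U_maps (S : Set ℝ) : MapsTo (mtTau c) (U c S) (U c S) := by
  rintro z (h | ⟨w, h, rfl⟩)
  · exact Or.inr ⟨z, h, rfl⟩
  · exact Or.inl (by rwa [tau_inv])

omit [CompactSpace X] in
theorem U_mono {S T : Set ℝ} (h : S ⊆ T) : U c S ⊆ U c T :=
  union_subset_union (image_mono (prod_mono subset_rfl h))
    (image_mono (image_mono (prod_mono subset_rfl h)))

theorem W_disj {a b : ℝ} (h : b < a + 1) :
    Disjoint (W c (Icc a b)) (mtTau c '' W c (Icc a b)) := by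
  refine disjoint_left.2 fun z h1 h2 => ?_
  obtain ⟨⟨t, x⟩, rfl⟩ := mtq_surj z
  obtain ⟨k, h3, h4⟩ := mem_W.1 h1
  obtain ⟨l, h5, h6⟩ := mem_tW.1 h2
  have h7 : (l : ℝ) < k := by linarith
  have h8 : (k : ℝ) < l + 1 := by linarith
  have h9 : l < k := by exact_mod_cast h7
  have h10 : k < l + 1 := by exact_mod_cast h8
  omega

omit [CompactSpace X] in
theorem kk_inj {a b : ℝ} (h : b < a + 1) : InjOn (kk c) (univ ×ˢ Icc a b) := by
  rintro p ⟨-, h1, h2⟩ p' ⟨-, h3, h4⟩ e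
  obtain ⟨k, h5, h6⟩ := mtq_eq.1 e
  have h7 : p'.2 = p.2 - 2 * k := by simpa using h5
  have h8 : (k : ℝ) < 1 := by linarith
  have h9 : (-1 : ℝ) < k := by linarith
  have h10 : k < 1 := by exact_mod_cast h8
  have h11 : -1 < k := by exact_mod_cast h9
  obtain rfl : k = 0 := by omega
  exact Prod.ext (by simpa using h6.symm) (by simpa using h7.symm)

theorem adm_kk {S T : Set ℝ} (hS : IsCompact S) (h : T ⊆ S) {A B : Set (MT c 2)} (hA : W c S ⊆ A)
    (hB : W c T ⊆ B) : Adm (kk c) (univ ×ˢ S) (univ ×ˢ T) A B :=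
  Adm.of_compact (isCompact_univ.prod hS) (kk_cont c).continuousOn (fun p hp => hA ⟨p, hp, rfl⟩)
    (fun p hp => hB ⟨p, hp, rfl⟩) (prod_mono subset_rfl h)

theorem adm_kk0 {S : Set ℝ} (hS : IsCompact S) {A : Set (MT c 2)} (hA : W c S ⊆ A) :
    Adm (kk c) (univ ×ˢ S) ∅ A ∅ :=
  Adm.of_compact (isCompact_univ.prod hS) (kk_cont c).continuousOn (fun p hp => hA ⟨p, hp, rfl⟩)
    (mapsTo_empty _ _) (empty_subset _)

variable (c)

/-- The neighbourhood of the two fibres. -/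
def AA : Set (MT c 2) := U c (Icc (-1 / 4) (1 / 4))

theorem ipA : IPair (mtTau c) (AA c) ∅ :=
  ⟨U_cpt isCompact_Icc, isCompact_empty, empty_subset _, U_maps _, mapsTo_empty _ _⟩

theorem ipU : IPair (mtTau c) univ (AA c) :=
  ⟨isCompact_univ, U_cpt isCompact_Icc, subset_univ _, mapsTo_univ _ _, U_maps _⟩

theorem adm_i {t : ℝ} (ht : ∃ k : ℤ, t - k ∈ Icc (-1 / 4 : ℝ) (1 / 4)) :
    Adm (fun x => mtq c 2 (t, x)) univ ∅ (AA c) ∅ :=
  Adm.of_compact isCompact_univ (mtq_cont.comp (by fun_prop)).continuousOn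
    (fun _ _ => mem_U.2 ht) (mapsTo_empty _ _) (empty_subset _)

theorem h0 : ∃ k : ℤ, (0 : ℝ) - k ∈ Icc (-1 / 4 : ℝ) (1 / 4) := ⟨0, by norm_num⟩

theorem rho_bij {s : F3} (hs : s * s = 1) (j : ℕ) :
    Function.Bijective ((Hpb (adm_i c h0) j).domRestrict (HE (mtTau c) s (AA c) ∅ j)) := by
  have h1 : Adm id (W c (Icc (-1 / 4) (1 / 4))) ∅ (AA c) ∅ :=
    Adm.inc subset_union_left subset_rfl (empty_subset _)
  have h2 := adm_kk0 (c := c) (S := Icc (-1 / 4) (1 / 4)) isCompact_Icc subset_rfl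
  have h3 : (0 : ℝ) ∈ Icc (-1 / 4 : ℝ) (1 / 4) := by norm_num
  have b1 := induced_bij (mtTau_sym hs) (ipA c) (W_cpt isCompact_Icc) h1 subset_rfl
    (empty_subset _) (Or.inr (W_disj (by norm_num))) j
  have b2 := bij_of_injOn (isCompact_univ.prod isCompact_Icc) (kk_cont c).continuousOn
    (kk_inj (by norm_num)) h2 subset_rfl (empty_subset _) (empty_subset _) j
  refine (congrArg Function.Bijective (funext fun x => ?_)).mp
    ((slice_bij isCompact_Icc (convex_Icc _ _) h3 j).comp (b2.comp b1))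
  simp only [Function.comp_apply, LinearMap.domRestrict_apply, Hpb_comp]
  exact Hpb_congr _ _ (fun _ _ => rfl) j _

theorem ends_A : U c {1 / 4, 3 / 4} ⊆ AA c := by
  intro z hz
  obtain ⟨⟨t, x⟩, rfl⟩ := mtq_surj z
  obtain ⟨k, h | h⟩ := mem_U.1 hz
  · exact mem_U.2 ⟨k, by rw [h]; norm_num⟩
  · refine mem_U.2 ⟨k + 1, ?_⟩
    rw [Int.cast_add, ← sub_sub, mem_singleton_iff.1 h]
    norm_num

theorem ends_sub : ({1 / 4, 3 / 4} : Set ℝ) ⊆ Icc (1 / 4) (3 / 4) := by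
  rintro t (rfl | rfl) <;> norm_num

theorem adm_k : Adm (kk c) (univ ×ˢ Icc (1 / 4) (3 / 4)) (univ ×ˢ {1 / 4, 3 / 4}) univ (AA c) :=
  adm_kk isCompact_Icc ends_sub (subset_univ _) (subset_union_left.trans (ends_A c))

theorem cover : univ ⊆ AA c ∪ U c (Icc (1 / 4) (3 / 4)) := by
  intro z _
  obtain ⟨⟨t, x⟩, rfl⟩ := mtq_surj z
  have h1 := Int.floor_le (t + 1 / 4)
  have h2 := Int.lt_floor_add_one (t + 1 / 4)
  rcases le_total (t - ⌊t + 1 / 4⌋) (1 / 4) with h | h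
  · exact Or.inl (mem_U.2 ⟨⌊t + 1 / 4⌋, by linarith, h⟩)
  · exact Or.inr (mem_U.2 ⟨⌊t + 1 / 4⌋, h, by linarith⟩)

theorem meet : AA c ∩ U c (Icc (1 / 4) (3 / 4)) ⊆ U c {1 / 4, 3 / 4} := by
  rintro z ⟨h1, h2⟩
  obtain ⟨⟨t, x⟩, rfl⟩ := mtq_surj z
  obtain ⟨k, h3, h4⟩ := mem_U.1 h1
  obtain ⟨l, h5, h6⟩ := mem_U.1 h2
  refine mem_U.2 ⟨l, ?_⟩
  rcases le_or_gt k l with h | h
  · have : (k : ℝ) ≤ l := by exact_mod_cast h
    exact Or.inl (by linarith)
  · have : (l : ℝ) + 1 ≤ k := by exact_mod_cast h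
    exact Or.inr (mem_singleton_iff.2 (by linarith))

theorem k_bij {s : F3} (hs : s * s = 1) (j : ℕ) :
    Function.Bijective ((Hpb (adm_k c) j).domRestrict (HE (mtTau c) s univ (AA c) j)) := by
  have hc : IsCompact ({1 / 4, 3 / 4} : Set ℝ) := (toFinite _).isCompact
  have ip : IPair (mtTau c) (U c (Icc (1 / 4) (3 / 4))) (U c {1 / 4, 3 / 4}) :=
    ⟨U_cpt isCompact_Icc, U_cpt hc, U_mono ends_sub, U_maps _, U_maps _⟩
  have h1 : Adm id (U c (Icc (1 / 4) (3 / 4))) (U c {1 / 4, 3 / 4}) univ (AA c) :=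
    Adm.inc (subset_univ _) (ends_A c) ip.sub
  have hW : W c {1 / 4, 3 / 4} ⊆ W c (Icc (1 / 4) (3 / 4)) :=
    image_mono (prod_mono subset_rfl ends_sub)
  have h2 : Adm id (W c (Icc (1 / 4) (3 / 4))) (W c {1 / 4, 3 / 4}) (U c (Icc (1 / 4) (3 / 4)))
      (U c {1 / 4, 3 / 4}) := Adm.inc subset_union_left subset_union_left hW
  have h3 := adm_kk (c := c) isCompact_Icc ends_sub subset_rfl subset_rfl
  have b1 := excision (ipU c).cB ip.cA (cover c) (subset_univ _) (meet c) h1 j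
  have b2 := induced_bij (mtTau_sym hs) ip (W_cpt isCompact_Icc) h2 subset_rfl subset_rfl
    (Or.inr (W_disj (by norm_num))) j
  have b3 := bij_of_injOn (isCompact_univ.prod isCompact_Icc) (kk_cont c).continuousOn
    (kk_inj (by norm_num)) h3 subset_rfl subset_rfl hW j
  have a1 := ip.adm (mtTau_sym hs)
  have a2 := (ipU c).adm (mtTau_sym hs)
  have eq := Hpb_equivariant h1 a1 a2 (fun _ _ => rfl) j
  have b4 : Function.Bijective fun x : HE (mtTau c) s univ (AA c) j =>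
      (⟨Hpb h1 j x.1, HE_map a1 a2 _ eq x.2⟩ :
        HE (mtTau c) s (U c (Icc (1 / 4) (3 / 4))) (U c {1 / 4, 3 / 4}) j) := by
    refine ⟨fun x y h => Subtype.ext (b1.1 (congrArg Subtype.val h)), fun y => ?_⟩
    obtain ⟨x, hx⟩ := b1.2 y.1
    refine ⟨⟨x, (mem_HE a2).2 (b1.1 ?_)⟩, Subtype.ext hx⟩
    rw [eq, map_smul, hx]
    exact (mem_HE a1).1 y.2
  refine (congrArg Function.Bijective (funext fun x => ?_)).mp (b3.comp (b2.comp b4))
  simp only [Function.comp_apply, LinearMap.domRestrict_apply, Hpb_comp]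

theorem shifted {s : F3} (hs : s * s = 1) :
    Shifted s (mtTau c) univ (AA c) 1 (mtTau c) (AA c) ∅ := by
  obtain ⟨h1, h2⟩ := susp' (X := X) (a := 1 / 4) (b := 3 / 4) (by norm_num)
  refine ⟨fun j hj => ?_, fun j => ?_⟩
  · obtain rfl : j = 0 := by omega
    refine eq_bot_iff.2 fun x hx => ?_
    exact congrArg Subtype.val ((k_bij c hs 0).1 (a₁ := ⟨x, hx⟩) (a₂ := 0)
      ((h1 _).trans (h1 _).symm))
  · obtain ⟨e⟩ := h2 j
    exact ⟨(LinearEquiv.ofBijective _ (k_bij c hs (j + 1))).trans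
      (e.trans (LinearEquiv.ofBijective _ (rho_bij c hs j)).symm)⟩

theorem i_const {t : ℝ} (ht : t ∈ Icc (-1 / 4 : ℝ) (1 / 4))
    (h : Adm (fun x => mtq c 2 (t, x)) univ ∅ (AA c) ∅) (j : ℕ) (x : Hc (AA c) ∅ j) :
    Hpb h j x = Hpb (adm_i c h0) j x := by
  have hm : ∀ r ∈ Icc (0 : ℝ) 1, ∃ k : ℤ, r * t - k ∈ Icc (-1 / 4 : ℝ) (1 / 4) := fun r hr =>
    ⟨0, by rw [Int.cast_zero, sub_zero]; constructor <;> nlinarith [hr.1, hr.2, ht.1, ht.2]⟩
  refine (Hpb_congr _ (adm_i c (hm 1 ⟨zero_le_one, le_rfl⟩)) (fun p _ => by simp) j x).trans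
    ((Hpb_homotopy isCompact_univ (fun r y => mtq c 2 (r * t, y)) ?_
      (fun r hr _ _ => mem_U.2 (hm r hr)) (fun _ _ => mapsTo_empty _ _)
      (adm_i c (hm 0 ⟨le_rfl, zero_le_one⟩)) _ j x).symm.trans
      (Hpb_congr _ _ (fun p _ => by simp) j x))
  exact (mtq_cont.comp (f := fun p : ℝ × X => (p.1 * t, p.2)) (by fun_prop)).continuousOn

theorem i_end {s : F3} (hs : s * s = 1) {j : ℕ} {x : Hc (AA c) ∅ j}
    (hx : x ∈ HE (mtTau c) s (AA c) ∅ j)
    (hu : Hp c.continuous j (Hpb (adm_i c h0) j x) = s • Hpb (adm_i c h0) j x)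
    (h : Adm (fun x => mtq c 2 (3 / 4, x)) univ ∅ (AA c) ∅) :
    Hpb h j x = Hpb (adm_i c h0) j x := by
  have a := (ipA c).adm (mtTau_sym hs)
  have h1 : Adm (fun x => mtq c 2 (-1 / 4, x)) univ ∅ (AA c) ∅ := adm_i c ⟨0, by norm_num⟩
  have h2 : Hpb h j (Hpb a j x) = Hp c.continuous j (Hpb h1 j x) := by
    rw [Hp, Hpb_comp, Hpb_comp]
    refine Hpb_congr _ _ (fun y _ => ?_) j x
    simp only [Function.comp_apply, mtTau_q]
    norm_num
  rw [(mem_HE a).1 hx, map_smul, i_const c (by norm_num) h1, hu] at h2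
  have h3 := congrArg (s • ·) h2
  simpa only [smul_smul, hs, one_smul] using h3

theorem hd_zero {s : F3} (hs : s * s = 1) {j : ℕ} {x : Hc (AA c) ∅ j}
    (hx : x ∈ HE (mtTau c) s (AA c) ∅ j)
    (hu : Hp c.continuous j (Hpb (adm_i c h0) j x) = s • Hpb (adm_i c h0) j x) :
    Hd univ (AA c) ∅ j x = 0 := by
  have a1 := (ipA c).adm (mtTau_sym hs)
  have a2 := (ipU c).adm (mtTau_sym hs)
  have h1 : Hd univ (AA c) ∅ j x ∈ HE (mtTau c) s univ (AA c) (j + 1) :=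
    HE_map a2 a1 _ (fun y => (Hd_nat a2 a1 j y).symm) hx
  have h2 := adm_kk0 (c := c) (S := {1 / 4, 3 / 4}) (toFinite _).isCompact
    (subset_union_left.trans (ends_A c))
  refine congrArg Subtype.val ((k_bij c hs (j + 1)).1 (a₁ := ⟨_, h1⟩) (a₂ := 0) ?_)
  rw [map_zero, LinearMap.domRestrict_apply, Hd_nat (adm_k c) h2]
  refine (exact_rd (prod_mono subset_rfl ends_sub) (empty_subset _) j _).2
    ⟨Hpb (adm_fst _) j (Hpb (adm_i c h0) j x), ends_inj (by norm_num) fun t ht => ?_⟩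
  rw [Hr, Hpb_comp (adm_fst _), Hpb_comp _ (adm_slice ht), Hpb_id _ (fun _ _ => rfl), Hpb_comp h2]
  rcases ht with rfl | rfl
  · exact (i_const c (t := 1 / 4) (by norm_num) _ j x).symm
  · exact (i_end c hs hx hu _).symm

end WangAux

open WangAux in
theorem wang (c : X ≃ₜ X) (h : ∀ j, FiniteDimensional F3 (Habs X j)) {s : F3} (hs : s * s = 1) :
    FinE (mtTau c) s univ ∅ ∧ ∀ k,
      (Module.finrank F3 (Module.End.eigenspace (Hp c.continuous k) s) : ℤ) ≤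
        SE (mtTau c) s univ ∅ k := by
  have hf : FinE (mtTau c) s (AA c) ∅ := fun j =>
    (LinearEquiv.ofBijective _ (rho_bij c hs j)).symm.finiteDimensional
  obtain ⟨h1, h2⟩ := SE_wang (mtTau_sym hs) (ipU c) (ipA c) hf (shifted c hs)
  refine ⟨h1, fun k => ?_⟩
  let e := LinearEquiv.ofBijective _ (rho_bij c hs k)
  let f := (HE (mtTau c) s (AA c) ∅ k).subtype ∘ₗ e.symm.toLinearMap
  have hi : Function.Injective f := Subtype.val_injective.comp e.symm.injective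
  rw [(Submodule.equivMapOfInjective f hi _).finrank_eq]
  refine h2 k _ ?_ ?_
  · rintro _ ⟨u, -, rfl⟩
    exact (e.symm u).2
  · rintro _ ⟨u, hu, rfl⟩
    have h3 : Hpb (adm_i c h0) k (f u) = u := e.apply_symm_apply u
    refine hd_zero c hs (e.symm u).2 ?_
    rw [h3]
    exact Module.End.mem_eigenspace_iff.1 hu

end Vale.Agent.P265
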