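import Vale.Agent.P265.LowAbs
import Vale.Agent.P265.MForm
import Vale.Agent.P265.Wang
import Vale.Agent.P265.AtlasB
import Vale.Agent.P265.WMorse

/-! P265: the stable Morse number is at least eighty-four. -/

open Set Topology
open scoped Manifold ContDiff

noncomputable section

namespace Vale.Agent.P265

theorem fderiv_two_equiv {E F : Type} [NormedAddCommGroup E] [NormedSpace ℝ E]
    [NormedAddCommGroup F] [NormedSpace ℝ F] (Λ : E ≃L[ℝ] F) {G : F → ℝ} (hG : ContDiff ℝ ∞ G)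
    (q u v : E) :
    fderiv ℝ (fderiv ℝ (G ∘ Λ)) q u v = fderiv ℝ (fderiv ℝ G) (Λ q) (Λ u) (Λ v) := by
  have e : fderiv ℝ (G ∘ Λ) = fun q => (fderiv ℝ G (Λ q)).comp (Λ : E →L[ℝ] F) :=
    funext fun q => Λ.comp_right_fderiv
  have h : DifferentiableAt ℝ (fderiv ℝ G) (Λ q) :=
    ((hG.fderiv_right (m := ∞) le_rfl).differentiable (by simp)) _
  have h' := ((h.hasFDerivAt.comp q Λ.hasFDerivAt).clm_comp
    (hasFDerivAt_const (Λ : E →L[ℝ] F) q)).fderiv
  simp only [Function.comp] at h'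
  rw [e, h']
  simp

/-- A lift of a point to the double cover. -/
def liftM (x : MM 1) : MM 2 := PM 2 (AM.idx x) (AM.pt x)

theorem pr_lift (x : MM 1) : mtPr _ (liftM x) = x := AM.P_pt x

theorem pr_tau (m : MM 2) : mtPr _ (mtTau _ m) = mtPr _ m := (mtPr_eq.2 (Or.inr rfl)).symm

theorem chart_cover (m : MM 2) : ∃ e : OpenPartialHomeomorph (MM 2) Mod, m ∈ e.source ∧
    e m = AM.pt (mtPr _ m) ∧ ∀ y, mtPr _ (e.symm y) = AM.P (AM.idx (mtPr _ m)) y := by
  have key : ∀ P : Mod → MM 2, IsLocalHomeomorph P → P (AM.pt (mtPr _ m)) = m →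
      (∀ y, mtPr _ (P y) = AM.P (AM.idx (mtPr _ m)) y) →
      ∃ e : OpenPartialHomeomorph (MM 2) Mod, m ∈ e.source ∧
        e m = AM.pt (mtPr _ m) ∧ ∀ y, mtPr _ (e.symm y) = AM.P (AM.idx (mtPr _ m)) y := by
    intro P hP h0 h1
    obtain ⟨e, he, rfl⟩ := hP (AM.pt (mtPr _ m))
    refine ⟨e.symm, h0 ▸ e.map_source he, ?_, h1⟩
    have := e.left_inv he
    rwa [h0] at this
  have hτ := mtTau_sym (c := mono WW) (mul_one (1 : F3))
  let T : MM 2 ≃ₜ MM 2 := ⟨⟨mtTau _, mtTau _, hτ.inv, hτ.inv⟩, hτ.cont, hτ.cont⟩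
  rcases mtPr_eq.1 (pr_lift (mtPr _ m)) with h | h
  · exact key _ (PM_lh 2 _) h.symm fun _ => rfl
  · exact key _ (T.isLocalHomeomorph.comp (PM_lh 2 _)) h.symm fun y => pr_tau (PM 2 _ y)

/-- The lower bounds in each degree. -/
def bnd : ℕ → ℤ
  | 1 => 2
  | 2 => 7
  | 3 => 12
  | 4 => 12
  | 5 => 7
  | 6 => 2
  | _ => 0

theorem bnd_le (k : ℕ) : ∃ s : F3, s * s = 1 ∧ FinE (mtTau (mono WW)) s univ ∅ ∧
    bnd k ≤ SE (mtTau (mono WW)) s univ ∅ k := by
  obtain ⟨w1, w2, w3, w4⟩ := W_betti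
  obtain ⟨h0, h1, h2, h3, h4, h5, h6⟩ := eigen_bounds w1 w2 w3 w4
  obtain ⟨p1, p2⟩ := wang (mono WW) h0 (mul_one (1 : F3))
  obtain ⟨m1, m2⟩ := wang (mono WW) h0 (s := -1) (by simp)
  match k with
  | 0 => exact ⟨1, mul_one _, p1, le_trans (by simp [bnd]) (p2 0)⟩
  | 1 => exact ⟨-1, by simp, m1, le_trans (by simpa [bnd] using h1) (m2 1)⟩
  | 2 => exact ⟨1, mul_one _, p1, le_trans (by simpa [bnd] using h2) (p2 2)⟩
  | 3 => exact ⟨-1, by simp, m1, le_trans (by simpa [bnd] using h3) (m2 3)⟩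
  | 4 => exact ⟨-1, by simp, m1, le_trans (by simpa [bnd] using h4) (m2 4)⟩
  | 5 => exact ⟨1, mul_one _, p1, le_trans (by simpa [bnd] using h5) (p2 5)⟩
  | 6 => exact ⟨-1, by simp, m1, le_trans (by simpa [bnd] using h6) (m2 6)⟩
  | k + 7 => exact ⟨1, mul_one _, p1, le_trans (by simp [bnd]) (p2 (k + 7))⟩

theorem bnd_nonneg (k : ℕ) : 0 ≤ bnd k := by
  unfold bnd
  split <;> norm_num

theorem lower : letI := AM.cs; 84 ≤ stableMorse Mod (MM 1) := by
  classical
  let _ := AM.cs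
  refine le_iInf fun k => le_iInf fun F => le_iInf fun ⟨hF, Q, R₀, hQ, hR₀, hFQ⟩ => ?_
  by_cases hfin : (critSet Mod F).Finite
  swap
  · rw [Set.Infinite.encard_eq hfin]
    exact le_top
  obtain ⟨hc, hs, hcr⟩ := AM.morse_chart hF
  obtain ⟨a, b, L, hL⟩ := sylvester ((1 / 2 : ℝ) • Q.polarBilin)
    (fun u v => by simp [QuadraticMap.polar_comm]) fun u h => hQ u fun v => by simpa using h v
  have hQL : ∀ z, Q z = bil (L z) (L z) := fun z => by
    rw [← hL]
    simp [QuadraticMap.polar_self]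
  let R : Finset (MM 2 × VV a b) := hfin.toFinset.image fun p => (liftM p.1, L p.2)
  have hR : ∀ m y, (m, y) ∈ R ↔ (mtPr _ m, L.symm y) ∈ critSet Mod F ∧ liftM (mtPr _ m) = m := by
    intro m y
    simp only [R, Finset.mem_image, Finite.mem_toFinset, Prod.mk.injEq]
    constructor
    · rintro ⟨p, hp, rfl, rfl⟩
      simpa [pr_lift] using hp
    · rintro ⟨h1, h2⟩
      exact ⟨_, h1, h2, L.apply_symm_apply y⟩
  have hτ := mtTau_sym (c := mono WW) (mul_one (1 : F3))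
  obtain ⟨ind, hind⟩ := lower_abs (E := Mod) hτ (f := fun q => F (mtPr _ q.1, L.symm q.2))
    (hc.comp ((mtPr_cont.comp continuous_fst).prodMk (L.symm.continuous.comp continuous_snd)))
    (fun x y => by simp only [pr_tau]) (r := ‖L.toContinuousLinearMap‖ * R₀ + 1)
    (fun x y hy => by
      rw [hFQ, hQL, L.apply_symm_apply]
      by_contra h
      have h1 := L.toContinuousLinearMap.le_opNorm (L.symm y)
      have h2 := mul_le_mul_of_nonneg_left (not_le.1 h).le (norm_nonneg L.toContinuousLinearMap)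
      simp only [ContinuousLinearEquiv.coe_coe, L.apply_symm_apply] at h1
      linarith) R
    (fun p hp q hq h => by
      subst h
      have h1 := ((hR _ _).1 hq).2
      rw [pr_tau, ((hR p.1 p.2).1 hp).2] at h1
      exact mtTau_ne _ h1.symm)
    (fun m => by
      obtain ⟨e, he, e1, e2⟩ := chart_cover m
      refine ⟨e, he, fun y => ?_⟩
      let Λ := (ContinuousLinearEquiv.refl ℝ Mod).prodCongr L.symm
      let G := fun q : Mod × EuclideanSpace ℝ (Fin k) => F (AM.P (AM.idx (mtPr _ m)) q.1, q.2)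
      have hG : ContDiff ℝ ∞ G := hs _
      have e3 : (fun q : Mod × VV a b => F (mtPr _ (e.symm q.1), L.symm q.2)) = G ∘ Λ :=
        funext fun q => by rw [e2]; rfl
      have e4 : Λ (e m, y) = (AM.pt (mtPr _ m), L.symm y) := by rw [e1]; rfl
      have e5 : fderiv ℝ (G ∘ Λ) (e m, y) = 0 ↔ (mtPr _ m, L.symm y) ∈ critSet Mod F := by
        rw [(hcr _ _).1, Λ.comp_right_fderiv, e4]
        refine ⟨fun h => ?_, fun h => by rw [h, ContinuousLinearMap.zero_comp]⟩
        exact ContinuousLinearMap.ext fun w => by simpa using DFunLike.congr_fun h (Λ.symm w)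
      simp only [e3]
      refine ⟨((hG.comp Λ.contDiff).of_le (WithTop.coe_le_coe.2 le_top)).contDiffAt,
        fun h => e5.2 ((hR _ _).1 h).1, fun h => ⟨?_, fun u hu => ?_⟩⟩
      · rw [hR, hR, pr_tau]
        exact (mtPr_eq.1 (pr_lift (mtPr _ m)).symm).imp (⟨e5.1 h, ·⟩) (⟨e5.1 h, ·⟩)
      · refine Λ.map_eq_zero_iff.1 ((hcr _ _).2 (e5.1 h) (Λ u) fun v => ?_)
        have := hu (Λ.symm v)
        rwa [fderiv_two_equiv Λ hG, e4, Λ.apply_symm_apply] at this)
  have h := cell_count R ind b bnd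
    (by obtain ⟨s, h1, h2, -⟩ := bnd_le 0; exact (hind s h1 h2).1)
    (fun k => by obtain ⟨s, h1, h2, h3⟩ := bnd_le k; exact h3.trans ((hind s h1 h2).2 k))
    bnd_nonneg 7
  have h' : R.card ≤ hfin.toFinset.card := Finset.card_image_le
  simp only [Finset.sum_range_succ, Finset.range_zero, Finset.sum_empty, bnd] at h
  rw [hfin.encard_eq_coe_toFinset_card]
  exact_mod_cast (by omega : 84 ≤ hfin.toFinset.card)

end Vale.Agent.P265
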