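import Vale.Agent.P265.Cup

/-! P265: mapping tori. -/

open Set Topology

noncomputable section

namespace Vale.Agent.P265

variable {X : Type} [MetricSpace X]

/-- The relation generated by `(t, x) ~ (t - n, c ^ n x)`. -/
def mtRel (c : X ≃ₜ X) (n : ℕ) : Setoid (ℝ × X) where
  r a b := ∃ k : ℤ, b.1 = a.1 - (n * k : ℤ) ∧ b.2 = (c ^ (n * k : ℤ)) a.2
  iseqv := by
    refine ⟨fun a => ⟨0, by simp, by simp⟩, ?_, ?_⟩
    · rintro a b ⟨k, h1, h2⟩
      refine ⟨-k, by rw [h1]; push_cast; ring, ?_⟩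
      rw [h2, ← Homeomorph.mul_apply, ← zpow_add]
      simp
    · rintro a b d ⟨k, h1, h2⟩ ⟨l, h3, h4⟩
      refine ⟨k + l, by rw [h3, h1]; push_cast; ring, ?_⟩
      rw [h4, h2, ← Homeomorph.mul_apply, ← zpow_add]
      congr 2
      ring

/-- The mapping torus of `c ^ n`, of length `n`. -/
def MT (c : X ≃ₜ X) (n : ℕ) : Type := Quotient (mtRel c n)

instance (c : X ≃ₜ X) (n : ℕ) : TopologicalSpace (MT c n) :=
  inferInstanceAs (TopologicalSpace (Quotient (mtRel c n)))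

/-- The projection to the mapping torus. -/
def mtq (c : X ≃ₜ X) (n : ℕ) (a : ℝ × X) : MT c n := Quotient.mk (mtRel c n) a

variable {c : X ≃ₜ X} {n : ℕ}

theorem mtq_eq {a b : ℝ × X} : mtq c n a = mtq c n b ↔
    ∃ k : ℤ, b.1 = a.1 - (n * k : ℤ) ∧ b.2 = (c ^ (n * k : ℤ)) a.2 := Quotient.eq

theorem mtq_surj (z : MT c n) : ∃ a, mtq c n a = z := Quotient.exists_rep z

theorem mtq_cont : Continuous (mtq c n) := continuous_quotient_mk'

namespace MTAux

theorem lh_of {A B : Type} [TopologicalSpace A] [TopologicalSpace B] {f : A → B}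
    (hc : Continuous f) (ho : IsOpenMap f) (hi : ∀ x, ∃ U, IsOpen U ∧ x ∈ U ∧ InjOn f U) :
    IsLocalHomeomorph f := by
  refine isLocalHomeomorph_iff_isOpenEmbedding_restrict.2 fun x => ?_
  obtain ⟨U, hU, hx, hf⟩ := hi x
  exact ⟨U, hU.mem_nhds hx, IsOpenEmbedding.of_continuous_injective_isOpenMap
    (hc.comp continuous_subtype_val) (injOn_iff_injective.1 hf) (ho.comp hU.isOpenMap_subtype_val)⟩

theorem cont_deck (c : X ≃ₜ X) (m : ℤ) :
    Continuous fun a : ℝ × X => ((a.1 - m, (c ^ m) a.2) : ℝ × X) :=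
  (continuous_fst.sub continuous_const).prodMk ((c ^ m).continuous.comp continuous_snd)

theorem mtq_open : IsOpenMap (mtq c n) := by
  intro U hU
  have h : mtq c n ⁻¹' (mtq c n '' U) =
      ⋃ k : ℤ, (fun a : ℝ × X => ((a.1 - (n * k : ℤ), (c ^ (n * k : ℤ)) a.2) : ℝ × X)) ⁻¹' U := by
    ext a
    simp only [mem_preimage, mem_image, mem_iUnion]
    constructor
    · rintro ⟨b, hb, e⟩
      obtain ⟨k, h1, h2⟩ := mtq_eq.1 e.symm
      exact ⟨k, by rw [← h1, ← h2]; exact hb⟩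
    · rintro ⟨k, hk⟩
      exact ⟨_, hk, (mtq_eq.2 ⟨k, rfl, rfl⟩).symm⟩
  have hq : IsQuotientMap (mtq c n) := isQuotientMap_quotient_mk'
  rw [← hq.isOpen_preimage, h]
  exact isOpen_iUnion fun k => hU.preimage (cont_deck c _)

theorem mtq_oq : IsOpenQuotientMap (mtq c n) := ⟨mtq_surj, mtq_cont, mtq_open⟩

theorem abs_le_mul [NeZero n] (k : ℤ) : |(k : ℝ)| ≤ |((n * k : ℤ) : ℝ)| := by
  have h : (1 : ℝ) ≤ n := by exact_mod_cast Nat.one_le_iff_ne_zero.2 (NeZero.ne n)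
  push_cast
  rw [abs_mul, abs_of_nonneg (by positivity : (0 : ℝ) ≤ n)]
  exact le_mul_of_one_le_left (abs_nonneg _) h

theorem near [NeZero n] {a b : ℝ × X} (h : mtq c n a = mtq c n b) (hn : |a.1 - b.1| < 1) :
    a = b := by
  obtain ⟨k, h1, h2⟩ := mtq_eq.1 h
  have h3 : |(k : ℝ)| < 1 := by
    refine (abs_le_mul (n := n) k).trans_lt ?_
    rwa [h1, sub_sub_cancel] at hn
  have h4 : k = 0 := by
    have : |k| < 1 := by exact_mod_cast h3
    exact Int.abs_lt_one_iff.1 this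
  subst h4
  exact Prod.ext (by simpa using h1.symm) (by simpa using h2.symm)

theorem window [NeZero n] (z : MT c n) : ∃ a : ℝ × X, a.1 ∈ Icc (0 : ℝ) n ∧ mtq c n a = z := by
  obtain ⟨a, rfl⟩ := mtq_surj z
  have h : (0 : ℝ) < n := by exact_mod_cast Nat.pos_of_ne_zero (NeZero.ne n)
  refine ⟨(a.1 - (n * ⌊a.1 / n⌋ : ℤ), (c ^ (n * ⌊a.1 / n⌋ : ℤ)) a.2), ⟨?_, ?_⟩,
    (mtq_eq.2 ⟨_, rfl, rfl⟩).symm⟩
  · have := (le_div_iff₀ h).1 (Int.floor_le (a.1 / n))
    push_cast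
    linarith
  · have := (div_lt_iff₀ h).1 (Int.lt_floor_add_one (a.1 / n))
    push_cast
    linarith

end MTAux

theorem mtq_lh [NeZero n] : IsLocalHomeomorph (mtq c n) := by
  refine MTAux.lh_of mtq_cont MTAux.mtq_open fun x =>
    ⟨{a | |a.1 - x.1| < 1 / 2}, isOpen_lt (by fun_prop) continuous_const, by simp,
      fun a ha b hb e => MTAux.near e ?_⟩
  have h1 := abs_lt.1 (show |a.1 - x.1| < 1 / 2 from ha)
  have h2 := abs_lt.1 (show |b.1 - x.1| < 1 / 2 from hb)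
  rw [abs_lt]
  constructor <;> linarith [h1.1, h1.2, h2.1, h2.2]

instance mt_t2 [NeZero n] : T2Space (MT c n) := by
  rw [t2Space_iff_of_isOpenQuotientMap (MTAux.mtq_oq (c := c) (n := n))]
  have h : {q : (ℝ × X) × ℝ × X | mtq c n q.1 = mtq c n q.2} = ⋃ k : ℤ,
      {q : (ℝ × X) × ℝ × X | q.2 = (q.1.1 - (n * k : ℤ), (c ^ (n * k : ℤ)) q.1.2)} := by
    ext q
    simp only [mem_ofPred_eq, mem_iUnion, mtq_eq, Prod.ext_iff]
  rw [h]
  refine LocallyFinite.isClosed_iUnion (fun q => ?_) fun k =>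
    isClosed_eq continuous_snd ((MTAux.cont_deck c _).comp continuous_fst)
  refine ⟨{p | |p.1.1 - p.2.1| < |q.1.1 - q.2.1| + 1},
    (isOpen_lt (by fun_prop) continuous_const).mem_nhds (by simp), ?_⟩
  refine (finite_Icc (-⌈|q.1.1 - q.2.1| + 1⌉) ⌈|q.1.1 - q.2.1| + 1⌉).subset ?_
  rintro k ⟨p, h1, h2⟩
  have h3 : p.2.1 = p.1.1 - (n * k : ℤ) := congrArg Prod.fst h1
  have h4 : |p.1.1 - p.2.1| < |q.1.1 - q.2.1| + 1 := h2
  rw [h3, sub_sub_cancel] at h4
  have h5 := ((MTAux.abs_le_mul (n := n) k).trans h4.le).trans (Int.le_ceil _)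
  have h6 : |k| ≤ ⌈|q.1.1 - q.2.1| + 1⌉ := by exact_mod_cast h5
  exact abs_le.1 h6

instance mt_compact [NeZero n] [CompactSpace X] : CompactSpace (MT c n) := by
  refine ⟨?_⟩
  have h : (univ : Set (MT c n)) = mtq c n '' (Icc (0 : ℝ) n ×ˢ univ) := by
    refine (eq_univ_of_forall fun z => ?_).symm
    obtain ⟨a, h1, h2⟩ := MTAux.window z
    exact ⟨a, ⟨h1, mem_univ _⟩, h2⟩
  rw [h]
  exact (isCompact_Icc.prod isCompact_univ).image mtq_cont

instance mt_conn [ConnectedSpace X] : ConnectedSpace (MT c n) := by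
  exact Function.Surjective.connectedSpace (f := mtq c n) mtq_surj mtq_cont

instance mt_metrizable [NeZero n] [CompactSpace X] : TopologicalSpace.MetrizableSpace (MT c n) := by
  have : SecondCountableTopology (MT c n) :=
    (MTAux.mtq_oq (c := c) (n := n)).isQuotientMap.secondCountableTopology MTAux.mtq_open
  exact TopologicalSpace.metrizableSpace_of_t3_secondCountable _

instance mtMetric [NeZero n] [CompactSpace X] : MetricSpace (MT c n) :=
  TopologicalSpace.metrizableSpaceMetric (MT c n)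

/-- The double cover. -/
def mtPr (c : X ≃ₜ X) : MT c 2 → MT c 1 :=
  Quotient.lift (mtq c 1) fun _ _ ⟨k, h1, h2⟩ =>
    mtq_eq.2 ⟨2 * k, by simpa using h1, by simpa using h2⟩

/-- The deck transformation of the double cover. -/
def mtTau (c : X ≃ₜ X) : MT c 2 → MT c 2 :=
  Quotient.lift (fun a => mtq c 2 (a.1 - 1, c a.2)) fun a b ⟨k, h1, h2⟩ =>
    mtq_eq.2 ⟨k, by simp only [h1]; ring, by
      simp only [h2]
      rw [← Homeomorph.mul_apply, ← Homeomorph.mul_apply, ← zpow_add_one, ← zpow_one_add,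
        add_comm]⟩

theorem mtPr_q (a : ℝ × X) : mtPr c (mtq c 2 a) = mtq c 1 a := rfl

theorem mtTau_q (a : ℝ × X) : mtTau c (mtq c 2 a) = mtq c 2 (a.1 - 1, c a.2) := rfl

theorem mtPr_cont : Continuous (mtPr c) := by
  exact Continuous.quotient_lift mtq_cont _

theorem mtTau_sym [CompactSpace X] {s : F3} (hs : s * s = 1) : Sym (mtTau c) s := by
  refine ⟨?_, fun z => ?_, hs⟩
  · exact Continuous.quotient_lift (mtq_cont.comp
      ((continuous_fst.sub continuous_const).prodMk (c.continuous.comp continuous_snd))) _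
  · obtain ⟨a, rfl⟩ := mtq_surj z
    rw [mtTau_q, mtTau_q]
    refine (mtq_eq.2 ⟨1, ?_, ?_⟩).symm
    · push_cast
      ring
    · change c (c a.2) = (c ^ ((2 : ℕ) * 1 : ℤ)) a.2
      rw [mul_one, zpow_natCast, pow_two, Homeomorph.mul_apply]

theorem mtTau_ne (z : MT c 2) : mtTau c z ≠ z := by
  obtain ⟨a, rfl⟩ := mtq_surj z
  rw [mtTau_q]
  intro h
  obtain ⟨k, h1, -⟩ := mtq_eq.1 h
  have h2 : (((2 : ℕ) * k : ℤ) : ℝ) = ((-1 : ℤ) : ℝ) := by
    simp only at h1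
    push_cast at h1 ⊢
    linarith
  have h3 : ((2 : ℕ) * k : ℤ) = -1 := by exact_mod_cast h2
  omega

theorem mtPr_eq {z w : MT c 2} : mtPr c z = mtPr c w ↔ w = z ∨ w = mtTau c z := by
  obtain ⟨a, rfl⟩ := mtq_surj z
  obtain ⟨b, rfl⟩ := mtq_surj w
  rw [mtPr_q, mtPr_q, mtTau_q]
  constructor
  · intro h
    obtain ⟨k, h1, h2⟩ := mtq_eq.1 h
    rcases Int.even_or_odd' k with ⟨j, rfl | rfl⟩
    · exact Or.inl (mtq_eq.2 ⟨j, by simpa using h1, by simpa using h2⟩).symm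
    · refine Or.inr (mtq_eq.2 ⟨j, ?_, ?_⟩).symm
      · rw [h1]
        push_cast
        ring
      · rw [h2]
        change _ = (c ^ ((2 : ℕ) * j : ℤ)) (c a.2)
        rw [← Homeomorph.mul_apply, ← zpow_add_one]
        simp
  · rintro (h | h)
    · exact (congrArg (mtPr c) h).symm
    · refine Eq.trans ?_ (congrArg (mtPr c) h).symm
      exact mtq_eq.2 ⟨1, by simp, by simp⟩

end Vale.Agent.P265
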