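import Vale.Agent.P265.WDef

/-! P265: functions on the universal cover of the four-dimensional mapping torus. -/

open Set Real

noncomputable section

namespace Vale.Agent.P265

abbrev R4 : Type := Fin 4 → ℝ

/-- The lift of the gluing map. -/
def sh (a : R4) : R4 := ![a 0 - 1, a 2, a 1, -a 3 - 3 * a 1]

/-- Invariance under the deck group. -/
def Ginv {β : Type} (f : R4 → β) : Prop :=
  (∀ a, f (sh a) = f a) ∧ ∀ (i : Fin 3) (a : R4), f (a + Pi.single i.succ (2 * π)) = f a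

/-- Being in the same orbit of the deck group. -/
def Rel (a a' : R4) : Prop := ∀ (β : Type) (f : R4 → β), Ginv f → f a = f a'

/-- The square of the norm of the field `v`. -/
def Nf (a : R4) : ℝ :=
  sin (π * a 0) ^ 2 + (3 + 2 * sin (π * a 0)) * (1 - cos (a 1)) +
    (3 - 2 * sin (π * a 0)) * (1 - cos (a 2))

/-- The function `u`. -/
def Uf (c : ℝ) (κ : ℝ → ℝ) (φ : R4 → ℝ) (a : R4) : ℝ :=
  -(c * κ (cos (a 1) ^ 2) * κ (cos (a 2) ^ 2) * cos (a 3 + φ a))

/-- Critical points of `(a, p) ↦ u a + ⟨v a, p⟩` on `ℝ⁴ × S²`. -/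
def Crit (u : R4 → ℝ) (v : R4 → R3) (a : R4) (p : R3) : Prop :=
  (∀ η, ip p η = 0 → ip (v a) η = 0) ∧ ∀ α, fderiv ℝ u a α + ip (fderiv ℝ v a α) p = 0

/-- Nondegeneracy of such a critical point. -/
def NondegUV (u : R4 → ℝ) (v : R4 → R3) (a : R4) (p : R3) : Prop :=
  ∀ α η, ip p η = 0 →
    (∀ α', fderiv ℝ (fderiv ℝ u) a α α' + ip (fderiv ℝ (fderiv ℝ v) a α α') p +
      ip (fderiv ℝ v a α') η = 0) →
    (∀ η', ip p η' = 0 → ip (fderiv ℝ v a α) η' - ip (v a) p * ip η η' = 0) → α = 0 ∧ η = 0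

end Vale.Agent.P265
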