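import Vale.Agent.P265.WTop

/-! P265: compactness of the surface, the torus action, the fixed spheres. -/

open Set Complex Topology
open scoped ContDiff

noncomputable section

namespace Vale.Agent.P265

namespace WCptAux

theorem signs (p : Fin 4 → R3) : ∃ g : Fin 8, (flp (fl g (prm g 3)) (p (prm g 3))).2 ≤ 0 ∧
    (flp (fl g (prm g 1)) (p (prm g 1))).2 ≤ 0 := by
  rcases le_total (p 3).2 0 with h3 | h3 <;> rcases le_total (p 1).2 0 with h1 | h1
  · exact ⟨0, h3, h1⟩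
  · rcases le_total (p 0).2 0 with h0 | h0
    · rcases le_total (p 2).2 0 with h2 | h2
      · exact ⟨5, h2, neg_nonpos.2 h1⟩
      · exact ⟨1, neg_nonpos.2 h2, h0⟩
    · exact ⟨6, h3, neg_nonpos.2 h0⟩
  · rcases le_total (p 0).2 0 with h0 | h0
    · exact ⟨4, neg_nonpos.2 h3, h0⟩
    · rcases le_total (p 2).2 0 with h2 | h2
      · exact ⟨3, h2, neg_nonpos.2 h0⟩
      · exact ⟨7, neg_nonpos.2 h2, h1⟩
  · exact ⟨2, neg_nonpos.2 h3, neg_nonpos.2 h1⟩

theorem norm_le {w : ℂ} (h : hgt w ≤ 0) : ‖w‖ ≤ 1 := by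
  unfold hgt at h
  rw [div_nonpos_iff] at h
  have h0 := WTopAux.nsq_pos w
  have h1 : normSq w ≤ 1 := by
    rcases h with h | h <;> linarith [h.1, h.2]
  rw [normSq_eq_norm_sq] at h1
  exact (sq_le_one_iff₀ (norm_nonneg w)).1 h1

theorem par_one (g : Fin 8) : par g (1, 1) = fun _ => (1, 0) := by
  funext i
  have h1 : ∀ m, mon (1, 1) m = 1 := fun m => by fin_cases m <;> simp [mon]
  have h2 : st 1 = (1, 0) := by
    refine Prod.ext ?_ (by simp [st, hgt])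
    simp only [st, normSq_one]
    norm_num
  unfold par
  rw [h1, h2]
  cases fl g i <;> simp [flp]

/-- Rotation by an angle. -/
def E (φ : ℝ) : ℂ := exp (I * φ)

theorem E_add (φ ψ : ℝ) : E (φ + ψ) = E φ * E ψ := by
  unfold E
  rw [ofReal_add, mul_add, exp_add]

theorem E_conj (φ : ℝ) : (starRingEnd ℂ) (E φ) = E (-φ) := by
  unfold E
  rw [← exp_conj, map_mul, conj_I, conj_ofReal, ofReal_neg, neg_mul, mul_neg]

theorem E_nsq (φ : ℝ) : normSq (E φ) = 1 := by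
  unfold E
  rw [normSq_eq_norm_sq, mul_comm, norm_exp_ofReal_mul_I, one_pow]

theorem mon_rot (α β : ℝ) (z : ℂ × ℂ) (m : Fin 4) : mon (E α * z.1, E β * z.2) m =
    E ((![α + β, β, α + β + β, α] : Fin 4 → ℝ) m) * mon z m := by
  fin_cases m
  · show E α * z.1 * (E β * z.2) = E (α + β) * (z.1 * z.2)
    rw [E_add]
    ring
  · rfl
  · show E α * z.1 * (E β * z.2) ^ 2 = E (α + β + β) * (z.1 * z.2 ^ 2)
    rw [E_add, E_add]
    ring
  · rfl

theorem flp_rot (b : Bool) (φ : ℝ) (w : ℂ) : flp b (st (E φ * w)) =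
    (E (if b then -φ else φ) * (flp b (st w)).1, (flp b (st w)).2) := by
  have h : st (E φ * w) = (E φ * (st w).1, (st w).2) := by
    unfold st hgt
    rw [normSq_mul, E_nsq, one_mul, mul_smul_comm]
  rw [h]
  cases b
  · rfl
  · simp [flp, E_conj]

theorem wts (g : Fin 8) (i : Fin 4) (c : ℝ) :
    (if fl g i then -(![c * alw 1 1 g + c * bew 1 1 g, c * bew 1 1 g,
      c * alw 1 1 g + c * bew 1 1 g + c * bew 1 1 g, c * alw 1 1 g] : Fin 4 → ℝ) (prm g i)
      else (![c * alw 1 1 g + c * bew 1 1 g, c * bew 1 1 g,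
      c * alw 1 1 g + c * bew 1 1 g + c * bew 1 1 g, c * alw 1 1 g] : Fin 4 → ℝ) (prm g i)) =
      c * (![1, 1, 2, 0] : Fin 4 → ℝ) i := by
  fin_cases g <;> fin_cases i <;> simp [fl, prm, alw, bew] <;> first | ring1 | (left; ring1)

theorem E_even (k : ℤ) : E (Real.pi * 1 * (2 * k)) = 1 := by
  unfold E
  rw [← exp_int_mul_two_pi_mul_I k]
  congr 1
  push_cast
  ring

theorem E_odd (k : ℤ) : E (Real.pi * 1 * (2 * k + 1)) = -1 := by
  rw [mul_add, E_add, E_even, one_mul, ← exp_pi_mul_I]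
  unfold E
  rw [mul_one, mul_one, mul_comm]

theorem alw_even (g : Fin 8) : ∃ k : ℤ, alw 1 1 g = 2 * k := by
  refine ⟨![0, -1, 0, 1, 0, 1, 0, -1] g, ?_⟩
  fin_cases g <;> simp [alw] <;> norm_num

theorem bew_odd (g : Fin 8) : ∃ k : ℤ, bew 1 1 g = 2 * k + 1 := by
  refine ⟨![0, 0, -1, -1, 0, -1, -1, 0] g, ?_⟩
  fin_cases g <;> simp [bew] <;> norm_num

end WCptAux

open WCptAux

theorem pw_cover (w : WW) : ∃ g z, ‖z‖ ≤ 1 ∧ pw g z = w := by
  obtain ⟨g, h3, h1⟩ := signs w.1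
  have h := par_cinv g w.2 ⟨h3.trans_lt one_pos, h1.trans_lt one_pos⟩
  refine ⟨g, cinv g w.1, ?_, Subtype.ext h⟩
  rw [← h, WTopAux.flp_par] at h3 h1
  exact max_le (norm_le h3) (norm_le h1)

instance WW_compact : CompactSpace WW := by
  refine ⟨?_⟩
  have h : (univ : Set WW) = ⋃ g, pw g '' Metric.closedBall 0 1 := by
    refine (eq_univ_of_forall fun w => ?_).symm
    obtain ⟨g, z, h1, h2⟩ := pw_cover w
    exact mem_iUnion.2 ⟨g, z, mem_closedBall_zero_iff.2 h1, h2⟩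
  rw [h]
  exact isCompact_iUnion fun g => (isCompact_closedBall 0 1).image (pw_emb g).continuous

instance WW_conn : ConnectedSpace WW := by
  refine Subtype.connectedSpace ⟨⟨_, (pw 0 0).2⟩, isPreconnected_iUnion
    ⟨fun _ => (1, 0), mem_iInter.2 fun g => ⟨(1, 1), par_one g⟩⟩ fun g => ?_⟩
  exact isPreconnected_range (par_smooth g).continuous

theorem hamb_par (a b : ℝ) (g : Fin 8) (z : ℂ × ℂ) :
    hamb a b (par g z) = hw (alw a b g) (bew a b g) z := by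
  fin_cases g <;> simp [hamb, par, flp, fl, prm, mon, st, hw, alw, bew] <;>
    first | ring1 | (left; ring1)

theorem rot_par (g : Fin 8) (s : ℝ) (z : ℂ × ℂ) : rot s (par g z) = par g (rotc g s z) := by
  funext i
  have h := flp_rot (fl g i) ((![Real.pi * s * alw 1 1 g + Real.pi * s * bew 1 1 g,
    Real.pi * s * bew 1 1 g, Real.pi * s * alw 1 1 g + Real.pi * s * bew 1 1 g +
      Real.pi * s * bew 1 1 g, Real.pi * s * alw 1 1 g] : Fin 4 → ℝ) (prm g i)) (mon z (prm g i))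
  rw [wts, ← mon_rot] at h
  exact h.symm

theorem rotc_zero (g : Fin 8) (z : ℂ × ℂ) : rotc g 0 z = z := by
  simp [rotc]

theorem rotc_one (g : Fin 8) (z : ℂ × ℂ) : rotc g 1 z = (z.1, -z.2) := by
  obtain ⟨k, hk⟩ := alw_even g
  obtain ⟨l, hl⟩ := bew_odd g
  show (E (Real.pi * 1 * alw 1 1 g) * z.1, E (Real.pi * 1 * bew 1 1 g) * z.2) = _
  rw [hk, hl, E_even, E_odd, one_mul, neg_one_mul]

theorem piW_neg (g : Fin 8) (z : ℂ × ℂ) : piW (par g (z.1, -z.2)) = piW (par g z) := by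
  fin_cases g <;> simp [piW, par, prm, mon]

theorem piW_smooth : ContDiff ℝ ∞ piW := by
  exact ((contDiff_apply ℝ R3 2).fst.add (contDiff_apply ℝ R3 3).fst).prodMk
    ((contDiff_apply ℝ R3 2).snd.mul (contDiff_apply ℝ R3 3).snd)

/-- On a fixed sphere `piW` is a stereographic parametrization up to signs. -/
theorem piW_sphere (g : Fin 8) : ∃ e₁ e₂ : ℝ, e₁ * e₁ = 1 ∧ e₂ * e₂ = 1 ∧ ∀ w : ℂ,
    piW (par g (w, 0)) = (⟨(st w).1.re, e₁ * (st w).1.im⟩, e₂ * (st w).2) := by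
  refine ⟨![1, -1, -1, 1, -1, 1, 1, -1] g, ![-1, 1, -1, 1, 1, -1, 1, -1] g, ?_, ?_, fun w => ?_⟩
  · fin_cases g <;> simp
  · fin_cases g <;> simp
  · fin_cases g <;> simp [piW, par, prm, mon, fl, flp, WTopAux.st_zero, Complex.ext_iff]

theorem sphere_rec : ∃ r : Fin 4 → R3 → Fin 4 → R3, ∀ (g : Fin 8) (w : ℂ),
    ∃ j, par g (w, 0) = r j (piW (par g (w, 0))) := by
  refine ⟨![fun y => ![(0, -1), (0, -1), (0, -1), (y.1, -y.2)],
    fun y => ![(0, -1), (0, 1), (y.1, -y.2), (0, -1)], fun y => ![(0, 1), (0, 1), (0, 1), y],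
    fun y => ![(0, 1), (0, -1), y, (0, 1)]], fun g w => ⟨![0, 1, 2, 3, 0, 1, 2, 3] g, ?_⟩⟩
  funext i
  fin_cases g <;> fin_cases i <;> simp [piW, par, prm, mon, fl, flp, WTopAux.st_zero]

end Vale.Agent.P265
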