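import Vale.Agent.P265.WForm

/-! P265: the symplectic form is compatible with the transitions. -/

open Set Complex Topology
open scoped ContDiff

noncomputable section

namespace Vale.Agent.P265

namespace WTransAux

open WFormAux

/-- The triple product. -/
def vol (p a b : R3) : ℝ :=
  p.1.re * (a.1.im * b.2 - a.2 * b.1.im) - p.1.im * (a.1.re * b.2 - a.2 * b.1.re) +
    p.2 * (a.1.re * b.1.im - a.1.im * b.1.re)

theorem vol_flp (f : Bool) (p a b : R3) : vol (flp f p) (flp f a) (flp f b) = vol p a b := by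
  cases f
  · rfl
  · simp [vol, flp]
    ring

/-- The flip as a linear map. -/
def flpL (f : Bool) : R3 →L[ℝ] R3 :=
  if f then ((conjCLE : ℂ →L[ℝ] ℂ).comp (ContinuousLinearMap.fst ℝ ℂ ℝ)).prod
    (-ContinuousLinearMap.snd ℝ ℂ ℝ) else ContinuousLinearMap.id ℝ R3

theorem flpL_apply (f : Bool) (p : R3) : flpL f p = flp f p := by
  cases f <;> simp [flpL, flp]

theorem st_eq : st = fun w => ((1 - hgt w) • w, hgt w) := by
  funext w
  have := den_pos w
  unfold st hgt
  congr 2
  field_simp
  ring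

theorem st_der (w u : ℂ) : fderiv ℝ st w u =
    ((1 - hgt w) • u - (rho w * (w.re * u.re + w.im * u.im)) • w,
      rho w * (w.re * u.re + w.im * u.im)) := by
  have h : HasFDerivAt (fun w => ((1 - hgt w) • w, hgt w)) _ w :=
    (((hgt_der w).const_sub 1).smul (hasFDerivAt_id w)).prodMk (hgt_der w)
  rw [st_eq, h.fderiv]
  simp [sub_eq_add_neg]
  constructor <;> ring

theorem vol_st (w a b : ℂ) :
    vol (st w) (fderiv ℝ st w a) (fderiv ℝ st w b) = -(rho w * areaC a b) := by
  have h0 := den_pos w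
  rw [st_der, st_der, area_apply, st_eq]
  simp only [vol, smul_re, smul_im, sub_re, sub_im, smul_eq_mul, hgt, rho]
  rw [normSq_apply] at h0 ⊢
  field_simp
  ring

theorem par_der (g : Fin 8) (z a : ℂ × ℂ) (i : Fin 4) : fderiv ℝ (par g) z a i =
    flp (fl g i) (fderiv ℝ st (mon z (prm g i)) (dmon z (prm g i) a)) := by
  have h : HasFDerivAt (par g) (ContinuousLinearMap.pi fun i => (flpL (fl g i)).comp
      ((fderiv ℝ st (mon z (prm g i))).comp (dmon z (prm g i)))) z := by
    refine hasFDerivAt_pi.2 fun i => ?_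
    have h1 := (flpL (fl g i)).hasFDerivAt.comp z
      ((st_smooth.differentiable (by simp) _).hasFDerivAt.comp z (mon_der z (prm g i)))
    simp only [Function.comp_def, flpL_apply] at h1
    exact h1
  rw [h.fderiv]
  simp [flpL_apply]

theorem omW_vol (g : Fin 8) (z a b : ℂ × ℂ) : omW z a b =
    -∑ i, vol (par g z i) (fderiv ℝ (par g) z a i) (fderiv ℝ (par g) z b i) := by
  have e : ∀ F : Fin 4 → ℝ, ∑ i, F (prm g i) = ∑ m, F m := fun F => by
    fin_cases g <;> simp [Fin.sum_univ_four, prm] <;> ring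
  simp only [par_der, par, vol_flp, vol_st, Finset.sum_neg_distrib, neg_neg]
  rw [omW_apply, ← e]

end WTransAux

open WTransAux in
theorem omW_trans {g g' : Fin 8} {z z' : ℂ × ℂ} (h : pw g z = pw g' z') (a b : ℂ × ℂ) :
    omW z a b = omW z' (fderiv ℝ (cinv g' ∘ par g) z a) (fderiv ℝ (cinv g' ∘ par g) z b) := by
  obtain ⟨h1, h2, h3⟩ := pw_trans h
  have h4 : par g =ᶠ[𝓝 z] par g' ∘ cinv g' ∘ par g := h3.mono fun y hy => congrArg Subtype.val hy
  have h5 : par g z = par g' z' := congrArg Subtype.val h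
  have h6 : fderiv ℝ (par g) z = (fderiv ℝ (par g') z').comp (fderiv ℝ (cinv g' ∘ par g) z) := by
    rw [h4.fderiv_eq, fderiv_comp z ((par_smooth g').differentiable (by simp) _)
      (h1.differentiableAt (by simp)), Function.comp_apply, h2]
  rw [omW_vol g, omW_vol g', h5, h6]
  rfl

end Vale.Agent.P265
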