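import Vale.Agent.P265.Atlas
import Vale.Agent.P265.MT
import Vale.Agent.P265.Eigen
import Vale.Agent.P265.UVDef
import Vale.Agent.P265.WCpt
import Vale.Agent.P265.WForm
import Vale.Agent.P265.WTrans

/-! P265: the manifold. -/

open Set Topology Filter
open scoped ContDiff

noncomputable section

namespace Vale.Agent.P265

/-- The model space, of real dimension eight. -/
abbrev Mod : Type := R4 × ℂ × ℂ

/-- The manifold (`n = 1`) and its double cover (`n = 2`). -/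
abbrev MM (n : ℕ) : Type := MT (mono WW) n

def PiM (n : ℕ) (a : R4) (w : WW) : MM n :=
  mtq (mono WW) n (a 0, ((a 1 : ℝ) : TT), ((a 2 : ℝ) : TT), ((a 3 : ℝ) : TT), w)

def PM (n : ℕ) (g : Fin 8) (y : Mod) : MM n := PiM n y.1 (pw g y.2)

/-- `dx_i ∧ dx_j`. -/
def wedge (i j : Fin 4) : R4 →L[ℝ] R4 →L[ℝ] ℝ :=
  (ContinuousLinearMap.mul ℝ ℝ).bilinearComp (ContinuousLinearMap.proj i)
      (ContinuousLinearMap.proj j) -
    (ContinuousLinearMap.mul ℝ ℝ).bilinearComp (ContinuousLinearMap.proj j)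
      (ContinuousLinearMap.proj i)

/-- The symplectic form of the four-dimensional mapping torus. -/
def omZ : R4 →L[ℝ] R4 →L[ℝ] ℝ :=
  wedge 0 1 + wedge 0 2 + (2 : ℝ) • wedge 1 3 - (2 : ℝ) • wedge 2 3 + (3 : ℝ) • wedge 1 2

def omM (y : Mod) : Mod →L[ℝ] Mod →L[ℝ] ℝ :=
  omZ.bilinearComp (ContinuousLinearMap.fst ℝ _ _) (ContinuousLinearMap.fst ℝ _ _) +
    (omW y.2).bilinearComp (ContinuousLinearMap.snd ℝ _ _) (ContinuousLinearMap.snd ℝ _ _)

theorem omM_apply (y a b : Mod) : omM y a b = omZ a.1 b.1 + omW y.2 a.2 b.2 := rfl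

end Vale.Agent.P265
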