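import Vale.Agent.P265.MDef

/-! P265: topology of the manifold. -/

open Set Topology Filter
open scoped ContDiff

noncomputable section

namespace Vale.Agent.P265

namespace MTopAux

theorem lh_prod {A B C D : Type} [TopologicalSpace A] [TopologicalSpace B] [TopologicalSpace C]
    [TopologicalSpace D] {f : A → B} {g : C → D} (hf : IsLocalHomeomorph f)
    (hg : IsLocalHomeomorph g) : IsLocalHomeomorph (Prod.map f g) := by
  refine MTAux.lh_of (hf.continuous.prodMap hg.continuous) (hf.isOpenMap.prodMap hg.isOpenMap)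
    fun x => ?_
  obtain ⟨U, hU, hx, h1⟩ := hf.isLocallyInjective x.1
  obtain ⟨V, hV, hy, h2⟩ := hg.isLocallyInjective x.2
  exact ⟨U ×ˢ V, hU.prod hV, ⟨hx, hy⟩, h1.prodMap h2⟩

/-- Splitting the coordinates. -/
def split : Mod ≃ₜ ℝ × ℝ × ℝ × ℝ × ℂ × ℂ where
  toFun y := (y.1 0, y.1 1, y.1 2, y.1 3, y.2)
  invFun q := (![q.1, q.2.1, q.2.2.1, q.2.2.2.1], q.2.2.2.2)
  left_inv y := by
    refine Prod.ext (funext fun i => ?_) rfl
    fin_cases i <;> rfl
  right_inv _ := rfl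
  continuous_toFun := by fun_prop
  continuous_invFun := by fun_prop

/-- The point upstairs. -/
def up (a : R4) (w : WW) : ℝ × X3 WW :=
  (a 0, ((a 1 : ℝ) : TT), ((a 2 : ℝ) : TT), ((a 3 : ℝ) : TT), w)

theorem PiM_up (n : ℕ) (a : R4) (w : WW) : PiM n a w = mtq (mono WW) n (up a w) := rfl

theorem coe_three (x : ℝ) : ((3 * x : ℝ) : TT) = 3 • ((x : ℝ) : TT) := by
  rw [← AddCircle.coe_nsmul, nsmul_eq_mul]
  norm_num

theorem up_sh (a : R4) (w : WW) : up (sh a) w = ((up a w).1 - 1, mono WW (up a w).2) := by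
  refine Prod.ext rfl (Prod.ext rfl (Prod.ext rfl (Prod.ext ?_ rfl)))
  change ((-a 3 - 3 * a 1 : ℝ) : TT) = -((a 3 : ℝ) : TT) - 3 • ((a 1 : ℝ) : TT)
  rw [AddCircle.coe_sub, AddCircle.coe_neg, coe_three]

/-- The inverse of the lifted gluing map. -/
def shi (a : R4) : R4 := ![a 0 + 1, a 2, a 1, -a 3 - 3 * a 2]

theorem sh_shi (a : R4) : sh (shi a) = a := by
  funext i
  fin_cases i <;> simp [sh, shi]

theorem rel_refl (a : R4) : Rel a a := fun _ _ _ => rfl

theorem rel_trans {a b d : R4} (h : Rel a b) (h' : Rel b d) : Rel a d :=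
  fun β f hf => (h β f hf).trans (h' β f hf)

theorem rel_sh (a : R4) : Rel a (sh a) := fun _ _ hf => (hf.1 a).symm

theorem rel_shi (a : R4) : Rel a (shi a) := fun _ f hf => by
  rw [← hf.1 (shi a), sh_shi]

theorem rel_lat (i : Fin 3) (k : ℤ) (a : R4) :
    Rel a (a + Pi.single i.succ (k • (2 * Real.pi))) := by
  intro β f hf
  induction k using Int.induction_on with
  | zero => simp
  | succ k ih =>
    rw [ih, ← hf.2 i, add_smul, one_smul, Pi.single_add, add_assoc]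
  | pred k ih =>
    have := hf.2 i (a + Pi.single i.succ ((-(k : ℤ) - 1) • (2 * Real.pi)))
    rw [add_assoc, ← Pi.single_add, sub_smul, one_smul, sub_add_cancel] at this
    rw [ih, this, sub_smul, one_smul]

theorem up_pow (k : ℤ) (a : R4) (w : WW) : ∃ b, Rel a b ∧
    up b w = ((up a w).1 - k, (mono WW ^ k) (up a w).2) := by
  induction k using Int.induction_on with
  | zero => exact ⟨a, rel_refl a, by simp⟩
  | succ k ih =>
    obtain ⟨b, h1, h2⟩ := ih
    refine ⟨sh b, rel_trans h1 (rel_sh b), ?_⟩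
    rw [up_sh, h2, add_comm (k : ℤ) 1, zpow_one_add, Homeomorph.mul_apply]
    refine Prod.ext ?_ rfl
    push_cast
    ring
  | pred k ih =>
    obtain ⟨b, h1, h2⟩ := ih
    refine ⟨shi b, rel_trans h1 (rel_shi b), ?_⟩
    have h3 := up_sh (shi b) w
    rw [sh_shi, h2] at h3
    refine Prod.ext ?_ ((mono WW).injective ?_)
    · have := congrArg Prod.fst h3
      push_cast at this ⊢
      linarith
    · have h4 : (mono WW ^ (-k : ℤ)) (up a w).2 = mono WW (up (shi b) w).2 := congrArg Prod.snd h3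
      rw [← h4]
      change _ = mono WW ((mono WW ^ (-k - 1 : ℤ)) (up a w).2)
      rw [← Homeomorph.mul_apply, ← zpow_one_add]
      congr 2
      ring

theorem coe_eq {x y : ℝ} (h : (x : TT) = y) : ∃ k : ℤ, y = x + k • (2 * Real.pi) := by
  have : ((y - x : ℝ) : TT) = 0 := by rw [AddCircle.coe_sub, h, sub_self]
  obtain ⟨k, hk⟩ := (AddCircle.coe_eq_zero_iff _).1 this
  exact ⟨k, by rw [hk]; ring⟩

theorem rel_up {a a' : R4} {w w' : WW} (h : up a w = up a' w') : w = w' ∧ Rel a a' := by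
  simp only [up, Prod.mk.injEq] at h
  obtain ⟨h0, h1, h2, h3, h4⟩ := h
  obtain ⟨k1, e1⟩ := coe_eq h1
  obtain ⟨k2, e2⟩ := coe_eq h2
  obtain ⟨k3, e3⟩ := coe_eq h3
  refine ⟨h4, ?_⟩
  have e : a' = a + Pi.single (0 : Fin 3).succ (k1 • (2 * Real.pi)) +
      Pi.single (1 : Fin 3).succ (k2 • (2 * Real.pi)) +
      Pi.single (2 : Fin 3).succ (k3 • (2 * Real.pi)) := by
    funext i
    fin_cases i
    · simpa using h0.symm
    · simpa using e1
    · simpa using e2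
    · simpa using e3
  rw [e]
  exact rel_trans (rel_trans (rel_lat _ _ _) (rel_lat _ _ _)) (rel_lat _ _ _)

theorem coe_near {x y : ℝ} (h : (x : TT) = y) (hn : |x - y| < 1) : x = y := by
  obtain ⟨k, hk⟩ := coe_eq h
  have h1 : |(k : ℝ)| < 1 := by
    rw [hk, sub_add_cancel_left, abs_neg, zsmul_eq_mul, abs_mul,
      abs_of_pos (by positivity : 0 < 2 * Real.pi)] at hn
    nlinarith [Real.pi_gt_three, abs_nonneg (k : ℝ)]
  have h2 : k = 0 := by
    have : |k| < 1 := by exact_mod_cast h1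
    exact Int.abs_lt_one_iff.1 this
  rw [hk, h2, zero_smul, add_zero]

theorem up_surj (q : ℝ × X3 WW) : ∃ (a : R4) (w : WW), up a w = q ∧ a 0 = q.1 ∧
    ∀ i : Fin 3, |a i.succ| ≤ 7 := by
  obtain ⟨t, x1, x2, x3, w⟩ := q
  obtain ⟨b1, h1, rfl⟩ := AddCircle.eq_coe_Ico x1
  obtain ⟨b2, h2, rfl⟩ := AddCircle.eq_coe_Ico x2
  obtain ⟨b3, h3, rfl⟩ := AddCircle.eq_coe_Ico x3
  have h : ∀ b ∈ Ico 0 (2 * Real.pi), |b| ≤ 7 := fun b hb => by
    rw [abs_of_nonneg hb.1]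
    linarith [hb.2, Real.pi_lt_d2]
  refine ⟨![t, b1, b2, b3], w, rfl, rfl, fun i => ?_⟩
  fin_cases i
  · exact h b1 h1
  · exact h b2 h2
  · exact h b3 h3

end MTopAux

theorem PM_lh (n : ℕ) [NeZero n] (g : Fin 8) : IsLocalHomeomorph (PM n g) := by
  have hc : IsLocalHomeomorph ((↑) : ℝ → TT) := AddCircle.isLocalHomeomorph_coe _
  exact (mtq_lh (c := mono WW) (n := n)).comp
    ((MTopAux.lh_prod (Homeomorph.refl ℝ).isLocalHomeomorph (MTopAux.lh_prod hc
      (MTopAux.lh_prod hc (MTopAux.lh_prod hc (pw_emb g).isLocalHomeomorph)))).comp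
        MTopAux.split.isLocalHomeomorph)

theorem PiM_surj (n : ℕ) (x : MM n) : ∃ a w, PiM n a w = x := by
  obtain ⟨q, rfl⟩ := mtq_surj x
  obtain ⟨a, w, h, -⟩ := MTopAux.up_surj q
  exact ⟨a, w, by rw [MTopAux.PiM_up, h]⟩

theorem PiM_ginv (w : WW) : Ginv fun a => PiM 1 a w := by
  refine ⟨fun a => ?_, fun i a => ?_⟩
  · simp only [MTopAux.PiM_up, MTopAux.up_sh]
    exact (mtq_eq.2 ⟨1, by simp, by simp⟩).symm
  · simp only [MTopAux.PiM_up]
    congr 1
    fin_cases i <;> simp [MTopAux.up]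

theorem PiM_eq {a a' : R4} {w w' : WW} (h : PiM 1 a w = PiM 1 a' w') : w = w' ∧ Rel a a' := by
  rw [MTopAux.PiM_up, MTopAux.PiM_up] at h
  obtain ⟨k, h1, h2⟩ := mtq_eq.1 h
  obtain ⟨b, h3, h4⟩ := MTopAux.up_pow ((1 : ℕ) * k) a w
  rw [← h1, ← h2] at h4
  obtain ⟨h5, h6⟩ := MTopAux.rel_up h4
  exact ⟨h5, MTopAux.rel_trans h3 h6⟩

theorem PiM_near {a a' : R4} {w w' : WW} (h : PiM 1 a w = PiM 1 a' w') (hn : ‖a - a'‖ < 1) :
    a = a' := by
  have hi : ∀ i, |a i - a' i| < 1 := fun i => (norm_le_pi_norm (a - a') i).trans_lt hn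
  rw [MTopAux.PiM_up, MTopAux.PiM_up] at h
  have e := MTAux.near h (hi 0)
  simp only [MTopAux.up, Prod.mk.injEq] at e
  obtain ⟨h0, h1, h2, h3, -⟩ := e
  funext i
  fin_cases i
  · exact h0
  · exact MTopAux.coe_near h1 (hi 1)
  · exact MTopAux.coe_near h2 (hi 2)
  · exact MTopAux.coe_near h3 (hi 3)

theorem PM_cover (x : MM 1) : ∃ g y, ‖y‖ ≤ 7 ∧ PM 1 g y = x := by
  obtain ⟨q, hq, rfl⟩ := MTAux.window x
  obtain ⟨a, w, h, h0, hi⟩ := MTopAux.up_surj q
  obtain ⟨g, z, hz, rfl⟩ := pw_cover w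
  refine ⟨g, (a, z), ?_, by rw [← h]; rfl⟩
  rw [Prod.norm_def, max_le_iff]
  refine ⟨(pi_norm_le_iff_of_nonneg (by norm_num)).2 fun i => ?_, hz.trans (by norm_num)⟩
  refine Fin.cases ?_ (fun j => hi j) i
  change |a 0| ≤ 7
  rw [h0, abs_of_nonneg hq.1]
  have := hq.2
  push_cast at this
  linarith

end Vale.Agent.P265
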