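import Vale.Agent.P265.Upper
import Vale.Agent.P265.Lower

open Set
open scoped Manifold ContDiff

namespace Vale.Agent.P265

theorem main : ∃ (M : Type) (_ : TopologicalSpace M) (_ : ChartedSpace ((Fin 4 → ℝ) × ℂ × ℂ) M)
    (_ : IsManifold 𝓘(ℝ, (Fin 4 → ℝ) × ℂ × ℂ) ∞ M),
    T2Space M ∧ CompactSpace M ∧ ConnectedSpace M ∧
    ∃ w, IsSymplectic ((Fin 4 → ℝ) × ℂ × ℂ) w ∧ ∃ (H : ℝ → M → ℝ) (φ : ℝ → M → M),
      ContMDiff (𝓘(ℝ, ℝ).prod 𝓘(ℝ, (Fin 4 → ℝ) × ℂ × ℂ)) 𝓘(ℝ, ℝ) ∞ (Function.uncurry H) ∧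
      (∀ t x, H (t + 1) x = H t x) ∧ IsHamFlow ((Fin 4 → ℝ) × ℂ × ℂ) w H φ ∧
      (∀ x, φ 1 x = x → NondegAt ((Fin 4 → ℝ) × ℂ × ℂ) (φ 1) x) ∧
      (fixContr φ).encard < stableMorse ((Fin 4 → ℝ) × ℂ × ℂ) M := by
  let _ := AM.cs
  obtain ⟨H, φ, h1, h2, h3, h4, h5⟩ := upper
  refine ⟨MM 1, inferInstance, AM.cs, AM.isManifold, inferInstance, inferInstance, inferInstance,
    AM.form, AM.isSymplectic, H, φ, h1, h2, h3, h4, ?_⟩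
  refine lt_of_lt_of_le (lt_of_le_of_lt ((encard_le_encard fun x hx => hx.1).trans h5) ?_) lower
  exact_mod_cast (by norm_num : (80 : ℕ) < 84)

end Vale.Agent.P265
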