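import Vale.Agent.P265.EqAlgB

/-! P265: composing pushes along a level set. -/

open Set Topology

noncomputable section

namespace Vale.Agent.P265

variable {X : Type} [MetricSpace X]

namespace MorseAAux

/-- Deformations of `K` that lower `f` and preserve `D`. -/
structure Q (K D : Set X) (f : X → ℝ) (h : ℝ → X → X) : Prop where
  cont : ContinuousOn (Function.uncurry h) (Icc 0 1 ×ˢ K)
  zero : ∀ y ∈ K, h 0 y = y
  maps : ∀ t ∈ Icc (0 : ℝ) 1, MapsTo (h t) K K
  mapsD : ∀ t ∈ Icc (0 : ℝ) 1, MapsTo (h t) D D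
  le : ∀ t ∈ Icc (0 : ℝ) 1, ∀ y ∈ K, f (h t y) ≤ f y
  strict : ∀ y ∈ K, h 1 y ≠ y → f (h 1 y) < f y

theorem one_mem : (1 : ℝ) ∈ Icc (0 : ℝ) 1 := ⟨zero_le_one, le_rfl⟩

theorem Q.cont1 {K D : Set X} {f : X → ℝ} {h : ℝ → X → X} (H : Q K D f h) :
    ContinuousOn (h 1) K :=
  H.cont.comp (f := fun y => ((1 : ℝ), y)) (continuous_const.prodMk continuous_id).continuousOn
    fun _ hy => ⟨one_mem, hy⟩

theorem Q.comp {K D : Set X} {f : X → ℝ} {h h' : ℝ → X → X} (H : Q K D f h) (H' : Q K D f h') :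
    Q K D f fun t y => h' t (h t y) where
  cont := H'.cont.comp (f := fun p : ℝ × X => (p.1, Function.uncurry h p))
    (continuousOn_fst.prodMk H.cont) fun p hp => ⟨hp.1, H.maps p.1 hp.1 hp.2⟩
  zero y hy := by rw [H.zero y hy, H'.zero y hy]
  maps t ht := (H'.maps t ht).comp (H.maps t ht)
  mapsD t ht := (H'.mapsD t ht).comp (H.mapsD t ht)
  le t ht y hy := (H'.le t ht _ (H.maps t ht hy)).trans (H.le t ht y hy)
  strict y hy hne := by
    by_cases e : h 1 y = y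
    · rw [e] at hne ⊢
      exact H'.strict y hy hne
    · exact (H'.le 1 one_mem _ (H.maps 1 one_mem hy)).trans_lt (H.strict y hy e)

theorem isCompact_Low {K : Set X} (hK : IsCompact K) {f : X → ℝ} (hf : Continuous f) (b : ℝ) :
    IsCompact (Low K f b) :=
  hK.inter_right (isClosed_le hf continuous_const)

end MorseAAux

open MorseAAux in
theorem vanish_of_push {K D O : Set X} (hK : IsCompact K) (hO : IsOpen O) (hOD : O ⊆ D)
    (hD : D ⊆ K) {f : X → ℝ} (hf : Continuous f) (c : ℝ)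
    (hp : ∀ x ∈ K, f x = c → x ∉ O →
      ∃ h, Push K f x univ h ∧ ∀ t ∈ Icc (0 : ℝ) 1, MapsTo (h t) D D) :
    ∃ δ > 0, ∀ a b, c - δ < a → a ≤ b → b < c + δ →
      ∀ j (x : Hc (Low K f b) (Low K f a ∪ Low D f b) j), x = 0 := by
  have hKO : IsCompact (K \ O) := hK.diff hO
  have hL : IsCompact ((K \ O) ∩ {x | f x = c}) :=
    hKO.inter_right (isClosed_eq hf continuous_const)
  have key : ∃ h, Q K D f h ∧ ∀ y ∈ (K \ O) ∩ {x | f x = c}, y ∈ K → f (h 1 y) < f y := by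
    refine hL.induction_on (p := fun S => ∃ h, Q K D f h ∧ ∀ y ∈ S, y ∈ K → f (h 1 y) < f y)
      ?_ ?_ ?_ ?_
    · exact ⟨fun _ y => y, ⟨continuousOn_snd, fun _ _ => rfl, fun _ _ _ hy => hy,
        fun _ _ _ hy => hy, fun _ _ _ _ => le_rfl, fun _ _ h => absurd rfl h⟩,
        fun _ h => absurd h (notMem_empty _)⟩
    · rintro S T hST ⟨h, H, hh⟩
      exact ⟨h, H, fun y hy => hh y (hST hy)⟩
    · rintro S T ⟨h, H, hh⟩ ⟨h', H', hh'⟩
      refine ⟨_, H.comp H', fun y hy hyK => ?_⟩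
      have l1 := H'.le 1 one_mem _ (H.maps 1 one_mem hyK)
      rcases hy with hy | hy
      · exact l1.trans_lt (hh y hy hyK)
      · by_cases e : h 1 y = y
        · simp only [e]
          exact hh' y hy hyK
        · exact l1.trans_lt (H.strict y hyK e)
    · intro x hx
      obtain ⟨h, P, hD'⟩ := hp x hx.1.1 hx.2 hx.1.2
      have H : Q K D f h := ⟨P.cont, P.zero, P.maps, hD', P.le, P.strict⟩
      refine ⟨{y | f (h 1 y) < f y}, ?_, h, H, fun y hy _ => hy⟩
      have c1 : ContinuousWithinAt (fun y => f (h 1 y) - f y) K x :=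
        (hf.continuousAt.comp_continuousWithinAt (H.cont1 x hx.1.1)).sub
          hf.continuousWithinAt
      have c2 := c1.eventually (gt_mem_nhds (sub_neg.2 P.low))
      exact nhdsWithin_mono x (fun y hy => hy.1.1) (c2.mono fun y hy => sub_neg.1 hy)
  obtain ⟨h, H, hh⟩ := key
  have c1 : ContinuousOn (fun y => max (f y - c) (c - f (h 1 y))) (K \ O) :=
    (hf.sub continuous_const).continuousOn.sup
      (continuousOn_const.sub (hf.comp_continuousOn (H.cont1.mono sdiff_subset)))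
  obtain ⟨δ, hδ, hb⟩ := hKO.exists_forall_le' (a := 0) c1 fun y hy => by
    rcases lt_trichotomy (f y) c with h1 | h1 | h1
    · exact lt_max_of_lt_right (sub_pos.2 ((H.le 1 one_mem y hy.1).trans_lt h1))
    · exact lt_max_of_lt_right (sub_pos.2 ((hh y ⟨hy, h1⟩ hy.1).trans_eq h1))
    · exact lt_max_of_lt_left (sub_pos.2 h1)
  refine ⟨δ, hδ, fun a b h1 h2 h3 => Hc_vanish (isCompact_Low hK hf b) ?_ h
    (H.cont.mono (prod_mono_right fun y hy => hy.1)) ?_ ?_ (fun y hy => H.zero y hy.1) ?_⟩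
  · rintro y (hy | hy)
    · exact ⟨hy.1, hy.2.trans h2⟩
    · exact ⟨hD hy.1, hy.2⟩
  · exact fun t ht y hy => ⟨H.maps t ht hy.1, (H.le t ht y hy.1).trans hy.2⟩
  · rintro t ht y (hy | hy)
    · exact Or.inl ⟨H.maps t ht hy.1, (H.le t ht y hy.1).trans hy.2⟩
    · exact Or.inr ⟨H.mapsD t ht hy.1, (H.le t ht y (hD hy.1)).trans hy.2⟩
  · intro y hy
    by_cases hyO : y ∈ O
    · exact Or.inr ⟨H.mapsD 1 one_mem (hOD hyO), (H.le 1 one_mem y hy.1).trans hy.2⟩
    · refine Or.inl ⟨H.maps 1 one_mem hy.1, ?_⟩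
      have h4 := hy.2
      rcases le_max_iff.1 (hb y ⟨hy.1, hyO⟩) with h5 | h5 <;> linarith

theorem Push.conj {τ : X → X} {s : F3} (hτ : Sym τ s) {K U : Set X} (mK : MapsTo τ K K)
    {f : X → ℝ} (hf : ∀ x, f (τ x) = f x) {x : X} {h : ℝ → X → X} (hp : Push K f x U h) :
    Push K f (τ x) (τ ⁻¹' U) fun t y => τ (h t (τ y)) := by
  refine ⟨hτ.cont.comp_continuousOn (hp.cont.comp (f := fun p : ℝ × X => (p.1, τ p.2))
    (continuous_fst.prodMk (hτ.cont.comp continuous_snd)).continuousOn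
    fun p h => ⟨h.1, mK h.2⟩), fun y hy => ?_, fun t ht y hy => mK (hp.maps t ht (mK hy)),
    fun t ht y hy => ?_, fun y hy hne => ?_, fun t ht y hy hU => ?_, fun t ht y hy hU => ?_, ?_⟩
  · rw [hp.zero _ (mK hy), hτ.inv]
  · rw [hf, ← hf y]
    exact hp.le t ht _ (mK hy)
  · rw [hf, ← hf y]
    refine hp.strict _ (mK hy) fun e => hne ?_
    rw [e, hτ.inv]
  · rw [hp.out t ht _ (mK hy) hU, hτ.inv]
  · rw [mem_preimage, hτ.inv]
    exact hp.inn t ht _ (mK hy) hU
  · rw [hf, hf, hτ.inv]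
    exact hp.low

theorem Push.mono {K U V : Set X} {f : X → ℝ} {x : X} {h : ℝ → X → X} (hp : Push K f x U h)
    (hUV : U ⊆ V) : Push K f x V h := by
  refine ⟨hp.cont, hp.zero, hp.maps, hp.le, hp.strict,
    fun t ht y hy hV => hp.out t ht y hy fun hU => hV (hUV hU), fun t ht y hy hV => ?_, hp.low⟩
  by_cases hU : y ∈ U
  · exact hUV (hp.inn t ht y hy hU)
  · rwa [hp.out t ht y hy hU]

theorem Push.mapsTo_of_disjoint {K U D : Set X} {f : X → ℝ} {x : X} {h : ℝ → X → X}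
    (hp : Push K f x U h) (hD : D ⊆ K) (hUD : Disjoint U D) :
    ∀ t ∈ Icc (0 : ℝ) 1, MapsTo (h t) D D := by
  intro t ht y hy
  rwa [hp.out t ht y (hD hy) (disjoint_right.1 hUD hy)]

end Vale.Agent.P265
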