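import Vale.Agent.P265.MorseA

/-! P265: the strong Morse inequalities. -/

open Set Topology

noncomputable section

namespace Vale.Agent.P265

variable {X : Type} [MetricSpace X] {τ : X → X} {s : F3}

namespace MorseBAux

theorem alt_sum {ι : Type} (R : Finset ι) (g : ι → ℕ → ℕ) (k : ℕ) :
    alt (fun j => ∑ p ∈ R, g p j) k = ∑ p ∈ R, alt (g p) k := by
  induction k with
  | zero => simp [alt]
  | succ k ih => simp only [alt, ih, Finset.sum_sub_distrib, Nat.cast_sum]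

theorem low_cpt {K : Set X} (hK : IsCompact K) {f : X → ℝ} (hf : Continuous f) (c : ℝ) :
    IsCompact (Low K f c) :=
  hK.inter_right (isClosed_le hf continuous_const)

theorem low_mono {K K' : Set X} {f : X → ℝ} {a b : ℝ} (h : K ⊆ K') (hab : a ≤ b) :
    Low K f a ⊆ Low K' f b := fun _ hx => ⟨h hx.1, hx.2.trans hab⟩

theorem low_union {K K₁ K₂ : Set X} {f : X → ℝ} (a : ℝ) (h : K ⊆ K₁ ∪ K₂) :
    Low K f a ⊆ Low K₁ f a ∪ Low K₂ f a := fun _ hx =>
  (h hx.1).imp (fun h1 => ⟨h1, hx.2⟩) fun h1 => ⟨h1, hx.2⟩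

theorem low_maps {K : Set X} (mK : MapsTo τ K K) {f : X → ℝ} (hfτ : ∀ x, f (τ x) = f x) (a : ℝ) :
    MapsTo τ (Low K f a) (Low K f a) := fun x hx => ⟨mK hx.1, (hfτ x).trans_le hx.2⟩

theorem union_rank {f : X → ℝ} (hf : Continuous f) {a b : ℝ} (hab : a ≤ b) (B : X → Set X)
    (g : X → ℕ) (j : ℕ) (R : Finset X) (hB : ∀ p ∈ R, IsCompact (B p))
    (hd : ∀ p ∈ R, ∀ q ∈ R, p ≠ q → Disjoint (B p) (B q))
    (h : ∀ p ∈ R, FiniteDimensional F3 (Hc (Low (B p) f b) (Low (B p) f a) j) ∧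
      Module.finrank F3 (Hc (Low (B p) f b) (Low (B p) f a) j) = g p) :
    FiniteDimensional F3 (Hc (Low (⋃ p ∈ R, B p) f b) (Low (⋃ p ∈ R, B p) f a) j) ∧
      Module.finrank F3 (Hc (Low (⋃ p ∈ R, B p) f b) (Low (⋃ p ∈ R, B p) f a) j) =
        ∑ p ∈ R, g p := by
  classical
  induction R using Finset.induction_on with
  | empty =>
    have e : Low (⋃ p ∈ (∅ : Finset X), B p) f b = Low (⋃ p ∈ (∅ : Finset X), B p) f a := by
      ext x
      simp [Low]
    rw [e]
    have : Subsingleton (Hc (Low (⋃ p ∈ (∅ : Finset X), B p) f a)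
        (Low (⋃ p ∈ (∅ : Finset X), B p) f a) j) :=
      ⟨fun x y => (Hc_self _ _ x).trans (Hc_self _ _ y).symm⟩
    exact ⟨inferInstance, by rw [Module.finrank_zero_of_subsingleton, Finset.sum_empty]⟩
  | insert p R hp ih =>
    have hm : ∀ q ∈ R, q ∈ insert p R := fun q hq => Finset.mem_insert_of_mem hq
    obtain ⟨f2, r2⟩ := ih (fun q hq => hB q (hm q hq))
      (fun q hq r hr => hd q (hm q hq) r (hm r hr)) fun q hq => h q (hm q hq)
    obtain ⟨f1, r1⟩ := h p (Finset.mem_insert_self _ _)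
    rw [Finset.set_biUnion_insert, Finset.sum_insert hp]
    have hdis : Disjoint (B p) (⋃ q ∈ R, B q) :=
      disjoint_iUnion₂_right.2 fun q hq =>
        hd p (Finset.mem_insert_self _ _) q (hm q hq) fun e => hp (e ▸ hq)
    have hb := disjoint_bij (A := Low (B p ∪ ⋃ q ∈ R, B q) f b) (B := Low (B p ∪ ⋃ q ∈ R, B q) f a)
      (low_cpt (hB p (Finset.mem_insert_self _ _)) hf b)
      (low_cpt (R.isCompact_biUnion fun q hq => hB q (hm q hq)) hf b)
      (hdis.mono (fun _ hx => hx.1) fun _ hx => hx.1) (low_union b Subset.rfl)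
      (low_union a Subset.rfl)
      (Adm.inc (low_mono subset_union_left le_rfl) (low_mono subset_union_left le_rfl)
        (low_mono Subset.rfl hab))
      (Adm.inc (low_mono subset_union_right le_rfl) (low_mono subset_union_right le_rfl)
        (low_mono Subset.rfl hab)) j
    have e := LinearEquiv.ofBijective _ hb
    exact ⟨e.symm.finiteDimensional, by rw [e.finrank_eq, Module.finrank_prod, r1, r2]⟩

theorem exists_delta (R : Finset X) (δ : X → ℝ) (h : ∀ p ∈ R, 0 < δ p) {d : ℝ} (hd : 0 < d) :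
    ∃ e > 0, e ≤ d ∧ ∀ p ∈ R, e ≤ δ p := by
  have h1 : ∀ᶠ e in 𝓝 (0 : ℝ), ∀ p ∈ R, e ≤ δ p :=
    (Filter.eventually_all_finset R).2 fun p hp => Iic_mem_nhds (h p hp)
  obtain ⟨e, ⟨h2, h3⟩, h4⟩ := (((h1.and (Iic_mem_nhds hd)).filter_mono
    (nhdsWithin_le_nhds (s := Ioi (0 : ℝ)))).and self_mem_nhdsWithin).exists
  exact ⟨e, h4, h3, h2⟩

end MorseBAux

open MorseBAux in
theorem morse_level (hτ : Sym τ s) {K : Set X} (hK : IsCompact K) (mK : MapsTo τ K K)
    {f : X → ℝ} (hf : Continuous f) (hfτ : ∀ x, f (τ x) = f x) (R : Finset X) (ind : X → ℕ)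
    (c : ℝ) (hR : ∀ p ∈ R, f p = c ∧ ∀ U ∈ 𝓝 p, Handle K f p (ind p) U)
    (hfree : (τ = id ∧ s = 1) ∨ ∀ p ∈ R, ∀ q ∈ R, τ p ≠ q)
    (hP : ∀ x ∈ K, f x = c → x ∉ R → τ x ∉ R → ∀ U ∈ 𝓝 x, ∃ h, Push K f x U h) :
    ∃ δ > 0, ∀ a b, c - δ < a → a < c → c < b → b < c + δ →
      FinE τ s (Low K f b) (Low K f a) ∧
        ∀ k, SE τ s (Low K f b) (Low K f a) k ≤ ∑ p ∈ R, cell (ind p) k := by
  classical
  obtain ⟨W, hW, hWd⟩ := (R.finite_toSet.union (R.finite_toSet.image τ)).t2_separation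
  have hU : ∀ p, IsOpen (W p ∩ τ ⁻¹' W (τ p)) := fun p =>
    (hW p).2.inter ((hW _).2.preimage hτ.cont)
  have hH : ∀ p ∈ R, Handle K f p (ind p) (W p ∩ τ ⁻¹' W (τ p)) := fun p hp =>
    (hR p hp).2 _ ((hU p).mem_nhds ⟨(hW p).1, (hW _).1⟩)
  choose! B cB sB iB pB δ δ0 rB using hH
  have d1 : ∀ p ∈ R, ∀ q ∈ R, p ≠ q → Disjoint (W p) (B q) := fun p hp q hq e =>
    (hWd (Or.inl hp) (Or.inl hq) e).mono_right fun x hx => (sB q hq hx).2.1
  have d2 : ∀ p ∈ R, ∀ q ∈ R, p ≠ τ q → Disjoint (W p) (τ ⁻¹' B q) := fun p hp q hq e =>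
    (hWd (Or.inl hp) (Or.inr ⟨q, hq, rfl⟩) e).mono_right fun x hx => by
      have := (sB q hq hx).2.2
      rwa [mem_preimage, hτ.inv] at this
  have im : ∀ S : Set X, τ '' S = τ ⁻¹' S := fun S =>
    congrFun (image_eq_preimage_of_inverse hτ.inv hτ.inv) S
  set D' : Set X := ⋃ p ∈ R, B p with hD'
  have cD' : IsCompact D' := R.isCompact_biUnion cB
  have sD' : D' ⊆ K := iUnion₂_subset fun p hp x hx => (sB p hp hx).1
  have sτ : τ ⁻¹' D' ⊆ K := fun x hx => by
    have := mK (sD' hx)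
    rwa [hτ.inv] at this
  set D : Set X := D' ∪ τ ⁻¹' D' with hD
  have cD : IsCompact D := cD'.union (im D' ▸ cD'.image hτ.cont)
  have sD : D ⊆ K := union_subset sD' sτ
  have mD : MapsTo τ D D := by
    rintro x (hx | hx)
    · exact Or.inr (by rwa [mem_preimage, hτ.inv])
    · exact Or.inl hx
  have bD : ∀ p ∈ R, B p ⊆ D' := fun p hp => subset_biUnion_of_mem (u := B) hp
  have p1 : ∀ p ∈ R, ∀ x ∈ B p, x ∉ interior (B p) → f x = c →
      ∃ h, Push K f x univ h ∧ ∀ t ∈ Icc (0 : ℝ) 1, MapsTo (h t) D D := by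
    intro p hp x hx hi hc
    obtain ⟨h, h1, h2⟩ := pB p hp x hx hi (hc.trans (hR p hp).1.symm) (W p)
      ((hW p).2.mem_nhds (sB p hp hx).2.1)
    have m1 : ∀ t ∈ Icc (0 : ℝ) 1, ∀ q ∈ R, MapsTo (h t) (B q) (B q) := fun t ht q hq => by
      by_cases e : p = q
      · exact e ▸ h2 t ht
      · exact h1.mapsTo_of_disjoint (fun y hy => (sB q hq hy).1) (d1 p hp q hq e) t ht
    refine ⟨h, h1.mono (subset_univ _), fun t ht => ?_⟩
    rintro y (hy | hy)
    · obtain ⟨q, hq, hy⟩ := mem_iUnion₂.1 hy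
      exact Or.inl (bD q hq (m1 t ht q hq hy))
    · obtain ⟨q, hq, hy⟩ := mem_iUnion₂.1 hy
      rcases hfree with e | e
      · rw [e.1] at hy
        exact Or.inl (bD q hq (m1 t ht q hq hy))
      · exact Or.inr (bD q hq (h1.mapsTo_of_disjoint (fun z hz => sτ (bD q hq hz))
          (d2 p hp q hq (e q hq p hp).symm) t ht hy))
  obtain ⟨d, d0, hv⟩ := vanish_of_push (D := D)
    (O := ⋃ p ∈ R, (interior (B p) ∪ τ ⁻¹' interior (B p))) hK
    (isOpen_biUnion fun p _ => isOpen_interior.union (isOpen_interior.preimage hτ.cont))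
    (iUnion₂_subset fun p hp => union_subset_union (interior_subset.trans (bD p hp))
      (preimage_mono (interior_subset.trans (bD p hp)))) sD hf c (by
    intro x hx hc hO
    by_cases hxD : x ∈ D
    · rcases hxD with h | h
      · obtain ⟨p, hp, h⟩ := mem_iUnion₂.1 h
        exact p1 p hp x h (fun hi => hO (mem_iUnion₂.2 ⟨p, hp, Or.inl hi⟩)) hc
      · obtain ⟨p, hp, h⟩ := mem_iUnion₂.1 h
        obtain ⟨g, g1, g2⟩ := p1 p hp (τ x) h
          (fun hi => hO (mem_iUnion₂.2 ⟨p, hp, Or.inr hi⟩)) ((hfτ x).trans hc)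
        have g3 := g1.conj hτ mK hfτ
        rw [hτ.inv, preimage_univ] at g3
        exact ⟨_, g3, fun t ht y hy => mD (g2 t ht (mD hy))⟩
    · obtain ⟨h, h1⟩ := hP x hx hc
        (fun hp => hxD (Or.inl (bD x hp (interior_subset (iB x hp)))))
        (fun hp => hxD (Or.inr (bD _ hp (interior_subset (iB _ hp))))) Dᶜ
        (cD.isClosed.isOpen_compl.mem_nhds hxD)
      exact ⟨h, h1.mono (subset_univ _), h1.mapsTo_of_disjoint sD disjoint_compl_left⟩)
  obtain ⟨e, e0, ed, eδ⟩ := exists_delta R δ δ0 d0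
  refine ⟨e, e0, fun a b ha hac hcb hb => ?_⟩
  have hab : a ≤ b := (hac.trans hcb).le
  have i1 : IPair τ (Low K f b) (Low K f a ∪ Low D f b) :=
    ⟨low_cpt hK hf b, (low_cpt hK hf a).union (low_cpt cD hf b),
      union_subset (low_mono Subset.rfl hab) (low_mono sD le_rfl), low_maps mK hfτ b,
      (low_maps mK hfτ a).union_union (low_maps mD hfτ b)⟩
  have i2 : IPair τ (Low K f a ∪ Low D f b) (Low K f a) :=
    ⟨i1.cB, low_cpt hK hf a, subset_union_left, i1.mB, low_maps mK hfτ a⟩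
  have i3 : IPair τ (Low D f b) (Low D f a) :=
    ⟨low_cpt cD hf b, low_cpt cD hf a, low_mono Subset.rfl hab, low_maps mD hfτ b,
      low_maps mD hfτ a⟩
  obtain ⟨f1, s1⟩ := SE_of_vanish (τ := τ) (s := s) (hv a b (by linarith) hab (by linarith))
  have a1 : Adm id (Low D f b) (Low D f a) (Low K f a ∪ Low D f b) (Low K f a) :=
    Adm.inc subset_union_right (low_mono sD le_rfl) (low_mono Subset.rfl hab)
  have sh := (Shifted.of_bij (s := s) a1 (i3.adm hτ) (i2.adm hτ) (fun _ _ => rfl) fun j =>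
    excision (low_cpt hK hf a) (low_cpt cD hf b) Subset.rfl subset_union_left
      (fun x hx => And.intro hx.2.1 hx.1.2) a1 j).2
  have a2 : Adm id (Low D' f b) (Low D' f a) (Low D f b) (Low D f a) :=
    Adm.inc (low_mono subset_union_left le_rfl) (low_mono subset_union_left le_rfl)
      (low_mono Subset.rfl hab)
  have cov : ∀ u, Low D f u ⊆ Low D' f u ∪ τ '' Low D' f u := fun u x hx => by
    rw [im]
    exact hx.1.imp (fun h => ⟨h, hx.2⟩) fun h => ⟨h, (hfτ x).trans_le hx.2⟩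
  have dis : (τ = id ∧ s = 1) ∨ Disjoint (Low D' f b) (τ '' Low D' f b) := by
    refine hfree.imp_right fun h => ?_
    rw [im, Set.disjoint_left]
    intro x h1 h2
    obtain ⟨p, hp, h1⟩ := mem_iUnion₂.1 h1.1
    obtain ⟨q, hq, h2⟩ := mem_iUnion₂.1 h2.1
    exact Set.disjoint_left.1 (d2 p hp q hq (h q hq p hp).symm) (sB p hp h1).2.1 h2
  have k1 : ∀ j, FiniteDimensional F3 (HE τ s (Low D f b) (Low D f a) j) ∧
      Module.finrank F3 (HE τ s (Low D f b) (Low D f a) j) =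
        ∑ p ∈ R, if j = ind p then 1 else 0 := fun j => by
    obtain ⟨g1, g2⟩ := union_rank hf hab B (fun p => if j = ind p then 1 else 0) j R cB
      (fun p hp q hq e => (d1 p hp q hq e).mono_left fun x hx => (sB p hp hx).2.1)
      fun p hp => by
        have := eδ p hp
        have e1 := (hR p hp).1
        exact rB p hp a b (by linarith) (by linarith) (by linarith) (by linarith) j
    have e1 := LinearEquiv.ofBijective _
      (induced_bij hτ i3 (low_cpt cD' hf b) a2 (cov b) (cov a) dis j)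
    exact ⟨e1.symm.finiteDimensional, e1.finrank_eq.trans g2⟩
  obtain ⟨f2, -, s2⟩ := sh.fin fun j => (k1 j).1
  obtain ⟨f3, s3⟩ := SE_subadd hτ i1 i2 f1 f2
  refine ⟨f3, fun k => (s3 k).trans (le_of_eq ?_)⟩
  have s4 := s2 k
  rw [add_zero] at s4
  rw [s1, s4, zero_add, SE]
  simp only [fun j => (k1 j).2]
  exact alt_sum R (fun p j => if j = ind p then 1 else 0) k

end Vale.Agent.P265
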