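import Mathlib

/-! P265: short time flows. -/

open Set Metric Topology Filter
open scoped ContDiff NNReal

noncomputable section

namespace Vale.Agent.P265

variable {E : Type} [NormedAddCommGroup E] [NormedSpace ℝ E] [FiniteDimensional ℝ E]

omit [FiniteDimensional ℝ E] in
theorem mv_aux {a a' : ℝ → E} {ε C : ℝ} (ha : ∀ t ∈ Icc 0 ε, HasDerivAt a (a' t) t)
    (hb : ∀ t ∈ Icc 0 ε, ‖a' t‖ ≤ C) {t : ℝ} (ht : t ∈ Icc 0 ε) : ‖a t - a 0‖ ≤ C * ε := by
  have h := norm_image_sub_le_of_norm_deriv_le_segment' (f := a) (f' := a') (C := C)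
    (fun x hx => (ha x hx).hasDerivWithinAt) (fun x hx => hb x (Ico_subset_Icc_self hx)) t ht
  have hC : 0 ≤ C := (norm_nonneg _).trans (hb t ht)
  calc ‖a t - a 0‖ ≤ C * (t - 0) := h
    _ ≤ C * ε := by
      apply mul_le_mul_of_nonneg_left _ hC
      linarith [ht.2]

omit [FiniteDimensional ℝ E] in
theorem mv_aux2 {a a' : ℝ → E} {ε C : ℝ} (hε : 0 ≤ ε) {w : E}
    (ha : ∀ t ∈ Icc 0 ε, HasDerivAt a (a' t) t)
    (hb : ∀ t ∈ Icc 0 ε, ‖a' t - w‖ ≤ C) : ‖a ε - a 0 - ε • w‖ ≤ C * ε := by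
  have h := mv_aux (a := fun t => a t - t • w) (a' := fun t => a' t - w) (ε := ε) (C := C)
    (fun t ht => by
      have := (ha t ht).sub ((hasDerivAt_id t).smul_const w)
      rw [one_smul] at this
      exact this) hb (t := ε) ⟨hε, le_rfl⟩
  have e : a ε - a 0 - ε • w = (a ε - ε • w) - (a 0 - (0 : ℝ) • w) := by
    rw [zero_smul]; abel
  rw [e]
  exact h

omit [FiniteDimensional ℝ E] in
theorem yorke {V : E → E} {s : Set E} {L : ℝ≥0} (hV : LipschitzOnWith L V s) {a b : ℝ → E} {ε : ℝ}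
    (hε : 0 < ε) (hL : 4 * L * ε < 1) (ha : ∀ t ∈ Icc 0 ε, a t ∈ s ∧ HasDerivAt a (V (a t)) t)
    (hb : ∀ t ∈ Icc 0 ε, b t ∈ s ∧ HasDerivAt b (V (b t)) t) (h1 : a ε = b 0) (h2 : b ε = a 0) :
    V (a 0) = 0 := by
  have h0 : (0 : ℝ) ∈ Icc 0 ε := ⟨le_rfl, hε.le⟩
  have hca : ContinuousOn (fun t => V (a t)) (Icc 0 ε) :=
    hV.continuousOn.comp (fun t ht => (ha t ht).2.continuousAt.continuousWithinAt)
      (fun t ht => (ha t ht).1)
  have hcb : ContinuousOn (fun t => V (b t)) (Icc 0 ε) :=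
    hV.continuousOn.comp (fun t ht => (hb t ht).2.continuousAt.continuousWithinAt)
      (fun t ht => (hb t ht).1)
  obtain ⟨t₀, ht₀, hmax⟩ := (isCompact_Icc (a := (0 : ℝ)) (b := ε)).exists_isMaxOn ⟨0, h0⟩
    (f := fun t => max ‖V (a t)‖ ‖V (b t)‖) (hca.norm.sup hcb.norm)
  set S := max ‖V (a t₀)‖ ‖V (b t₀)‖ with hS
  have hSa : ∀ t ∈ Icc 0 ε, ‖V (a t)‖ ≤ S := fun t ht => (le_max_left _ _).trans (hmax ht)
  have hSb : ∀ t ∈ Icc 0 ε, ‖V (b t)‖ ≤ S := fun t ht => (le_max_right _ _).trans (hmax ht)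
  have hS0 : 0 ≤ S := (norm_nonneg _).trans (hSa 0 h0)
  have hda : ∀ t ∈ Icc 0 ε, ‖a t - a 0‖ ≤ 2 * (S * ε) := fun t ht => by
    have := mv_aux (fun t ht => (ha t ht).2) hSa ht
    have : 0 ≤ S * ε := by positivity
    linarith
  have hdb : ∀ t ∈ Icc 0 ε, ‖b t - a 0‖ ≤ 2 * (S * ε) := fun t ht => by
    have e1 := mv_aux (fun t ht => (hb t ht).2) hSb ht
    have e2 := mv_aux (fun t ht => (ha t ht).2) hSa (t := ε) ⟨hε.le, le_rfl⟩
    rw [h1] at e2
    have := norm_sub_le_norm_sub_add_norm_sub (b t) (b 0) (a 0)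
    linarith
  have hL0 : (0 : ℝ) ≤ L := L.2
  have hVa : ∀ t ∈ Icc 0 ε, ‖V (a t) - V (a 0)‖ ≤ L * (2 * (S * ε)) := fun t ht =>
    (hV.norm_sub_le (ha t ht).1 (ha 0 h0).1).trans (mul_le_mul_of_nonneg_left (hda t ht) hL0)
  have hVb : ∀ t ∈ Icc 0 ε, ‖V (b t) - V (a 0)‖ ≤ L * (2 * (S * ε)) := fun t ht =>
    (hV.norm_sub_le (hb t ht).1 (ha 0 h0).1).trans (mul_le_mul_of_nonneg_left (hdb t ht) hL0)
  have e1 := mv_aux2 hε.le (fun t ht => (ha t ht).2) hVa
  have e2 := mv_aux2 hε.le (fun t ht => (hb t ht).2) hVb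
  have e3 : ‖V (a 0)‖ ≤ L * (2 * (S * ε)) := by
    have e : (2 * ε) • V (a 0) = -((a ε - a 0 - ε • V (a 0)) + (b ε - b 0 - ε • V (a 0))) := by
      rw [h1, h2, mul_smul, two_smul]; abel
    have e4 : ‖(2 * ε) • V (a 0)‖ ≤ 2 * (L * (2 * (S * ε)) * ε) := by
      rw [e, norm_neg]
      refine (norm_add_le _ _).trans ?_
      linarith
    rw [norm_smul, Real.norm_of_nonneg (by positivity)] at e4
    have e5 : ε * ‖V (a 0)‖ ≤ ε * (L * (2 * (S * ε))) := by linarith
    exact le_of_mul_le_mul_left e5 hε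
  have e6 : S ≤ 2 * (L * (2 * (S * ε))) := by
    apply max_le
    · have := hVa t₀ ht₀
      have := norm_le_norm_sub_add (V (a t₀)) (V (a 0))
      linarith
    · have := hVb t₀ ht₀
      have := norm_le_norm_sub_add (V (b t₀)) (V (a 0))
      linarith
  have e7 : S ≤ 0 := by
    by_contra hneg
    push Not at hneg
    have : S * (4 * L * ε) < S * 1 := mul_lt_mul_of_pos_left hL hneg
    nlinarith
  exact norm_le_zero_iff.mp ((hSa 0 h0).trans e7)

theorem flow_exists {ι : Type} [Finite ι] {V : ι → E → E} (hV : ∀ i, ContDiff ℝ 1 (V i)) (r : ℝ) :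
    ∃ (ε₀ : ℝ) (L : ℝ≥0), 0 < ε₀ ∧ (∀ i, LipschitzOnWith L (V i) (closedBall 0 (r + 2))) ∧
      ∀ i, ∀ y ∈ closedBall (0 : E) (r + 1), ∃ α : ℝ → E, α 0 = y ∧
        ∀ t ∈ Ioo (-ε₀) ε₀, ‖α t - y‖ ≤ 1 / 2 ∧ HasDerivAt α (V i (α t)) t := by
  have hK : IsCompact (closedBall (0 : E) (r + 2)) := isCompact_closedBall _ _
  have h1 : ∀ i, ∃ K : ℝ≥0, LipschitzOnWith K (V i) (closedBall 0 (r + 2)) := fun i =>
    (hV i).locallyLipschitz.locallyLipschitzOn.exists_lipschitzOnWith_of_compact hK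
  have h2 : ∀ i, ∃ C : ℝ≥0, ∀ x ∈ closedBall (0 : E) (r + 2), ‖V i x‖ ≤ C := fun i => by
    obtain ⟨C, hC⟩ := hK.exists_bound_of_continuousOn (hV i).continuous.continuousOn
    exact ⟨C.toNNReal, fun x hx => (hC x hx).trans (Real.le_coe_toNNReal C)⟩
  choose K hK' using h1
  choose C hC using h2
  obtain ⟨L, hL⟩ := (finite_range K).bddAbove
  obtain ⟨B, hB⟩ := (finite_range C).bddAbove
  have hB0 : (0 : ℝ) ≤ B := B.2
  refine ⟨1 / (2 * (B + 1)), L, by positivity, fun i => (hK' i).weaken (hL ⟨i, rfl⟩), ?_⟩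
  intro i y hy
  set ε₀ : ℝ := 1 / (2 * (B + 1)) with hε₀
  have hε : 0 < ε₀ := by positivity
  have hsub : closedBall y ((1 / 2 : ℝ≥0) : ℝ) ⊆ closedBall (0 : E) (r + 2) := by
    intro x hx
    rw [mem_closedBall] at hx hy ⊢
    have := dist_triangle x y 0
    have e : ((1 / 2 : ℝ≥0) : ℝ) = 1 / 2 := by norm_num
    rw [e] at hx
    linarith
  have hpl : IsPicardLindelof (fun _ : ℝ => V i) (tmin := -ε₀) (tmax := ε₀)
      ⟨0, by constructor <;> linarith⟩ y (1 / 2) 0 B L := by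
    apply IsPicardLindelof.of_time_independent
    · intro x hx
      exact (hC i x (hsub hx)).trans (by exact_mod_cast hB ⟨i, rfl⟩)
    · exact ((hK' i).weaken (hL ⟨i, rfl⟩)).mono hsub
    · have e : ((1 / 2 : ℝ≥0) : ℝ) = 1 / 2 := by norm_num
      simp only [sub_zero, zero_sub, neg_neg, max_self, NNReal.coe_zero, e]
      rw [hε₀, mul_one_div, div_le_iff₀ (by positivity)]
      linarith
  have hx : y ∈ closedBall y ((0 : ℝ≥0) : ℝ) := mem_closedBall_self le_rfl
  obtain ⟨α, hα⟩ := ODE.FunSpace.exists_isFixedPt_next hpl hx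
  refine ⟨α.compProj, ?_, fun t ht => ⟨?_, ?_⟩⟩
  · have := ODE.FunSpace.compProj_val (α := α) (t := ⟨0, by constructor <;> linarith⟩)
    rw [this, ← hα, ODE.FunSpace.next_apply₀]
  · have := α.compProj_mem_closedBall hpl.mul_max_le (t := t)
    rw [mem_closedBall_iff_norm] at this
    have e : ((1 / 2 : ℝ≥0) : ℝ) = 1 / 2 := by norm_num
    rwa [e] at this
  · have ht' := Ioo_subset_Icc_self ht
    have := (ODE.hasDerivWithinAt_picard_Icc (Subtype.property _) hpl.continuousOn_uncurry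
      α.continuous_compProj.continuousOn (fun _ _ => α.compProj_mem_closedBall hpl.mul_max_le)
      y ht').congr_of_mem (f₁ := α.compProj) (fun t' ht' => by
        nth_rw 1 [← hα]
        rw [ODE.FunSpace.compProj_of_mem ht', ODE.FunSpace.next_apply]) ht'
    exact this.hasDerivAt (Icc_mem_nhds ht.1 ht.2)

theorem gronwall_lin (K e x : ℝ) : gronwallBound 0 K e x = e * gronwallBound 0 K 1 x := by
  unfold gronwallBound
  split_ifs
  · ring
  · ring

theorem exp_deriv (A : E →L[ℝ] E) (w : E) (t : ℝ) :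
    HasDerivAt (fun u : ℝ => NormedSpace.exp (u • A) w) (A (NormedSpace.exp (t • A) w)) t := by
  have h := (hasDerivAt_exp_smul_const' A t).clm_apply (hasDerivAt_const t w)
  simpa using h

theorem flow_fderiv {V : E → E} {y₀ : E} {A : E →L[ℝ] E} (hV : HasFDerivAt V A y₀) (h0 : V y₀ = 0)
    {s : Set E} {L : ℝ≥0} (hL : LipschitzOnWith L V s) (hs : y₀ ∈ s) {ε : ℝ} (hε : 0 ≤ ε)
    {α : E → ℝ → E} (hα : ∀ᶠ y in 𝓝 y₀, α y 0 = y ∧
      ∀ t ∈ Icc 0 ε, α y t ∈ s ∧ HasDerivAt (α y) (V (α y t)) t) :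
    α y₀ ε = y₀ ∧ HasFDerivAt (fun y => α y ε) (NormedSpace.exp (ε • A)) y₀ := by
  have hL0 : (0 : ℝ) ≤ L := L.2
  have hd : ∀ᶠ y in 𝓝 y₀, ∀ t ∈ Icc 0 ε, ‖α y t - y₀‖ ≤ Real.exp (L * ε) * ‖y - y₀‖ := by
    filter_upwards [hα] with y hy t ht
    have := dist_le_of_trajectories_ODE_of_mem (v := fun _ => V) (s := fun _ => s) (K := L)
      (f := α y) (g := fun _ => y₀) (a := 0) (b := ε) (δ := ‖y - y₀‖) (fun _ _ => hL)
      (fun t ht => (hy.2 t ht).2.continuousAt.continuousWithinAt)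
      (fun t ht => (hy.2 t (Ico_subset_Icc_self ht)).2.hasDerivWithinAt)
      (fun t ht => (hy.2 t (Ico_subset_Icc_self ht)).1) continuousOn_const
      (fun t _ => by rw [h0]; exact hasDerivWithinAt_const _ _ _) (fun _ _ => hs)
      (by rw [hy.1, dist_eq_norm]) t ht
    rw [dist_eq_norm] at this
    refine this.trans ?_
    rw [mul_comm]
    apply mul_le_mul_of_nonneg_right _ (norm_nonneg _)
    apply Real.exp_le_exp.2
    apply mul_le_mul_of_nonneg_left _ hL0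
    linarith [ht.2]
  have hfix : α y₀ ε = y₀ := by
    have := hd.self_of_nhds ε ⟨hε, le_rfl⟩
    simpa [sub_eq_zero] using this
  refine ⟨hfix, ?_⟩
  set C := Real.exp (L * ε) with hC
  have hC0 : 0 < C := Real.exp_pos _
  set G := gronwallBound 0 ‖A‖ 1 ε with hG
  have hG0 : 0 ≤ G := by
    have := gronwallBound_mono (δ := 0) (K := ‖A‖) (ε := 1) le_rfl zero_le_one (norm_nonneg _) hε
    rwa [gronwallBound_x0] at this
  rw [hasFDerivAt_iff_isLittleO, Asymptotics.isLittleO_iff]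
  intro c hc
  have hV' := hV
  rw [hasFDerivAt_iff_isLittleO, Asymptotics.isLittleO_iff] at hV'
  have hη : 0 < c / (C * (G + 1)) := by positivity
  obtain ⟨δ, hδ, hδ'⟩ := Metric.eventually_nhds_iff.mp (hV' hη)
  have hnear : ∀ᶠ y in 𝓝 y₀, C * ‖y - y₀‖ < δ := by
    have hcont : Continuous fun y : E => C * ‖y - y₀‖ := by fun_prop
    apply hcont.continuousAt.eventually_lt continuousAt_const
    simpa using hδ
  filter_upwards [hα, hd, hnear] with y hy hyd hyn
  have key := norm_le_gronwallBound_of_norm_deriv_right_le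
    (f := fun t => α y t - y₀ - NormedSpace.exp (t • A) (y - y₀))
    (f' := fun t => V (α y t) - A (NormedSpace.exp (t • A) (y - y₀)))
    (δ := 0) (K := ‖A‖) (ε := c / (C * (G + 1)) * (C * ‖y - y₀‖)) (a := 0) (b := ε)
    (fun t ht => (((hy.2 t ht).2.sub_const y₀).sub
      (exp_deriv A (y - y₀) t)).continuousAt.continuousWithinAt)
    (fun t ht => (((hy.2 t (Ico_subset_Icc_self ht)).2.sub_const y₀).sub
      (exp_deriv A (y - y₀) t)).hasDerivWithinAt)
    (by simp [hy.1])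
    (fun t ht => by
      have ht' := Ico_subset_Icc_self ht
      have e1 := hδ' (y := α y t) (by rw [dist_eq_norm]; exact (hyd t ht').trans_lt hyn)
      have e2 : V (α y t) - A (NormedSpace.exp (t • A) (y - y₀)) =
          A (α y t - y₀ - NormedSpace.exp (t • A) (y - y₀)) +
            (V (α y t) - V y₀ - A (α y t - y₀)) := by
        rw [h0, map_sub A (α y t - y₀)]; abel
      rw [e2]
      refine (norm_add_le _ _).trans (add_le_add (A.le_opNorm _) (e1.trans ?_))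
      exact mul_le_mul_of_nonneg_left (hyd t ht') hη.le) ε ⟨hε, le_rfl⟩
  rw [sub_zero, gronwall_lin, ← hG] at key
  rw [hfix]
  refine key.trans ?_
  have e : c / (C * (G + 1)) * (C * ‖y - y₀‖) * G = c * ‖y - y₀‖ * (G / (G + 1)) := by
    field_simp
  rw [e]
  apply mul_le_of_le_one_right (by positivity)
  rw [div_le_one (by positivity)]
  linarith

theorem exp_eigen {A J : E →L[ℝ] E} (hJ : ∀ v, J (J v) = v) (hA : ∀ v, J (A v) = A (J v)) {ε : ℝ}
    (hε : 0 < ε) (hL : 4 * ‖A‖ * ε < 1) {v : E} (h : J (NormedSpace.exp (ε • A) v) = v) :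
    A v = 0 ∧ J v = v := by
  have h2 : NormedSpace.exp (ε • A) v = J v := by
    have := congrArg J h
    rwa [hJ] at this
  have hy := yorke (V := A) (s := univ) (L := ‖A‖₊) A.lipschitz.lipschitzOnWith
    (a := fun t => NormedSpace.exp (t • A) v) (b := fun t => J (NormedSpace.exp (t • A) v))
    hε (by simpa using hL) (fun t _ => ⟨trivial, exp_deriv A v t⟩)
    (fun t _ => ⟨trivial, by
      rw [← hA]
      exact J.hasFDerivAt.comp_hasDerivAt t (exp_deriv A v t)⟩)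
    (by simpa using h2) (by simpa using h)
  have hAv : A v = 0 := by simpa using hy
  refine ⟨hAv, ?_⟩
  have hc : ∀ t : ℝ, HasDerivAt (fun u : ℝ => NormedSpace.exp (u • A) v) 0 t := fun t => by
    have h := (hasDerivAt_exp_smul_const A t).clm_apply (hasDerivAt_const t v)
    simpa [hAv] using h
  have := is_const_of_deriv_eq_zero (fun t => (hc t).differentiableAt) (fun t => (hc t).deriv) ε 0
  rw [← h2, this]
  simp

end Vale.Agent.P265
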