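import Vale.Agent.P265.ODEa
import Vale.Agent.P265.AtlasB

/-! P265: Hamiltonian vector fields in the parametrizations. -/

open Set Metric Topology Filter
open scoped ContDiff NNReal

noncomputable section

namespace Vale.Agent.P265

variable {E : Type} [NormedAddCommGroup E] [NormedSpace ℝ E] [FiniteDimensional ℝ E]
  {M : Type} [TopologicalSpace M] {ι : Type} (A : Params E M ι)

namespace ODEbAux

theorem field_trans {G : M → ℝ} (hG : ∀ i, ContDiff ℝ ∞ (G ∘ A.P i)) {V : ι → E → E}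
    (h : ∀ i y b, A.Ω i y (V i y) b = fderiv ℝ (G ∘ A.P i) y b) {i j : ι} {y : E} {T : E → E}
    (hT : ContDiffAt ℝ ∞ T y) (hP : A.P i =ᶠ[𝓝 y] A.P j ∘ T) :
    ∀ᶠ z in 𝓝 y, DifferentiableAt ℝ T z ∧ fderiv ℝ T z (V i z) = V j (T z) := by
  filter_upwards [A.trans_near hT hP, (hT.of_le (m := 1) (by simp)).eventually (by simp),
    hP.eventually_nhds] with z h1 h2 h3
  have hd := h2.differentiableAt one_ne_zero
  refine ⟨hd, ?_⟩
  have h4 : G ∘ A.P i =ᶠ[𝓝 z] (G ∘ A.P j) ∘ T := h3.mono fun w hw => congrArg G hw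
  have h5 := h4.fderiv_eq (𝕜 := ℝ)
  rw [fderiv_comp z ((hG j).differentiable (by simp) _) hd] at h5
  have hi : Function.Injective (fderiv ℝ T z : E →ₗ[ℝ] E) :=
    (injective_iff_map_eq_zero _).2 fun a ha => A.nondeg i z a fun b => by
      have : fderiv ℝ T z a = 0 := ha
      rw [h1, this, map_zero]; rfl
  refine sub_eq_zero.1 (A.nondeg j (T z) _ fun c => ?_)
  obtain ⟨b, rfl⟩ := LinearMap.injective_iff_surjective.1 hi c
  have h6 := h i z b
  rw [h5, h1, ContinuousLinearMap.comp_apply, ← h j] at h6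
  rw [map_sub, sub_apply, sub_eq_zero]
  exact h6

/-- A smooth step. -/
def bump (c t : ℝ) : ℝ := Real.smoothTransition (4 * t - c)

theorem bump_smooth (c : ℝ) : ContDiff ℝ ∞ (bump c) :=
  Real.smoothTransition.contDiff.comp ((contDiff_const.mul contDiff_id).sub contDiff_const)

theorem bump_zero {c t : ℝ} (h : 4 * t < c) : bump c =ᶠ[𝓝 t] fun _ => 0 := by
  have : ∀ᶠ s in 𝓝 t, 4 * s < c :=
    (continuous_const.mul continuous_id).continuousAt.eventually_lt continuousAt_const h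
  exact this.mono fun s hs => Real.smoothTransition.zero_of_nonpos (by linarith)

theorem bump_one {c t : ℝ} (h : c + 1 < 4 * t) : bump c =ᶠ[𝓝 t] fun _ => 1 := by
  have : ∀ᶠ s in 𝓝 t, c + 1 < 4 * s :=
    continuousAt_const.eventually_lt (continuous_const.mul continuous_id).continuousAt h
  exact this.mono fun s hs => Real.smoothTransition.one_of_one_le (by linarith)

theorem per {g : ℝ → ℝ} (hg : ContDiff ℝ ∞ g) (h0 : ∀ t < (1 / 8 : ℝ), g t = 0)
    (h1 : ∀ t, (7 / 8 : ℝ) < t → g t = 0) : ContDiff ℝ ∞ fun t => g (Int.fract t) := by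
  refine contDiff_iff_contDiffAt.2 fun t => ?_
  have h2 : ContDiff ℝ ∞ fun s : ℝ => g (s - ⌊t⌋) := hg.comp (contDiff_id.sub contDiff_const)
  refine h2.contDiffAt.congr_of_eventuallyEq ?_
  have h3 : Ioo ((⌊t⌋ : ℝ) - 1 / 8) (⌊t⌋ + 1) ∈ 𝓝 t :=
    Ioo_mem_nhds (by linarith [Int.floor_le t]) (Int.lt_floor_add_one t)
  filter_upwards [h3] with s hs
  rcases lt_or_ge s ⌊t⌋ with h | h
  · have : Int.fract s = s - ⌊t⌋ + 1 :=
      Int.fract_eq_iff.2 ⟨by linarith [hs.1], by linarith, ⌊t⌋ - 1, by push_cast; ring⟩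
    rw [this, h1 _ (by linarith [hs.1]), h0 _ (by linarith)]
  · have : Int.fract s = s - ⌊t⌋ :=
      Int.fract_eq_iff.2 ⟨by linarith, by linarith [hs.2], ⌊t⌋, by ring⟩
    rw [this]

end ODEbAux

theorem exists_field {G : M → ℝ} (hG : ∀ i, ContDiff ℝ ∞ (G ∘ A.P i)) :
    ∃ V : ι → E → E, (∀ i, ContDiff ℝ ∞ (V i)) ∧
      ∀ i y b, A.Ω i y (V i y) b = fderiv ℝ (G ∘ A.P i) y b := by
  have hr : Module.finrank ℝ E = Module.finrank ℝ (E →L[ℝ] ℝ) := by
    rw [← (LinearMap.toContinuousLinearMap : (E →ₗ[ℝ] ℝ) ≃ₗ[ℝ] E →L[ℝ] ℝ).finrank_eq]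
    exact Subspace.dual_finrank_eq.symm
  have he : ∀ i y, ∃ e : E ≃L[ℝ] (E →L[ℝ] ℝ), (e : E →L[ℝ] E →L[ℝ] ℝ) = A.Ω i y := by
    intro i y
    have hi : Function.Injective (A.Ω i y : E →ₗ[ℝ] E →L[ℝ] ℝ) :=
      (injective_iff_map_eq_zero _).2 fun a ha => A.nondeg i y a fun b => by
        have : A.Ω i y a = 0 := ha
        rw [this]; rfl
    exact ⟨(LinearMap.linearEquivOfInjective _ hi hr).toContinuousLinearEquiv, by ext; rfl⟩
  haveI : CompleteSpace E := FiniteDimensional.complete ℝ E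
  refine ⟨fun i y => (A.Ω i y).inverse (fderiv ℝ (G ∘ A.P i) y), fun i => ?_, fun i y b => ?_⟩
  · refine contDiff_iff_contDiffAt.2 fun y => ContDiffAt.clm_apply ?_ ?_
    · obtain ⟨e, he⟩ := he i y
      have h1 : ContDiffAt ℝ ∞ ContinuousLinearMap.inverse (A.Ω i y) :=
        he ▸ contDiffAt_map_inverse e
      exact h1.comp y (A.smooth i).contDiffAt
    · exact ((hG i).fderiv_right (m := ∞) (by simp)).contDiffAt
  · obtain ⟨e, he⟩ := he i y
    simp only [← he, ContinuousLinearMap.inverse_equiv, ContinuousLinearEquiv.coe_coe,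
      ContinuousLinearEquiv.apply_symm_apply]

theorem field_deriv {G : M → ℝ} (hG : ∀ i, ContDiff ℝ ∞ (G ∘ A.P i)) {V : ι → E → E}
    (hV : ∀ i, ContDiff ℝ ∞ (V i)) (h : ∀ i y b, A.Ω i y (V i y) b = fderiv ℝ (G ∘ A.P i) y b)
    {i : ι} {y : E} (h0 : V i y = 0) (a b : E) :
    A.Ω i y (fderiv ℝ (V i) y a) b = fderiv ℝ (fderiv ℝ (G ∘ A.P i)) y a b := by
  have e : fderiv ℝ (G ∘ A.P i) = fun z => A.Ω i z (V i z) := by
    funext z; ext b; exact (h i z b).symm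
  have h1 := (((A.smooth i).differentiable (by simp) y).hasFDerivAt.clm_apply
    ((hV i).differentiable (by simp) y).hasFDerivAt).fderiv
  rw [e, h1, h0]
  simp

theorem curve_unique [T2Space M] {G : M → ℝ} (hG : ∀ i, ContDiff ℝ ∞ (G ∘ A.P i))
    {V : ι → E → E} (hV : ∀ i, ContDiff ℝ ∞ (V i))
    (h : ∀ i y b, A.Ω i y (V i y) b = fderiv ℝ (G ∘ A.P i) y b) {i j : ι} {α β : ℝ → E} {ε : ℝ}
    (hα : ∀ t ∈ Ioo (-ε) ε, HasDerivAt α (V i (α t)) t)
    (hβ : ∀ t ∈ Ioo (-ε) ε, HasDerivAt β (V j (β t)) t) (h0 : A.P i (α 0) = A.P j (β 0)) :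
    ∀ t ∈ Ioo (-ε) ε, A.P i (α t) = A.P j (β t) := by
  have cα : ∀ t ∈ Ioo (-ε) ε, ContinuousAt (A.P i ∘ α) t := fun t ht =>
    (A.lh i).continuous.continuousAt.comp (hα t ht).continuousAt
  have cβ : ∀ t ∈ Ioo (-ε) ε, ContinuousAt (A.P j ∘ β) t := fun t ht =>
    (A.lh j).continuous.continuousAt.comp (hβ t ht).continuousAt
  have key : ∀ t ∈ Ioo (-ε) ε, A.P i (α t) = A.P j (β t) → A.P i ∘ α =ᶠ[𝓝 t] A.P j ∘ β := by
    intro t ht e
    obtain ⟨T, hT, hTy, hP, -⟩ := A.trans i j _ _ e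
    have h1 := ODEbAux.field_trans A hG h hT hP
    obtain ⟨K, s, hs, hK⟩ := ((hV j).contDiffAt (x := β t)).of_le (m := 1) (by simp)
      |>.exists_lipschitzOnWith
    have tα : Tendsto α (𝓝 t) (𝓝 (α t)) := (hα t ht).continuousAt
    have tT : Tendsto (T ∘ α) (𝓝 t) (𝓝 (β t)) := by
      rw [← hTy]; exact hT.continuousAt.tendsto.comp tα
    have hI : ∀ᶠ u in 𝓝 t, u ∈ Ioo (-ε) ε := isOpen_Ioo.mem_nhds ht
    have h2 : T ∘ α =ᶠ[𝓝 t] β := by
      refine ODE_solution_unique_of_eventually (v := fun _ => V j) (s := fun _ => s) (K := K)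
        (Eventually.of_forall fun _ => hK) ?_ ?_ hTy
      · filter_upwards [hI, tα.eventually h1, tT.eventually hs] with u hu h1 h2
        refine ⟨?_, h2⟩
        have := h1.1.hasFDerivAt.comp_hasDerivAt u (hα u hu)
        rwa [h1.2] at this
      · filter_upwards [hI, (hβ t ht).continuousAt.tendsto.eventually hs] with u hu h2
        exact ⟨hβ u hu, h2⟩
    filter_upwards [tα.eventually hP, h2] with u h1 h2
    rw [Function.comp_apply, h1, Function.comp_apply, Function.comp_apply, ← h2]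
    rfl
  intro t ht
  have h00 : (0 : ℝ) ∈ Ioo (-ε) ε := ⟨by linarith [ht.1, ht.2], by linarith [ht.1, ht.2]⟩
  have hU : IsOpen {t | A.P i ∘ α =ᶠ[𝓝 t] A.P j ∘ β} := isOpen_setOf_eventually_nhds
  have := isPreconnected_Ioo.subset_of_closure_inter_subset hU ⟨0, h00, key 0 h00 h0⟩
    fun u hu => key u hu.2 (tendsto_nhds_unique_of_frequently_eq (cα u hu.2) (cβ u hu.2)
      ((mem_closure_iff_frequently.1 hu.1).mono fun v hv => hv.self_of_nhds))
  exact (this ht).self_of_nhds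

theorem exists_bumps : ∃ b₁ b₂ β₁ β₂ : ℝ → ℝ, ContDiff ℝ ∞ β₁ ∧ ContDiff ℝ ∞ β₂ ∧
    (∀ t, β₁ (t + 1) = β₁ t) ∧ (∀ t, β₂ (t + 1) = β₂ t) ∧ b₁ 0 = 0 ∧ b₂ 0 = 0 ∧ b₁ 1 = 1 ∧
    b₂ 1 = 1 ∧ (∀ t, b₁ t ∈ Icc (0 : ℝ) 1) ∧ ∀ t ∈ Icc (0 : ℝ) 1,
      HasDerivAt b₁ (β₁ t) t ∧ HasDerivAt b₂ (β₂ t) t ∧
        ((β₂ t = 0 ∧ ∀ᶠ s in 𝓝 t, b₂ s = 0) ∨ (β₁ t = 0 ∧ ∀ᶠ s in 𝓝 t, b₁ s = 1)) := by
  have hs := ODEbAux.bump_smooth
  have hd : ∀ c, ContDiff ℝ ∞ (deriv (ODEbAux.bump c)) := fun c => (hs c).iterate_deriv 1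
  have z : ∀ c t, 4 * t < c → deriv (ODEbAux.bump c) t = 0 := fun c t ht => by
    rw [(ODEbAux.bump_zero ht).deriv_eq]; exact deriv_const _ _
  have o : ∀ c t, c + 1 < 4 * t → deriv (ODEbAux.bump c) t = 0 := fun c t ht => by
    rw [(ODEbAux.bump_one ht).deriv_eq]; exact deriv_const _ _
  have f : ∀ c : ℝ, 0 < c → c < 3 → ∀ t ∈ Icc (0 : ℝ) 1,
      deriv (ODEbAux.bump c) (Int.fract t) = deriv (ODEbAux.bump c) t := by
    intro c h0 h3 t ht
    rcases ht.2.eq_or_lt with rfl | h1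
    · rw [Int.fract_one, z c 0 (by linarith), o c 1 (by linarith)]
    · rw [Int.fract_eq_self.2 ⟨ht.1, h1⟩]
  refine ⟨ODEbAux.bump (1 / 2), ODEbAux.bump (5 / 2),
    fun t => deriv (ODEbAux.bump (1 / 2)) (Int.fract t),
    fun t => deriv (ODEbAux.bump (5 / 2)) (Int.fract t),
    ODEbAux.per (hd _) (fun t ht => z _ t (by linarith)) (fun t ht => o _ t (by linarith)),
    ODEbAux.per (hd _) (fun t ht => z _ t (by linarith)) (fun t ht => o _ t (by linarith)),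
    fun t => by simp only [Int.fract_add_one], fun t => by simp only [Int.fract_add_one],
    (ODEbAux.bump_zero (by norm_num)).self_of_nhds, (ODEbAux.bump_zero (by norm_num)).self_of_nhds,
    (ODEbAux.bump_one (by norm_num)).self_of_nhds, (ODEbAux.bump_one (by norm_num)).self_of_nhds,
    fun t => ⟨Real.smoothTransition.nonneg _, Real.smoothTransition.le_one _⟩, fun t ht => ?_⟩
  simp only [f (1 / 2) (by norm_num) (by norm_num) t ht, f (5 / 2) (by norm_num) (by norm_num) t ht]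
  refine ⟨((hs _).differentiable (by simp) t).hasDerivAt,
    ((hs _).differentiable (by simp) t).hasDerivAt, ?_⟩
  rcases lt_or_ge t (1 / 2) with h | h
  · exact Or.inl ⟨z _ t (by linarith), ODEbAux.bump_zero (by linarith)⟩
  · exact Or.inr ⟨o _ t (by linarith), ODEbAux.bump_one (by linarith)⟩

end Vale.Agent.P265
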