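import Vale.Agent.P265.UVDef
import Vale.Agent.P265.WCpt

/-! P265: critical points in the charts of the fixed spheres. -/

open Set Topology
open scoped ContDiff

noncomputable section

namespace Vale.Agent.P265

namespace SphAux

section Calc

variable {E E' F G H : Type} [NormedAddCommGroup E] [NormedSpace ℝ E] [NormedAddCommGroup E']
  [NormedSpace ℝ E'] [NormedAddCommGroup F] [NormedSpace ℝ F] [NormedAddCommGroup G]
  [NormedSpace ℝ G] [NormedAddCommGroup H] [NormedSpace ℝ H]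

theorem df {f : E → F} (hf : ContDiff ℝ ∞ f) : Differentiable ℝ f :=
  hf.differentiable (by simp)

theorem sm1 {f : E → F} (hf : ContDiff ℝ ∞ f) : ContDiff ℝ ∞ (fderiv ℝ f) :=
  (contDiff_infty_iff_fderiv.1 hf).2

theorem sm2 {f : E → F} (hf : ContDiff ℝ ∞ f) (b : E) : ContDiff ℝ ∞ fun y => fderiv ℝ f y b :=
  (sm1 hf).clm_apply contDiff_const

theorem d2 {f : E → F} (hf : ContDiff ℝ ∞ f) (x a b : E) :
    fderiv ℝ (fderiv ℝ f) x a b = fderiv ℝ (fun y => fderiv ℝ f y b) x a := by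
  rw [fderiv_clm_apply (df (sm1 hf) x) (differentiableAt_const b)]
  simp

theorem add1 {f g : E → F} (hf : ContDiff ℝ ∞ f) (hg : ContDiff ℝ ∞ g) (x b : E) :
    fderiv ℝ (fun y => f y + g y) x b = fderiv ℝ f x b + fderiv ℝ g x b := by
  rw [fderiv_fun_add (df hf x) (df hg x), ContinuousLinearMap.add_apply]

theorem add2 {f g : E → F} (hf : ContDiff ℝ ∞ f) (hg : ContDiff ℝ ∞ g) (x a b : E) :
    fderiv ℝ (fderiv ℝ fun y => f y + g y) x a b =
      fderiv ℝ (fderiv ℝ f) x a b + fderiv ℝ (fderiv ℝ g) x a b := by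
  rw [d2 (hf.add hg), d2 hf, d2 hg, ← add1 (sm2 hf b) (sm2 hg b)]
  simp only [add1 hf hg]

theorem lin1 {f : E → F} (hf : ContDiff ℝ ∞ f) (L : E' →L[ℝ] E) (x b : E') :
    fderiv ℝ (fun y => f (L y)) x b = fderiv ℝ f (L x) (L b) := by
  have := ((df hf (L x)).hasFDerivAt.comp x L.hasFDerivAt).fderiv
  exact DFunLike.congr_fun this b

theorem lin2 {f : E → F} (hf : ContDiff ℝ ∞ f) (L : E' →L[ℝ] E) (x a b : E') :
    fderiv ℝ (fderiv ℝ fun y => f (L y)) x a b = fderiv ℝ (fderiv ℝ f) (L x) (L a) (L b) := by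
  rw [d2 (f := fun y => f (L y)) (hf.comp L.contDiff), d2 hf, ← lin1 (sm2 hf (L b))]
  simp only [lin1 hf]

theorem bilS (B : F →L[ℝ] G →L[ℝ] H) {f : E → F} {g : E → G} (hf : ContDiff ℝ ∞ f)
    (hg : ContDiff ℝ ∞ g) : ContDiff ℝ ∞ fun y => B (f y) (g y) :=
  (B.contDiff.comp hf).clm_apply hg

theorem bil1 (B : F →L[ℝ] G →L[ℝ] H) {f : E → F} {g : E → G} (hf : ContDiff ℝ ∞ f)
    (hg : ContDiff ℝ ∞ g) (x b : E) : fderiv ℝ (fun y => B (f y) (g y)) x b =
      B (fderiv ℝ f x b) (g x) + B (f x) (fderiv ℝ g x b) := by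
  have := ((B.hasFDerivAt.comp x (df hf x).hasFDerivAt).clm_apply (df hg x).hasFDerivAt).fderiv
  refine (DFunLike.congr_fun this b).trans ?_
  simp [add_comm]

theorem bil2 (B : F →L[ℝ] G →L[ℝ] H) {f : E → F} {g : E → G} (hf : ContDiff ℝ ∞ f)
    (hg : ContDiff ℝ ∞ g) (x a b : E) : fderiv ℝ (fderiv ℝ fun y => B (f y) (g y)) x a b =
      B (fderiv ℝ (fderiv ℝ f) x a b) (g x) + B (fderiv ℝ f x b) (fderiv ℝ g x a) +
        (B (fderiv ℝ f x a) (fderiv ℝ g x b) + B (f x) (fderiv ℝ (fderiv ℝ g) x a b)) := by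
  rw [d2 (bilS B hf hg), d2 hf, d2 hg, ← bil1 B (sm2 hf b) hg, ← bil1 B hf (sm2 hg b),
    ← add1 (bilS B (sm2 hf b) hg) (bilS B hf (sm2 hg b))]
  simp only [bil1 B hf hg]

end Calc

/-- The inner product as a continuous bilinear map. -/
def ipL : R3 →L[ℝ] R3 →L[ℝ] ℝ :=
  (ContinuousLinearMap.mul ℝ ℝ).bilinearComp (Complex.reCLM.comp (.fst ℝ ℂ ℝ))
      (Complex.reCLM.comp (.fst ℝ ℂ ℝ)) +
    (ContinuousLinearMap.mul ℝ ℝ).bilinearComp (Complex.imCLM.comp (.fst ℝ ℂ ℝ))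
      (Complex.imCLM.comp (.fst ℝ ℂ ℝ)) +
    (ContinuousLinearMap.mul ℝ ℝ).bilinearComp (.snd ℝ ℂ ℝ) (.snd ℝ ℂ ℝ)

theorem ip_eq (p q : R3) : ip p q = ipL p q := rfl

theorem ipL_comm (p q : R3) : ipL p q = ipL q p := by
  simp only [← ip_eq, ip]; ring

theorem range_eq {p : R3} (hp : ipL p p = 1) (T : ℂ →L[ℝ] R3) (hT : Function.Injective T)
    (h : ∀ ζ, ipL p (T ζ) = 0) {η : R3} (hη : ipL p η = 0) : ∃ ζ, T ζ = η := by
  have h1 : LinearMap.range (T : ℂ →ₗ[ℝ] R3) ≤ LinearMap.ker (ipL p : R3 →ₗ[ℝ] ℝ) := by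
    rintro _ ⟨ζ, rfl⟩
    exact h ζ
  have h2 : Module.finrank ℝ (LinearMap.range (T : ℂ →ₗ[ℝ] R3)) = 2 := by
    rw [LinearMap.finrank_range_of_inj hT, Complex.finrank_real_complex]
  have h3 : Module.finrank ℝ R3 = 3 := by
    rw [Module.finrank_prod, Complex.finrank_real_complex, Module.finrank_self]
  have h4 : Module.finrank ℝ (LinearMap.ker (ipL p : R3 →ₗ[ℝ] ℝ)) < 3 := by
    rw [← h3]
    refine Submodule.finrank_lt fun h5 => ?_
    have h6 : p ∈ LinearMap.ker (ipL p : R3 →ₗ[ℝ] ℝ) := h5 ▸ Submodule.mem_top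
    exact one_ne_zero (hp.symm.trans h6)
  have h5 := Submodule.eq_of_le_of_finrank_le h1 (by omega)
  have h6 : η ∈ LinearMap.range (T : ℂ →ₗ[ℝ] R3) := h5 ▸ hη
  exact h6

theorem st_norm (w : ℂ) : (st w).1.re ^ 2 + (st w).1.im ^ 2 + (st w).2 ^ 2 = 1 := by
  have h := Complex.normSq_nonneg w
  simp only [st, hgt, Complex.smul_re, Complex.smul_im, smul_eq_mul]
  rw [Complex.normSq_apply] at h ⊢
  field_simp
  ring

theorem one_sub (w : ℂ) : 1 - (st w).2 = 2 / (Complex.normSq w + 1) := by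
  have h := Complex.normSq_nonneg w
  simp only [st, hgt]
  field_simp
  ring

theorem sti_st (w : ℂ) : sti (st w) = w := by
  have h := Complex.normSq_nonneg w
  rw [sti, one_sub]
  exact inv_smul_smul₀ (by positivity) w

end SphAux

open SphAux in
theorem sph_general {u : R4 → ℝ} {v : R4 → R3} (hu : ContDiff ℝ ∞ u) (hv : ContDiff ℝ ∞ v)
    {σ : ℂ → R3} (hσ : ContDiff ℝ ∞ σ) (h1 : ∀ w, ip (σ w) (σ w) = 1)
    (hi : ∀ w, Function.Injective (fderiv ℝ σ w)) {a : R4} {w : ℂ}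
    (h : fderiv ℝ (fun q : R4 × ℂ => u q.1 + ip (v q.1) (σ q.2)) (a, w) = 0) :
    Crit u v a (σ w) ∧ (NondegUV u v a (σ w) → ∀ x, (∀ y, fderiv ℝ
      (fderiv ℝ fun q : R4 × ℂ => u q.1 + ip (v q.1) (σ q.2)) (a, w) x y = 0) → x = 0) := by
  simp only [Crit, NondegUV, ip_eq] at *
  have hc : (fun w => ipL (σ w) (σ w)) = fun _ => 1 := funext h1
  have s1 : ∀ ζ, ipL (σ w) (fderiv ℝ σ w ζ) = 0 := by
    intro ζ
    have := bil1 ipL hσ hσ w ζ
    rw [hc, ipL_comm _ (σ w)] at this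
    simp only [fderiv_fun_const, Pi.zero_apply, ContinuousLinearMap.zero_apply] at this
    linarith
  have s2 : ∀ ζ ζ', ipL (σ w) (fderiv ℝ (fderiv ℝ σ) w ζ ζ') =
      -ipL (fderiv ℝ σ w ζ) (fderiv ℝ σ w ζ') := by
    intro ζ ζ'
    have := bil2 ipL hσ hσ w ζ ζ'
    rw [hc, ipL_comm _ (σ w), ipL_comm (fderiv ℝ σ w ζ')] at this
    simp only [fderiv_fun_const, fderiv_zero, Pi.zero_apply, ContinuousLinearMap.zero_apply]
      at this
    linarith
  have hu' : ContDiff ℝ ∞ fun q : R4 × ℂ => u (ContinuousLinearMap.fst ℝ R4 ℂ q) :=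
    hu.comp contDiff_fst
  have hv' : ContDiff ℝ ∞ fun q : R4 × ℂ => v (ContinuousLinearMap.fst ℝ R4 ℂ q) :=
    hv.comp contDiff_fst
  have hσ' : ContDiff ℝ ∞ fun q : R4 × ℂ => σ (ContinuousLinearMap.snd ℝ R4 ℂ q) :=
    hσ.comp contDiff_snd
  have e1 : ∀ y : R4 × ℂ, fderiv ℝ (fun q : R4 × ℂ => u q.1 + ipL (v q.1) (σ q.2)) (a, w) y =
      fderiv ℝ u a y.1 + (ipL (fderiv ℝ v a y.1) (σ w) + ipL (v a) (fderiv ℝ σ w y.2)) := by
    intro y
    refine (add1 hu' (bilS ipL hv' hσ') _ y).trans ?_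
    rw [bil1 ipL hv' hσ', lin1 hu, lin1 hv, lin1 hσ]
    rfl
  have e2 : ∀ x y : R4 × ℂ, fderiv ℝ (fderiv ℝ fun q : R4 × ℂ => u q.1 + ipL (v q.1) (σ q.2))
      (a, w) x y = fderiv ℝ (fderiv ℝ u) a x.1 y.1 +
        (ipL (fderiv ℝ (fderiv ℝ v) a x.1 y.1) (σ w) +
          ipL (fderiv ℝ v a y.1) (fderiv ℝ σ w x.2) + (ipL (fderiv ℝ v a x.1) (fderiv ℝ σ w y.2) +
            ipL (v a) (fderiv ℝ (fderiv ℝ σ) w x.2 y.2))) := by
    intro x y
    refine (add2 hu' (bilS ipL hv' hσ') _ x y).trans ?_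
    rw [bil2 ipL hv' hσ', lin2 hu, lin2 hv, lin2 hσ, lin1 hv, lin1 hv, lin1 hσ, lin1 hσ]
    rfl
  have c1 : ∀ η, ipL (σ w) η = 0 → ipL (v a) η = 0 := by
    intro η hη
    obtain ⟨ζ, rfl⟩ := range_eq (h1 w) _ (hi w) s1 hη
    have := e1 (0, ζ)
    rw [h] at this
    simpa using this.symm
  refine ⟨⟨c1, fun α => ?_⟩, fun hN x hx => ?_⟩
  · have := e1 (α, 0)
    rw [h] at this
    simpa using this.symm
  · obtain ⟨h2, h3⟩ := hN x.1 (fderiv ℝ σ w x.2) (s1 _) (fun α' => by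
      have := hx (α', 0)
      rw [e2] at this
      simpa [add_assoc] using this) (fun η' hη' => by
      obtain ⟨ζ, rfl⟩ := range_eq (h1 w) _ (hi w) s1 hη'
      have h4 := hx (0, ζ)
      rw [e2] at h4
      have h5 := c1 (fderiv ℝ (fderiv ℝ σ) w x.2 ζ -
        ipL (σ w) (fderiv ℝ (fderiv ℝ σ) w x.2 ζ) • σ w) (by
          rw [map_sub, map_smul, h1, smul_eq_mul, mul_one, sub_self])
      rw [map_sub, map_smul, s2, smul_eq_mul] at h5
      simp only [map_zero, ContinuousLinearMap.zero_apply, zero_add] at h4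
      linarith)
    exact Prod.ext h2 (hi w (h3.trans (map_zero _).symm))

/-- The function `G` in the chart `g`. -/
def Gc (u : R4 → ℝ) (v : R4 → R3) (g : Fin 8) (q : R4 × ℂ × ℂ) : ℝ :=
  u q.1 + ip (v q.1) (piW (par g q.2))

theorem Gc_smooth {u : R4 → ℝ} {v : R4 → R3} (hu : ContDiff ℝ ∞ u) (hv : ContDiff ℝ ∞ v)
    (g : Fin 8) : ContDiff ℝ ∞ (Gc u v g) :=
  (hu.comp contDiff_fst).add (SphAux.bilS SphAux.ipL (hv.comp contDiff_fst)
    (piW_smooth.comp ((par_smooth g).comp contDiff_snd)))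

open SphAux in
theorem Gc_crit {u : R4 → ℝ} {v : R4 → R3} (hu : ContDiff ℝ ∞ u) (hv : ContDiff ℝ ∞ v)
    (g : Fin 8) {a : R4} {w : ℂ} (h : fderiv ℝ (Gc u v g) (a, w, 0) = 0) :
    ip (piW (par g (w, 0))) (piW (par g (w, 0))) = 1 ∧ Crit u v a (piW (par g (w, 0))) ∧
      (NondegUV u v a (piW (par g (w, 0))) → ∀ x : R4 × ℂ × ℂ, x.2.2 = 0 →
        (∀ y, fderiv ℝ (fderiv ℝ (Gc u v g)) (a, w, 0) x y = 0) → x = 0) := by
  obtain ⟨e₁, e₂, he₁, he₂, he⟩ := piW_sphere g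
  have hG := Gc_smooth hu hv g
  have hσ : ContDiff ℝ ∞ fun w : ℂ => piW (par g (w, 0)) :=
    piW_smooth.comp ((par_smooth g).comp (contDiff_id.prodMk contDiff_const))
  have h1 : ∀ w : ℂ, ip (piW (par g (w, 0))) (piW (par g (w, 0))) = 1 := by
    intro w
    rw [he, ip]
    linear_combination st_norm w + (st w).1.im ^ 2 * he₁ + (st w).2 ^ 2 * he₂
  have hi : ∀ w, Function.Injective (fderiv ℝ (fun w : ℂ => piW (par g (w, 0))) w) := by
    intro w
    let T : R3 → R3 := fun p => ((p.1.re : ℂ) + (e₁ * p.1.im : ℝ) * Complex.I, e₂ * p.2)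
    have hT : ∀ w, T (piW (par g (w, 0))) = st w := by
      intro w
      rw [he]
      refine Prod.ext (Complex.ext ?_ ?_) ?_ <;> simp [T, ← mul_assoc, he₁, he₂]
    have hTd : Differentiable ℝ T := by
      have a1 : Differentiable ℝ fun p : R3 => p.1.re :=
        Complex.reCLM.differentiable.comp differentiable_fst
      have a2 : Differentiable ℝ fun p : R3 => p.1.im :=
        Complex.imCLM.differentiable.comp differentiable_fst
      exact ((Complex.ofRealCLM.differentiable.comp a1).add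
        ((Complex.ofRealCLM.differentiable.comp (a2.const_mul e₁)).mul_const _)).prodMk
          (differentiable_snd.const_mul e₂)
    have hs : DifferentiableAt ℝ sti (T (piW (par g (w, 0)))) := by
      rw [hT]
      have a1 : DifferentiableAt ℝ (fun p : R3 => 1 - p.2) (st w) := by fun_prop
      have a2 : 1 - (st w).2 ≠ 0 := by
        have := Complex.normSq_nonneg w
        rw [one_sub]
        positivity
      exact (a1.inv a2).smul differentiableAt_fst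
    have h2 := (hs.hasFDerivAt.comp _ (hTd _).hasFDerivAt).comp w (df hσ w).hasFDerivAt
    have h3 : ((sti ∘ T) ∘ fun w : ℂ => piW (par g (w, 0))) = id := by
      funext z
      simp only [Function.comp, hT, sti_st, id]
    rw [h3] at h2
    have h4 := h2.unique (hasFDerivAt_id w)
    intro ζ ζ' hζ
    have h5 := DFunLike.congr_fun h4 ζ
    have h6 := DFunLike.congr_fun h4 ζ'
    simp only [ContinuousLinearMap.comp_apply, ContinuousLinearMap.id_apply] at h5 h6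
    rw [← h5, hζ, h6]
  let L : R4 × ℂ →L[ℝ] R4 × ℂ × ℂ :=
    (ContinuousLinearMap.fst ℝ R4 ℂ).prod ((ContinuousLinearMap.snd ℝ R4 ℂ).prod 0)
  obtain ⟨c1, c2⟩ := sph_general hu hv hσ h1 hi (a := a) (w := w) (by
    ext1 <;> ext1 y <;> exact (lin1 hG L (a, w) _).trans (DFunLike.congr_fun h _))
  refine ⟨h1 w, c1, fun hN x hx0 hx => ?_⟩
  have hxL : L (x.1, x.2.1) = x := Prod.ext rfl (Prod.ext rfl hx0.symm)
  have := c2 hN (x.1, x.2.1) fun y => (lin2 hG L (a, w) _ y).trans (by rw [hxL]; exact hx _)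
  rw [← hxL, this, map_zero]

end Vale.Agent.P265
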