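import Vale.Agent.P265.EqAlgB

/-! P265: suspension, cubes and boxes. -/

open Set Metric

noncomputable section

namespace Vale.Agent.P265

variable {X : Type} [MetricSpace X] {τ : X → X} {s : F3}

namespace SuspAux

theorem vanish {A B : Set X} (cA : IsCompact A) (hB : B ⊆ A) {a b : ℝ} (hab : a < b) (j : ℕ)
    (x : Hc (A ×ˢ Icc a b) (A ×ˢ {a} ∪ B ×ˢ Icc a b) j) : x = 0 := by
  have hm : ∀ l ∈ Icc (0 : ℝ) 1, ∀ t ∈ Icc a b, t + l * (a - t) ∈ Icc a b := fun l hl t ht =>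
    ⟨by nlinarith [hl.2, ht.1], by nlinarith [hl.1, ht.1, ht.2]⟩
  refine Hc_vanish (cA.prod isCompact_Icc) ?_ (fun l p => (p.1, p.2 + l * (a - p.2))) ?_
    (fun l hl p hp => mk_mem_prod hp.1 (hm l hl _ hp.2)) ?_ (fun p _ => by simp) ?_ j x
  · rintro p (hp | hp)
    · exact ⟨hp.1, by rw [mem_singleton_iff.1 hp.2]; exact left_mem_Icc.2 hab.le⟩
    · exact ⟨hB hp.1, hp.2⟩
  · refine Continuous.continuousOn ?_
    unfold Function.uncurry
    fun_prop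
  · rintro l hl p (hp | hp)
    · refine Or.inl ⟨hp.1, ?_⟩
      have : p.2 = a := hp.2
      simp [this]
    · exact Or.inr ⟨hp.1, hm l hl _ hp.2⟩
  · exact fun p hp => Or.inl ⟨hp.1, by simp⟩

end SuspAux

theorem susp (hτ : Sym τ s) {A B : Set X} (h : IPair τ A B) {a b : ℝ} (hab : a < b) :
    Shifted s (Prod.map τ id) (A ×ˢ Icc a b) (A ×ˢ {a, b} ∪ B ×ˢ Icc a b) 1 τ A B := by
  have hv := SuspAux.vanish h.cA h.sub hab
  have h1 : A ×ˢ {a, b} ∪ B ×ˢ Icc a b ⊆ A ×ˢ Icc a b := by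
    rintro p (hp | hp)
    · refine ⟨hp.1, ?_⟩
      rcases hp.2 with e | e
      · rw [e]; exact left_mem_Icc.2 hab.le
      · rw [mem_singleton_iff.1 e]; exact right_mem_Icc.2 hab.le
    · exact ⟨h.sub hp.1, hp.2⟩
  have h0 : A ×ˢ {a} ∪ B ×ˢ Icc a b ⊆ A ×ˢ {a, b} ∪ B ×ˢ Icc a b :=
    union_subset_union_left _ (prod_mono subset_rfl (singleton_subset_iff.2 (mem_insert _ _)))
  have c0 : IsCompact (A ×ˢ {a} ∪ B ×ˢ Icc a b) :=
    (h.cA.prod isCompact_singleton).union (h.cB.prod isCompact_Icc)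
  have c1 : IsCompact (A ×ˢ {a, b} ∪ B ×ˢ Icc a b) :=
    (h.cA.prod (toFinite _).isCompact).union (h.cB.prod isCompact_Icc)
  have cb : IsCompact (A ×ˢ ({b} : Set ℝ)) := h.cA.prod isCompact_singleton
  have ct : Continuous (Prod.map τ (id : ℝ → ℝ)) := hτ.cont.prodMap continuous_id
  have mA : ∀ T : Set ℝ, MapsTo (Prod.map τ id) (A ×ˢ T) (A ×ˢ T) := fun T =>
    h.mA.prodMap (mapsTo_id T)
  have mB : ∀ T : Set ℝ, MapsTo (Prod.map τ id) (B ×ˢ T) (B ×ˢ T) := fun T =>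
    h.mB.prodMap (mapsTo_id T)
  have a1 : Adm (Prod.map τ id) (A ×ˢ Icc a b) (A ×ˢ {a, b} ∪ B ×ˢ Icc a b) (A ×ˢ Icc a b)
      (A ×ˢ {a, b} ∪ B ×ˢ Icc a b) :=
    Adm.of_compact (h.cA.prod isCompact_Icc) ct.continuousOn (mA _)
      ((mA _).union_union (mB _)) h1
  have a0 : Adm (Prod.map τ id) (A ×ˢ {a, b} ∪ B ×ˢ Icc a b) (A ×ˢ {a} ∪ B ×ˢ Icc a b)
      (A ×ˢ {a, b} ∪ B ×ˢ Icc a b) (A ×ˢ {a} ∪ B ×ˢ Icc a b) :=
    Adm.of_compact c1 ct.continuousOn ((mA _).union_union (mB _)) ((mA _).union_union (mB _)) h0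
  have ai : Adm id (A ×ˢ {b}) (B ×ˢ {b}) (A ×ˢ {a, b} ∪ B ×ˢ Icc a b)
      (A ×ˢ {a} ∪ B ×ˢ Icc a b) :=
    Adm.inc (fun p hp => Or.inl ⟨hp.1, Or.inr hp.2⟩)
      (fun p hp => Or.inr ⟨hp.1, by rw [mem_singleton_iff.1 hp.2]; exact right_mem_Icc.2 hab.le⟩)
      (prod_mono h.sub subset_rfl)
  have af : Adm (fun x : X => (x, b)) A B (A ×ˢ {b}) (B ×ˢ {b}) :=
    Adm.of_compact h.cA (by fun_prop) (fun x hx => ⟨hx, rfl⟩) (fun x hx => ⟨hx, rfl⟩) h.sub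
  have ag : Adm (Prod.fst : X × ℝ → X) (A ×ˢ {b}) (B ×ˢ {b}) A B :=
    Adm.of_compact cb continuous_fst.continuousOn (fun p hp => hp.1) (fun p hp => hp.1)
      (prod_mono h.sub subset_rfl)
  refine ⟨fun j hj => ?_, fun j => ?_⟩
  · obtain rfl : j = 0 := by omega
    refine (Submodule.eq_bot_iff _).2 fun x _ => Hi_zero_inj h1 h0 ?_
    rw [map_zero]
    exact hv 0 _
  · have b1 : Function.Bijective
        (Hd (A ×ˢ Icc a b) (A ×ˢ {a, b} ∪ B ×ˢ Icc a b) (A ×ˢ {a} ∪ B ×ˢ Icc a b) j) := by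
      refine ⟨(injective_iff_map_eq_zero _).2 fun x hx => ?_, fun y => ?_⟩
      · obtain ⟨y, rfl⟩ := (exact_rd h1 h0 j x).1 hx
        rw [hv j y, map_zero]
      · exact (exact_di h1 h0 j y).1 (hv _ _)
    have b2 : Function.Bijective (Hpb ai j) := by
      refine excision c0 cb ?_ h0 ?_ ai j
      · rintro p (hp | hp)
        · rcases hp.2 with e | e
          · exact Or.inl (Or.inl ⟨hp.1, e⟩)
          · exact Or.inr ⟨hp.1, e⟩
        · exact Or.inl (Or.inr hp)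
      · rintro p ⟨hp | hp, hp'⟩
        · exact absurd ((mem_singleton_iff.1 hp.2).symm.trans (mem_singleton_iff.1 hp'.2)) hab.ne
        · exact ⟨hp.1, hp'.2⟩
    have b3 : Function.Bijective (Hpb af j) :=
      Hpb_bij af ag j (Hpb_id (ag.comp af) (fun _ _ => rfl) j)
        (Hpb_id (af.comp ag) (fun p hp => Prod.ext rfl (mem_singleton_iff.1 hp.2).symm) j)
    have b4 : Function.Bijective (Hpb (ai.comp af) j) := by
      have e : (Hpb (ai.comp af) j : _ → _) = Hpb af j ∘ Hpb ai j :=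
        funext fun x => (Hpb_comp ai af j x).symm
      rw [e]
      exact b3.comp b2
    obtain ⟨e1⟩ := HE_equiv (s := s) a1 a0 _ (fun x => (Hd_nat a1 a0 j x).symm) b1
    obtain ⟨e2⟩ := HE_equiv (s := s) (h.adm hτ) a0 _
      (Hpb_equivariant (ai.comp af) (h.adm hτ) a0 (fun _ _ => rfl) j) b4
    exact ⟨e1.symm.trans e2⟩

end Vale.Agent.P265
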