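import Vale.Agent.P265.UVDef

/-! P265: descent, and the function `u`. -/

open Set Real Topology
open scoped ContDiff

noncomputable section

namespace Vale.Agent.P265

namespace UVaAux

/-- The linear part of the gluing map. -/
def T₀ : R4 ≃L[ℝ] R4 :=
  LinearEquiv.toContinuousLinearEquiv
    { toFun := fun a => ![a 0, a 2, a 1, -a 3 - 3 * a 1]
      invFun := fun a => ![a 0, a 2, a 1, -a 3 - 3 * a 2]
      map_add' := fun a b => by
        ext i
        fin_cases i <;> simp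
        ring
      map_smul' := fun c a => by
        ext i
        fin_cases i <;> simp
        ring
      left_inv := fun a => by
        ext i
        fin_cases i <;> simp
      right_inv := fun a => by
        ext i
        fin_cases i <;> simp }

/-- The gluing map as a permutation. -/
def S : Equiv.Perm R4 where
  toFun := sh
  invFun a := ![a 0 + 1, a 2, a 1, -a 3 - 3 * a 2]
  left_inv a := by
    ext i
    fin_cases i <;> simp [sh]
  right_inv a := by
    ext i
    fin_cases i <;> simp [sh]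

/-- Periodicity under the lattice. -/
def Per {β : Type} (f : R4 → β) : Prop :=
  ∀ i : Fin 3, Function.Periodic f (Pi.single i.succ (2 * π))

theorem ind {p : Equiv.Perm R4 → Prop} (h0 : p 1) (h1 : ∀ f, p f → p (f * S))
    (h2 : ∀ f, p f → p (f * S⁻¹)) (n : ℤ) : p (S ^ n) := by
  induction n with
  | zero => exact h0
  | succ n ih => exact zpow_add_one S n ▸ h1 _ ih
  | pred n ih => exact zpow_sub_one S (-n) ▸ h2 _ ih

theorem zero (n : ℤ) (a : R4) : (S ^ n) a 0 = a 0 - n := by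
  induction n generalizing a with
  | zero => simp
  | succ n ih =>
    rw [zpow_add_one, Equiv.Perm.mul_apply, ih]
    simp [S, sh]
    ring
  | pred n ih =>
    rw [zpow_sub_one, Equiv.Perm.mul_apply, ih]
    simp [S, Equiv.Perm.inv_def]
    ring

theorem aff (n : ℤ) : ∃ (T : R4 ≃L[ℝ] R4) (b : R4), ∀ a, (S ^ n) a = T a + b := by
  have e : ∀ a, S a = T₀ a + ![-1, 0, 0, 0] := fun a => by
    ext i
    fin_cases i <;> simp [S, sh, T₀, sub_eq_add_neg]
  refine ind (p := fun f => ∃ (T : R4 ≃L[ℝ] R4) (b : R4), ∀ a, f a = T a + b)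
    ⟨.refl ℝ _, 0, by simp⟩ ?_ ?_ n
  · rintro f ⟨T, b, h⟩
    refine ⟨T₀.trans T, T ![-1, 0, 0, 0] + b, fun a => ?_⟩
    rw [Equiv.Perm.mul_apply, h, e, map_add, add_assoc, ContinuousLinearEquiv.trans_apply]
  · rintro f ⟨T, b, h⟩
    refine ⟨T₀.symm.trans T, b - T (T₀.symm ![-1, 0, 0, 0]), fun a => ?_⟩
    have : S⁻¹ a = T₀.symm (a - ![-1, 0, 0, 0]) := by
      rw [Equiv.Perm.inv_eq_iff_eq, e, ContinuousLinearEquiv.apply_symm_apply, sub_add_cancel]
    rw [Equiv.Perm.mul_apply, h, this, map_sub, map_sub, ContinuousLinearEquiv.trans_apply]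
    abel

theorem per {β : Type} {f : R4 → β} (h : Per f) (n : ℤ) : Per fun a => f ((S ^ n) a) := by
  refine ind (p := fun g => Per fun a => f (g a)) h (fun g hg i a => ?_) (fun g hg i a => ?_) n
  · simp only [Equiv.Perm.mul_apply]
    fin_cases i
    · refine Eq.trans (congrArg (fun x => f (g x)) ?_) ((hg 1).add_period ((hg 2).zsmul (-3)) _)
      ext j
      fin_cases j <;> simp [S, sh]
      ring
    · refine Eq.trans (congrArg (fun x => f (g x)) ?_) (hg 0 _)
      ext j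
      fin_cases j <;> simp [S, sh]
    · refine Eq.trans (congrArg (fun x => f (g x)) ?_) ((hg 2).neg _)
      ext j
      fin_cases j <;> simp [S, sh]
      ring
  · simp only [Equiv.Perm.mul_apply]
    fin_cases i
    · refine Eq.trans (congrArg (fun x => f (g x)) ?_) (hg 1 _)
      ext j
      fin_cases j <;> simp [S, Equiv.Perm.inv_def]
    · refine Eq.trans (congrArg (fun x => f (g x)) ?_) ((hg 0).add_period ((hg 2).zsmul (-3)) _)
      ext j
      fin_cases j <;> simp [S, Equiv.Perm.inv_def]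
      ring
    · refine Eq.trans (congrArg (fun x => f (g x)) ?_) ((hg 2).neg _)
      ext j
      fin_cases j <;> simp [S, Equiv.Perm.inv_def]
      ring

theorem inv {β : Type} {f : R4 → β} (h : Ginv f) (n : ℤ) (a : R4) : f ((S ^ n) a) = f a :=
  ind (p := fun g => ∀ a, f (g a) = f a) (fun _ => rfl) (fun _ hg a => (hg _).trans (h.1 a))
    (fun _ hg a => (hg _).trans ((h.1 _).symm.trans (congrArg f (S.apply_symm_apply a)))) n a

theorem bound : ∃ C : ℝ, 0 < C ∧
    ∀ t, |deriv (fun t : ℝ => smoothTransition (16 * t - 14)) t| ≤ C := by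
  have h : ContDiff ℝ 1 fun t : ℝ => smoothTransition (16 * t - 14) :=
    smoothTransition.contDiff.comp (by fun_prop)
  obtain ⟨C, hC⟩ := (HasCompactSupport.intro (isCompact_Icc (a := (0 : ℝ)) (b := 1))
    fun t ht => by
      rcases not_and_or.1 ht with h1 | h1
      · have : (fun t : ℝ => smoothTransition (16 * t - 14)) =ᶠ[𝓝 t] fun _ => 0 :=
          (eventually_lt_nhds (not_le.1 h1)).mono fun y hy =>
            smoothTransition.zero_of_nonpos (by linarith)
        rw [this.deriv_eq, deriv_const]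
      · have : (fun t : ℝ => smoothTransition (16 * t - 14)) =ᶠ[𝓝 t] fun _ => 1 :=
          (eventually_gt_nhds (not_le.1 h1)).mono fun y hy =>
            smoothTransition.one_of_one_le (by linarith)
        rw [this.deriv_eq, deriv_const]).exists_bound_of_continuous (h.continuous_deriv le_rfl)
  exact ⟨max C 1, by positivity, fun t => (hC t).trans (le_max_left _ _)⟩

theorem theta : ∃ Θ : ℝ → ℝ, ContDiff ℝ ∞ Θ ∧ Function.Periodic Θ (2 * π) ∧
    ∀ t, 7 / 8 < cos t ^ 2 → ∃ k : ℤ, Θ t = 3 * t - k * (2 * π) := by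
  refine ⟨fun t => smoothTransition (16 * cos t ^ 2 - 25 / 2) *
    (toIocMod two_pi_pos (-π) (3 * t - π / 2) + π / 2), contDiff_iff_contDiffAt.2 fun t => ?_,
    fun t => ?_, fun t ht => ⟨toIocDiv two_pi_pos (-π) (3 * t - π / 2), ?_⟩⟩
  · rcases lt_or_ge (cos t ^ 2) (25 / 32) with h | h
    · refine (contDiffAt_const (c := (0 : ℝ))).congr_of_eventuallyEq
        (((by fun_prop : Continuous fun t : ℝ => cos t ^ 2).continuousAt.eventually_lt
          continuousAt_const h).mono fun y hy => ?_)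
      simp only
      rw [smoothTransition.zero_of_nonpos (by linarith), zero_mul]
    refine (smoothTransition.contDiff.comp (by fun_prop)).contDiffAt.mul
      (ContDiffAt.add ?_ contDiffAt_const)
    simp only [← Complex.arg_exp_mul_I, ← Complex.log_im]
    have h1 : ContDiff ℝ ∞ fun t : ℝ => 3 * t - π / 2 := by fun_prop
    have h2 : ContDiff ℝ ∞ fun t : ℝ => Complex.exp (((3 * t - π / 2 : ℝ) : ℂ) * Complex.I) :=
      ((Complex.ofRealCLM.contDiff.comp h1).mul contDiff_const).cexp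
    refine Complex.imCLM.contDiff.contDiffAt.comp t
      (((Complex.contDiffAt_log (Or.inr ?_)).restrict_scalars ℝ).comp t h2.contDiffAt)
    rw [Complex.exp_ofReal_mul_I_im, sin_sub_pi_div_two, cos_three_mul, neg_ne_zero,
      show 4 * cos t ^ 3 - 3 * cos t = cos t * (4 * cos t ^ 2 - 3) by ring]
    exact mul_ne_zero (fun h0 => by rw [h0] at h; norm_num at h) (by linarith)
  · simp only
    rw [cos_add_two_pi, show 3 * (t + 2 * π) - π / 2 = 3 * t - π / 2 + (3 : ℤ) • (2 * π) by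
      rw [zsmul_eq_mul]; push_cast; ring, toIocMod_add_zsmul]
  · simp only
    rw [smoothTransition.one_of_one_le (by linarith), one_mul, toIocMod, zsmul_eq_mul]
    ring

end UVaAux
open UVaAux

theorem descent {F : Type} [NormedAddCommGroup F] [NormedSpace ℝ F] {w₀ : R4 → F}
    (hw : ContDiff ℝ ∞ w₀)
    (hp : ∀ (i : Fin 3) (a : R4), w₀ (a + Pi.single i.succ (2 * π)) = w₀ a)
    (hs : ∀ a : R4, 3 / 8 < a 0 → a 0 < 5 / 8 → w₀ (sh a) = w₀ a) :
    ∃ w : R4 → F, ContDiff ℝ ∞ w ∧ Ginv w ∧ ∀ a, -1 / 2 ≤ a 0 → a 0 ≤ 1 / 2 → w a = w₀ a := by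
  refine ⟨fun a => w₀ ((S ^ ⌊a 0 + 1 / 2⌋) a), contDiff_iff_contDiffAt.2 fun a => ?_,
    ⟨fun a => ?_, fun i a => ?_⟩, fun a h1 h2 => ?_⟩
  · have h1 := Int.floor_le (a 0 + 1 / 2)
    have h2 := Int.lt_floor_add_one (a 0 + 1 / 2)
    generalize ⌊a 0 + 1 / 2⌋ = n at h1 h2
    obtain ⟨T, b, h⟩ := aff n
    refine (hw.comp (T.contDiff.add (contDiff_const (c := b)))).contDiffAt.congr_of_eventuallyEq ?_
    filter_upwards [(continuous_apply 0).continuousAt.preimage_mem_nhds
      (Ioo_mem_nhds (show n - 5 / 8 < a 0 by linarith) (show a 0 < n + 1 / 2 by linarith))]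
      with y hy
    rw [Function.comp_apply, ← h]
    have h3 : n - 5 / 8 < y 0 := hy.1
    have h4 : y 0 < n + 1 / 2 := hy.2
    rcases le_or_gt (n - 1 / 2 : ℝ) (y 0) with h5 | h5
    · rw [Int.floor_eq_iff.2 (show (n : ℝ) ≤ _ ∧ _ from ⟨by linarith, by linarith⟩)]
    · rw [(Int.floor_eq_iff (z := n - 1)).2 ⟨by push_cast; linarith, by push_cast; linarith⟩,
        ← hs _ (by rw [zero]; push_cast; linarith) (by rw [zero]; push_cast; linarith)]
      show w₀ ((S * S ^ (n - 1)) y) = _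
      rw [← zpow_one_add, add_sub_cancel]
  · have e : ⌊sh a 0 + 1 / 2⌋ = ⌊a 0 + 1 / 2⌋ - 1 := by
      rw [← Int.floor_sub_one]
      exact congrArg _ (by simp [sh]; ring)
    show w₀ ((S ^ ⌊sh a 0 + 1 / 2⌋ * S) a) = _
    rw [e, ← zpow_add_one, sub_add_cancel]
  · simp only [Pi.add_apply, Pi.single_eq_of_ne (Fin.succ_ne_zero i).symm, add_zero]
    exact per hp _ i a
  · rcases h2.eq_or_lt with h | h
    · simp only
      rw [(Int.floor_eq_iff (z := 1)).2 ⟨by push_cast; linarith, by push_cast; linarith⟩, zpow_one]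
      exact hs a (by linarith) (by linarith)
    · simp only
      rw [(Int.floor_eq_iff (z := 0)).2 ⟨by push_cast; linarith, by push_cast; linarith⟩]
      rfl

theorem rel_fund (a : R4) : ∃ a', Rel a a' ∧ a' 0 ∈ Ico (0 : ℝ) 1 ∧
    ∀ i : Fin 3, a' i.succ ∈ Ico 0 (2 * π) := by
  obtain ⟨b, hb⟩ : ∃ b, b = (S ^ ⌊a 0⌋) a := ⟨_, rfl⟩
  refine ⟨b - ∑ i : Fin 3, toIcoDiv two_pi_pos 0 (b i.succ) • Pi.single i.succ (2 * π),
    fun β f hf => ?_, ?_, fun i => ?_⟩
  · have h : Per f := hf.2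
    rw [Fin.sum_univ_three, ((((h 0).zsmul _).add_period ((h 1).zsmul _)).add_period
      ((h 2).zsmul _)).sub_eq, hb, inv hf]
  · simp only [Pi.sub_apply, Finset.sum_apply, Pi.smul_apply,
      Pi.single_eq_of_ne (Fin.succ_ne_zero _).symm, smul_zero, Finset.sum_const_zero, sub_zero]
    rw [hb, zero]
    exact ⟨Int.fract_nonneg _, Int.fract_lt_one _⟩
  · have h := toIcoMod_mem_Ico' two_pi_pos (b i.succ)
    rw [toIcoMod] at h
    simpa [Finset.sum_apply, Pi.single_apply] using h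

theorem rel_fund' (a : R4) : ∃ T : R4 ≃L[ℝ] R4, ∃ b : R4, (T a + b) 0 ∈ Icc (-1 / 2 : ℝ) (1 / 2) ∧
    ∀ a', Rel a' (T a' + b) := by
  obtain ⟨T, b, h⟩ := aff ⌊a 0 + 1 / 2⌋
  refine ⟨T, b, ?_, fun a' β f hf => by rw [← h, inv hf]⟩
  rw [← h, zero]
  constructor <;> linarith [Int.floor_le (a 0 + 1 / 2), Int.lt_floor_add_one (a 0 + 1 / 2)]

theorem Nf_ginv : Ginv Nf := by
  refine ⟨fun a => ?_, fun i a => ?_⟩
  · simp [Nf, sh, mul_sub π]
    ring
  · fin_cases i <;> simp [Nf]

theorem exists_u : ∃ (c : ℝ) (κ : ℝ → ℝ) (φ : R4 → ℝ), 0 < c ∧ ContDiff ℝ ∞ κ ∧ ContDiff ℝ ∞ φ ∧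
    (∀ t, 0 ≤ κ t ∧ κ t ≤ 1) ∧ (∀ᶠ t in 𝓝 (1 : ℝ), κ t = 1) ∧ (∀ t, |c * deriv κ t| ≤ 1 / 40) ∧
    (∀ a t, φ (a + Pi.single 3 t) = φ a) ∧ Ginv (Uf c κ φ) := by
  obtain ⟨C, hC, h⟩ := bound
  obtain ⟨Θ, h1, h2, h3⟩ := theta
  refine ⟨1 / (40 * C), fun t => smoothTransition (16 * t - 14),
    fun a => a 0 / 2 * (Θ (a 1) - Θ (a 2)) + Θ (a 2) / 2, by positivity,
    smoothTransition.contDiff.comp (by fun_prop), by fun_prop,
    fun t => ⟨smoothTransition.nonneg _, smoothTransition.le_one _⟩,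
    (eventually_gt_nhds (show (15 / 16 : ℝ) < 1 by norm_num)).mono fun t ht =>
      smoothTransition.one_of_one_le (by linarith), fun t => ?_, fun a t => by simp,
    fun a => ?_, fun i a => ?_⟩
  · rw [abs_mul, abs_of_pos (by positivity)]
    refine (mul_le_mul_of_nonneg_left (h t) (by positivity)).trans_eq ?_
    field_simp
  · rcases le_or_gt (cos (a 1) ^ 2) (7 / 8) with h4 | h4
    · simp [Uf, sh, smoothTransition.zero_of_nonpos (x := 16 * cos (a 1) ^ 2 - 14) (by linarith)]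
    obtain ⟨k, hk⟩ := h3 _ h4
    have e : cos (sh a 3 + (sh a 0 / 2 * (Θ (sh a 1) - Θ (sh a 2)) + Θ (sh a 2) / 2))
        = cos (a 3 + (a 0 / 2 * (Θ (a 1) - Θ (a 2)) + Θ (a 2) / 2)) := by
      rw [← cos_neg, ← cos_sub_int_mul_two_pi _ k]
      refine congrArg cos ?_
      simp [sh]
      linear_combination -hk
    rw [Uf, Uf, e, mul_right_comm (1 / (40 * C))]
    rfl
  · fin_cases i <;> simp [Uf, h2 _, add_right_comm _ (2 * π)]

end Vale.Agent.P265
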