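import Vale.Agent.P265.UVa

/-! P265: the field `v`. -/

open Set Real Topology
open scoped ContDiff

noncomputable section

namespace Vale.Agent.P265

namespace UVbAux

/-- The factor turning `sin t` into a square root of `1 - cos t`. -/
def gg (t : ℝ) : ℝ := (√(1 + cos t + expNegInvGlue (-cos t)))⁻¹

/-- A smooth sign function. -/
def ss (t : ℝ) : ℝ := t * (√(t ^ 2 + expNegInvGlue (1 / 16 - t ^ 2)))⁻¹

/-- Square root of the first weight. -/
def r0 (θ : ℝ) : ℝ := √(3 + 2 * sin (π * θ))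

/-- Square root of the second weight. -/
def r1 (θ : ℝ) : ℝ := √(3 - 2 * sin (π * θ))

/-- The large cut-off. -/
def c1 (θ x y : ℝ) : ℝ :=
  smoothTransition (4 * cos x - 1) * smoothTransition (4 * cos y - 1) *
    smoothTransition (2 - 32 * θ ^ 2)

/-- The small cut-off. -/
def c2 (θ x y : ℝ) : ℝ :=
  smoothTransition (8 * cos x - 4) * smoothTransition (8 * cos y - 4) *
    smoothTransition (2 - 64 * θ ^ 2)

/-- First coefficient. -/
def AA (θ x y : ℝ) : ℝ := c2 θ x y * (sin x * (r0 θ * gg x)) + (1 - c2 θ x y) * sin (x - y)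

/-- Second coefficient. -/
def PP (θ x y : ℝ) : ℝ :=
  -(c1 θ x y * (sin y * (r1 θ * gg y))) - (1 - c1 θ x y) * ((1 + ss θ) / 2 * sin (2 * x - y))

/-- Third coefficient. -/
def QQ (θ x y : ℝ) : ℝ := c1 θ x y * sin (π * θ) +
  (1 - c1 θ x y) * ((1 + ss θ) / 2 * cos (2 * x - y) - (1 - ss θ) / 2)

/-- Fourth coefficient. -/
def DD (θ x y : ℝ) : ℝ := (1 - c1 θ x y) * (1 - cos (x - y))

/-- Real part of the rotated pair. -/
def fr (θ x y z : ℝ) : ℝ := cos (y + z) * PP θ x y - sin (y + z) * QQ θ x y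

/-- Imaginary part of the rotated pair. -/
def fi (θ x y z : ℝ) : ℝ := sin (y + z) * PP θ x y + cos (y + z) * QQ θ x y

/-- The angle of the half turn. -/
def rh (θ : ℝ) : ℝ := π * smoothTransition (8 * θ - 2)

/-- The field. -/
def Wf (θ x y z : ℝ) : R3 :=
  (⟨cos (rh θ) * AA θ x y - sin (rh θ) * fi θ x y z,
    sin (rh θ) * AA θ x y + cos (rh θ) * fi θ x y z⟩, DD θ x y + fr θ x y z)

theorem gg_den (t : ℝ) : 0 < 1 + cos t + expNegInvGlue (-cos t) := by
  have h1 := neg_one_le_cos t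
  have h2 := expNegInvGlue.nonneg (-cos t)
  rcases le_or_gt 0 (cos t) with h | h
  · linarith
  · have := expNegInvGlue.pos_of_pos (neg_pos.2 h)
    linarith

theorem gg_pos (t : ℝ) : 0 < gg t := inv_pos.2 (sqrt_pos.2 (gg_den t))

theorem gg_smooth : ContDiff ℝ ∞ gg :=
  (ContDiff.sqrt (by fun_prop) fun t => (gg_den t).ne').inv fun t => (sqrt_pos.2 (gg_den t)).ne'

theorem gg_sq {t : ℝ} (h : 0 ≤ cos t) : (sin t * gg t) ^ 2 = 1 - cos t := by
  have h1 := gg_den t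
  rw [mul_pow, gg, inv_pow, sq_sqrt h1.le, expNegInvGlue.zero_of_nonpos (neg_nonpos.2 h), add_zero,
    sin_sq]
  have h2 : 1 + cos t ≠ 0 := by linarith
  field_simp
  ring

theorem ss_den (t : ℝ) : 0 < t ^ 2 + expNegInvGlue (1 / 16 - t ^ 2) := by
  have h1 := sq_nonneg t
  have h2 := expNegInvGlue.nonneg (1 / 16 - t ^ 2)
  rcases le_or_gt (1 / 16) (t ^ 2) with h | h
  · linarith
  · have := expNegInvGlue.pos_of_pos (sub_pos.2 h)
    linarith

theorem ss_smooth : ContDiff ℝ ∞ ss :=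
  contDiff_id.mul ((ContDiff.sqrt (by fun_prop) fun t => (ss_den t).ne').inv
    fun t => (sqrt_pos.2 (ss_den t)).ne')

theorem ss_abs (t : ℝ) : |ss t| ≤ 1 := by
  have h1 := sqrt_pos.2 (ss_den t)
  rw [ss, abs_mul, abs_inv, abs_of_pos h1, ← div_eq_mul_inv, div_le_one h1]
  exact abs_le_sqrt (le_add_of_nonneg_right (expNegInvGlue.nonneg _))

theorem ss_sign {t : ℝ} (h : t ≠ 0) : 0 < t * ss t := by
  have h1 := sqrt_pos.2 (ss_den t)
  rw [ss, ← mul_assoc]
  exact mul_pos (mul_self_pos.2 h) (inv_pos.2 h1)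

theorem ss_one {t : ℝ} (h : 1 / 4 ≤ t) : ss t = 1 := by
  rw [ss, expNegInvGlue.zero_of_nonpos (by nlinarith), add_zero, sqrt_sq (by linarith),
    mul_inv_cancel₀ (by linarith)]

theorem ss_neg {t : ℝ} (h : t ≤ -1 / 4) : ss t = -1 := by
  rw [ss, expNegInvGlue.zero_of_nonpos (by nlinarith), add_zero, sqrt_sq_eq_abs,
    abs_of_neg (by linarith), inv_neg, mul_neg, mul_inv_cancel₀ (by linarith)]

theorem b0_pos (θ : ℝ) : 0 < 3 + 2 * sin (π * θ) := by linarith [neg_one_le_sin (π * θ)]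

theorem b1_pos (θ : ℝ) : 0 < 3 - 2 * sin (π * θ) := by linarith [sin_le_one (π * θ)]

theorem r0_smooth : ContDiff ℝ ∞ r0 := ContDiff.sqrt (by fun_prop) fun t => (b0_pos t).ne'

theorem r1_smooth : ContDiff ℝ ∞ r1 := ContDiff.sqrt (by fun_prop) fun t => (b1_pos t).ne'

theorem r0_pos (θ : ℝ) : 0 < r0 θ := sqrt_pos.2 (b0_pos θ)

theorem r1_pos (θ : ℝ) : 0 < r1 θ := sqrt_pos.2 (b1_pos θ)

theorem Wf_smooth : ContDiff ℝ ∞ fun a : R4 => Wf (a 0) (a 1) (a 2) (a 3) := by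
  have h1 := gg_smooth
  have h2 := ss_smooth
  have h3 := r0_smooth
  have h4 := r1_smooth
  have k1 : ContDiff ℝ ∞ fun a : R4 => c1 (a 0) (a 1) (a 2) := by unfold c1; fun_prop
  have k2 : ContDiff ℝ ∞ fun a : R4 => c2 (a 0) (a 1) (a 2) := by unfold c2; fun_prop
  have kA : ContDiff ℝ ∞ fun a : R4 => AA (a 0) (a 1) (a 2) := by unfold AA; fun_prop
  have kP : ContDiff ℝ ∞ fun a : R4 => PP (a 0) (a 1) (a 2) := by unfold PP; fun_prop
  have kQ : ContDiff ℝ ∞ fun a : R4 => QQ (a 0) (a 1) (a 2) := by unfold QQ; fun_prop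
  have kD : ContDiff ℝ ∞ fun a : R4 => DD (a 0) (a 1) (a 2) := by unfold DD; fun_prop
  have kr : ContDiff ℝ ∞ fun a : R4 => fr (a 0) (a 1) (a 2) (a 3) := by unfold fr; fun_prop
  have ki : ContDiff ℝ ∞ fun a : R4 => fi (a 0) (a 1) (a 2) (a 3) := by unfold fi; fun_prop
  have kh : ContDiff ℝ ∞ fun a : R4 => rh (a 0) := by unfold rh; fun_prop
  exact (Complex.equivRealProdCLM.symm.contDiff.comp
    (((kh.cos.mul kA).sub (kh.sin.mul ki)).prodMk ((kh.sin.mul kA).add (kh.cos.mul ki)))).prodMk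
      (kD.add kr)

theorem Wf_per1 (θ x y z : ℝ) : Wf θ (x + 2 * π) y z = Wf θ x y z := by
  have e1 : x + 2 * π - y = x - y + 2 * π := by ring
  have e2 : 2 * (x + 2 * π) - y = 2 * x - y + 2 * π + 2 * π := by ring
  simp only [Wf, AA, PP, QQ, DD, fr, fi, c1, c2, gg, e1, e2, cos_add_two_pi, sin_add_two_pi]

theorem Wf_per2 (θ x y z : ℝ) : Wf θ x (y + 2 * π) z = Wf θ x y z := by
  have e1 : x - (y + 2 * π) = x - y - 2 * π := by ring
  have e2 : 2 * x - (y + 2 * π) = 2 * x - y - 2 * π := by ring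
  have e3 : y + 2 * π + z = y + z + 2 * π := by ring
  simp only [Wf, AA, PP, QQ, DD, fr, fi, c1, c2, gg, e1, e2, e3, cos_add_two_pi, sin_add_two_pi,
    cos_sub_two_pi, sin_sub_two_pi]

theorem Wf_per3 (θ x y z : ℝ) : Wf θ x y (z + 2 * π) = Wf θ x y z := by
  simp only [Wf, fr, fi, ← add_assoc, cos_add_two_pi, sin_add_two_pi]

theorem c1_far {θ : ℝ} (h : 1 / 16 ≤ θ ^ 2) (x y : ℝ) : c1 θ x y = 0 := by
  rw [c1, smoothTransition.zero_of_nonpos (x := 2 - _) (by linarith), mul_zero]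

theorem c2_far {θ : ℝ} (h : 1 / 16 ≤ θ ^ 2) (x y : ℝ) : c2 θ x y = 0 := by
  rw [c2, smoothTransition.zero_of_nonpos (x := 2 - _) (by linarith), mul_zero]

theorem rh_zero {θ : ℝ} (h : θ ≤ 1 / 4) : rh θ = 0 := by
  rw [rh, smoothTransition.zero_of_nonpos (by linarith), mul_zero]

theorem Wf_seam {θ : ℝ} (h1 : 3 / 8 < θ) (h2 : θ < 5 / 8) (x y z : ℝ) :
    Wf (θ - 1) y x (-z - 3 * x) = Wf θ x y z := by
  have a1 : 1 / 16 ≤ θ ^ 2 := by nlinarith
  have a2 : 1 / 16 ≤ (θ - 1) ^ 2 := by nlinarith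
  have a3 : rh θ = π := by rw [rh, smoothTransition.one_of_one_le (by linarith), mul_one]
  have e1 : y - x = -(x - y) := by ring
  have e2 : x + (-z - 3 * x) = -((y + z) + (2 * x - y)) := by ring
  simp only [Wf, AA, PP, QQ, DD, fr, fi, c1_far a1, c1_far a2, c2_far a1, c2_far a2, a3,
    rh_zero (show θ - 1 ≤ 1 / 4 by linarith), ss_one (show 1 / 4 ≤ θ by linarith),
    ss_neg (show θ - 1 ≤ -1 / 4 by linarith), e1, e2, cos_neg, sin_neg, cos_pi, sin_pi, cos_zero,
    sin_zero, sin_add (y + z), cos_add (y + z)]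
  refine Prod.ext (Complex.ext ?_ ?_) ?_ <;> dsimp only <;> ring

theorem c1_mem (θ x y : ℝ) : 0 ≤ c1 θ x y ∧ c1 θ x y ≤ 1 :=
  ⟨mul_nonneg (mul_nonneg (smoothTransition.nonneg _) (smoothTransition.nonneg _))
    (smoothTransition.nonneg _), mul_le_one₀ (mul_le_one₀ (smoothTransition.le_one _)
      (smoothTransition.nonneg _) (smoothTransition.le_one _)) (smoothTransition.nonneg _)
        (smoothTransition.le_one _)⟩

theorem c2_mem (θ x y : ℝ) : 0 ≤ c2 θ x y ∧ c2 θ x y ≤ 1 :=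
  ⟨mul_nonneg (mul_nonneg (smoothTransition.nonneg _) (smoothTransition.nonneg _))
    (smoothTransition.nonneg _), mul_le_one₀ (mul_le_one₀ (smoothTransition.le_one _)
      (smoothTransition.nonneg _) (smoothTransition.le_one _)) (smoothTransition.nonneg _)
        (smoothTransition.le_one _)⟩

theorem c1_ne {θ x y : ℝ} (h : c1 θ x y ≠ 0) : 0 < cos x ∧ 0 < cos y := by
  simp only [c1, ne_eq, mul_eq_zero, smoothTransition.zero_iff_nonpos, not_or, not_le] at h
  exact ⟨by linarith [h.1.1], by linarith [h.1.2]⟩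

theorem c2_ne {θ x y : ℝ} (h : c2 θ x y ≠ 0) : c1 θ x y = 1 := by
  simp only [c2, ne_eq, mul_eq_zero, smoothTransition.zero_iff_nonpos, not_or, not_le] at h
  rw [c1, smoothTransition.one_of_one_le (by linarith [h.1.1]),
    smoothTransition.one_of_one_le (by linarith [h.1.2]),
    smoothTransition.one_of_one_le (by linarith [h.2]), mul_one, mul_one]

theorem c2_one {θ x y : ℝ} (h0 : θ ^ 2 < 1 / 64) (h1 : 5 / 8 < cos x) (h2 : 5 / 8 < cos y) :
    c2 θ x y = 1 := by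
  rw [c2, smoothTransition.one_of_one_le (by linarith), smoothTransition.one_of_one_le (by linarith),
    smoothTransition.one_of_one_le (by linarith), mul_one, mul_one]

theorem cos_one {t : ℝ} (h : sin t = 0) (h1 : 0 < cos t) : cos t = 1 :=
  (sin_eq_zero_iff_cos_eq.1 h).resolve_right (by linarith)

theorem sin_sign {θ : ℝ} (h1 : -1 / 2 ≤ θ) (h2 : θ ≤ 1 / 2) : 0 ≤ θ * sin (π * θ) := by
  have hp := pi_pos
  rcases le_total 0 θ with h | h
  · exact mul_nonneg h (sin_nonneg_of_nonneg_of_le_pi (by positivity) (by nlinarith))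
  · exact mul_nonneg_of_nonpos_of_nonpos h
      (sin_nonpos_of_nonpos_of_neg_pi_le (by nlinarith) (by nlinarith))

theorem zero_set {θ x y : ℝ} (h1 : -1 / 2 ≤ θ) (h2 : θ ≤ 1 / 2) (hA : AA θ x y = 0)
    (hD : PP θ x y ^ 2 + QQ θ x y ^ 2 = DD θ x y ^ 2) :
    sin (π * θ) = 0 ∧ cos x = 1 ∧ cos y = 1 := by
  have m1 := c1_mem θ x y
  have m2 := c2_mem θ x y
  have sa := abs_le.1 (ss_abs θ)
  have g0 := mul_pos (r0_pos θ) (gg_pos x)
  have g1 := mul_pos (r1_pos θ) (gg_pos y)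
  have pq : DD θ x y = 0 → PP θ x y = 0 ∧ QQ θ x y = 0 := fun h => by
    rw [h] at hD
    constructor <;> nlinarith [sq_nonneg (PP θ x y), sq_nonneg (QQ θ x y)]
  by_cases hc : c1 θ x y = 1
  · obtain ⟨cx, cy⟩ := c1_ne (hc.trans_ne one_ne_zero)
    obtain ⟨hP, hQ⟩ := pq (by rw [DD, hc, sub_self, zero_mul])
    rw [PP, hc] at hP
    rw [QQ, hc] at hQ
    have sy : sin y = 0 := (mul_eq_zero.1 (by linarith)).resolve_right g1.ne'
    have cy1 := cos_one sy cy
    rw [AA, sin_sub, sy, cy1] at hA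
    have e : 0 < c2 θ x y * (r0 θ * gg x) + (1 - c2 θ x y) := by
      rcases m2.1.eq_or_lt with e | e
      · rw [← e]
        norm_num
      · have := mul_pos e g0
        linarith [m2.2]
    have sx : sin x = 0 := (mul_eq_zero.1 (by linear_combination hA)).resolve_right e.ne'
    exact ⟨by linarith, cos_one sx cx, cy1⟩
  · have hc2 : c2 θ x y = 0 := by
      by_contra h
      exact hc (c2_ne h)
    have hlt : 0 < 1 - c1 θ x y := sub_pos.2 (lt_of_le_of_ne m1.2 hc)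
    have sa0 : sin (x - y) = 0 := by simpa [AA, hc2] using hA
    have ex : x = x - y + y := by ring
    have ed : 2 * x - y = x - y + (x - y + y) := by ring
    rcases sin_eq_zero_iff_cos_eq.1 sa0 with ca | ca
    · obtain ⟨hP, hQ⟩ := pq (by rw [DD, ca, sub_self, mul_zero])
      have cx : cos x = cos y := by rw [ex, cos_add, sa0, ca]; ring
      rw [PP, ed, sin_add, sin_add, cos_add, sa0, ca] at hP
      rw [QQ, ed, cos_add, sin_add, cos_add, sa0, ca] at hQ
      have sy : sin y = 0 := by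
        by_contra hs
        have e : c1 θ x y * (r1 θ * gg y) + (1 - c1 θ x y) * ((1 + ss θ) / 2) = 0 :=
          (mul_eq_zero.1 (by linear_combination -hP)).resolve_left hs
        have n1 := mul_nonneg m1.1 g1.le
        have n2 : 0 ≤ (1 - c1 θ x y) * ((1 + ss θ) / 2) := mul_nonneg hlt.le (by linarith)
        have z1 : c1 θ x y = 0 := (mul_eq_zero.1 (by linarith)).resolve_right g1.ne'
        have z2 : (1 + ss θ) / 2 = 0 := (mul_eq_zero.1 (by linarith)).resolve_left hlt.ne'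
        rw [z1, z2] at hQ
        linarith
      rcases sin_eq_zero_iff_cos_eq.1 sy with cy | cy
      · have t0 : θ = 0 := by
          by_contra ht
          have n1 := mul_nonneg m1.1 (sin_sign h1 h2)
          have n2 := mul_pos hlt (ss_sign ht)
          rw [cy] at hQ
          have : c1 θ x y * (θ * sin (π * θ)) + (1 - c1 θ x y) * (θ * ss θ) = 0 := by
            linear_combination θ * hQ
          linarith
        exact ⟨by rw [t0, mul_zero, sin_zero], cx.trans cy, cy⟩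
      · have z1 : c1 θ x y = 0 := by
          by_contra h
          linarith [(c1_ne h).2]
        rw [z1, cy] at hQ
        linarith
    · have cx : cos x = -cos y := by rw [ex, cos_add, sa0, ca]; ring
      have z1 : c1 θ x y = 0 := by
        by_contra h
        linarith [(c1_ne h).1, (c1_ne h).2]
      rw [PP, QQ, DD, z1, ca] at hD
      have q := sin_sq_add_cos_sq (2 * x - y)
      have n1 : 0 ≤ (1 + ss θ) * (1 - ss θ) * (1 + cos (2 * x - y)) :=
        mul_nonneg (mul_nonneg (by linarith) (by linarith)) (by linarith [neg_one_le_cos (2 * x - y)])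
      have : (4 : ℝ) = 1 - (1 + ss θ) * (1 - ss θ) * (1 + cos (2 * x - y)) / 2 := by
        linear_combination (-1) * hD + ((1 + ss θ) / 2) ^ 2 * q
      linarith

theorem Wf_zero {θ x y z : ℝ} (h : Wf θ x y z = 0) :
    AA θ x y = 0 ∧ PP θ x y ^ 2 + QQ θ x y ^ 2 = DD θ x y ^ 2 := by
  have h1 : cos (rh θ) * AA θ x y - sin (rh θ) * fi θ x y z = 0 :=
    congrArg (fun p : R3 => p.1.re) h
  have h2 : sin (rh θ) * AA θ x y + cos (rh θ) * fi θ x y z = 0 :=
    congrArg (fun p : R3 => p.1.im) h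
  have h3 : DD θ x y + fr θ x y z = 0 := congrArg (fun p : R3 => p.2) h
  have q := sin_sq_add_cos_sq (rh θ)
  have q' := sin_sq_add_cos_sq (y + z)
  have h4 : fi θ x y z = 0 := by
    linear_combination cos (rh θ) * h2 - sin (rh θ) * h1 - fi θ x y z * q
  refine ⟨by linear_combination sin (rh θ) * h2 + cos (rh θ) * h1 - AA θ x y * q, ?_⟩
  have h5 : DD θ x y = -fr θ x y z := by linarith
  have h6 : fi θ x y z ^ 2 = 0 := by rw [h4]; ring
  rw [h5]
  unfold fr
  unfold fi at h6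
  linear_combination h6 - (PP θ x y ^ 2 + QQ θ x y ^ 2) * q'

theorem Wf_tube {θ x y : ℝ} (h0 : θ ^ 2 < 1 / 64) (h1 : 5 / 8 < cos x) (h2 : 5 / 8 < cos y)
    (z : ℝ) (p : R3) : ip (Wf θ x y z) p = sin x * (r0 θ * gg x * p.1.re) -
      sin y * (r1 θ * gg y * (sin (y + z) * p.1.im + cos (y + z) * p.2)) +
      sin (π * θ) * (cos (y + z) * p.1.im - sin (y + z) * p.2) := by
  have e2 := c2_one h0 h1 h2
  have e1 := c2_ne (e2.trans_ne one_ne_zero)
  have e3 : rh θ = 0 := rh_zero (by nlinarith)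
  simp only [ip, Wf, AA, PP, QQ, DD, fr, fi, e1, e2, e3, cos_zero, sin_zero]
  ring

theorem Wf_norm {θ x y : ℝ} (h0 : θ ^ 2 < 1 / 64) (h1 : 5 / 8 < cos x) (h2 : 5 / 8 < cos y)
    (z : ℝ) : ip (Wf θ x y z) (Wf θ x y z) = sin (π * θ) ^ 2 +
      (3 + 2 * sin (π * θ)) * (1 - cos x) + (3 - 2 * sin (π * θ)) * (1 - cos y) := by
  have e2 := c2_one h0 h1 h2
  have e1 := c2_ne (e2.trans_ne one_ne_zero)
  have e3 : rh θ = 0 := rh_zero (by nlinarith)
  have q := sin_sq_add_cos_sq (y + z)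
  have a0 : r0 θ ^ 2 = 3 + 2 * sin (π * θ) := sq_sqrt (b0_pos θ).le
  have a1 : r1 θ ^ 2 = 3 - 2 * sin (π * θ) := sq_sqrt (b1_pos θ).le
  rw [← a0, ← a1, ← gg_sq (t := x) (by linarith), ← gg_sq (t := y) (by linarith)]
  simp only [ip, Wf, AA, PP, QQ, DD, fr, fi, e1, e2, e3, cos_zero, sin_zero]
  linear_combination ((sin y * (r1 θ * gg y)) ^ 2 + sin (π * θ) ^ 2) * q

theorem deriv_mul0 {u g : ℝ → ℝ} {u' : ℝ} (hu : HasDerivAt u u' 0) (h0 : u 0 = 0)
    (hg : DifferentiableAt ℝ g 0) : HasDerivAt (fun t => u t * g t) (u' * g 0) 0 :=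
  (hu.mul hg.hasDerivAt).congr_deriv (by rw [h0, zero_mul, add_zero])

theorem N_zero {a : R4} (h1 : -1 / 2 ≤ a 0) (h2 : a 0 ≤ 1 / 2) (h : Nf a = 0) :
    a 0 = 0 ∧ cos (a 1) = 1 ∧ cos (a 2) = 1 := by
  unfold Nf at h
  have b0 := b0_pos (a 0)
  have b1 := b1_pos (a 0)
  have n0 := sq_nonneg (sin (π * a 0))
  have n1 := mul_nonneg b0.le (sub_nonneg.2 (cos_le_one (a 1)))
  have n2 := mul_nonneg b1.le (sub_nonneg.2 (cos_le_one (a 2)))
  have z1 := (mul_eq_zero.1 (le_antisymm (by linarith) n1)).resolve_left b0.ne'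
  have z2 := (mul_eq_zero.1 (le_antisymm (by linarith) n2)).resolve_left b1.ne'
  have z0 : sin (π * a 0) = 0 := pow_eq_zero_iff two_ne_zero |>.1 (le_antisymm (by linarith) n0)
  have hp := pi_pos
  rw [sin_eq_zero_iff_of_lt_of_lt (by nlinarith) (by nlinarith)] at z0
  exact ⟨(mul_eq_zero.1 z0).resolve_left hp.ne', by linarith, by linarith⟩

/-- The pairing with a fixed vector as a linear map. -/
def ipL (p : R3) : R3 →L[ℝ] ℝ :=
  p.1.re • Complex.reCLM.comp (ContinuousLinearMap.fst ℝ ℂ ℝ) +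
    p.1.im • Complex.imCLM.comp (ContinuousLinearMap.fst ℝ ℂ ℝ) + p.2 • ContinuousLinearMap.snd ℝ ℂ ℝ

theorem ipL_apply (p q : R3) : ipL p q = ip q p := by
  simp [ipL, ip, mul_comm]

theorem nondeg {a : R4} (h0 : a 0 = 0) (h1 : cos (a 1) = 1) (h2 : cos (a 2) = 1)
    (ev : ∀ᶠ b in 𝓝 a, b 0 ^ 2 < 1 / 64 ∧ 5 / 8 < cos (b 1) ∧ 5 / 8 < cos (b 2)) (p : R3)
    (h : ∀ α, ip (fderiv ℝ (fun a : R4 => Wf (a 0) (a 1) (a 2) (a 3)) a α) p = 0) : p = 0 := by
  have s1 : sin (a 1) = 0 := sin_eq_zero_iff_cos_eq.2 (Or.inl h1)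
  have s2 : sin (a 2) = 0 := sin_eq_zero_iff_cos_eq.2 (Or.inl h2)
  have d1 := gg_smooth.differentiable (by simp)
  have d3 := r0_smooth.differentiable (by simp)
  have d4 := r1_smooth.differentiable (by simp)
  have key : ∀ α : R4, α 1 * (r0 (a 0) * gg (a 1) * p.1.re) -
      α 2 * (r1 (a 0) * gg (a 2) * (sin (a 2 + a 3) * p.1.im + cos (a 2 + a 3) * p.2)) +
      π * α 0 * (cos (a 2 + a 3) * p.1.im - sin (a 2 + a 3) * p.2) = 0 := fun α => by
    have l1 : HasDerivAt (fun t : ℝ => a + t • α) α 0 := by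
      simpa using ((hasDerivAt_id (0 : ℝ)).smul_const α).const_add a
    have l2 := (ipL p).hasFDerivAt.comp_hasDerivAt 0 (HasFDerivAt.comp_hasDerivAt_of_eq 0
      ((Wf_smooth.differentiable (by simp)) a).hasFDerivAt l1 (by simp))
    rw [ipL_apply, h α] at l2
    have co : ∀ i, HasDerivAt (fun t : ℝ => (a + t • α) i) (α i) 0 := fun i => by
      simpa using ((hasDerivAt_id (0 : ℝ)).mul_const (α i)).const_add (a i)
    have l3 := ((deriv_mul0 (co 1).sin (by simpa using s1)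
      (g := fun t => r0 ((a + t • α) 0) * gg ((a + t • α) 1) * p.1.re) (by fun_prop)).sub
      (deriv_mul0 (co 2).sin (by simpa using s2)
        (g := fun t => r1 ((a + t • α) 0) * gg ((a + t • α) 2) *
          (sin ((a + t • α) 2 + (a + t • α) 3) * p.1.im +
            cos ((a + t • α) 2 + (a + t • α) 3) * p.2)) (by fun_prop))).add
      (deriv_mul0 ((co 0).const_mul π).sin (by simp [h0])
        (g := fun t => cos ((a + t • α) 2 + (a + t • α) 3) * p.1.im -
          sin ((a + t • α) 2 + (a + t • α) 3) * p.2) (by fun_prop))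
    have ev2 : ∀ᶠ t in 𝓝 (0 : ℝ), (a + t • α) 0 ^ 2 < 1 / 64 ∧ 5 / 8 < cos ((a + t • α) 1) ∧
        5 / 8 < cos ((a + t • α) 2) :=
      (show Filter.Tendsto (fun t : ℝ => a + t • α) (𝓝 0) (𝓝 a) by
        simpa using l1.continuousAt.tendsto).eventually ev
    have l4 := (l3.congr_of_eventuallyEq (ev2.mono fun t ht =>
      (ipL_apply p _).trans (Wf_tube ht.1 ht.2.1 ht.2.2 _ p))).unique l2
    simp only [zero_smul, add_zero, h0, h1, h2, mul_zero, cos_zero, one_mul] at l4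
    rw [h0]
    exact l4
  have k0 := key (Pi.single 0 1)
  have k1 := key (Pi.single 1 1)
  have k2 := key (Pi.single 2 1)
  have g0 := mul_pos (r0_pos (a 0)) (gg_pos (a 1))
  have g1 := mul_pos (r1_pos (a 0)) (gg_pos (a 2))
  simp only [Pi.single_eq_same, ne_eq, Fin.reduceEq, not_false_eq_true, Pi.single_eq_of_ne,
    zero_mul, one_mul, mul_one, mul_zero, sub_zero, zero_sub, add_zero, zero_add, neg_eq_zero,
    mul_eq_zero (a := π), pi_ne_zero, false_or] at k0 k1 k2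
  have k3 := (mul_eq_zero.1 k1).resolve_left g0.ne'
  have k4 := (mul_eq_zero.1 k2).resolve_left g1.ne'
  have q := sin_sq_add_cos_sq (a 2 + a 3)
  refine Prod.ext (Complex.ext k3 ?_) ?_
  · change p.1.im = 0
    linear_combination cos (a 2 + a 3) * k0 + sin (a 2 + a 3) * k4 - p.1.im * q
  · change p.2 = 0
    linear_combination cos (a 2 + a 3) * k4 - sin (a 2 + a 3) * k0 - p.2 * q

end UVbAux

open UVbAux in
theorem exists_w0 : ∃ w : R4 → R3, ContDiff ℝ ∞ w ∧
    (∀ (i : Fin 3) (a : R4), w (a + Pi.single i.succ (2 * π)) = w a) ∧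
    (∀ a : R4, 3 / 8 < a 0 → a 0 < 5 / 8 → w (sh a) = w a) ∧
    ∀ a : R4, -1 / 2 ≤ a 0 → a 0 ≤ 1 / 2 → (Nf a ≠ 0 → w a ≠ 0) ∧
      (Nf a = 0 → (∀ᶠ b in 𝓝 a, ip (w b) (w b) = Nf b) ∧
        ∀ p, (∀ α, ip (fderiv ℝ w a α) p = 0) → p = 0) := by
  refine ⟨fun a => Wf (a 0) (a 1) (a 2) (a 3), Wf_smooth, fun i a => ?_, fun a h1 h2 => ?_,
    fun a h1 h2 => ⟨fun hN h => hN ?_, fun hN => ?_⟩⟩
  · fin_cases i
    · simpa using Wf_per1 (a 0) (a 1) (a 2) (a 3)
    · simpa using Wf_per2 (a 0) (a 1) (a 2) (a 3)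
    · simpa using Wf_per3 (a 0) (a 1) (a 2) (a 3)
  · exact Wf_seam h1 h2 _ _ _
  · obtain ⟨e0, e1, e2⟩ := zero_set h1 h2 (Wf_zero h).1 (Wf_zero h).2
    simp [Nf, e0, e1, e2]
  · obtain ⟨e0, e1, e2⟩ := N_zero h1 h2 hN
    have c0 : Continuous fun b : R4 => b 0 ^ 2 := by fun_prop
    have c1 : Continuous fun b : R4 => cos (b 1) := by fun_prop
    have c2 : Continuous fun b : R4 => cos (b 2) := by fun_prop
    have ev : ∀ᶠ b in 𝓝 a, b 0 ^ 2 < 1 / 64 ∧ 5 / 8 < cos (b 1) ∧ 5 / 8 < cos (b 2) :=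
      ((c0.tendsto a).eventually (gt_mem_nhds (by rw [e0]; norm_num))).and
        (((c1.tendsto a).eventually (lt_mem_nhds (by rw [e1]; norm_num))).and
          ((c2.tendsto a).eventually (lt_mem_nhds (by rw [e2]; norm_num))))
    exact ⟨ev.mono fun b hb => Wf_norm hb.1 hb.2.1 hb.2.2 _, nondeg e0 e1 e2 ev⟩

end Vale.Agent.P265
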