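import Vale.Agent.P265.UVDef

/-! P265: critical points. -/

open Set Real Topology
open scoped ContDiff

noncomputable section

namespace Vale.Agent.P265

variable {c : ℝ} {κ : ℝ → ℝ} {φ : R4 → ℝ} {v : R4 → R3}

namespace UVcAux

theorem line {F : Type} [NormedAddCommGroup F] [NormedSpace ℝ F] {f : R4 → F} {a : R4}
    (hf : DifferentiableAt ℝ f a) (α : R4) :
    HasDerivAt (fun t : ℝ => f (a + t • α)) (fderiv ℝ f a α) 0 := by
  have h1 : HasDerivAt (fun t : ℝ => a + t • α) α 0 := by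
    simpa using ((hasDerivAt_id (0 : ℝ)).smul_const α).const_add a
  exact HasFDerivAt.comp_hasDerivAt_of_eq 0 hf.hasFDerivAt h1 (by simp)

theorem coord (a α : R4) (i : Fin 4) : HasDerivAt (fun t : ℝ => (a + t • α) i) (α i) 0 := by
  simpa using ((hasDerivAt_id (0 : ℝ)).mul_const (α i)).const_add (a i)

theorem ip_deriv {f g : ℝ → R3} {f' g' : R3} {t : ℝ} (hf : HasDerivAt f f' t)
    (hg : HasDerivAt g g' t) :
    HasDerivAt (fun s => ip (f s) (g s)) (ip f' (g t) + ip (f t) g') t := by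
  have r : ∀ {f : ℝ → R3} {f' : R3}, HasDerivAt f f' t →
      HasDerivAt (fun s => (f s).1.re) f'.1.re t := fun h =>
    (Complex.reCLM.comp (ContinuousLinearMap.fst ℝ ℂ ℝ)).hasFDerivAt.comp_hasDerivAt t h
  have i : ∀ {f : ℝ → R3} {f' : R3}, HasDerivAt f f' t →
      HasDerivAt (fun s => (f s).1.im) f'.1.im t := fun h =>
    (Complex.imCLM.comp (ContinuousLinearMap.fst ℝ ℂ ℝ)).hasFDerivAt.comp_hasDerivAt t h
  have j : ∀ {f : ℝ → R3} {f' : R3}, HasDerivAt f f' t →
      HasDerivAt (fun s => (f s).2) f'.2 t := fun h =>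
    (ContinuousLinearMap.snd ℝ ℂ ℝ).hasFDerivAt.comp_hasDerivAt t h
  refine ((((r hf).mul (r hg)).add ((i hf).mul (i hg))).add ((j hf).mul (j hg))).congr_deriv ?_
  simp only [ip]
  ring

theorem ip_zero {p : R3} (h : ip p p = 0) : p = 0 := by
  unfold ip at h
  have h1 := mul_self_nonneg p.1.re
  have h2 := mul_self_nonneg p.1.im
  have h3 := mul_self_nonneg p.2
  exact Prod.ext (Complex.ext (mul_self_eq_zero.1 (by linarith)) (mul_self_eq_zero.1 (by linarith)))
    (mul_self_eq_zero.1 (by linarith))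

theorem N_deriv (a α : R4) : HasDerivAt (fun t : ℝ => Nf (a + t • α))
    (2 * π * cos (π * a 0) * (sin (π * a 0) + cos (a 2) - cos (a 1)) * α 0 +
      (3 + 2 * sin (π * a 0)) * sin (a 1) * α 1 + (3 - 2 * sin (π * a 0)) * sin (a 2) * α 2) 0 := by
  have h0 := ((coord a α 0).const_mul π).sin
  refine (((h0.pow 2).add (((h0.const_mul 2).const_add 3).mul
    ((coord a α 1).cos.const_sub 1))).add (((h0.const_mul 2).const_sub 3).mul
      ((coord a α 2).cos.const_sub 1))).congr_deriv ?_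
  simp only [zero_smul, add_zero]
  push_cast
  ring

theorem U_deriv (hκ : ContDiff ℝ ∞ κ) (hφ : ContDiff ℝ ∞ φ) (a α : R4) :
    fderiv ℝ (Uf c κ φ) a α =
      2 * c * deriv κ (cos (a 1) ^ 2) * cos (a 1) * κ (cos (a 2) ^ 2) * cos (a 3 + φ a) *
        (sin (a 1) * α 1) +
      2 * c * deriv κ (cos (a 2) ^ 2) * cos (a 2) * κ (cos (a 1) ^ 2) * cos (a 3 + φ a) *
        (sin (a 2) * α 2) +
      c * κ (cos (a 1) ^ 2) * κ (cos (a 2) ^ 2) * sin (a 3 + φ a) * (α 3 + fderiv ℝ φ a α) := by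
  have dκ : Differentiable ℝ κ := hκ.differentiable (by simp)
  have dφ : Differentiable ℝ φ := hφ.differentiable (by simp)
  have dU : Differentiable ℝ (Uf c κ φ) := by
    unfold Uf
    fun_prop
  have k : ∀ i, HasDerivAt (fun t : ℝ => κ (cos ((a + t • α) i) ^ 2))
      (deriv κ (cos (a i) ^ 2) * (2 * cos (a i) * (-sin (a i) * α i))) 0 := fun i => by
    have h1 : HasDerivAt (fun t : ℝ => cos ((a + t • α) i) ^ 2)
        (2 * cos (a i) * (-sin (a i) * α i)) 0 :=
      ((coord a α i).cos.pow 2).congr_deriv (by simp)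
    exact (dκ (cos (a i) ^ 2)).hasDerivAt.comp_of_eq 0 h1 (by simp)
  refine (line (dU a) α).unique ?_
  refine ((((k 1).const_mul c).mul (k 2)).mul
    ((coord a α 3).add (line (dφ a) α)).cos).neg.congr_deriv ?_
  simp only [zero_smul, add_zero, Pi.add_apply, Pi.mul_apply, Pi.zero_apply]
  ring

theorem small {b m k x y z : ℝ} (hb : 1 ≤ b) (hm : m ^ 2 ≤ 13) (hk : |k| ≤ 1 / 40)
    (hx : |x| ≤ 1) (hy : |y| ≤ 1) (hz : |z| ≤ 1) : b + 2 * m * (2 * k * x * y * z) ≠ 0 := by
  have h1 : |m| ≤ 4 := abs_le_of_sq_le_sq' (by linarith) (by norm_num) |> abs_le.2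
  have h2 : |2 * m * (2 * k * x * y * z)| ≤ 2 * 4 * (2 * (1 / 40) * 1 * 1 * 1) := by
    simp only [abs_mul, abs_two]
    gcongr
  have := (abs_le.1 h2).1
  intro h
  linarith

end UVcAux

open UVcAux in
theorem crit_loc (hc : 0 < c) (hκ : ContDiff ℝ ∞ κ) (hφ : ContDiff ℝ ∞ φ)
    (hκ0 : ∀ t, 0 ≤ κ t ∧ κ t ≤ 1) (hκ1 : ∀ᶠ t in 𝓝 (1 : ℝ), κ t = 1)
    (hκ2 : ∀ t, |c * deriv κ t| ≤ 1 / 40) (hφ3 : ∀ a t, φ (a + Pi.single 3 t) = φ a)
    (hv : ContDiff ℝ ∞ v) (hN : ∀ a, ip (v a) (v a) = Nf a)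
    (hz : ∀ a, Nf a = 0 → ∀ p, (∀ α, ip (fderiv ℝ v a α) p = 0) → p = 0)
    {a : R4} {p : R3} (hp : ip p p = 1) (h : Crit (Uf c κ φ) v a p) :
    sin (a 1) = 0 ∧ sin (a 2) = 0 ∧ sin (a 3 + φ a) = 0 ∧ Nf a ≠ 0 ∧ v a = ip (v a) p • p ∧
      (cos (π * a 0) = 0 ∨ (sin (π * a 0) = 0 ∧ cos (a 1) = -1 ∧ cos (a 2) = -1)) := by
  have dv : Differentiable ℝ v := hv.differentiable (by simp)
  have dκ : Differentiable ℝ κ := hκ.differentiable (by simp)
  have dφ : Differentiable ℝ φ := hφ.differentiable (by simp)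
  have k1 : κ 1 = 1 := hκ1.self_of_nhds
  set m := ip (v a) p with hm
  have hvp : v a = m • p := by
    have h1 : ip p (v a - m • p) = 0 := by
      simp only [ip, Prod.fst_sub, Prod.snd_sub, Prod.smul_fst, Prod.smul_snd, Complex.sub_re,
        Complex.sub_im, Complex.smul_re, Complex.smul_im, smul_eq_mul] at hp hm ⊢
      linear_combination (-1) * hm - m * hp
    have h2 := h.1 _ h1
    refine sub_eq_zero.1 (ip_zero ?_)
    simp only [ip, Prod.fst_sub, Prod.snd_sub, Prod.smul_fst, Prod.smul_snd, Complex.sub_re,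
      Complex.sub_im, Complex.smul_re, Complex.smul_im, smul_eq_mul] at h1 h2 ⊢
    linear_combination h2 - m * h1
  have hmN : m ^ 2 = Nf a := by
    rw [← hN, hvp]
    simp only [ip, Prod.smul_fst, Prod.smul_snd, Complex.smul_re, Complex.smul_im,
      smul_eq_mul] at hp ⊢
    linear_combination (-m ^ 2) * hp
  have key : ∀ α : R4, 2 * π * cos (π * a 0) * (sin (π * a 0) + cos (a 2) - cos (a 1)) * α 0 +
      (3 + 2 * sin (π * a 0)) * sin (a 1) * α 1 + (3 - 2 * sin (π * a 0)) * sin (a 2) * α 2 +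
      2 * m * fderiv ℝ (Uf c κ φ) a α = 0 := fun α => by
    have h1 := ip_deriv (line (dv a) α) (line (dv a) α)
    simp only [hN] at h1
    rw [(N_deriv a α).unique h1, zero_smul, add_zero, hvp]
    have h2 := h.2 α
    simp only [ip, Prod.smul_fst, Prod.smul_snd, Complex.smul_re, Complex.smul_im,
      smul_eq_mul] at h2 ⊢
    linear_combination 2 * m * h2
  have e3 : ∀ t : ℝ, a + t • (Pi.single 3 1 : R4) = a + Pi.single 3 t := fun t => by
    rw [← Pi.single_smul, smul_eq_mul, mul_one]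
  have φ3 : fderiv ℝ φ a (Pi.single 3 1) = 0 := by
    refine (line (dφ a) _).unique ?_
    simp only [e3, hφ3]
    exact hasDerivAt_const _ _
  have U3 : fderiv ℝ (Uf c κ φ) a (Pi.single 3 1) =
      c * κ (cos (a 1) ^ 2) * κ (cos (a 2) ^ 2) * sin (a 3 + φ a) := by
    rw [U_deriv hκ hφ, φ3]
    simp
  have s0 := abs_le.1 (abs_sin_le_one (π * a 0))
  have c1 := abs_le.1 (abs_cos_le_one (a 1))
  have c2 := abs_le.1 (abs_cos_le_one (a 2))
  have q1 := sin_sq_add_cos_sq (a 1)
  have q2 := sin_sq_add_cos_sq (a 2)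
  have n1 : 0 ≤ (3 + 2 * sin (π * a 0)) * (1 - cos (a 1)) := by
    apply mul_nonneg <;> linarith
  have n2 : 0 ≤ (3 - 2 * sin (π * a 0)) * (1 - cos (a 2)) := by
    apply mul_nonneg <;> linarith
  have N0 : Nf a ≠ 0 := by
    intro h0
    have h1 := h0
    unfold Nf at h1
    have n0 := sq_nonneg (sin (π * a 0))
    have z1 : cos (a 1) = 1 := by
      have := (mul_eq_zero.1 (le_antisymm (by linarith) n1)).resolve_left (by linarith)
      linarith
    have z2 : cos (a 2) = 1 := by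
      have := (mul_eq_zero.1 (le_antisymm (by linarith) n2)).resolve_left (by linarith)
      linarith
    have y1 : sin (a 1) = 0 := pow_eq_zero_iff two_ne_zero |>.1 (by rw [z1] at q1; linarith)
    have y2 : sin (a 2) = 0 := pow_eq_zero_iff two_ne_zero |>.1 (by rw [z2] at q2; linarith)
    have v3 : fderiv ℝ v a (Pi.single 3 1) = 0 := by
      refine (line (dv a) _).unique ?_
      have : ∀ t : ℝ, v (a + t • (Pi.single 3 1 : R4)) = 0 := fun t => ip_zero (by
        rw [hN, ← h0]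
        simp [Nf])
      simp only [this]
      exact hasDerivAt_const _ _
    have h3 := h.2 (Pi.single 3 1)
    rw [U3, v3, z1, z2, one_pow, k1] at h3
    have y3 : sin (a 3 + φ a) = 0 := by
      have : c * sin (a 3 + φ a) = 0 := by simpa [ip] using h3
      exact (mul_eq_zero.1 this).resolve_left hc.ne'
    have := hz a h0 p fun α => by
      have h4 := h.2 α
      rw [U_deriv hκ hφ, y1, y2, y3] at h4
      simpa using h4
    rw [this] at hp
    simp [ip] at hp
  have m0 : m ≠ 0 := fun e => N0 (by rw [← hmN, e]; simp)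
  have m13 : m ^ 2 ≤ 13 := by
    rw [hmN]
    unfold Nf
    nlinarith
  have dmin : ∀ t, κ t = 0 → deriv κ t = 0 := fun t ht =>
    IsLocalMin.deriv_eq_zero (Filter.Eventually.of_forall fun s => ht.trans_le (hκ0 s).1)
  have y3 : sin (a 3 + φ a) = 0 := by
    have h3 := key (Pi.single 3 1)
    rw [U3] at h3
    have h4 : c * κ (cos (a 1) ^ 2) * κ (cos (a 2) ^ 2) * sin (a 3 + φ a) = 0 := by
      simpa [m0] using h3
    refine (mul_eq_zero.1 h4).resolve_left (mul_ne_zero (mul_ne_zero hc.ne' fun e => ?_) fun e => ?_)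
    · have h5 := key (Pi.single 1 1)
      rw [U_deriv hκ hφ, dmin _ e, e] at h5
      have h6 : (3 + 2 * sin (π * a 0)) * sin (a 1) = 0 := by simpa using h5
      rw [(mul_eq_zero.1 h6).resolve_left (by linarith)] at q1
      rw [show cos (a 1) ^ 2 = 1 by linarith, k1] at e
      exact one_ne_zero e
    · have h5 := key (Pi.single 2 1)
      rw [U_deriv hκ hφ, dmin _ e, e] at h5
      have h6 : (3 - 2 * sin (π * a 0)) * sin (a 2) = 0 := by simpa using h5
      rw [(mul_eq_zero.1 h6).resolve_left (by linarith)] at q2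
      rw [show cos (a 2) ^ 2 = 1 by linarith, k1] at e
      exact one_ne_zero e
  have aκ : ∀ t, |κ t| ≤ 1 := fun t => abs_le.2 ⟨by linarith [(hκ0 t).1], (hκ0 t).2⟩
  have y1 : sin (a 1) = 0 := by
    have h5 := key (Pi.single 1 1)
    rw [U_deriv hκ hφ, y3] at h5
    simp only [Pi.single_eq_same, ne_eq, Fin.reduceEq, not_false_eq_true, Pi.single_eq_of_ne] at h5
    refine (mul_eq_zero.1 ?_).resolve_left (small (b := 3 + 2 * sin (π * a 0)) (by linarith) m13
      (hκ2 (cos (a 1) ^ 2)) (abs_cos_le_one (a 1)) (aκ (cos (a 2) ^ 2))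
      (abs_cos_le_one (a 3 + φ a)))
    linear_combination h5
  have y2 : sin (a 2) = 0 := by
    have h5 := key (Pi.single 2 1)
    rw [U_deriv hκ hφ, y3] at h5
    simp only [Pi.single_eq_same, ne_eq, Fin.reduceEq, not_false_eq_true, Pi.single_eq_of_ne] at h5
    refine (mul_eq_zero.1 ?_).resolve_left (small (b := 3 - 2 * sin (π * a 0)) (by linarith) m13
      (hκ2 (cos (a 2) ^ 2)) (abs_cos_le_one (a 2)) (aκ (cos (a 1) ^ 2))
      (abs_cos_le_one (a 3 + φ a)))
    linear_combination h5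
  refine ⟨y1, y2, y3, N0, hvp, ?_⟩
  have h5 := key (Pi.single 0 1)
  rw [U_deriv hκ hφ, y1, y2, y3] at h5
  have h6 : cos (π * a 0) * (sin (π * a 0) + cos (a 2) - cos (a 1)) = 0 := by
    have : 2 * π * (cos (π * a 0) * (sin (π * a 0) + cos (a 2) - cos (a 1))) = 0 := by
      simp only [Pi.single_eq_same] at h5
      linear_combination h5
    exact (mul_eq_zero.1 this).resolve_left (by positivity)
  refine (mul_eq_zero.1 h6).imp_right fun h7 => ?_
  rcases sin_eq_zero_iff_cos_eq.1 y1 with z1 | z1 <;>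
    rcases sin_eq_zero_iff_cos_eq.1 y2 with z2 | z2
  · exact absurd (by
      unfold Nf
      rw [z1, z2, show sin (π * a 0) = 0 by linarith]
      simp) N0
  · linarith
  · linarith
  · exact ⟨by linarith, z1, z2⟩

end Vale.Agent.P265
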