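import Vale.Agent.P265.UVDef

/-! P265: nondegeneracy of the critical points. -/

open Set Real Topology
open scoped ContDiff

noncomputable section

namespace Vale.Agent.P265

namespace UVnAux

lemma d2 {F : Type} [NormedAddCommGroup F] [NormedSpace ℝ F] {f : R4 → F} (hf : ContDiff ℝ ∞ f)
    (a α α' : R4) : DifferentiableAt ℝ (fun b => fderiv ℝ f b α') a ∧
      fderiv ℝ (fun b => fderiv ℝ f b α') a α = fderiv ℝ (fderiv ℝ f) a α α' := by
  have h : DifferentiableAt ℝ (fderiv ℝ f) a :=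
    ((hf.fderiv_right (m := ∞) (by simp)).differentiable (by simp)) a
  refine ⟨h.clm_apply (differentiableAt_const _), ?_⟩
  rw [fderiv_clm_apply h (differentiableAt_const _)]
  simp

lemma d_ip {f g : R4 → R3} {a : R4} (hf : DifferentiableAt ℝ f a) (hg : DifferentiableAt ℝ g a)
    (α : R4) : fderiv ℝ (fun b => ip (f b) (g b)) a α =
      ip (fderiv ℝ f a α) (g a) + ip (f a) (fderiv ℝ g a α) := by
  have a1 := Complex.reCLM.hasFDerivAt.comp a hf.hasFDerivAt.fst
  have a2 := Complex.imCLM.hasFDerivAt.comp a hf.hasFDerivAt.fst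
  have b1 := Complex.reCLM.hasFDerivAt.comp a hg.hasFDerivAt.fst
  have b2 := Complex.imCLM.hasFDerivAt.comp a hg.hasFDerivAt.fst
  have h : HasFDerivAt (fun b => ip (f b) (g b)) _ a :=
    ((a1.fun_mul b1).fun_add (a2.fun_mul b2)).fun_add (hf.hasFDerivAt.snd.fun_mul hg.hasFDerivAt.snd)
  rw [h.fderiv]
  simp [ip]
  ring

lemma hc (i : Fin 4) (b : R4) :
    HasFDerivAt (fun b : R4 => b i) (ContinuousLinearMap.proj (R := ℝ) (φ := fun _ => ℝ) i) b :=
  hasFDerivAt_apply i b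

lemma dNf (b α : R4) : fderiv ℝ Nf b α =
    π * cos (π * b 0) * (2 * sin (π * b 0) + 2 * (cos (b 2) - cos (b 1))) * α 0 +
      (3 + 2 * sin (π * b 0)) * sin (b 1) * α 1 + (3 - 2 * sin (π * b 0)) * sin (b 2) * α 2 := by
  have s := ((hc 0 b).const_mul π).sin
  have h : HasFDerivAt Nf _ b :=
    ((s.pow 2).fun_add (((s.const_mul 2).const_add 3).fun_mul
      ((hc 1 b).cos.const_sub 1))).fun_add
        (((s.const_mul 2).const_sub 3).fun_mul ((hc 2 b).cos.const_sub 1))
  rw [h.fderiv]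
  simp
  ring

lemma d2Nf {a : R4} (h1 : sin (a 1) = 0) (h2 : sin (a 2) = 0) (α α' : R4) :
    fderiv ℝ (fun b => fderiv ℝ Nf b α') a α =
      π ^ 2 * (2 * cos (π * a 0) ^ 2 -
        sin (π * a 0) * (2 * sin (π * a 0) + 2 * (cos (a 2) - cos (a 1)))) * α 0 * α' 0 +
      (3 + 2 * sin (π * a 0)) * cos (a 1) * α 1 * α' 1 +
        (3 - 2 * sin (π * a 0)) * cos (a 2) * α 2 * α' 2 := by
  simp only [dNf]
  have s := ((hc 0 a).const_mul π).sin
  have k := ((hc 0 a).const_mul π).cos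
  have h := ((((k.const_mul π).fun_mul ((s.const_mul 2).fun_add
    (((hc 2 a).cos.fun_sub (hc 1 a).cos).const_mul 2))).mul_const (α' 0)).fun_add
      ((((s.const_mul 2).const_add 3).fun_mul (hc 1 a).sin).mul_const (α' 1))).fun_add
        ((((s.const_mul 2).const_sub 3).fun_mul (hc 2 a).sin).mul_const (α' 2))
  rw [h.fderiv]
  simp [h1, h2]
  ring

lemma d2cos {ψ : R4 → ℝ} (hψ : ContDiff ℝ ∞ ψ) (c : ℝ) {a : R4} (h : sin (ψ a) = 0) (α α' : R4) :
    fderiv ℝ (fderiv ℝ fun b => -(c * cos (ψ b))) a α α' =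
      c * cos (ψ a) * fderiv ℝ ψ a α * fderiv ℝ ψ a α' := by
  have hd : ∀ b, HasFDerivAt ψ (fderiv ℝ ψ b) b := fun b =>
    ((hψ.differentiable (by simp)) b).hasFDerivAt
  rw [← (d2 (contDiff_const.mul hψ.cos).neg a α α').2]
  have e : (fun b => fderiv ℝ (fun b => -(c * cos (ψ b))) b α') =
      fun b => c * sin (ψ b) * fderiv ℝ ψ b α' := by
    funext b
    rw [((hd b).cos.const_mul c).fun_neg.fderiv]
    simp [mul_assoc]
  rw [e, (((hd a).sin.const_mul c).fun_mul (d2 hψ a α α').1.hasFDerivAt).fderiv]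
  simp [h]
  ring

lemma cos_cases {x : ℝ} (h : sin x = 0) : cos x = 1 ∨ cos x = -1 := by
  have := sin_sq_add_cos_sq x
  rw [h] at this
  exact sq_eq_one_iff.1 (by linarith)

end UVnAux

variable {c : ℝ} {κ : ℝ → ℝ} {φ : R4 → ℝ} {v : R4 → R3}

open UVnAux in
theorem crit_nondeg (hc : 0 < c) (hκ : ContDiff ℝ ∞ κ) (hφ : ContDiff ℝ ∞ φ)
    (hκ1 : ∀ᶠ t in 𝓝 (1 : ℝ), κ t = 1) (hφ3 : ∀ a t, φ (a + Pi.single 3 t) = φ a)
    (hv : ContDiff ℝ ∞ v) (hN : ∀ a, ip (v a) (v a) = Nf a) {a : R4} {p : R3} (hp : ip p p = 1)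
    (h1 : sin (a 1) = 0) (h2 : sin (a 2) = 0) (h3 : sin (a 3 + φ a) = 0) (h4 : Nf a ≠ 0)
    (h5 : v a = ip (v a) p • p)
    (h6 : cos (π * a 0) = 0 ∨ (sin (π * a 0) = 0 ∧ cos (a 1) = -1 ∧ cos (a 2) = -1)) :
    NondegUV (Uf c κ φ) v a p := by
  have _ := And.intro hκ hp
  intro α η hη hA hB
  obtain ⟨m, hm⟩ : ∃ m, ip (v a) p = m := ⟨_, rfl⟩
  rw [hm] at h5 hB
  have hm0 : m ≠ 0 := by
    rintro rfl
    refine h4 ?_
    rw [← hN, h5]
    simp [ip]
  have dv : ∀ b, DifferentiableAt ℝ v b := hv.differentiable (by simp)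
  have hNf : Nf = fun b => ip (v b) (v b) := funext fun b => (hN b).symm
  have e1 : ∀ b β, fderiv ℝ Nf b β = 2 * ip (fderiv ℝ v b β) (v b) := by
    intro b β
    rw [hNf, d_ip (dv b) (dv b)]
    simp only [ip]; ring
  have e2 : ∀ β, fderiv ℝ (fun b => fderiv ℝ Nf b β) a α =
      2 * (ip (fderiv ℝ (fderiv ℝ v) a α β) (v a) + ip (fderiv ℝ v a β) (fderiv ℝ v a α)) := by
    intro β
    have e : (fun b => fderiv ℝ Nf b β) = fun b => ip (fderiv ℝ v b β) ((2 : ℝ) • v b) := by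
      funext b
      rw [e1]
      simp only [ip, Prod.smul_fst, Prod.smul_snd, Complex.smul_re, Complex.smul_im, smul_eq_mul]
      ring
    rw [e, d_ip (d2 hv a α β).1 ((dv a).fun_const_smul 2), (d2 hv a α β).2,
      fderiv_fun_const_smul (dv a)]
    simp only [ip, Prod.smul_fst, Prod.smul_snd, Complex.smul_re, Complex.smul_im, smul_eq_mul,
      smul_apply]
    ring
  have e3 : ip (fderiv ℝ v a α) p = 0 := by
    have h := e1 a α
    rw [dNf, h1, h2, h5] at h
    have h' : π * cos (π * a 0) * (2 * sin (π * a 0) + 2 * (cos (a 2) - cos (a 1))) = 0 := by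
      rcases h6 with h6 | ⟨h6, h7, h8⟩
      · simp [h6]
      · simp [h6, h7, h8]
    rw [h'] at h
    refine mul_left_cancel₀ hm0 ?_
    simp only [ip, Prod.smul_fst, Prod.smul_snd, Complex.smul_re, Complex.smul_im,
      smul_eq_mul] at h ⊢
    linarith
  have e4 : fderiv ℝ v a α = m • η := by
    generalize fderiv ℝ v a α = w at hB e3
    have h := hB (w - m • η) (by
      simp only [ip, Prod.smul_fst, Prod.smul_snd, Complex.smul_re, Complex.smul_im, smul_eq_mul,
        Prod.fst_sub, Prod.snd_sub, Complex.sub_re, Complex.sub_im] at e3 hη ⊢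
      linear_combination e3 - m * hη)
    simp only [ip, Prod.smul_fst, Prod.smul_snd, Complex.smul_re, Complex.smul_im, smul_eq_mul,
      Prod.fst_sub, Prod.snd_sub, Complex.sub_re, Complex.sub_im] at h
    have h' : (w.1.re - m * η.1.re) ^ 2 + (w.1.im - m * η.1.im) ^ 2 + (w.2 - m * η.2) ^ 2 = 0 := by
      linear_combination h
    have s1 := sq_nonneg (w.1.re - m * η.1.re)
    have s2 := sq_nonneg (w.1.im - m * η.1.im)
    have s3 := sq_nonneg (w.2 - m * η.2)
    refine Prod.ext (Complex.ext ?_ ?_) ?_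
    · exact sub_eq_zero.1 (pow_eq_zero_iff two_ne_zero |>.1 (by
        simp only [Prod.smul_fst, Complex.smul_re, smul_eq_mul]; linarith))
    · exact sub_eq_zero.1 (pow_eq_zero_iff two_ne_zero |>.1 (by
        simp only [Prod.smul_fst, Complex.smul_im, smul_eq_mul]; linarith))
    · exact sub_eq_zero.1 (pow_eq_zero_iff two_ne_zero |>.1 (by
        simp only [Prod.smul_snd, smul_eq_mul]; linarith))
  let ψ : R4 → ℝ := fun b => b 3 + φ b
  have hψ : ContDiff ℝ ∞ ψ := (contDiff_apply ℝ ℝ 3).add hφ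
  have hU : Uf c κ φ =ᶠ[𝓝 a] fun b => -(c * cos (ψ b)) := by
    have t : ∀ i : Fin 4, sin (a i) = 0 → ∀ᶠ b : R4 in 𝓝 a, κ (cos (b i) ^ 2) = 1 := by
      intro i hi
      have hcont : Continuous fun b : R4 => cos (b i) ^ 2 := by fun_prop
      have h := hcont.tendsto a
      rw [show cos (a i) ^ 2 = 1 by rcases cos_cases hi with h | h <;> simp [h]] at h
      exact h.eventually hκ1
    filter_upwards [t 1 h1, t 2 h2] with b b1 b2
    simp [Uf, b1, b2, ψ]
  have e5 : ∀ β, 2 * m * (c * cos (ψ a) * fderiv ℝ ψ a α * fderiv ℝ ψ a β) +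
      fderiv ℝ (fun b => fderiv ℝ Nf b β) a α = 0 := by
    intro β
    have h := hA β
    rw [hU.fderiv.fderiv_eq, d2cos hψ c h3] at h
    rw [e2, e4, h5]
    simp only [ip, Prod.smul_fst, Prod.smul_snd, Complex.smul_re, Complex.smul_im,
      smul_eq_mul] at h ⊢
    linear_combination 2 * m * h
  have e6 : fderiv ℝ ψ a (Pi.single 3 1) = 1 := by
    have h : HasDerivAt (fun t : ℝ => ψ (a + t • Pi.single 3 1)) _ 0 :=
      ((hψ.differentiable (by simp)) a).hasFDerivAt.hasLineDerivAt (Pi.single 3 1)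
    have e : (fun t : ℝ => ψ (a + t • Pi.single 3 1)) = fun t => t + ψ a := by
      funext t
      rw [← Pi.single_smul', smul_eq_mul, mul_one]
      simp only [ψ, hφ3, Pi.add_apply, Pi.single_eq_same]
      ring
    rw [e] at h
    exact h.unique ((hasDerivAt_id' (0 : ℝ)).add_const _)
  have e7 : fderiv ℝ ψ a α = 0 := by
    have h := e5 (Pi.single 3 1)
    rw [d2Nf h1 h2, e6] at h
    have hcs : cos (ψ a) ≠ 0 := by rcases cos_cases h3 with h | h <;> simp [ψ, h]
    simpa [hm0, hc.ne', hcs] using h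
  simp only [e7, d2Nf h1 h2, mul_zero, zero_mul, zero_add] at e5
  have s1 := sin_le_one (π * a 0)
  have s2 := neg_one_le_sin (π * a 0)
  have a0 : α 0 = 0 := by
    have h := e5 (Pi.single 0 1)
    have hne : 2 * cos (π * a 0) ^ 2 -
        sin (π * a 0) * (2 * sin (π * a 0) + 2 * (cos (a 2) - cos (a 1))) ≠ 0 := by
      have s3 := sin_sq_add_cos_sq (π * a 0)
      rcases h6 with h6 | ⟨h6, -, -⟩
      · rw [h6] at s3 ⊢
        have s4 : sin (π * a 0) = 1 ∨ sin (π * a 0) = -1 :=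
          sq_eq_one_iff.1 (by linarith)
        rcases s4 with s4 | s4 <;> rcases cos_cases h1 with s5 | s5 <;>
          rcases cos_cases h2 with s6 | s6 <;> rw [s4, s5, s6] <;> norm_num
      · rw [h6] at s3 ⊢
        intro h0
        linarith
    simpa [hne, pi_ne_zero] using h
  have a1 : α 1 = 0 := by
    have h := e5 (Pi.single 1 1)
    have n1 : 3 + 2 * sin (π * a 0) ≠ 0 := by linarith
    have n2 : cos (a 1) ≠ 0 := by rcases cos_cases h1 with h | h <;> simp [h]
    simpa [n1, n2] using h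
  have a2 : α 2 = 0 := by
    have h := e5 (Pi.single 2 1)
    have n1 : 3 - 2 * sin (π * a 0) ≠ 0 := by linarith
    have n2 : cos (a 2) ≠ 0 := by rcases cos_cases h2 with h | h <;> simp [h]
    simpa [n1, n2] using h
  have e8 : α = α 3 • Pi.single 3 1 := by
    funext i
    fin_cases i <;> simp [a0, a1, a2]
  have a3 : α 3 = 0 := by
    rw [e8, map_smul, e6] at e7
    simpa using e7
  have hα : α = 0 := by rw [e8, a3, zero_smul]
  refine ⟨hα, ?_⟩
  rw [hα, map_zero] at e4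
  exact (smul_eq_zero.1 e4.symm).resolve_left hm0

end Vale.Agent.P265
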