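import Vale.Agent.P265.UVv
import Vale.Agent.P265.UVc
import Vale.Agent.P265.UVn

/-! P265: twenty critical points; reduction to stereographic charts. -/

open Set Real Topology
open scoped ContDiff

noncomputable section

namespace Vale.Agent.P265

namespace UVdAux

/-- The base points of the critical circles. -/
def bp : Fin 5 → R4 :=
  ![![1 / 2, 0, 0, 0], ![1 / 2, π, 0, 0], ![1 / 2, 0, π, 0], ![1 / 2, π, π, 0], ![0, π, π, 0]]

theorem sin_cases {t : ℝ} (ht : t ∈ Ico 0 (2 * π)) (h : sin t = 0) : t = 0 ∨ t = π := by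
  have h0 := pi_pos
  rcases ht.1.eq_or_lt with h1 | h1
  · exact Or.inl h1.symm
  · have h2 : sin (t - π) = 0 := by rw [sin_sub_pi, h, neg_zero]
    have h3 := (sin_eq_zero_iff_of_lt_of_lt (by linarith) (by linarith [ht.2])).1 h2
    exact Or.inr (by linarith)

theorem cos_neg {t : ℝ} (ht : t ∈ Ico 0 (2 * π)) (h : sin t = 0) (h1 : cos t = -1) : t = π := by
  rcases sin_cases ht h with h2 | h2
  · rw [h2, cos_zero] at h1
    norm_num at h1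
  · exact h2

theorem half {t : ℝ} (ht : t ∈ Ico (0 : ℝ) 1) (h : cos (π * t) = 0) : t = 1 / 2 := by
  have h0 := pi_pos
  have h1 := mul_nonneg h0.le ht.1
  have h2 := mul_lt_mul_of_pos_left ht.2 h0
  have h3 : sin (π * t - π / 2) = 0 := by rw [sin_sub_pi_div_two, h, neg_zero]
  have h4 := (sin_eq_zero_iff_of_lt_of_lt (by linarith) (by linarith)).1 h3
  exact mul_left_cancel₀ h0.ne' (by linarith)

theorem zero {t : ℝ} (ht : t ∈ Ico (0 : ℝ) 1) (h : sin (π * t) = 0) : t = 0 := by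
  have h0 := pi_pos
  have h1 := mul_nonneg h0.le ht.1
  have h2 := mul_lt_mul_of_pos_left ht.2 h0
  have h4 := (sin_eq_zero_iff_of_lt_of_lt (by linarith) (by linarith)).1 h
  exact (mul_eq_zero.1 h4).resolve_left h0.ne'

theorem coord (a : R4) : a = ![a 0, a 1, a 2, 0] + Pi.single 3 (a 3) := by
  funext i
  fin_cases i <;> simp

theorem base {a : R4} (h0 : a 0 ∈ Ico (0 : ℝ) 1) (h1 : a 1 ∈ Ico 0 (2 * π))
    (h2 : a 2 ∈ Ico 0 (2 * π)) (s1 : sin (a 1) = 0) (s2 : sin (a 2) = 0)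
    (h6 : cos (π * a 0) = 0 ∨ (sin (π * a 0) = 0 ∧ cos (a 1) = -1 ∧ cos (a 2) = -1)) :
    ∃ j, a = bp j + Pi.single 3 (a 3) := by
  have e := coord a
  generalize a 3 = t at e ⊢
  rcases h6 with h | ⟨h, h', h''⟩
  · rw [half h0 h] at e
    rcases sin_cases h1 s1 with e1 | e1 <;> rcases sin_cases h2 s2 with e2 | e2 <;>
      rw [e1, e2] at e
    exacts [⟨0, e⟩, ⟨2, e⟩, ⟨1, e⟩, ⟨3, e⟩]
  · rw [zero h0 h, cos_neg h1 s1 h', cos_neg h2 s2 h''] at e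
    exact ⟨4, e⟩

theorem per_int {β : Type} {f : R4 → β} (hf : Ginv f) (a : R4) (t : ℝ) (m : ℤ) :
    f (a + Pi.single 3 (t + m * (2 * π))) = f (a + Pi.single 3 t) := by
  have h : Function.Periodic (fun s : ℝ => f (a + Pi.single 3 s)) (2 * π) := fun s => by
    have := hf.2 2 (a + Pi.single 3 s)
    beta_reduce
    rw [Pi.single_add, ← add_assoc]
    exact this
  exact h.int_mul m t

theorem cos_sq {t : ℝ} (h : sin t = 0) : cos t ^ 2 = 1 := by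
  have := sin_sq_add_cos_sq t
  rw [h] at this
  linarith

/-- The invariant description of the critical circles. -/
def PP (u : R4 → ℝ) (c : ℝ) (a : R4) : Prop :=
  sin (a 1) = 0 ∧ sin (a 2) = 0 ∧ u a ^ 2 = c ^ 2 ∧
    (cos (π * a 0) = 0 ∨ (sin (π * a 0) = 0 ∧ cos (a 1) = -1 ∧ cos (a 2) = -1))

theorem PP_ginv {u : R4 → ℝ} (hu : Ginv u) (c : ℝ) : Ginv (PP u c) := by
  refine ⟨fun a => ?_, fun i a => ?_⟩
  · have e0 : π * sh a 0 = π * a 0 - π := by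
      change π * (a 0 - 1) = _
      ring
    have e1 : sh a 1 = a 2 := rfl
    have e2 : sh a 2 = a 1 := rfl
    unfold PP
    rw [hu.1, e0, e1, e2, sin_sub_pi, cos_sub_pi, neg_eq_zero, neg_eq_zero]
    exact propext (by tauto)
  · unfold PP
    rw [hu.2]
    fin_cases i <;> simp

theorem Uf_sq {c : ℝ} {κ : ℝ → ℝ} {φ : R4 → ℝ} (hκ : κ 1 = 1) {a : R4} (s1 : sin (a 1) = 0)
    (s2 : sin (a 2) = 0) : Uf c κ φ a ^ 2 = c ^ 2 * cos (a 3 + φ a) ^ 2 := by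
  rw [Uf, cos_sq s1, cos_sq s2, hκ]
  ring

theorem Uf_smooth (c : ℝ) {κ : ℝ → ℝ} {φ : R4 → ℝ} (hκ : ContDiff ℝ ∞ κ) (hφ : ContDiff ℝ ∞ φ) :
    ContDiff ℝ ∞ (Uf c κ φ) := by
  unfold Uf
  fun_prop

/-- The critical points in the base. -/
def pt (φ : R4 → ℝ) (j : Fin 5) (e : Bool) : R4 :=
  bp j + Pi.single 3 ((if e then π else 0) - φ (bp j))

theorem rel_pt {c : ℝ} {κ : ℝ → ℝ} {φ : R4 → ℝ} (hc : 0 < c) (hκ : κ 1 = 1)
    (hφ3 : ∀ a t, φ (a + Pi.single 3 t) = φ a) (hG : Ginv (Uf c κ φ)) {a : R4}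
    (h : PP (Uf c κ φ) c a) : ∃ j e, Rel a (pt φ j e) := by
  obtain ⟨a', h1, h2, h3⟩ := rel_fund a
  rw [h1 _ _ (PP_ginv hG c)] at h
  obtain ⟨s1, s2, s3, s4⟩ := h
  obtain ⟨j, hj⟩ := base h2 (h3 0) (h3 1) s1 s2 s4
  rw [Uf_sq hκ s1 s2] at s3
  have s5 : cos (a' 3 + φ a') ^ 2 = 1 :=
    mul_left_cancel₀ (pow_pos hc 2).ne' (by rw [s3, mul_one])
  have s6 : sin (a' 3 + φ a') = 0 := by
    have := sin_sq_add_cos_sq (a' 3 + φ a')
    exact pow_eq_zero_iff two_ne_zero |>.1 (by linarith)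
  have s7 : φ a' = φ (bp j) := by rw [hj, hφ3]
  obtain ⟨k, hk⟩ := sin_eq_zero_iff.1 s6
  rw [s7] at hk
  obtain ⟨m, hm | hm⟩ := Int.even_or_odd' k
  · refine ⟨j, false, fun β f hf => (h1 β f hf).trans ?_⟩
    have e : a' 3 = (0 - φ (bp j)) + m * (2 * π) := by
      rw [hm] at hk
      push_cast at hk
      linarith
    rw [hj, e, per_int hf]
    rfl
  · refine ⟨j, true, fun β f hf => (h1 β f hf).trans ?_⟩
    have e : a' 3 = (π - φ (bp j)) + m * (2 * π) := by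
      rw [hm] at hk
      push_cast at hk
      linarith
    rw [hj, e, per_int hf]
    rfl

theorem dir_eq {x p : R3} {N : ℝ} (hp : ip p p = 1) (hN : ip x x = N) (h0 : N ≠ 0)
    (h : x = ip x p • p) : ∃ s : Bool, p = ((if s then 1 else -1) * (√N)⁻¹) • x := by
  generalize ip x p = l at h
  rw [h, UVvAux.ip_smul, hp, mul_one] at hN
  have hl : l ≠ 0 := fun h1 => h0 (by rw [← hN, h1, mul_zero])
  rw [← hN, sqrt_mul_self_eq_abs, h]
  rcases lt_or_gt_of_ne hl with h1 | h1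
  · refine ⟨false, ?_⟩
    rw [abs_of_neg h1, smul_smul, if_neg Bool.false_ne_true, inv_neg, neg_mul_neg, one_mul,
      inv_mul_cancel₀ hl, one_smul]
  · refine ⟨true, ?_⟩
    rw [abs_of_pos h1, smul_smul, if_pos rfl, one_mul, inv_mul_cancel₀ hl, one_smul]

end UVdAux

open UVdAux in
theorem exists_uv : ∃ (u : R4 → ℝ) (v : R4 → R3) (S : Finset (R4 × R3)), ContDiff ℝ ∞ u ∧
    ContDiff ℝ ∞ v ∧ Ginv u ∧ Ginv v ∧ S.card ≤ 20 ∧ ∀ a p, ip p p = 1 → Crit u v a p →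
      (∃ a', Rel a a' ∧ (a', p) ∈ S) ∧ NondegUV u v a p := by
  classical
  obtain ⟨c, κ, φ, hc, hκ, hφ, hκ0, hκ1, hκ2, hφ3, hG⟩ := exists_u
  obtain ⟨v, hv, hvG, hN, hz⟩ := exists_v
  refine ⟨Uf c κ φ, v, Finset.univ.image fun x : Fin 5 × Bool × Bool => (pt φ x.1 x.2.1,
    ((if x.2.2 then 1 else -1) * (√(Nf (pt φ x.1 x.2.1)))⁻¹) • v (pt φ x.1 x.2.1)),
    Uf_smooth c hκ hφ, hv, hG, hvG, Finset.card_image_le.trans (by simp), fun a p hp h => ?_⟩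
  obtain ⟨h1, h2, h3, h4, h5, h6⟩ := crit_loc hc hκ hφ hκ0 hκ1 hκ2 hφ3 hv hN hz hp h
  refine ⟨?_, crit_nondeg hc hκ hφ hκ1 hφ3 hv hN hp h1 h2 h3 h4 h5 h6⟩
  obtain ⟨j, e, hr⟩ := rel_pt hc hκ1.self_of_nhds hφ3 hG (a := a)
    ⟨h1, h2, by rw [Uf_sq hκ1.self_of_nhds h1 h2, cos_sq h3, mul_one], h6⟩
  obtain ⟨s, hs⟩ := dir_eq hp (hN a) h4 h5
  rw [hr _ v hvG, hr _ Nf Nf_ginv] at hs
  exact ⟨_, hr, Finset.mem_image.2 ⟨(j, e, s), Finset.mem_univ _, Prod.ext rfl hs.symm⟩⟩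

end Vale.Agent.P265
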