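import Vale.Agent.P265.UVb

/-! P265: the field with prescribed norm. -/

open Set Real Topology
open scoped ContDiff

noncomputable section

namespace Vale.Agent.P265

namespace UVvAux

theorem ip_smul (s t : ℝ) (p q : R3) : ip (s • p) (t • q) = s * t * ip p q := by
  simp only [ip, Prod.smul_fst, Prod.smul_snd, Complex.smul_re, Complex.smul_im, smul_eq_mul]
  ring

theorem ip_nonneg (p : R3) : 0 ≤ ip p p :=
  add_nonneg (add_nonneg (mul_self_nonneg _) (mul_self_nonneg _)) (mul_self_nonneg _)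

theorem ip_zero {p : R3} (h : ip p p = 0) : p = 0 := by
  have h1 := mul_self_nonneg p.1.re
  have h2 := mul_self_nonneg p.1.im
  have h3 := mul_self_nonneg p.2
  unfold ip at h
  refine Prod.ext (Complex.ext ?_ ?_) ?_
  · exact mul_self_eq_zero.1 (by linarith)
  · exact mul_self_eq_zero.1 (by linarith)
  · exact mul_self_eq_zero.1 (by linarith)

theorem Nf_ge (a : R4) : sin (π * a 0) ^ 2 ≤ Nf a := by
  have h1 := neg_one_le_sin (π * a 0)
  have h2 := sin_le_one (π * a 0)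
  have h3 : 0 ≤ (3 + 2 * sin (π * a 0)) * (1 - cos (a 1)) :=
    mul_nonneg (by linarith) (sub_nonneg.2 (cos_le_one _))
  have h4 : 0 ≤ (3 - 2 * sin (π * a 0)) * (1 - cos (a 2)) :=
    mul_nonneg (by linarith) (sub_nonneg.2 (cos_le_one _))
  unfold Nf
  linarith

theorem Nf_nonneg (a : R4) : 0 ≤ Nf a := (sq_nonneg _).trans (Nf_ge a)

theorem Nf_smooth : ContDiff ℝ ∞ Nf := by
  unfold Nf
  fun_prop

theorem ip_smooth {w : R4 → R3} (hw : ContDiff ℝ ∞ w) : ContDiff ℝ ∞ fun a => ip (w a) (w a) := by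
  have h1 : ContDiff ℝ ∞ fun a => (w a).1.re := Complex.reCLM.contDiff.comp hw.fst
  have h2 : ContDiff ℝ ∞ fun a => (w a).1.im := Complex.imCLM.contDiff.comp hw.fst
  exact ((h1.mul h1).add (h2.mul h2)).add (hw.snd.mul hw.snd)

theorem zero_of_Nf {a : R4} (h : a 0 ∈ Icc (-1 / 2 : ℝ) (1 / 2)) (h0 : Nf a = 0) : a 0 = 0 := by
  have h1 : sin (π * a 0) = 0 :=
    pow_eq_zero_iff two_ne_zero |>.1 (le_antisymm ((Nf_ge a).trans h0.le) (sq_nonneg _))
  have h2 := mul_le_mul_of_nonneg_left h.1 pi_pos.le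
  have h3 := mul_le_mul_of_nonneg_left h.2 pi_pos.le
  have h4 := pi_pos
  have h5 := (sin_eq_zero_iff_of_lt_of_lt (by linarith) (by linarith)).1 h1
  exact (mul_eq_zero.1 h5).resolve_left pi_ne_zero

theorem exists_w : ∃ w : R4 → R3, ContDiff ℝ ∞ w ∧ Ginv w ∧ ∀ a : R4, (Nf a ≠ 0 → w a ≠ 0) ∧
    (Nf a = 0 → (∀ᶠ b in 𝓝 a, ip (w b) (w b) = Nf b) ∧
      ∀ p, (∀ α, ip (fderiv ℝ w a α) p = 0) → p = 0) := by
  obtain ⟨w₀, hw₀, hp, hs, H⟩ := exists_w0
  obtain ⟨w, hw, hG, he⟩ := descent hw₀ hp hs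
  refine ⟨w, hw, hG, fun a => ?_⟩
  obtain ⟨T, b, h1, h2⟩ := rel_fund' a
  have ew : ∀ a', w a' = w (T a' + b) := fun a' => h2 a' _ w hG
  have eN : ∀ a', Nf a' = Nf (T a' + b) := fun a' => h2 a' _ Nf Nf_ginv
  obtain ⟨H1, H2⟩ := H (T a + b) h1.1 h1.2
  refine ⟨fun h => ?_, fun h => ?_⟩
  · rw [ew, he _ h1.1 h1.2]
    exact H1 (by rwa [← eN])
  · have h0 : Nf (T a + b) = 0 := by rwa [← eN]
    obtain ⟨H3, H4⟩ := H2 h0
    have hz := zero_of_Nf h1 h0
    have hev : w =ᶠ[𝓝 (T a + b)] w₀ := by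
      have hc : ContinuousAt (fun x : R4 => x 0) (T a + b) := (continuous_apply 0).continuousAt
      have h3 : Icc (-1 / 2 : ℝ) (1 / 2) ∈ 𝓝 ((T a + b) 0) := by
        rw [hz]
        exact Icc_mem_nhds (by norm_num) (by norm_num)
      filter_upwards [hc.eventually_mem h3] with x hx using he x hx.1 hx.2
    have hT : HasFDerivAt (fun x : R4 => T x + b) (T : R4 →L[ℝ] R4) a :=
      T.hasFDerivAt.add_const b
    refine ⟨?_, fun p hp => H4 p fun α => ?_⟩
    · filter_upwards [hT.continuousAt.eventually H3, hT.continuousAt.eventually hev] with x h3 h4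
      rw [ew x, eN x, h4, h3]
    · have h3 : HasFDerivAt w₀ (fderiv ℝ w₀ (T a + b)) (T a + b) :=
        ((hw₀.differentiable (by simp)) _).hasFDerivAt
      have h4 := (h3.congr_of_eventuallyEq hev).comp a hT
      have h5 : (w ∘ fun x : R4 => T x + b) = w := funext fun x => (ew x).symm
      rw [h5] at h4
      have h6 := hp (T.symm α)
      rw [h4.fderiv] at h6
      simpa using h6

end UVvAux

open UVvAux in
theorem exists_v : ∃ v : R4 → R3, ContDiff ℝ ∞ v ∧ Ginv v ∧ (∀ a, ip (v a) (v a) = Nf a) ∧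
    ∀ a, Nf a = 0 → ∀ p, (∀ α, ip (fderiv ℝ v a α) p = 0) → p = 0 := by
  obtain ⟨w, hw, hG, H⟩ := exists_w
  have hev : ∀ a, Nf a = 0 →
      (fun b => (√(Nf b) / √(ip (w b) (w b))) • w b) =ᶠ[𝓝 a] w := fun a h => by
    filter_upwards [((H a).2 h).1] with b hb
    by_cases h0 : ip (w b) (w b) = 0
    · rw [ip_zero h0, smul_zero]
    · rw [← hb, div_self (sqrt_ne_zero (ip_nonneg _) |>.2 h0), one_smul]
  refine ⟨fun b => (√(Nf b) / √(ip (w b) (w b))) • w b, contDiff_iff_contDiffAt.2 fun a => ?_,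
    ⟨fun a => ?_, fun i a => ?_⟩, fun a => ?_, fun a h p hp => ?_⟩
  · by_cases h : Nf a = 0
    · exact hw.contDiffAt.congr_of_eventuallyEq (hev a h)
    · have h0 : ip (w a) (w a) ≠ 0 := fun h1 => (H a).1 h (ip_zero h1)
      exact ((Nf_smooth.contDiffAt.sqrt h).div ((ip_smooth hw).contDiffAt.sqrt h0)
        (sqrt_ne_zero (ip_nonneg _) |>.2 h0)).smul hw.contDiffAt
  · simp only [hG.1 a, Nf_ginv.1 a]
  · simp only [hG.2 i a, Nf_ginv.2 i a]
  · by_cases h : Nf a = 0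
    · rw [(hev a h).self_of_nhds]
      exact ((H a).2 h).1.self_of_nhds
    · have h0 : ip (w a) (w a) ≠ 0 := fun h1 => (H a).1 h (ip_zero h1)
      rw [ip_smul, div_mul_div_comm, mul_self_sqrt (Nf_nonneg a), mul_self_sqrt (ip_nonneg _),
        div_mul_cancel₀ _ h0]
  · rw [(hev a h).fderiv_eq] at hp
    exact ((H a).2 h).2 p hp

end Vale.Agent.P265
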