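import Vale.Agent.P265.ODEb

/-! P265: a Hamiltonian involution followed by a short invariant flow. -/

open Set Metric Topology Filter
open scoped Manifold ContDiff NNReal

noncomputable section

namespace Vale.Agent.P265

variable {E : Type} [NormedAddCommGroup E] [NormedSpace ℝ E] [FiniteDimensional ℝ E]
  {M : Type} [TopologicalSpace M] [T2Space M] {ι : Type} [Finite ι] (A : Params E M ι)

theorem upper_abs {G K : M → ℝ} (hG : ∀ i, ContDiff ℝ ∞ (G ∘ A.P i))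
    (hK : ∀ i, ContDiff ℝ ∞ (K ∘ A.P i)) {r : ℝ} (hr : ∀ x, ∃ i y, ‖y‖ ≤ r ∧ A.P i y = x)
    (J : E →L[ℝ] E) (hJ : ∀ v, J (J v) = v) (hJn : ∀ v, ‖J v‖ = ‖v‖)
    (hΩ : ∀ i y a b, A.Ω i (J y) (J a) (J b) = A.Ω i y a b)
    (hGJ : ∀ i y, G (A.P i (J y)) = G (A.P i y))
    (hinj : ∀ i y y', A.P i (J y') = A.P i y → ‖y' - y‖ < 1 → J y' = y)
    (R : ℝ → M → M) (ρ : ι → ℝ → E → E) (hR : ∀ i s y, R s (A.P i y) = A.P i (ρ i s y))
    (hρ0 : ∀ i y, ρ i 0 y = y) (hρ1 : ∀ i y, ρ i 1 y = J y)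
    (hρ : ∀ i s y, ∃ d, HasDerivAt (fun s => ρ i s y) d s ∧
      ∀ b, A.Ω i (ρ i s y) d b = fderiv ℝ (K ∘ A.P i) (ρ i s y) b) :
    letI := A.cs
    ∃ (H : ℝ → M → ℝ) (φ : ℝ → M → M),
      ContMDiff (𝓘(ℝ, ℝ).prod 𝓘(ℝ, E)) 𝓘(ℝ, ℝ) ∞ (Function.uncurry H) ∧
      (∀ t x, H (t + 1) x = H t x) ∧ IsHamFlow E A.form H φ ∧
      ∀ x, φ 1 x = x → ∃ i y, A.P i y = x ∧ J y = y ∧ fderiv ℝ (G ∘ A.P i) y = 0 ∧
        ((∀ v, J v = v → (∀ w, fderiv ℝ (fderiv ℝ (G ∘ A.P i)) y v w = 0) → v = 0) →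
          NondegAt E (φ 1) x) := by
  obtain ⟨V, hV, hVe⟩ := exists_field A hG
  obtain ⟨ε₀, L, hε₀, hL, hfl⟩ := flow_exists (fun i => (hV i).of_le (by simp)) r
  obtain ⟨ε, hε, hε1, hε2⟩ : ∃ ε : ℝ, 0 < ε ∧ ε < ε₀ ∧ 4 * L * ε < 1 := by
    have h1 : (0 : ℝ) < 4 * L + 1 := by positivity
    refine ⟨min (ε₀ / 2) (1 / (4 * L + 1)), lt_min (half_pos hε₀) (by positivity),
      (min_le_left _ _).trans_lt (half_lt_self hε₀),
      (mul_le_mul_of_nonneg_left (min_le_right _ _) (by positivity)).trans_lt ?_⟩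
    rw [mul_one_div, div_lt_one h1]
    linarith
  choose ix yx hy hP using hr
  choose! al al0 hal using hfl
  obtain ⟨b₁, b₂, β₁, β₂, s1, s2, p1, p2, z1, z2, o1, o2, m1, hb⟩ := exists_bumps
  have hy1 : ∀ x, yx x ∈ closedBall (0 : E) (r + 1) := fun x =>
    mem_closedBall_zero_iff.2 ((hy x).trans (by linarith))
  have sub : ∀ t ∈ Icc (0 : ℝ) ε, t ∈ Ioo (-ε₀) ε₀ := fun t ht =>
    ⟨by linarith [ht.1], ht.2.trans_lt hε1⟩
  have bd : ∀ i, ∀ y ∈ closedBall (0 : E) (r + 1), ∀ t ∈ Icc (0 : ℝ) ε, ‖al i y t‖ ≤ r + 2 :=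
    fun i y h t ht => by
      linarith [norm_le_norm_sub_add (al i y t) y, (hal i y h t (sub t ht)).1,
        mem_closedBall_zero_iff.1 h]
  have dG : ∀ i y, DifferentiableAt ℝ (G ∘ A.P i) y := fun i y =>
    (hG i).differentiable (by simp) y
  have dK : ∀ i y, DifferentiableAt ℝ (K ∘ A.P i) y := fun i y =>
    (hK i).differentiable (by simp) y
  have inv : ∀ i y, V i (J y) = J (V i y) := fun i y => by
    refine sub_eq_zero.1 (A.nondeg i (J y) _ fun b => ?_)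
    have e : (G ∘ A.P i) ∘ J = G ∘ A.P i := funext (hGJ i)
    have h1 := ((dG i (J y)).hasFDerivAt.comp y J.hasFDerivAt).fderiv
    rw [e] at h1
    rw [← hJ b, map_sub, sub_apply, hΩ, hVe, hVe, h1]
    exact sub_self _
  let := A.cs
  refine ⟨fun t x => β₁ t * ε * G x + β₂ t * K x,
    fun t x => A.P (ix x) (ρ (ix x) (b₂ t) (al (ix x) (yx x) (ε * b₁ t))),
    A.contMDiff_time fun i => (((s1.comp contDiff_fst).mul contDiff_const).mul
      ((hG i).comp contDiff_snd)).add ((s2.comp contDiff_fst).mul ((hK i).comp contDiff_snd)),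
    fun t x => by simp only [p1, p2],
    ⟨fun x => by simp only [z1, z2, mul_zero, hρ0, al0 _ _ (hy1 x), hP],
    fun x t ht => ?_⟩, fun x hx => ?_⟩
  · obtain ⟨d1, d2, h⟩ := hb t ht
    have hg : ∀ j, ContDiff ℝ ∞ ((fun x => β₁ t * ε * G x + β₂ t * K x) ∘ A.P j) := fun j =>
      (contDiff_const.mul (hG j)).add (contDiff_const.mul (hK j))
    have fd : ∀ j z b, fderiv ℝ ((fun x => β₁ t * ε * G x + β₂ t * K x) ∘ A.P j) z b =
        β₁ t * ε * fderiv ℝ (G ∘ A.P j) z b + β₂ t * fderiv ℝ (K ∘ A.P j) z b := fun j z b => by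
      have := (((dG j z).hasFDerivAt.const_mul (β₁ t * ε)).add
        ((dK j z).hasFDerivAt.const_mul (β₂ t))).fderiv
      exact congrArg (fun T : E →L[ℝ] ℝ => T b) this
    rcases h with ⟨h1, h2⟩ | ⟨h1, h2⟩
    · have mt : ε * b₁ t ∈ Icc (0 : ℝ) ε :=
        ⟨mul_nonneg hε.le (m1 t).1, mul_le_of_le_one_right hε.le (m1 t).2⟩
      refine A.ham_eq hg (i := ix x) (γ := fun s => al (ix x) (yx x) (ε * b₁ s))
        (h2.mono fun s hs => by simp only [hs, hρ0, Function.comp])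
        ((hal _ _ (hy1 x) _ (sub _ mt)).2.scomp t (d1.const_mul ε)) fun b => ?_
      rw [fd, h1, map_smul, smul_apply, hVe, smul_eq_mul]
      ring
    · obtain ⟨d, h3, h4⟩ := hρ (ix x) (b₂ t) (al (ix x) (yx x) ε)
      refine A.ham_eq hg (i := ix x) (γ := fun s => ρ (ix x) (b₂ s) (al (ix x) (yx x) ε))
        (h2.mono fun s hs => by simp only [hs, mul_one, Function.comp])
        (h3.scomp t d2) fun b => ?_
      rw [fd, h1, map_smul, smul_apply, h4, smul_eq_mul]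
      ring
  · simp only [o1, o2, mul_one, hρ1] at hx ⊢
    have h0 := hy x
    have h1 := hy1 x
    have h2 := hP x
    generalize yx x = y at hx h0 h1 h2
    generalize ix x = i at hx h2
    have eε : ε ∈ Icc (0 : ℝ) ε := ⟨hε.le, le_rfl⟩
    have h3 : J (al i y ε) = y :=
      hinj i y _ (hx.trans h2.symm) ((hal i y h1 ε (sub ε eε)).1.trans_lt (by norm_num))
    have h4 : V i y = 0 := by
      have := yorke (hL i) (a := al i y) (b := fun t => J (al i y t)) hε hε2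
        (fun t ht => ⟨mem_closedBall_zero_iff.2 (bd i y h1 t ht), (hal i y h1 t (sub t ht)).2⟩)
        (fun t ht => ⟨mem_closedBall_zero_iff.2 ((hJn _).trans_le (bd i y h1 t ht)), by
          rw [inv]
          exact J.hasFDerivAt.comp_hasDerivAt t (hal i y h1 t (sub t ht)).2⟩)
        (by rw [al0 i y h1, ← h3, hJ, h3]) (by rw [al0 i y h1, h3])
      rwa [al0 i y h1] at this
    have nb : ∀ c : ℝ, 0 < c → closedBall (0 : E) (r + c) ∈ 𝓝 y := fun c hc =>
      closedBall_mem_nhds_of_mem (mem_ball_zero_iff.2 (by linarith))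
    have dV := ((hV i).differentiable (by simp) y).hasFDerivAt
    obtain ⟨h5, h6⟩ := flow_fderiv dV h4 (hL i) (mem_of_mem_nhds (nb 2 two_pos)) hε.le
      (α := al i) (mem_of_superset (nb 1 one_pos) fun y' hy' => ⟨al0 i y' hy', fun t ht =>
        ⟨mem_closedBall_zero_iff.2 (bd i y' hy' t ht), (hal i y' hy' t (sub t ht)).2⟩⟩)
    rw [h5] at h3
    refine ⟨i, y, h2, h3, ContinuousLinearMap.ext fun b => by rw [← hVe, h4]; simp, fun hn => ?_⟩
    have h7 : ∀ v, J (fderiv ℝ (V i) y v) = fderiv ℝ (V i) y (J v) := fun v => by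
      have a1 := J.hasFDerivAt.comp y dV
      have a2 := (h3.symm ▸ dV : HasFDerivAt (V i) (fderiv ℝ (V i) y) (J y)).comp y J.hasFDerivAt
      rw [show V i ∘ J = J ∘ V i from funext (inv i)] at a2
      exact congrArg (fun T : E →L[ℝ] E => T v) (a1.unique a2)
    have h8 : 4 * ‖fderiv ℝ (V i) y‖ * ε < 1 :=
      lt_of_le_of_lt (by gcongr; exact dV.le_of_lipschitzOn (nb 2 two_pos) (hL i)) hε2
    rw [← h2]
    refine A.nondegAt (T := fun y' => J (al i y' ε))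
      (mem_of_superset (nb 1 one_pos) fun y' hy' => ?_) (by rw [h5, h3])
      (J.hasFDerivAt.comp y h6) fun v hv => ?_
    · have := curve_unique A hG hV hVe (fun t ht => (hal _ _ (hy1 (A.P i y')) t ht).2)
        (fun t ht => (hal i y' hy' t ht).2) (by rw [al0 _ _ (hy1 _), al0 _ _ hy', hP]) ε (sub ε eε)
      change A.P _ (J _) = A.P i (J _)
      rw [← hρ1, ← hR, this, hR, hρ1]
    · obtain ⟨a1, a2⟩ := exp_eigen hJ h7 hε h8 hv
      exact hn v a2 fun w => by rw [← field_deriv A hG hV hVe h4, a1]; simp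

end Vale.Agent.P265
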