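import Vale.Agent.P265.UpAbs
import Vale.Agent.P265.MForm
import Vale.Agent.P265.Sph
import Vale.Agent.P265.UVd

/-! P265: a Hamiltonian diffeomorphism with eighty fixed points. -/

open Set Topology
open scoped Manifold ContDiff

noncomputable section

namespace Vale.Agent.P265

theorem rot_mem (s : ℝ) (w : WW) : rot s w.1 ∈ WS := by
  obtain ⟨g, z, h⟩ := mem_iUnion.1 w.2
  exact mem_iUnion.2 ⟨g, rotc g s z, by rw [← h, rot_par]⟩

/-- The involution in the charts. -/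
def JM : Mod →L[ℝ] Mod :=
  (ContinuousLinearMap.id ℝ R4).prodMap
    ((ContinuousLinearMap.id ℝ ℂ).prodMap (-ContinuousLinearMap.id ℝ ℂ))

theorem JM_apply (y : Mod) : JM y = (y.1, y.2.1, -y.2.2) := rfl

theorem rot_deriv (α : ℝ) (z : ℂ) (s : ℝ) :
    HasDerivAt (fun s : ℝ => Complex.exp (Complex.I * (Real.pi * s * α : ℝ)) * z)
      (Complex.I * (Real.pi * α : ℝ) * (Complex.exp (Complex.I * (Real.pi * s * α : ℝ)) * z)) s := by
  have h1 : HasDerivAt (fun s : ℝ => Real.pi * s * α) (Real.pi * α) s := by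
    simpa using ((hasDerivAt_id s).const_mul Real.pi).mul_const α
  have h2 := ((h1.ofReal_comp.const_mul Complex.I).cexp).mul_const z
  refine h2.congr_deriv ?_
  ring

theorem upper : letI := AM.cs
    ∃ (H : ℝ → MM 1 → ℝ) (φ : ℝ → MM 1 → MM 1),
      ContMDiff (𝓘(ℝ, ℝ).prod 𝓘(ℝ, Mod)) 𝓘(ℝ, ℝ) ∞ (Function.uncurry H) ∧
      (∀ t x, H (t + 1) x = H t x) ∧ IsHamFlow Mod AM.form H φ ∧
      (∀ x, φ 1 x = x → NondegAt Mod (φ 1) x) ∧ {x | φ 1 x = x}.encard ≤ 80 := by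
  classical
  obtain ⟨u, v, S, hu, hv, gu, gv, hS, hcr⟩ := exists_uv
  choose ra rw hrep using PiM_surj 1
  let G : MM 1 → ℝ := fun x => u (ra x) + ip (v (ra x)) (piW (rw x).1)
  let K : MM 1 → ℝ := fun x => -(Real.pi * hamb 1 1 (rw x).1)
  let R : ℝ → MM 1 → MM 1 := fun s x => PiM 1 (ra x) ⟨rot s (rw x).1, rot_mem s _⟩
  have hG : ∀ g, G ∘ AM.P g = Gc u v g := fun g => by
    funext y
    obtain ⟨e1, e2⟩ := PiM_eq (hrep (PM 1 g y))
    change u (ra (PM 1 g y)) + ip (v (ra (PM 1 g y))) (piW (rw (PM 1 g y)).1) = _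
    rw [e1, e2 _ u gu, e2 _ v gv]
    rfl
  have hK : ∀ g, K ∘ AM.P g =
      fun y : Mod => -hw (Real.pi * alw 1 1 g) (Real.pi * bew 1 1 g) y.2 := fun g => by
    funext y
    obtain ⟨e1, -⟩ := PiM_eq (hrep (PM 1 g y))
    change -(Real.pi * hamb 1 1 (rw (PM 1 g y)).1) = _
    rw [e1]
    change -(Real.pi * hamb 1 1 (par g y.2)) = _
    rw [hamb_par]
    simp only [hw]
    ring
  have hR : ∀ g s y, R s (AM.P g y) = AM.P g (y.1, rotc g s y.2) := fun g s y => by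
    obtain ⟨e1, e2⟩ := PiM_eq (hrep (PM 1 g y))
    have e3 : (⟨rot s (rw (PM 1 g y)).1, rot_mem s _⟩ : WW) = pw g (rotc g s y.2) :=
      Subtype.ext (by rw [e1]; exact rot_par g s y.2)
    change PiM 1 (ra (PM 1 g y)) ⟨rot s (rw (PM 1 g y)).1, _⟩ = PiM 1 y.1 (pw g (rotc g s y.2))
    rw [e3]
    exact e2 _ _ (PiM_ginv _)
  obtain ⟨H, φ, h1, h2, h3, h4⟩ := upper_abs AM (G := G) (K := K)
    (fun g => by rw [hG]; exact Gc_smooth hu hv g)
    (fun g => by rw [hK]; exact ((hw_smooth _ _).comp contDiff_snd).neg) (r := 7) PM_cover JM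
    (fun y => by simp [JM_apply]) (fun y => by simp [JM_apply, Prod.norm_def])
    (fun g y a b => by
      change omM (JM y) (JM a) (JM b) = omM y a b
      rw [omM_apply, omM_apply]
      exact congrArg _ (omW_neg y.2 a.2 b.2))
    (fun g y => by
      change (G ∘ AM.P g) (JM y) = (G ∘ AM.P g) y
      rw [hG]
      exact congrArg (fun p => u y.1 + ip (v y.1) p) (piW_neg g y.2))
    (fun g y y' h hn => by
      have e1 := (pw_emb g).injective (PiM_eq h).1
      have e2 := PiM_near h ((norm_fst_le (y' - y)).trans_lt hn)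
      exact Prod.ext e2 e1)
    R (fun g s y => (y.1, rotc g s y.2)) hR (fun g y => by rw [rotc_zero])
    (fun g y => by rw [rotc_one]; rfl)
    (fun g s y => by
      refine ⟨(0, _, _), (hasDerivAt_const s y.1).prodMk ((rot_deriv (alw 1 1 g) y.2.1 s).prodMk
        (rot_deriv (bew 1 1 g) y.2.2 s)), fun b => ?_⟩
      have hd : HasFDerivAt (fun y : Mod => -hw (Real.pi * alw 1 1 g) (Real.pi * bew 1 1 g) y.2)
          (-(fderiv ℝ (hw (Real.pi * alw 1 1 g) (Real.pi * bew 1 1 g)) (rotc g s y.2)).comp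
            (ContinuousLinearMap.snd ℝ _ _)) (y.1, rotc g s y.2) :=
        ((((hw_smooth _ _).differentiable (by simp)) _).hasFDerivAt.comp (y.1, rotc g s y.2)
          hasFDerivAt_snd).neg
      rw [hK, hd.fderiv]
      change omM _ _ _ = _
      rw [omM_apply]
      simp only [map_zero, zero_apply, zero_add]
      exact omW_ham _ _ (rotc g s y.2) b.2)
  have key : ∀ x, φ 1 x = x → ∃ g a w, PM 1 g (a, w, 0) = x ∧
      fderiv ℝ (Gc u v g) (a, w, 0) = 0 ∧ ((∀ y : Mod, y.2.2 = 0 →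
        (∀ y', fderiv ℝ (fderiv ℝ (Gc u v g)) (a, w, 0) y y' = 0) → y = 0) →
          letI := AM.cs; NondegAt Mod (φ 1) x) := fun x hx => by
    obtain ⟨g, ⟨a, w, w'⟩, e1, e2, e3, e4⟩ := h4 x hx
    have hJ : ∀ y : Mod, JM y = y → y.2.2 = 0 := fun y hy =>
      neg_eq_self.1 (congrArg (fun y : Mod => y.2.2) hy)
    obtain rfl : w' = 0 := hJ _ e2
    rw [hG] at e3 e4
    exact ⟨g, a, w, e1, e3, fun h => e4 fun y hy => h y (hJ y hy)⟩
  refine ⟨H, φ, h1, h2, h3, fun x hx => ?_, ?_⟩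
  · obtain ⟨g, a, w, -, e2, e3⟩ := key x hx
    obtain ⟨c1, c2, c3⟩ := Gc_crit hu hv g e2
    exact e3 (c3 (hcr _ _ c1 c2).2)
  · obtain ⟨r, hr⟩ := sphere_rec
    let Φ : Fin 4 × R4 × R3 → MM 1 := fun q =>
      if h : r q.1 q.2.2 ∈ WS then PiM 1 q.2.1 ⟨_, h⟩ else PM 1 0 0
    have hsub : {x | φ 1 x = x} ⊆ Φ '' ((Finset.univ : Finset (Fin 4)) ×ˢ S : Finset _) := by
      intro x hx
      obtain ⟨g, a, w, e1, e2, -⟩ := key x hx
      obtain ⟨c1, c2, -⟩ := Gc_crit hu hv g e2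
      obtain ⟨⟨a', ha, hm⟩, -⟩ := hcr _ _ c1 c2
      obtain ⟨j, hj⟩ := hr g w
      have hmem : r j (piW (par g (w, 0))) ∈ WS := hj ▸ (pw g (w, 0)).2
      refine ⟨(j, a', piW (par g (w, 0))), by simpa using hm, ?_⟩
      have e3 : (⟨_, hmem⟩ : WW) = pw g (w, 0) := Subtype.ext hj.symm
      simp only [Φ, dif_pos hmem]
      rw [e3, ← e1]
      exact (ha _ _ (PiM_ginv _)).symm
    refine (encard_le_encard hsub).trans ((encard_image_le _ _).trans ?_)
    rw [encard_coe_eq_coe_finsetCard, Finset.card_product, Finset.card_univ, Fintype.card_fin]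
    exact_mod_cast (by omega : 4 * S.card ≤ 80)

end Vale.Agent.P265
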