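import Vale.Agent.P265.EqDefs

/-! P265: the toric surface with octagonal moment polygon, inside a product of four spheres. -/

open Set Complex

noncomputable section

namespace Vale.Agent.P265

/-- Three-space. -/
abbrev R3 : Type := ℂ × ℝ

/-- The Euclidean inner product. -/
def ip (p q : R3) : ℝ := p.1.re * q.1.re + p.1.im * q.1.im + p.2 * q.2

/-- Height on the sphere. -/
def hgt (w : ℂ) : ℝ := (normSq w - 1) / (normSq w + 1)

/-- Inverse stereographic projection. -/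
def st (w : ℂ) : R3 := ((2 / (normSq w + 1) : ℝ) • w, hgt w)

/-- Stereographic projection. -/
def sti (p : R3) : ℂ := (1 - p.2)⁻¹ • p.1

/-- The map `w ↦ 1 / w` on the sphere if the flag is set. -/
def flp (b : Bool) (p : R3) : R3 := if b then ((starRingEnd ℂ) p.1, -p.2) else p

/-- The four monomials of a chart. -/
def mon (z : ℂ × ℂ) : Fin 4 → ℂ := ![z.1 * z.2, z.2, z.1 * z.2 ^ 2, z.1]

/-- Which monomial gives coordinate `i` in chart `g`. -/
def prm : Fin 8 → Fin 4 → Fin 4 :=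
  ![![0, 1, 2, 3], ![1, 0, 3, 2], ![0, 1, 2, 3], ![1, 0, 3, 2],
    ![1, 0, 2, 3], ![0, 1, 3, 2], ![1, 0, 2, 3], ![0, 1, 3, 2]]

/-- Which coordinates are inverted in chart `g`. -/
def fl : Fin 8 → Fin 4 → Bool :=
  ![![false, false, false, false], ![false, true, true, false], ![true, true, true, true],
    ![true, false, false, true], ![false, false, false, true], ![false, true, false, false],
    ![true, true, true, false], ![true, false, true, true]]

/-- The parametrizations. -/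
def par (g : Fin 8) (z : ℂ × ℂ) (i : Fin 4) : R3 := flp (fl g i) (st (mon z (prm g i)))

/-- The left inverses (each `prm g` is an involution). -/
def cinv (g : Fin 8) (p : Fin 4 → R3) : ℂ × ℂ :=
  (sti (flp (fl g (prm g 3)) (p (prm g 3))), sti (flp (fl g (prm g 1)) (p (prm g 1))))

/-- The domain of the left inverse. -/
def cdom (g : Fin 8) : Set (Fin 4 → R3) :=
  {p | (flp (fl g (prm g 3)) (p (prm g 3))).2 < 1 ∧ (flp (fl g (prm g 1)) (p (prm g 1))).2 < 1}

/-- The surface. -/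
def WS : Set (Fin 4 → R3) := ⋃ g, range (par g)

abbrev WW : Type := WS

def pw (g : Fin 8) (z : ℂ × ℂ) : WW := ⟨par g z, mem_iUnion.2 ⟨g, z, rfl⟩⟩

/-- Derivatives of the monomials. -/
def dmon (z : ℂ × ℂ) : Fin 4 → (ℂ × ℂ →L[ℝ] ℂ) := fun m => fderiv ℝ (fun y => mon y m) z

/-- The area form of the plane. -/
def areaC : ℂ →L[ℝ] ℂ →L[ℝ] ℝ :=
  (ContinuousLinearMap.mul ℝ ℝ).bilinearComp reCLM imCLM -
    (ContinuousLinearMap.mul ℝ ℝ).bilinearComp imCLM reCLM

/-- The symplectic form in every chart. -/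
def omW (z : ℂ × ℂ) : ℂ × ℂ →L[ℝ] ℂ × ℂ →L[ℝ] ℝ :=
  ∑ m, (4 / (normSq (mon z m) + 1) ^ 2 : ℝ) • areaC.bilinearComp (dmon z m) (dmon z m)

/-- Torus Hamiltonians in a chart. -/
def hw (α β : ℝ) (z : ℂ × ℂ) : ℝ :=
  (α + β) * hgt (z.1 * z.2) + β * hgt z.2 + (α + 2 * β) * hgt (z.1 * z.2 ^ 2) + α * hgt z.1

/-- Torus Hamiltonians. -/
def hamb (a b : ℝ) (p : Fin 4 → R3) : ℝ :=
  a * (p 0).2 + b * (p 1).2 + (a + b) * (p 2).2 + (a - b) * (p 3).2

def alw (a b : ℝ) : Fin 8 → ℝ :=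
  ![a - b, -(a + b), -(a - b), a + b, -(a - b), a + b, a - b, -(a + b)]

def bew (a b : ℝ) : Fin 8 → ℝ := ![b, a, -b, -a, a, -b, -a, b]

/-- The circle action through the involution. -/
def rot (s : ℝ) (p : Fin 4 → R3) (i : Fin 4) : R3 :=
  (exp (I * (Real.pi * s * (![1, 1, 2, 0] : Fin 4 → ℝ) i : ℝ)) * (p i).1, (p i).2)

/-- The circle action in a chart. -/
def rotc (g : Fin 8) (s : ℝ) (z : ℂ × ℂ) : ℂ × ℂ :=
  (exp (I * (Real.pi * s * alw 1 1 g : ℝ)) * z.1, exp (I * (Real.pi * s * bew 1 1 g : ℝ)) * z.2)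

/-- The invariant map to three-space. -/
def piW (p : Fin 4 → R3) : R3 := ((p 2).1 + (p 3).1, (p 2).2 * (p 3).2)

end Vale.Agent.P265
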