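import Vale.Agent.P265.WDef

/-! P265: charts of the surface. -/

open Set Complex Topology
open scoped ContDiff

noncomputable section

namespace Vale.Agent.P265

namespace WTopAux

theorem nsq_pos (w : ℂ) : 0 < normSq w + 1 := by linarith [normSq_nonneg w]

theorem nsq_smooth : ContDiff ℝ ∞ fun w : ℂ => normSq w := by
  have : (fun w : ℂ => normSq w) = fun w => reCLM w * reCLM w + imCLM w * imCLM w :=
    funext fun w => normSq_apply w
  rw [this]
  exact (reCLM.contDiff.mul reCLM.contDiff).add (imCLM.contDiff.mul imCLM.contDiff)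

theorem flp_smooth (b : Bool) : ContDiff ℝ ∞ (flp b) := by
  cases b
  · exact contDiff_id
  · exact (conjCLE.contDiff.comp contDiff_fst).prodMk contDiff_snd.neg

theorem mon_smooth (m : Fin 4) : ContDiff ℝ ∞ fun z => mon z m := by
  fin_cases m
  · exact contDiff_fst.mul contDiff_snd
  · exact contDiff_snd
  · exact contDiff_fst.mul (contDiff_snd.pow 2)
  · exact contDiff_fst

theorem flp_false (p : R3) : flp false p = p := rfl

theorem flp_flp (b b' : Bool) (p : R3) : flp b (flp b' p) = flp (xor b b') p := by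
  cases b <;> cases b' <;> simp [flp]

theorem flp_self (b : Bool) (p : R3) : flp b (flp b p) = p := by
  rw [flp_flp, Bool.xor_self, flp_false]

theorem hgt_lt (w : ℂ) : hgt w < 1 := by
  unfold hgt
  rw [div_lt_one (nsq_pos w)]
  linarith

theorem sti_st (w : ℂ) : sti (st w) = w := by
  have h := (nsq_pos w).ne'
  have e : (1 - hgt w)⁻¹ * (2 / (normSq w + 1)) = 1 := by
    unfold hgt
    rw [show 1 - (normSq w - 1) / (normSq w + 1) = 2 / (normSq w + 1) by field_simp; ring]
    field_simp
  unfold sti st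
  rw [smul_smul, e, one_smul]

theorem st_zero : st 0 = (0, -1) := by simp [st, hgt]

theorem ne_of_lt {w : ℂ} (h : (flp true (st w)).2 < 1) : w ≠ 0 := by
  rintro rfl
  simp [st_zero, flp] at h

theorem flp_st {w : ℂ} (h : w ≠ 0) : flp true (st w) = st w⁻¹ := by
  have h1 := (nsq_pos w).ne'
  have h2 : normSq w ≠ 0 := by simpa using h
  have h3 : 1 + normSq w ≠ 0 := by rwa [add_comm]
  refine Prod.ext ?_ ?_
  · show (starRingEnd ℂ) ((2 / (normSq w + 1) : ℝ) • w) = (2 / (normSq w⁻¹ + 1) : ℝ) • w⁻¹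
    have e : 2 / ((normSq w)⁻¹ + 1) * (normSq w)⁻¹ = 2 / (normSq w + 1) := by
      field_simp
      ring
    rw [normSq_inv, Complex.inv_def, mul_comm, ← real_smul, smul_smul, e, real_smul, real_smul,
      map_mul, conj_ofReal]
  · show -hgt w = hgt w⁻¹
    unfold hgt
    rw [normSq_inv]
    field_simp
    ring

theorem prm_prm : ∀ g i, prm g (prm g i) = i := by decide

theorem grp : ∀ g g' : Fin 8, ∃ k : Fin 8, ∀ i, prm k i = prm g' (prm g i) ∧
    fl k i = xor (fl g (prm g i)) (fl g' (prm g i)) := by decide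

theorem flp_par (g : Fin 8) (z : ℂ × ℂ) (i : Fin 4) :
    flp (fl g (prm g i)) (par g z (prm g i)) = st (mon z i) := by
  unfold par
  rw [flp_self, prm_prm]

theorem mk4 {p : Fin 4 → R3} {u v : ℂ} (h0 : p 0 = st (u * v)) (h1 : p 1 = st v)
    (h2 : p 2 = st (u * v ^ 2)) (h3 : p 3 = st u) : ∃ z, ∀ i, p i = st (mon z i) := by
  refine ⟨(u, v), fun i => ?_⟩
  fin_cases i
  exacts [h0, h1, h2, h3]

/-- The transition to the first chart. -/
theorem base (g : Fin 8) (z : ℂ × ℂ) (h3 : (par g z 3).2 < 1) (h1 : (par g z 1).2 < 1) :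
    ∃ z', ∀ i, par g z i = st (mon z' i) := by
  obtain ⟨a, b⟩ := z
  fin_cases g
  · exact ⟨(a, b), fun i => by fin_cases i <;> rfl⟩
  · obtain ⟨ha, hb⟩ := mul_ne_zero_iff.1 (ne_of_lt (w := a * b) h1)
    exact mk4 (u := a * b ^ 2) (v := (a * b)⁻¹) (congrArg st (show b = _ by field_simp))
      (flp_st (mul_ne_zero ha hb)) ((flp_st ha).trans (congrArg st (by field_simp))) rfl
  · have ha := ne_of_lt (w := a) h3
    have hb := ne_of_lt (w := b) h1
    exact mk4 (u := a⁻¹) (v := b⁻¹)
      ((flp_st (mul_ne_zero ha hb)).trans (congrArg st (by field_simp))) (flp_st hb)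
      ((flp_st (mul_ne_zero ha (pow_ne_zero 2 hb))).trans (congrArg st (by field_simp)))
      (flp_st ha)
  · obtain ⟨ha, hb⟩ := mul_ne_zero_iff.1 (ne_of_lt (w := a * b ^ 2) h3)
    have hb' : b ≠ 0 := by simpa using hb
    exact mk4 (u := (a * b ^ 2)⁻¹) (v := a * b) ((flp_st hb').trans (congrArg st (by field_simp)))
      rfl (congrArg st (show a = _ by field_simp)) (flp_st (mul_ne_zero ha hb))
  · have ha := ne_of_lt (w := a) h3
    exact mk4 (u := a⁻¹) (v := a * b) (congrArg st (show b = _ by field_simp)) rfl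
      (congrArg st (show a * b ^ 2 = _ by field_simp)) (flp_st ha)
  · have hb := ne_of_lt (w := b) h1
    exact mk4 (u := a * b ^ 2) (v := b⁻¹) (congrArg st (show a * b = _ by field_simp)) (flp_st hb)
      (congrArg st (show a = _ by field_simp)) rfl
  · obtain ⟨ha, hb⟩ := mul_ne_zero_iff.1 (ne_of_lt (w := a * b) h1)
    exact mk4 (u := a) (v := (a * b)⁻¹) ((flp_st hb).trans (congrArg st (by field_simp)))
      (flp_st (mul_ne_zero ha hb))
      ((flp_st (mul_ne_zero ha (pow_ne_zero 2 hb))).trans (congrArg st (by field_simp))) rfl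
  · obtain ⟨ha, hb⟩ := mul_ne_zero_iff.1 (ne_of_lt (w := a * b ^ 2) h3)
    have hb' : b ≠ 0 := by simpa using hb
    exact mk4 (u := (a * b ^ 2)⁻¹) (v := b)
      ((flp_st (mul_ne_zero ha hb')).trans (congrArg st (by field_simp))) rfl
      ((flp_st ha).trans (congrArg st (by field_simp))) (flp_st (mul_ne_zero ha hb))

theorem sti_smooth {p : R3} (h : p.2 < 1) : ContDiffAt ℝ ∞ sti p :=
  ((contDiffAt_const.sub contDiffAt_snd).inv (sub_pos.2 h).ne').smul contDiffAt_fst

theorem coord_smooth (b : Bool) (i : Fin 4) :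
    ContDiff ℝ ∞ fun p : Fin 4 → R3 => flp b (p i) :=
  (flp_smooth b).comp (contDiff_apply ℝ R3 i)

end WTopAux

open WTopAux

theorem st_smooth : ContDiff ℝ ∞ st := by
  exact ((contDiff_const.div (nsq_smooth.add contDiff_const) fun w => (nsq_pos w).ne').smul
    contDiff_id).prodMk ((nsq_smooth.sub contDiff_const).div (nsq_smooth.add contDiff_const)
      fun w => (nsq_pos w).ne')

theorem hgt_smooth : ContDiff ℝ ∞ hgt := by
  exact contDiff_snd.comp st_smooth

theorem par_smooth (g : Fin 8) : ContDiff ℝ ∞ (par g) := by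
  exact contDiff_pi.2 fun i => (flp_smooth _).comp (st_smooth.comp (mon_smooth _))

theorem cinv_par (g : Fin 8) (z : ℂ × ℂ) : cinv g (par g z) = z := by
  unfold cinv
  rw [flp_par, flp_par, sti_st, sti_st]
  rfl

theorem par_mem_cdom (g : Fin 8) (z : ℂ × ℂ) : par g z ∈ cdom g := by
  constructor
  · rw [flp_par]
    exact hgt_lt _
  · rw [flp_par]
    exact hgt_lt _

theorem isOpen_cdom (g : Fin 8) : IsOpen (cdom g) := by
  exact (isOpen_lt (coord_smooth _ _).continuous.snd continuous_const).inter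
    (isOpen_lt (coord_smooth _ _).continuous.snd continuous_const)

theorem cinv_smooth (g : Fin 8) {p : Fin 4 → R3} (hp : p ∈ cdom g) : ContDiffAt ℝ ∞ (cinv g) p := by
  exact ((sti_smooth hp.1).comp p (coord_smooth _ _).contDiffAt).prodMk
    ((sti_smooth hp.2).comp p (coord_smooth _ _).contDiffAt)

theorem par_cinv (g : Fin 8) {p : Fin 4 → R3} (hp : p ∈ WS) (hp' : p ∈ cdom g) :
    par g (cinv g p) = p := by
  obtain ⟨g', z, rfl⟩ := mem_iUnion.1 hp
  obtain ⟨k, hk⟩ := grp g g'
  have e : ∀ i, flp (fl g (prm g i)) (par g' z (prm g i)) = par k z i := fun i => by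
    unfold par
    rw [flp_flp, (hk i).1, (hk i).2]
  obtain ⟨z', hz'⟩ := base k z (e 3 ▸ hp'.1) (e 1 ▸ hp'.2)
  have e' : par g' z = par g z' := funext fun i => by
    have h1 := (e (prm g i)).trans (hz' (prm g i))
    rw [prm_prm] at h1
    show par g' z i = flp (fl g i) (st (mon z' (prm g i)))
    rw [← h1, flp_self]
  rw [e', cinv_par]

theorem pw_emb (g : Fin 8) : IsOpenEmbedding (pw g) := by
  have hc : Continuous (pw g) := (par_smooth g).continuous.subtype_mk _
  have hr : range (pw g) = Subtype.val ⁻¹' cdom g := by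
    ext w
    constructor
    · rintro ⟨z, rfl⟩
      exact par_mem_cdom g z
    · exact fun h => ⟨_, Subtype.ext (par_cinv g w.2 h)⟩
  refine ⟨⟨isInducing_iff_nhds.2 fun z => le_antisymm hc.continuousAt.tendsto.le_comap ?_,
    fun z z' h => ?_⟩, hr ▸ (isOpen_cdom g).preimage continuous_subtype_val⟩
  · have h1 : ContinuousAt (fun w : WW => cinv g w.1) (pw g z) :=
      ContinuousAt.comp (g := cinv g) (f := fun w : WW => w.1)
        (cinv_smooth g (par_mem_cdom g z)).continuousAt continuous_subtype_val.continuousAt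
    have h2 := h1.tendsto.comp (Filter.tendsto_comap (f := pw g) (x := 𝓝 (pw g z)))
    have h3 : (fun w : WW => cinv g w.1) ∘ pw g = id := funext fun y => cinv_par g y
    rw [h3, show cinv g (pw g z).1 = z from cinv_par g z] at h2
    exact Filter.tendsto_id'.1 h2
  · rw [← cinv_par g z, ← cinv_par g z']
    exact congrArg (fun w : WW => cinv g w.1) h

theorem pw_trans {g g' : Fin 8} {z z' : ℂ × ℂ} (h : pw g z = pw g' z') :
    ContDiffAt ℝ ∞ (cinv g' ∘ par g) z ∧ cinv g' (par g z) = z' ∧
      pw g =ᶠ[𝓝 z] pw g' ∘ cinv g' ∘ par g := by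
  have h1 : par g z = par g' z' := congrArg Subtype.val h
  have h2 : par g z ∈ cdom g' := h1 ▸ par_mem_cdom g' z'
  refine ⟨(cinv_smooth g' h2).comp z (par_smooth g).contDiffAt, by rw [h1, cinv_par], ?_⟩
  filter_upwards [(par_smooth g).continuous.continuousAt.preimage_mem_nhds
    ((isOpen_cdom g').mem_nhds h2)] with y hy
  exact Subtype.ext (par_cinv g' (pw g y).2 hy).symm

end Vale.Agent.P265
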